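import Vale.Agent.P162.Chain

/-! P162G module M17: the closed chain with 16 factors (as `Chain.lean` with 8). -/

namespace Vale.Agent.P162

section walks16

variable {X : Type} [Fintype X] [DecidableEq X]

/-- AM-GM for sixteen nonnegative numbers -/
theorem chain16_amgm (a : Fin 16 → ℝ) (ha : ∀ i, 0 ≤ a i) :
    ∏ i, a i ≤ (1 / 16) * ∑ i, ∏ l ∈ Finset.univ.erase i, a l ^ (16 / 15 : ℝ) := by
  have h := Real.geom_mean_le_arith_mean_weighted (Finset.univ : Finset (Fin 16))
    (fun _ => (1 / 16 : ℝ)) (fun i => ∏ l ∈ Finset.univ.erase i, a l ^ (16 / 15 : ℝ))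
    (fun _ _ => by norm_num) (by simp)
    (fun i _ => Finset.prod_nonneg (fun l _ => Real.rpow_nonneg (ha l) _))
  rw [Finset.mul_sum]
  refine le_trans (le_of_eq ?_) h
  have h1 : ∀ i : Fin 16, (∏ l ∈ Finset.univ.erase i, a l ^ (16 / 15 : ℝ)) ^ (1 / 16 : ℝ) =
      ∏ l ∈ Finset.univ.erase i, a l ^ (1 / 15 : ℝ) := by
    intro i
    rw [← Real.finsetProd_rpow _ _ (fun l _ => Real.rpow_nonneg (ha l) _)]
    refine Finset.prod_congr rfl (fun l _ => ?_)
    rw [← Real.rpow_mul (ha l)]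
    norm_num
  simp only [h1]
  have h2 : ∏ i : Fin 16, ∏ l ∈ Finset.univ.erase i, a l ^ (1 / 15 : ℝ) =
      ∏ l : Fin 16, ∏ i ∈ Finset.univ.erase l, a l ^ (1 / 15 : ℝ) := by
    apply Finset.prod_comm'
    intro x y
    simp only [Finset.mem_univ, Finset.mem_erase, ne_eq, and_true, true_and]
    exact ⟨fun h h' => h h'.symm, fun h h' => h h'.symm⟩
  rw [h2]
  refine Finset.prod_congr rfl (fun l _ => ?_)
  rw [Finset.prod_const, Finset.card_erase_of_mem (Finset.mem_univ l), Finset.card_univ,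
    Fintype.card_fin, ← Real.rpow_natCast, ← Real.rpow_mul (ha l)]
  norm_num

theorem chain16_cyc (A : Matrix X X ℝ) :
    Matrix.trace (A ^ 16) = ∑ x : Fin 16 → X, ∏ i : Fin 16, A (x i) (x (i + 1)) := by
  have h := chain_walk A 15 (fun a b => A b a)
  have h1 : ∀ x : Fin 16 → X, ∏ i : Fin 16, A (x i) (x (i + 1)) =
      (∏ i : Fin 15, A (x i.castSucc) (x i.succ)) * A (x (Fin.last 15)) (x 0) := by
    intro x
    rw [Fin.prod_univ_castSucc]
    congr 1
  simp only [h1]
  rw [h]
  unfold Matrix.trace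
  refine Finset.sum_congr rfl (fun a _ => ?_)
  rw [Matrix.diag_apply, pow_succ, Matrix.mul_apply]

theorem chain16_fin1 (i l : Fin 16) : l = i ↔ l - (i + 1) = Fin.last 15 := by
  revert i l
  decide

theorem chain16_fin2 (i l : Fin 16) : l + 1 - (i + 1) = l - (i + 1) + 1 := by
  revert i l
  decide

theorem chain16_fin3 : (Finset.univ : Finset (Fin 16)).erase (Fin.last 15) =
    Finset.univ.map Fin.castSuccEmb := by
  decide

theorem chain16_shift (B : Matrix X X ℝ) (i : Fin 16) :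
    ∑ x : Fin 16 → X, ∏ l ∈ Finset.univ.erase i, B (x l) (x (l + 1)) =
      ∑ a, ∑ b, (B ^ 15) a b := by
  have h := chain_walk B 15 (fun _ _ => 1)
  simp only [mul_one] at h
  rw [← h]
  rw [← (Equiv.arrowCongr (Equiv.addRight (i + 1)) (Equiv.refl X)).sum_comp]
  refine Finset.sum_congr rfl (fun x _ => ?_)
  have e1 : ∀ l : Fin 16, (Equiv.arrowCongr (Equiv.addRight (i + 1)) (Equiv.refl X)) x l =
      x (l - (i + 1)) := by
    intro l
    rw [sub_eq_add_neg]
    rfl
  simp only [e1]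
  have e2 : ∏ l ∈ Finset.univ.erase i, B (x (l - (i + 1))) (x (l + 1 - (i + 1))) =
      ∏ l ∈ Finset.univ.erase (Fin.last 15), B (x l) (x (l + 1)) := by
    refine Finset.prod_equiv (Equiv.subRight (i + 1)) ?_ ?_
    · intro l
      simp only [Finset.mem_erase, Finset.mem_univ, and_true, Equiv.subRight_apply]
      rw [not_iff_not]
      exact chain16_fin1 i l
    · intro l _
      rw [Equiv.subRight_apply, chain16_fin2]
  rw [e2]
  rw [chain16_fin3, Finset.prod_map]
  refine Finset.prod_congr rfl (fun l _ => ?_)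
  rw [Fin.castSuccEmb_apply, Fin.coeSucc_eq_succ]

end walks16

theorem trace_pow16_le {X : Type} [Fintype X] [DecidableEq X] (A : Matrix X X ℝ) (hA : ∀ i j, 0 ≤ A i j)
    (Λ : ℝ) (h : ∀ i, ∑ j, A i j ^ (16 / 15 : ℝ) ≤ Λ) :
    Matrix.trace (A ^ 16) ≤ (Fintype.card X : ℝ) * Λ ^ 15 := by
  set B : Matrix X X ℝ := Matrix.of (fun i j => A i j ^ (16 / 15 : ℝ)) with hB
  have hB0 : ∀ i j, 0 ≤ B i j := fun i j => Real.rpow_nonneg (hA i j) _
  have hBr : ∀ i, ∑ j, B i j ≤ Λ := h
  rw [chain16_cyc]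
  calc ∑ x : Fin 16 → X, ∏ i : Fin 16, A (x i) (x (i + 1))
      ≤ ∑ x : Fin 16 → X, (1 / 16) * ∑ i, ∏ l ∈ Finset.univ.erase i, B (x l) (x (l + 1)) :=
        Finset.sum_le_sum (fun x _ => chain16_amgm (fun i => A (x i) (x (i + 1)))
          (fun i => hA _ _))
    _ = (1 / 16) * ∑ i : Fin 16, ∑ x : Fin 16 → X,
          ∏ l ∈ Finset.univ.erase i, B (x l) (x (l + 1)) := by
        rw [← Finset.mul_sum, Finset.sum_comm]
    _ = ∑ a, ∑ b, (B ^ 15) a b := by
        simp only [chain16_shift]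
        rw [Finset.sum_const, Finset.card_univ, Fintype.card_fin, nsmul_eq_mul]
        push_cast
        ring
    _ ≤ ∑ _a : X, Λ ^ 15 := Finset.sum_le_sum (fun a _ => (chain_row B hB0 Λ hBr 15 a).2)
    _ = (Fintype.card X : ℝ) * Λ ^ 15 := by
        rw [Finset.sum_const, Finset.card_univ, nsmul_eq_mul]

theorem hs_pow16 {X : Type} [Fintype X] [DecidableEq X] (T : Matrix X X ℝ) :
    Matrix.trace ((T ^ 16).transpose * T ^ 16) ≤ Matrix.trace ((T.transpose * T) ^ 16) := by
  have h := chain_holder 4 (fun i => if i < 16 then T.transpose else T)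
  have h1 : chainPT (4 + 1) (fun i => if i < 16 then T.transpose else T) =
      (T ^ 16).transpose * T ^ 16 := by
    have e : ∀ M : Matrix X X ℝ, M * M * (M * M) * (M * M * (M * M)) *
        (M * M * (M * M) * (M * M * (M * M))) = M ^ 16 := by
      intro M
      simp only [pow_succ, pow_zero, one_mul, mul_assoc]
    simp only [chainPT]
    norm_num
    rw [e, e]
  have h2 : ∏ i ∈ Finset.range (2 ^ (4 + 1)),
      chainN 4 (if i < 16 then T.transpose else T) = Matrix.trace ((T.transpose * T) ^ 16) ^ 32 := by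
    have e1 : ∀ i ∈ Finset.range (2 ^ (4 + 1)), chainN 4 (if i < 16 then T.transpose else T) =
        Matrix.trace ((T.transpose * T) ^ 16) := by
      intro i _
      by_cases hi : i < 16
      · rw [if_pos hi]
        unfold chainN
        rw [Matrix.transpose_transpose, chain_trace_comm]
        rfl
      · rw [if_neg hi]
        rfl
    rw [Finset.prod_congr rfl e1, Finset.prod_const, Finset.card_range]
    rfl
  rw [h1, h2] at h
  have h3 : (0 : ℝ) ≤ Matrix.trace ((T.transpose * T) ^ 16) := chainN_nonneg 4 T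
  have h4 := (pow_le_pow_iff_left₀ (abs_nonneg _) h3 (by norm_num : (2 ^ (4 + 1) : ℕ) ≠ 0)).1 h
  exact (le_abs_self _).trans h4

end Vale.Agent.P162
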