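import Vale.Agent.P162.H9
import Vale.Agent.P162G.Chain16

/-! P162G F2, abstract part 1: from a trace bound for 16-th powers to bounds on exact levels. -/

open Equiv

set_option linter.unusedSectionVars false

namespace Vale.Agent.P162

section abs

/-- `μ^* μ` -/
noncomputable def abNu {n : ℕ} (μ : Perm (Fin n) → ℝ) : Perm (Fin n) → ℝ := conv (fun g => μ g⁻¹) μ

/-- `(μ^* μ)^8` -/
noncomputable def abKa {n : ℕ} (μ : Perm (Fin n) → ℝ) : Perm (Fin n) → ℝ :=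
  conv (conv (conv (abNu μ) (abNu μ)) (conv (abNu μ) (abNu μ)))
    (conv (conv (abNu μ) (abNu μ)) (conv (abNu μ) (abNu μ)))

/-- the trace hypothesis -/
def AbTr (n : ℕ) (μ : Perm (Fin n) → ℝ) (A : ℕ) (B : ℝ) : Prop :=
  ∀ (ι : Type) [Fintype ι] [DecidableEq ι] (l0 : ℕ), 1 ≤ l0 → 2 ^ (A * l0) ≤ n →
    Matrix.trace (((PM ι μ).transpose * PM ι μ) ^ 16) ≤
      (n.descFactorial (Fintype.card ι) : ℝ) / (n : ℝ) ^ (Fintype.card ι) *
        Real.exp (15 * Fintype.card ι * ((2 : ℝ) ^ (A * l0) * Fintype.card ι / (n : ℝ) + B * (27 / 50) ^ l0))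

theorem ab_PM_nu (ι : Type) [Fintype ι] [DecidableEq ι] {n : ℕ} (μ : Perm (Fin n) → ℝ) :
    PM ι (abNu μ) = (PM ι μ).transpose * PM ι μ := by
  unfold abNu
  rw [PM_conv, PM_inv]

theorem ab_PM_ka (ι : Type) [Fintype ι] [DecidableEq ι] {n : ℕ} (μ : Perm (Fin n) → ℝ) :
    (PM ι (abKa μ)).transpose * PM ι (abKa μ) = ((PM ι μ).transpose * PM ι μ) ^ 16 := by
  unfold abKa
  rw [PM_conv, PM_conv, PM_conv, ab_PM_nu]
  set G := (PM ι μ).transpose * PM ι μ with hG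
  have hGt : G.transpose = G := by
    rw [hG, Matrix.transpose_mul, Matrix.transpose_transpose]
  rw [Matrix.transpose_mul, Matrix.transpose_mul, Matrix.transpose_mul, hGt]
  have : G ^ 16 = G * G * (G * G) * (G * G * (G * G)) * (G * G * (G * G) * (G * G * (G * G))) := by
    simp only [pow_succ, pow_zero, one_mul, mul_assoc]
  rw [this]

/-- the form bound on zero-sum functions of `j` cards -/
theorem ab_theta_form {n : ℕ} (hn : 0 < n) (μ : Perm (Fin n) → ℝ) (A : ℕ) (B : ℝ) (htr : AbTr n μ A B)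
    (j q l0 : ℕ) (hq : 1 ≤ q) (hl0 : 1 ≤ l0) (hA : 2 ^ (A * l0) ≤ n) (hjq : j * q ≤ n)
    (f : (Fin j ↪ Fin n) → ℝ) (hf : ZeroSum f) :
    ∑ x, (Matrix.mulVec (PM (Fin j) (abKa μ)) f x) ^ 2 ≤
      (1 / (q : ℝ) ^ j * Real.exp (15 * ((j * q : ℕ) : ℝ) * ((2 : ℝ) ^ (A * l0) * ((j * q : ℕ) : ℝ) / (n : ℝ) + B * (27 / 50) ^ l0))) *
        ∑ x, f x ^ 2 := by
  have hcJ : Fintype.card (Fin j × Fin q) = j * q := by
    rw [Fintype.card_prod, Fintype.card_fin, Fintype.card_fin]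
  have h1 := level_form_le hq (by rw [Fintype.card_fin]; exact hjq) (abKa μ) f hf
  have h2 := htr (Fin j × Fin q) l0 hl0 hA
  rw [← ab_PM_ka, hcJ] at h2
  rw [Fintype.card_fin] at h1
  exact theta_arith n j q hq hn hjq _ _ _ _
    (Finset.sum_nonneg fun x _ => sq_nonneg _) (Real.exp_pos _) h1 h2

end abs

section rep

variable {E : Type} [NormedAddCommGroup E] [InnerProductSpace ℝ E] [FiniteDimensional ℝ E]

theorem ab_inner_nu {n : ℕ} (μ : Perm (Fin n) → ℝ) (ρ : Perm (Fin n) →* (E ≃ₗᵢ[ℝ] E)) (u v : E) :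
    inner ℝ (opOf ρ (abNu μ) u) v = inner ℝ (opOf ρ μ u) (opOf ρ μ v) := by
  unfold abNu
  rw [opOf_conv, real_inner_comm, ← inner_opOf_inv, real_inner_comm]

theorem ab_nu_symm {n : ℕ} (μ : Perm (Fin n) → ℝ) (ρ : Perm (Fin n) →* (E ≃ₗᵢ[ℝ] E)) (u v : E) :
    inner ℝ (opOf ρ (abNu μ) u) v = inner ℝ u (opOf ρ (abNu μ) v) := by
  rw [ab_inner_nu, real_inner_comm, ← ab_inner_nu, real_inner_comm]

/-- iterated Cauchy-Schwarz -/
theorem ab_norm_pow {n : ℕ} (μ : Perm (Fin n) → ℝ) (ρ : Perm (Fin n) →* (E ≃ₗᵢ[ℝ] E)) (u : E) :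
    (‖opOf ρ μ u‖ ^ 2) ^ 16 ≤ ‖opOf ρ (abKa μ) u‖ ^ 2 * (‖u‖ ^ 2) ^ 15 := by
  set P := opOf ρ (abNu μ) with hP
  have h1 : ‖opOf ρ μ u‖ ^ 2 = inner ℝ (P u) u := by
    rw [hP, ab_inner_nu, real_inner_self_eq_norm_sq]
  have h2 : inner ℝ (P u) u ≤ ‖P u‖ * ‖u‖ := real_inner_le_norm _ _
  have h3 : ‖P u‖ ^ 2 ≤ ‖P (P u)‖ * ‖u‖ := by
    rw [← real_inner_self_eq_norm_sq, ← ab_nu_symm]
    exact real_inner_le_norm _ _
  have h4 : ‖P (P u)‖ ^ 2 ≤ ‖P (P (P (P u)))‖ * ‖u‖ := by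
    have e : inner ℝ (P (P u)) (P (P u)) = inner ℝ (P (P (P (P u)))) u := by
      rw [hP, ab_nu_symm, ab_nu_symm, real_inner_comm]
    rw [← real_inner_self_eq_norm_sq, e]
    exact real_inner_le_norm _ _
  have h4' : ‖P (P (P (P u)))‖ ^ 2 ≤ ‖P (P (P (P (P (P (P (P u)))))))‖ * ‖u‖ := by
    have e : inner ℝ (P (P (P (P u)))) (P (P (P (P u)))) = inner ℝ (P (P (P (P (P (P (P (P u)))))))) u := by
      rw [hP, ab_nu_symm, ab_nu_symm, ab_nu_symm, ab_nu_symm, real_inner_comm]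
    rw [← real_inner_self_eq_norm_sq, e]
    exact real_inner_le_norm _ _
  have h5 : opOf ρ (abKa μ) u = P (P (P (P (P (P (P (P u))))))) := by
    unfold abKa
    simp only [opOf_conv]
    rfl
  rw [h5]
  set a := ‖opOf ρ μ u‖ ^ 2 with ha
  set b := ‖P u‖ with hb
  set c := ‖P (P u)‖ with hc
  set d := ‖P (P (P (P u)))‖ with hd
  set e := ‖P (P (P (P (P (P (P (P u)))))))‖ with he
  set x := ‖u‖ with hx
  have ha0 : 0 ≤ a := sq_nonneg _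
  have hb0 : 0 ≤ b := norm_nonneg _
  have hc0 : 0 ≤ c := norm_nonneg _
  have hd0 : 0 ≤ d := norm_nonneg _
  have he0 : 0 ≤ e := norm_nonneg _
  have hx0 : 0 ≤ x := norm_nonneg _
  have h6 : a ≤ b * x := by rw [h1]; exact h2
  calc a ^ 16 ≤ (b * x) ^ 16 := pow_le_pow_left₀ ha0 h6 16
    _ = (b ^ 2) ^ 8 * x ^ 16 := by ring
    _ ≤ (c * x) ^ 8 * x ^ 16 := by
        apply mul_le_mul_of_nonneg_right _ (by positivity)
        exact pow_le_pow_left₀ (by positivity) h3 8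
    _ = (c ^ 2) ^ 4 * x ^ 24 := by ring
    _ ≤ (d * x) ^ 4 * x ^ 24 := by
        apply mul_le_mul_of_nonneg_right _ (by positivity)
        exact pow_le_pow_left₀ (by positivity) h4 4
    _ = (d ^ 2) ^ 2 * x ^ 28 := by ring
    _ ≤ (e * x) ^ 2 * x ^ 28 := by
        apply mul_le_mul_of_nonneg_right _ (by positivity)
        exact pow_le_pow_left₀ (by positivity) h4' 2
    _ = e ^ 2 * (x ^ 2) ^ 15 := by ring

/-- one round on exact level `j` -/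
theorem ab_round_low {n : ℕ} (hn : 0 < n) (μ : Perm (Fin n) → ℝ) (A : ℕ) (B : ℝ) (htr : AbTr n μ A B)
    (j q l0 : ℕ) (hq : 1 ≤ q) (hl0 : 1 ≤ l0) (hA : 2 ^ (A * l0) ≤ n) (hjq : j * q ≤ n)
    (ρ : Perm (Fin n) →* (E ≃ₗᵢ[ℝ] E)) (u : E) (hu : u ∈ Kj ρ Finset.univ j)
    (hu' : u ∈ (Kj ρ Finset.univ (j + 1))ᗮ) (θ : ℝ)
    (hθ : 1 / (q : ℝ) ^ j * Real.exp (15 * ((j * q : ℕ) : ℝ) * ((2 : ℝ) ^ (A * l0) * ((j * q : ℕ) : ℝ) / (n : ℝ) + B * (27 / 50) ^ l0)) ≤ θ) :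
    (‖opOf ρ μ u‖ ^ 2) ^ 16 ≤ θ * (‖u‖ ^ 2) ^ 16 := by
  have hj : j ≤ Fintype.card (Fin n) := by
    rw [Fintype.card_fin]
    exact le_trans (Nat.le_mul_of_pos_right j hq) hjq
  have h1 := level_bound ρ j hj (abKa μ) _ (ab_theta_form hn μ A B htr j q l0 hq hl0 hA hjq) u hu hu'
  calc (‖opOf ρ μ u‖ ^ 2) ^ 16 ≤ ‖opOf ρ (abKa μ) u‖ ^ 2 * (‖u‖ ^ 2) ^ 15 := ab_norm_pow μ ρ u
    _ ≤ (θ * ‖u‖ ^ 2) * (‖u‖ ^ 2) ^ 15 := by
        apply mul_le_mul_of_nonneg_right _ (by positivity)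
        refine le_trans h1 ?_
        exact mul_le_mul_of_nonneg_right hθ (sq_nonneg _)
    _ = θ * (‖u‖ ^ 2) ^ 16 := by ring

end rep

/-- bound for the trace after 16 rounds -/
theorem ab_trace16_le {n : ℕ} (hn : 0 < n) (μ : Perm (Fin n) → ℝ) (A : ℕ) (B : ℝ) (hB : 0 ≤ B) (htr : AbTr n μ A B)
    (hA : 2 ^ A ≤ n) (j : ℕ) (hj : j ≤ n) :
    Matrix.trace ((PM (Fin j) (cpow μ 16)).transpose * PM (Fin j) (cpow μ 16))
      ≤ Real.exp (15 * (2 ^ A + B) * j) := by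
  rw [PM_cpow]
  refine (hs_pow16 _).trans ?_
  refine (htr (Fin j) 1 le_rfl (by rw [mul_one]; exact hA)).trans ?_
  rw [Fintype.card_fin]
  have hnpos : (0 : ℝ) < (n : ℝ) := by exact_mod_cast hn
  have h1 : (n.descFactorial j : ℝ) / (n : ℝ) ^ j ≤ 1 := by
    rw [div_le_one (by positivity)]
    exact_mod_cast Nat.descFactorial_le_pow _ _
  have h4 : (0 : ℝ) ≤ (j : ℝ) := Nat.cast_nonneg _
  have h2 : (15 : ℝ) * (j : ℝ) * ((2 : ℝ) ^ (A * 1) * (j : ℝ) / (n : ℝ) + B * (27 / 50) ^ 1)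
      ≤ 15 * (2 ^ A + B) * j := by
    have h3 : (2 : ℝ) ^ (A * 1) * (j : ℝ) / (n : ℝ) ≤ 2 ^ A := by
      rw [div_le_iff₀ hnpos, mul_one]
      have : (j : ℝ) ≤ (n : ℝ) := by exact_mod_cast hj
      exact mul_le_mul_of_nonneg_left this (by positivity)
    have h5 : B * (27 / 50 : ℝ) ^ 1 ≤ B := by
      rw [pow_one]
      nlinarith
    have h6 : (2 : ℝ) ^ (A * 1) * (j : ℝ) / (n : ℝ) + B * (27 / 50) ^ 1 ≤ 2 ^ A + B := add_le_add h3 h5
    calc (15 : ℝ) * (j : ℝ) * ((2 : ℝ) ^ (A * 1) * (j : ℝ) / (n : ℝ) + B * (27 / 50) ^ 1)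
        ≤ 15 * (j : ℝ) * (2 ^ A + B) := mul_le_mul_of_nonneg_left h6 (by positivity)
      _ = _ := by ring
  calc (n.descFactorial j : ℝ) / (n : ℝ) ^ j *
        Real.exp (15 * (j : ℝ) * ((2 : ℝ) ^ (A * 1) * (j : ℝ) / (n : ℝ) + B * (27 / 50) ^ 1))
      ≤ 1 * Real.exp (15 * (2 ^ A + B) * j) := by
        apply mul_le_mul h1 (Real.exp_le_exp.mpr h2) (Real.exp_pos _).le zero_le_one
    _ = _ := one_mul _

/-- mass of exact level `j` after 16 rounds -/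
theorem ab_mass16 {n : ℕ} (hn : 0 < n) (μ : Perm (Fin n) → ℝ) (A : ℕ) (B : ℝ) (hB : 0 ≤ B) (htr : AbTr n μ A B)
    (hA : 2 ^ A ≤ n) (j : ℕ) (hj : j ≤ n) :
    (n.factorial : ℝ) *
      ‖((opOf (regRep (Fin n)) μ) ^ 16) (lvl (regRep (Fin n)) j (EuclideanSpace.single 1 (1 : ℝ)))‖ ^ 2
      ≤ (n.choose j : ℝ) * Real.exp (15 * (2 ^ A + B) * j) := by
  set ρ := regRep (Fin n) with hρ
  set δ : EuclideanSpace ℝ (Perm (Fin n)) := EuclideanSpace.single 1 (1 : ℝ) with hδ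
  have hj' : j ≤ Fintype.card (Fin n) := by
    rw [Fintype.card_fin]
    exact hj
  rw [← opOf_cpow, ← lvl_opOf]
  set v := opOf ρ (cpow μ 16) δ with hv
  have h1 := low_mass ρ j hj' (lvl ρ j v) (lvl_mem ρ j hj' v) (lvl_mem_orth ρ j hj' v)
  have h2 : ∑ D ∈ (Finset.univ : Finset (Fin n)).powersetCard (Fintype.card (Fin n) - j),
      ‖(Inv ρ D).starProjection (lvl ρ j v)‖ ^ 2
      ≤ ∑ D ∈ (Finset.univ : Finset (Fin n)).powersetCard (Fintype.card (Fin n) - j),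
      ‖(Inv ρ D).starProjection v‖ ^ 2 :=
    Finset.sum_le_sum fun D _ => norm_proj_Inv_lvl ρ j hj' D v
  have h3 := mass_le (cpow μ 16) j hj'
  have h4 : (n.factorial : ℝ) * ‖lvl ρ j v‖ ^ 2 ≤ (n.factorial : ℝ) *
      ∑ D ∈ (Finset.univ : Finset (Fin n)).powersetCard (Fintype.card (Fin n) - j),
      ‖(Inv ρ D).starProjection v‖ ^ 2 :=
    mul_le_mul_of_nonneg_left (h1.trans h2) (Nat.cast_nonneg _)
  refine h4.trans ?_
  have h5 : (Fintype.card (Fin n)) = n := Fintype.card_fin _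
  have h6 : ((Fintype.card (Fin n)).factorial : ℝ) = (n.factorial : ℝ) := by rw [h5]
  have h7 : ((Fintype.card (Fin n)).choose j : ℝ) = (n.choose j : ℝ) := by rw [h5]
  rw [h6, h7] at h3
  refine h3.trans ?_
  exact mul_le_mul_of_nonneg_left (ab_trace16_le hn μ A B hB htr hA j hj) (Nat.cast_nonneg _)

end Vale.Agent.P162
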