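import Vale.Agent.P162G.Abs1

/-! P162G F2, abstract part 2: from a trace bound and a contraction to `ℓ²` closeness. -/

open Equiv

set_option linter.unusedSectionVars false

namespace Vale.Agent.P162

/-- choice of the dyadic scale of `n / j` -/
theorem ab_exists_scale (κ : ℕ) (hκ : 1 ≤ κ) (n j : ℕ) (hj : 1 ≤ j) (h : 2 ^ κ * j ≤ n) :
    ∃ l : ℕ, 1 ≤ l ∧ 2 ^ (κ * l) * j ≤ n ∧ n < 2 ^ (κ * (l + 1)) * j := by
  have hex : ∃ l : ℕ, n < 2 ^ (κ * (l + 1)) * j := by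
    refine ⟨n, ?_⟩
    have h1 : n < 2 ^ n := Nat.lt_two_pow_self
    have h2 : 2 ^ n ≤ 2 ^ (κ * (n + 1)) := Nat.pow_le_pow_right (by norm_num) (by nlinarith)
    calc n < 2 ^ (κ * (n + 1)) := lt_of_lt_of_le h1 h2
      _ ≤ 2 ^ (κ * (n + 1)) * j := Nat.le_mul_of_pos_right _ hj
  classical
  refine ⟨Nat.find hex, ?_, ?_, Nat.find_spec hex⟩
  · by_contra h0
    have h1 : Nat.find hex = 0 := by omega
    have h2 := Nat.find_spec hex
    rw [h1] at h2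
    simp only [zero_add, mul_one] at h2
    omega
  · have h0 : Nat.find hex ≠ 0 := by
      intro h1
      have h2 := Nat.find_spec hex
      rw [h1] at h2
      simp only [zero_add, mul_one] at h2
      omega
    obtain ⟨m, hm⟩ := Nat.exists_eq_succ_of_ne_zero h0
    have h3 := Nat.find_min hex (m := m) (by omega)
    rw [hm]
    simp only [Nat.succ_eq_add_one]
    omega

theorem ab_expo_bound (A : ℕ) (B : ℝ) (hB : 0 ≤ B) (n j l : ℕ) (hn : 0 < n) (h : 2 ^ ((2 * A + 2) * l) * j ≤ n) :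
    15 * ((j * 2 ^ l : ℕ) : ℝ) * ((2 : ℝ) ^ (A * (2 * l)) * ((j * 2 ^ l : ℕ) : ℝ) / (n : ℝ) + B * (27 / 50) ^ (2 * l))
      ≤ 15 * (1 + B) * j := by
  have hnpos : (0 : ℝ) < (n : ℝ) := by exact_mod_cast hn
  have hj0 : (0 : ℝ) ≤ (j : ℝ) := Nat.cast_nonneg _
  have h1 : ((j * 2 ^ l : ℕ) : ℝ) * ((2 : ℝ) ^ (A * (2 * l)) * ((j * 2 ^ l : ℕ) : ℝ) / (n : ℝ)) ≤ j := by
    have e1 : ((j * 2 ^ l : ℕ) : ℝ) * ((2 : ℝ) ^ (A * (2 * l)) * ((j * 2 ^ l : ℕ) : ℝ) / (n : ℝ))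
        = (j : ℝ) * (((2 : ℝ) ^ ((2 * A + 2) * l) * j) / n) := by
      push_cast
      rw [show (2 * A + 2) * l = l + A * (2 * l) + l by ring, pow_add, pow_add]
      ring
    rw [e1]
    have h2 : ((2 : ℝ) ^ ((2 * A + 2) * l) * j) / n ≤ 1 := by
      rw [div_le_one hnpos]
      exact_mod_cast h
    calc (j : ℝ) * (((2 : ℝ) ^ ((2 * A + 2) * l) * j) / n) ≤ (j : ℝ) * 1 := mul_le_mul_of_nonneg_left h2 hj0
      _ = j := mul_one _
  have h3 : ((j * 2 ^ l : ℕ) : ℝ) * (B * (27 / 50) ^ (2 * l)) ≤ B * j := by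
    have e1 : ((j * 2 ^ l : ℕ) : ℝ) * (B * (27 / 50) ^ (2 * l)) = B * j * (2 * (27 / 50) ^ 2) ^ l := by
      push_cast
      rw [mul_pow, ← pow_mul]
      ring
    rw [e1]
    have h4 : (2 * (27 / 50 : ℝ) ^ 2) ^ l ≤ 1 := pow_le_one₀ (by norm_num) (by norm_num)
    calc B * (j : ℝ) * (2 * (27 / 50) ^ 2) ^ l ≤ B * (j : ℝ) * 1 :=
          mul_le_mul_of_nonneg_left h4 (by positivity)
      _ = B * j := mul_one _
  nlinarith [h1, h3]

/-- the level constant -/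
noncomputable def abC (A : ℕ) (B : ℝ) : ℝ :=
  2 ^ (2 * (2 * A + 2)) * Real.exp (2 * (2 * A + 2) * (15 * (1 + B)) + 1 + 15 * (2 ^ A + B))

/-- arithmetic of the low levels -/
theorem ab_low_arith (A : ℕ) (B : ℝ) (n j l : ℕ) (hj : 1 ≤ j) (hn : 0 < n)
    (h : n < 2 ^ ((2 * A + 2) * (l + 1)) * j) :
    (1 / ((2 ^ l : ℕ) : ℝ) ^ j * Real.exp (15 * (1 + B) * j)) ^ (2 * (2 * A + 2)) *
      ((n.choose j : ℝ) * Real.exp (15 * (2 ^ A + B) * j))
      ≤ (abC A B * j / n) ^ j := by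
  have hj0 : (0 : ℝ) < (j : ℝ) := by exact_mod_cast hj
  have hn0 : (0 : ℝ) < (n : ℝ) := by exact_mod_cast hn
  obtain ⟨s, hs⟩ : ∃ s : ℕ, s = 2 * (2 * A + 2) := ⟨_, rfl⟩
  have hsR : (s : ℝ) = 2 * (2 * A + 2) := by rw [hs]; push_cast; ring
  rw [← hs]
  have e1 : (1 / ((2 ^ l : ℕ) : ℝ) ^ j * Real.exp (15 * (1 + B) * j)) ^ s
      = (1 / (2 : ℝ) ^ (s * l) * Real.exp (s * (15 * (1 + B)))) ^ j := by
    rw [mul_pow, mul_pow, ← Real.exp_nat_mul, ← Real.exp_nat_mul]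
    congr 1
    · push_cast
      rw [one_div_pow, one_div_pow, ← pow_mul, ← pow_mul, ← pow_mul]
      congr 2
      ring
    · congr 1
      ring
  have e2 : Real.exp (15 * (2 ^ A + B) * j) = (Real.exp (15 * (2 ^ A + B))) ^ j := by
    rw [← Real.exp_nat_mul]
    congr 1
    ring
  rw [e1, e2]
  have e3 : Real.exp (2 * (2 * A + 2) * (15 * (1 + B)) + 1 + 15 * (2 ^ A + B)) =
      Real.exp (s * (15 * (1 + B))) * (Real.exp 1 * Real.exp (15 * (2 ^ A + B))) := by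
    rw [← Real.exp_add, ← Real.exp_add, hsR]
    congr 1
    ring
  unfold abC
  rw [e3, ← hs]
  set X := Real.exp (s * (15 * (1 + B))) * (Real.exp 1 * Real.exp (15 * (2 ^ A + B))) with hX
  have hX0 : 0 < X := by positivity
  calc (1 / (2 : ℝ) ^ (s * l) * Real.exp (s * (15 * (1 + B)))) ^ j *
        ((n.choose j : ℝ) * (Real.exp (15 * (2 ^ A + B))) ^ j)
      ≤ (1 / (2 : ℝ) ^ (s * l) * Real.exp (s * (15 * (1 + B)))) ^ j *
        ((Real.exp 1 * (n / j)) ^ j * (Real.exp (15 * (2 ^ A + B))) ^ j) := by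
        apply mul_le_mul_of_nonneg_left _ (by positivity)
        apply mul_le_mul_of_nonneg_right (choose_le_exp n j hj) (by positivity)
    _ = (1 / (2 : ℝ) ^ (s * l) * X * (n / j)) ^ j := by
        rw [← mul_pow, ← mul_pow]
        congr 1
        rw [hX]
        ring
    _ ≤ _ := by
        apply pow_le_pow_left₀ (by positivity)
        have h3 : (n : ℝ) < 2 ^ ((2 * A + 2) * (l + 1)) * j := by exact_mod_cast h
        have h4 : (n : ℝ) / j ≤ 2 ^ ((2 * A + 2) * (l + 1)) := by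
          rw [div_le_iff₀ hj0]
          exact h3.le
        have h5 : (n : ℝ) / j * (n / j) ≤ 2 ^ ((2 * A + 2) * (l + 1)) * 2 ^ ((2 * A + 2) * (l + 1)) :=
          mul_le_mul h4 h4 (by positivity) (by positivity)
        have e3 : (2 : ℝ) ^ ((2 * A + 2) * (l + 1)) * 2 ^ ((2 * A + 2) * (l + 1)) = 2 ^ s * 2 ^ (s * l) := by
          rw [← pow_add, ← pow_add, hs]
          congr 1
          ring
        rw [e3] at h5
        have h6 : 1 / (2 : ℝ) ^ (s * l) * (n / j) ≤ 2 ^ s * j / n := by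
          rw [one_div, inv_mul_le_iff₀ (by positivity)]
          have h7 : (n : ℝ) / j = (n / j * (n / j)) * (j / n) := by
            field_simp
          rw [h7]
          calc (n : ℝ) / j * (n / j) * (j / n) ≤ (2 ^ s * 2 ^ (s * l)) * (j / n) :=
                mul_le_mul_of_nonneg_right h5 (by positivity)
            _ = _ := by ring
        calc 1 / (2 : ℝ) ^ (s * l) * X * (n / j)
            = X * (1 / (2 : ℝ) ^ (s * l) * (n / j)) := by ring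
          _ ≤ X * (2 ^ s * j / n) := mul_le_mul_of_nonneg_left h6 hX0.le
          _ = _ := by ring

/-- the contraction hypothesis -/
def AbCo (n : ℕ) (μ : Perm (Fin n) → ℝ) (c : ℝ) : Prop :=
  ∀ (j : ℕ), j ≤ n → ∀ u ∈ Kj (regRep (Fin n)) Finset.univ j,
    ‖opOf (regRep (Fin n)) μ u‖ ^ 2 ≤ Real.exp (-c * j) * ‖u‖ ^ 2

section rep

variable {E : Type} [NormedAddCommGroup E] [InnerProductSpace ℝ E] [FiniteDimensional ℝ E]

/-- many rounds on exact level `j` -/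
theorem ab_rounds_low {n : ℕ} (hn : 0 < n) (μ : Perm (Fin n) → ℝ) (A : ℕ) (B : ℝ) (hB : 0 ≤ B)
    (htr : AbTr n μ A B) (j l s : ℕ) (hj : 1 ≤ j) (hl : 1 ≤ l) (hjl : 2 ^ ((2 * A + 2) * l) * j ≤ n)
    (ρ : Perm (Fin n) →* (E ≃ₗᵢ[ℝ] E)) (u : E) (hu : u ∈ Kj ρ Finset.univ j)
    (hu' : u ∈ (Kj ρ Finset.univ (j + 1))ᗮ) :
    ‖((opOf ρ μ) ^ (16 * s)) u‖ ^ 2 ≤ (1 / ((2 ^ l : ℕ) : ℝ) ^ j * Real.exp (15 * (1 + B) * j)) ^ s * ‖u‖ ^ 2 := by
  set θ := 1 / ((2 ^ l : ℕ) : ℝ) ^ j * Real.exp (15 * (1 + B) * j) with hθ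
  have hθ0 : 0 ≤ θ := by positivity
  have hjq : j * 2 ^ l ≤ n := by
    refine le_trans ?_ hjl
    rw [mul_comm]
    apply Nat.mul_le_mul_right
    exact Nat.pow_le_pow_right (by norm_num) (by nlinarith)
  have hA : 2 ^ (A * (2 * l)) ≤ n := by
    calc 2 ^ (A * (2 * l)) ≤ 2 ^ ((2 * A + 2) * l) := Nat.pow_le_pow_right (by norm_num) (by nlinarith)
      _ ≤ 2 ^ ((2 * A + 2) * l) * j := Nat.le_mul_of_pos_right _ hj
      _ ≤ n := hjl
  have hstep : ∀ v : E, v ∈ Kj ρ Finset.univ j → v ∈ (Kj ρ Finset.univ (j + 1))ᗮ →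
      (‖opOf ρ μ v‖ ^ 2) ^ 16 ≤ θ * (‖v‖ ^ 2) ^ 16 := by
    intro v hv hv'
    apply ab_round_low hn μ A B htr j (2 ^ l) (2 * l) Nat.one_le_two_pow (by omega) hA hjq ρ v hv hv' θ
    rw [hθ]
    apply mul_le_mul_of_nonneg_left _ (by positivity)
    apply Real.exp_le_exp.mpr
    exact ab_expo_bound A B hB n j l hn hjl
  clear_value θ
  have hpow : ∀ r : ℕ, (‖((opOf ρ μ) ^ r) u‖ ^ 2) ^ 16 ≤ θ ^ r * (‖u‖ ^ 2) ^ 16 := by
    intro r
    induction r with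
    | zero => simp
    | succ r ih =>
      rw [pow_succ' (opOf ρ μ) r, Module.End.mul_apply]
      refine (hstep _ (pow_opOf_mem_Kj ρ _ j r hu) (pow_opOf_mem_orth ρ _ (j + 1) r hu')).trans ?_
      rw [pow_succ' θ r, mul_assoc]
      exact mul_le_mul_of_nonneg_left ih hθ0
  have h1 := hpow (16 * s)
  have h2 : θ ^ (16 * s) * (‖u‖ ^ 2) ^ 16 = (θ ^ s * ‖u‖ ^ 2) ^ 16 := by
    rw [mul_pow, ← pow_mul θ, mul_comm s 16]
  rw [h2] at h1
  exact (pow_le_pow_iff_left₀ (sq_nonneg _) (by positivity) (by norm_num)).mp h1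

end rep

theorem ab_rounds_contr {n : ℕ} (μ : Perm (Fin n) → ℝ) (c : ℝ) (hco : AbCo n μ c) (j : ℕ) (hj : j ≤ n)
    (u : EuclideanSpace ℝ (Perm (Fin n))) (hu : u ∈ Kj (regRep (Fin n)) Finset.univ j) (r : ℕ) :
    ‖((opOf (regRep (Fin n)) μ) ^ r) u‖ ^ 2 ≤ (Real.exp (-(c * r))) ^ j * ‖u‖ ^ 2 := by
  induction r with
  | zero => simp
  | succ r ih =>
    rw [pow_succ' (opOf (regRep (Fin n)) μ) r, Module.End.mul_apply]
    have h1 := hco j hj _ (pow_opOf_mem_Kj (regRep (Fin n)) μ j r hu)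
    refine h1.trans ?_
    have h2 := mul_le_mul_of_nonneg_left ih (Real.exp_pos (-c * j)).le
    refine h2.trans (le_of_eq ?_)
    rw [← mul_assoc, ← Real.exp_nat_mul, ← Real.exp_nat_mul, ← Real.exp_add]
    congr 2
    push_cast
    ring

/-- low levels after `16 + r` rounds -/
theorem ab_mass_low {n : ℕ} (hn : 0 < n) (μ : Perm (Fin n) → ℝ) (A : ℕ) (B : ℝ) (hB : 0 ≤ B)
    (htr : AbTr n μ A B) (c : ℝ) (hc : 0 ≤ c) (hco : AbCo n μ c) (j r : ℕ) (hj : 1 ≤ j)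
    (h : 2 ^ (2 * A + 2) * j ≤ n) (hr : 32 * (2 * A + 2) ≤ r) :
    (n.factorial : ℝ) *
      ‖((opOf (regRep (Fin n)) μ) ^ (r + 16)) (lvl (regRep (Fin n)) j (EuclideanSpace.single 1 (1 : ℝ)))‖ ^ 2
      ≤ (abC A B * j / (n : ℝ)) ^ j := by
  obtain ⟨l, hl, hl1, hl2⟩ := ab_exists_scale (2 * A + 2) (by omega) n j hj h
  have hjn : j ≤ n := by
    have : 1 * j ≤ 2 ^ (2 * A + 2) * j := Nat.mul_le_mul_right _ Nat.one_le_two_pow
    omega
  have hA : 2 ^ A ≤ n := by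
    calc 2 ^ A ≤ 2 ^ (2 * A + 2) := Nat.pow_le_pow_right (by norm_num) (by omega)
      _ ≤ 2 ^ (2 * A + 2) * j := Nat.le_mul_of_pos_right _ hj
      _ ≤ n := h
  set ρ := regRep (Fin n) with hρ
  set δ : EuclideanSpace ℝ (Perm (Fin n)) := EuclideanSpace.single 1 (1 : ℝ) with hδ
  have hj' : j ≤ Fintype.card (Fin n) := by
    rw [Fintype.card_fin]
    exact hjn
  obtain ⟨s, rfl⟩ := Nat.exists_eq_add_of_le hr
  set u := ((opOf ρ μ) ^ 16) (lvl ρ j δ) with hu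
  have huK : u ∈ Kj ρ Finset.univ j := pow_opOf_mem_Kj ρ _ j 16 (lvl_mem ρ j hj' δ)
  have huO : u ∈ (Kj ρ Finset.univ (j + 1))ᗮ := pow_opOf_mem_orth ρ _ (j + 1) 16 (lvl_mem_orth ρ j hj' δ)
  have e1 : ((opOf ρ μ) ^ (32 * (2 * A + 2) + s + 16)) (lvl ρ j δ)
      = ((opOf ρ μ) ^ s) (((opOf ρ μ) ^ (16 * (2 * (2 * A + 2)))) u) := by
    rw [hu, show 32 * (2 * A + 2) + s + 16 = s + (16 * (2 * (2 * A + 2)) + 16) by ring, pow_add _ s,
      pow_add _ (16 * (2 * (2 * A + 2))), Module.End.mul_apply, Module.End.mul_apply]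
  rw [e1]
  set u2 := ((opOf ρ μ) ^ (16 * (2 * (2 * A + 2)))) u with hu2
  have h1 : ‖((opOf ρ μ) ^ s) u2‖ ^ 2 ≤ ‖u2‖ ^ 2 := by
    have h2 := ab_rounds_contr μ c hco j hjn u2 (pow_opOf_mem_Kj ρ _ j _ huK) s
    refine h2.trans ?_
    have h3 : (Real.exp (-(c * s))) ^ j ≤ 1 := by
      apply pow_le_one₀ (Real.exp_pos _).le
      rw [Real.exp_le_one_iff]
      have : (0 : ℝ) ≤ s := Nat.cast_nonneg _
      nlinarith
    calc _ ≤ 1 * ‖u2‖ ^ 2 := mul_le_mul_of_nonneg_right h3 (sq_nonneg _)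
      _ = _ := one_mul _
  have h4 := ab_rounds_low hn μ A B hB htr j l (2 * (2 * A + 2)) hj hl hl1 ρ u huK huO
  have h5 := ab_mass16 hn μ A B hB htr hA j hjn
  calc (n.factorial : ℝ) * ‖((opOf ρ μ) ^ s) u2‖ ^ 2
      ≤ (n.factorial : ℝ) * ((1 / ((2 ^ l : ℕ) : ℝ) ^ j * Real.exp (15 * (1 + B) * j)) ^ (2 * (2 * A + 2)) * ‖u‖ ^ 2) :=
        mul_le_mul_of_nonneg_left (h1.trans h4) (Nat.cast_nonneg _)
    _ = (1 / ((2 ^ l : ℕ) : ℝ) ^ j * Real.exp (15 * (1 + B) * j)) ^ (2 * (2 * A + 2)) * ((n.factorial : ℝ) * ‖u‖ ^ 2) := by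
        ring
    _ ≤ (1 / ((2 ^ l : ℕ) : ℝ) ^ j * Real.exp (15 * (1 + B) * j)) ^ (2 * (2 * A + 2)) *
        ((n.choose j : ℝ) * Real.exp (15 * (2 ^ A + B) * j)) :=
        mul_le_mul_of_nonneg_left h5 (by positivity)
    _ ≤ _ := ab_low_arith A B n j l hj hn hl2

/-- all levels after `16 + r` rounds -/
theorem ab_mass_high {n : ℕ} (hn : 0 < n) (μ : Perm (Fin n) → ℝ) (A : ℕ) (B : ℝ) (hB : 0 ≤ B)
    (htr : AbTr n μ A B) (hA : 2 ^ A ≤ n) (c : ℝ) (hco : AbCo n μ c) (j r : ℕ) (hj : j ≤ n) :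
    (n.factorial : ℝ) *
      ‖((opOf (regRep (Fin n)) μ) ^ (r + 16)) (lvl (regRep (Fin n)) j (EuclideanSpace.single 1 (1 : ℝ)))‖ ^ 2
      ≤ (n.choose j : ℝ) * Real.exp (-(c * r - 15 * (2 ^ A + B)) * j) := by
  set ρ := regRep (Fin n) with hρ
  set δ : EuclideanSpace ℝ (Perm (Fin n)) := EuclideanSpace.single 1 (1 : ℝ) with hδ
  have hj' : j ≤ Fintype.card (Fin n) := by
    rw [Fintype.card_fin]
    exact hj
  set u := ((opOf ρ μ) ^ 16) (lvl ρ j δ) with hu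
  have huK : u ∈ Kj ρ Finset.univ j := pow_opOf_mem_Kj ρ _ j 16 (lvl_mem ρ j hj' δ)
  have e1 : ((opOf ρ μ) ^ (r + 16)) (lvl ρ j δ) = ((opOf ρ μ) ^ r) u := by
    rw [hu, pow_add, Module.End.mul_apply]
  rw [e1]
  have h1 := ab_rounds_contr μ c hco j hj u huK r
  have h2 := ab_mass16 hn μ A B hB htr hA j hj
  calc (n.factorial : ℝ) * ‖((opOf ρ μ) ^ r) u‖ ^ 2
      ≤ (n.factorial : ℝ) * ((Real.exp (-(c * r))) ^ j * ‖u‖ ^ 2) :=
        mul_le_mul_of_nonneg_left h1 (Nat.cast_nonneg _)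
    _ = (Real.exp (-(c * r))) ^ j * ((n.factorial : ℝ) * ‖u‖ ^ 2) := by ring
    _ ≤ (Real.exp (-(c * r))) ^ j * ((n.choose j : ℝ) * Real.exp (15 * (2 ^ A + B) * j)) :=
        mul_le_mul_of_nonneg_left h2 (by positivity)
    _ = (n.choose j : ℝ) * Real.exp (-(c * r - 15 * (2 ^ A + B)) * j) := by
        rw [← Real.exp_nat_mul, mul_left_comm, ← Real.exp_add]
        congr 2
        ring

/-- `ℓ²` closeness to uniform after `16 + r` rounds -/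
theorem ab_final {n : ℕ} (hn : 0 < n) (μ : Perm (Fin n) → ℝ) (A : ℕ) (B : ℝ) (hB : 0 ≤ B)
    (htr : AbTr n μ A B) (c : ℝ) (hc : 0 ≤ c) (hco : AbCo n μ c) (r : ℕ) (C : ℝ) (hC : abC A B ≤ C)
    (hr : 15 * (2 ^ A + B) + 4 * C ≤ c * r) (hr2 : 32 * (2 * A + 2) ≤ r) (hnC : 32 * C ≤ (n : ℝ)) :
    (n.factorial : ℝ) * ‖((opOf (regRep (Fin n)) μ) ^ (r + 16)) (EuclideanSpace.single 1 (1 : ℝ))‖ ^ 2
      ≤ 1 + 1 / 4 := by
  have hexp : (1 : ℝ) ≤ Real.exp (2 * (2 * A + 2) * (15 * (1 + B)) + 1 + 15 * (2 ^ A + B)) := by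
    apply Real.one_le_exp
    positivity
  have h2p : (1 : ℝ) ≤ 2 ^ (2 * (2 * A + 2)) := one_le_pow₀ (by norm_num)
  have habC : (2 : ℝ) ^ (2 * (2 * A + 2)) ≤ abC A B := by
    unfold abC
    nlinarith
  have hC1 : 1 ≤ C := (h2p.trans habC).trans hC
  have h220 : (2 : ℝ) ^ (2 * A + 2) ≤ C := by
    have h3 : (2 : ℝ) ^ (2 * A + 2) ≤ 2 ^ (2 * (2 * A + 2)) := pow_le_pow_right₀ (by norm_num) (by omega)
    exact (h3.trans habC).trans hC
  have hA : 2 ^ A ≤ n := by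
    have h3 : (2 : ℝ) ^ A ≤ 2 ^ (2 * A + 2) := pow_le_pow_right₀ (by norm_num) (by omega)
    have h4 : (2 : ℝ) ^ A ≤ (n : ℝ) := by linarith
    exact_mod_cast h4
  set ρ := regRep (Fin n) with hρ
  set δ : EuclideanSpace ℝ (Perm (Fin n)) := EuclideanSpace.single 1 (1 : ℝ) with hδ
  rw [norm_sq_layers, Fintype.card_fin, Finset.mul_sum]
  refine final_sum n C hC1 (fun j => (n.factorial : ℝ) *
      ‖((opOf ρ μ) ^ (r + 16)) (lvl ρ j δ)‖ ^ 2) ?_ ?_ ?_ hnC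
  · have h4 := ab_mass_high hn μ A B hB htr hA c hco 0 r (Nat.zero_le _)
    simpa using h4
  · intro j hj hlow
    have hnR : (0 : ℝ) < (n : ℝ) := by exact_mod_cast hn
    have hjR : (0 : ℝ) ≤ (j : ℝ) := Nat.cast_nonneg _
    have h5 : 2 ^ (2 * A + 2) * j ≤ n := by
      have : (2 : ℝ) ^ (2 * A + 2) * j ≤ (n : ℝ) := by nlinarith
      exact_mod_cast this
    refine (ab_mass_low hn μ A B hB htr c hc hco j r hj h5 hr2).trans ?_
    have habC0 : 0 ≤ abC A B := by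
      unfold abC
      positivity
    apply pow_le_pow_left₀ (by positivity)
    apply div_le_div_of_nonneg_right _ hnR.le
    exact mul_le_mul_of_nonneg_right hC hjR
  · intro j hj hjn _
    refine (ab_mass_high hn μ A B hB htr hA c hco j r hjn).trans ?_
    apply mul_le_mul_of_nonneg_left _ (Nat.cast_nonneg _)
    apply Real.exp_le_exp.mpr
    have hjR : (0 : ℝ) ≤ (j : ℝ) := Nat.cast_nonneg _
    apply mul_le_mul_of_nonneg_right _ hjR
    linarith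

end Vale.Agent.P162
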