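import Vale.Agent.P162G.QC

/-! P162G module M9: sets of outputs whose cones lie in a half circle satisfy `TL`. -/

open Equiv

set_option linter.unusedSectionVars false

namespace Vale.Agent.P162

/-- value `v` lies in the quarter arc number `s` -/
def ArcS (m e s v : ℕ) : Prop := ∃ i, e ≤ 2 * i ∧ 2 * i + 2 ≤ e + m ∧ v = (i + s * m) % (2 * m)

theorem arcS_sep {m e i i' : ℕ} (h1 : e ≤ 2 * i) (h2 : 2 * i + 2 ≤ e + m) (h3 : e ≤ 2 * i')
    (h4 : 2 * i' + 2 ≤ e + m) (h : i ≡ i' + m [MOD 2 * m]) : False := by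
  have hle : i ≤ i' + m := by omega
  have h5 := (Nat.modEq_iff_dvd' hle).1 h
  have h6 := Nat.le_of_dvd (by omega) h5
  omega

theorem arcS_sep1 {m e i i' : ℕ} (h1 : e ≤ 2 * i) (h2 : 2 * i + 2 ≤ e + m) (h3 : e ≤ 2 * i')
    (h4 : 2 * i' + 2 ≤ e + m) (h : i + 1 ≡ i' + m [MOD 2 * m]) : False := by
  have hle : i + 1 ≤ i' + m := by omega
  have h5 := (Nat.modEq_iff_dvd' hle).1 h
  have h6 := Nat.le_of_dvd (by omega) h5
  omega

theorem arcS_disj {m e v : ℕ} (h0 : ArcS m e 0 v) (h1 : ArcS m e 1 v) : False := by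
  obtain ⟨i, a1, a2, a3⟩ := h0
  obtain ⟨i', b1, b2, b3⟩ := h1
  refine arcS_sep a1 a2 b1 b2 ?_
  unfold Nat.ModEq
  simp only [zero_mul, add_zero, one_mul] at a3 b3
  rw [← a3, ← b3]

theorem arcS_antip0 {m e v : ℕ} (h0 : ArcS m e 0 v) : ArcS m e 1 ((v + m) % (2 * m)) := by
  obtain ⟨i, a1, a2, a3⟩ := h0
  refine ⟨i, a1, a2, ?_⟩
  rw [a3]
  simp

theorem arcS_antip1 {m e v : ℕ} (h0 : ArcS m e 1 v) : ArcS m e 0 ((v + m) % (2 * m)) := by
  obtain ⟨i, a1, a2, a3⟩ := h0
  refine ⟨i, a1, a2, ?_⟩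
  rw [a3, Nat.mod_add_mod]
  have : i + 1 * m + m = i + 2 * m := by ring
  rw [this, Nat.add_mod_right]
  simp

theorem arcS_succ {m e v s s' : ℕ} (hs : s < 2) (hs' : s' < 2) (h : ArcS m e s v)
    (h' : ArcS m e s' ((v + 1) % (2 * m))) : s = s' := by
  by_contra hne
  obtain ⟨i, a1, a2, a3⟩ := h
  obtain ⟨i', b1, b2, b3⟩ := h'
  rw [a3, Nat.mod_add_mod] at b3
  have hmod : i + s * m + 1 ≡ i' + s' * m [MOD 2 * m] := b3
  have hcase : (s = 0 ∧ s' = 1) ∨ (s = 1 ∧ s' = 0) := by omega
  rcases hcase with ⟨rfl, rfl⟩ | ⟨rfl, rfl⟩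
  · refine arcS_sep1 a1 a2 b1 b2 ?_
    simpa using hmod
  · refine arcS_sep1 a1 a2 b1 b2 ?_
    have h2 := hmod.add_right m
    have h3 : i + 1 * m + 1 + m = i + 1 + 2 * m := by ring
    have h4 : i' + 0 * m + m = i' + m := by ring
    rw [h3, h4] at h2
    exact (Nat.add_modulus_modEq_iff).1 h2

theorem arcS_par (q s : ℕ) (hs : s < 2) : ∃ k, q + (q + s) % 2 = s + 2 * k :=
  ⟨(q + (q + s) % 2 - s) / 2, by omega⟩

theorem arcS_mem {m w e : ℕ} {D : Finset (Fin (2 * m))} (h : coneS m (w + 1) D ⊆ half m e)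
    (y : Fin (2 * m)) (hy : y ∈ coneS m w D) : ∃ s < 2, ArcS m e s y.val := by
  have hy2 := y.isLt
  have hm : 0 < m := by omega
  have hr : y.val % m < m := Nat.mod_lt _ hm
  -- the two parents
  have hin : ∀ t, (ht : t < 2) → (⟨2 * (y.val % m) + t, by omega⟩ : Fin (2 * m)) ∈
      coneS m (w + 1) D := by
    intro t ht
    unfold coneS
    rw [Finset.mem_filter]
    refine ⟨Finset.mem_univ _, ?_⟩
    have hd : (2 * (y.val % m) + t) / 2 = y.val % m := by omega
    rcases Nat.lt_or_ge y.val m with hlt | hge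
    · left
      have : ch m (⟨2 * (y.val % m) + t, by omega⟩ : Fin (2 * m)) false = y := by
        ext
        unfold ch
        simp only [hd]
        simp [Nat.mod_eq_of_lt hlt]
      rw [this]
      exact hy
    · right
      have : ch m (⟨2 * (y.val % m) + t, by omega⟩ : Fin (2 * m)) true = y := by
        ext
        unfold ch
        simp only [hd, if_true]
        rw [Nat.mod_eq_sub_mod hge, Nat.mod_eq_of_lt (by omega)]
        omega
      rw [this]
      exact hy
  have h0 := h (hin 0 (by norm_num))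
  have h1 := h (hin 1 (by norm_num))
  unfold half at h0 h1
  rw [Finset.mem_filter] at h0 h1
  obtain ⟨j, hj, ej⟩ := h0.2
  obtain ⟨j', hj', ej'⟩ := h1.2
  simp only [add_zero] at ej ej'
  have hmod : j + 1 ≡ j' [MOD 2 * m] := by
    have h2 : e + (j + 1) ≡ e + j' [MOD 2 * m] := by
      unfold Nat.ModEq
      rw [← ej', ← add_assoc, ← Nat.mod_add_mod (e + j), ← ej]
      exact Nat.mod_eq_of_lt (by omega)
    exact Nat.ModEq.add_left_cancel' e h2
  have hj1 : j + 1 = j' := Nat.ModEq.eq_of_lt_of_lt hmod (by omega) (by omega)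
  -- quotient
  have hq := Nat.div_add_mod (e + j) (2 * m)
  rw [← ej] at hq
  set q := (e + j) / (2 * m) with hqd
  have hi : 2 * (m * q + y.val % m) = e + j := by
    rw [← hq]; ring
  -- position of y
  have hs : ∃ s < 2, y.val = y.val % m + s * m := by
    rcases Nat.lt_or_ge y.val m with hlt | hge
    · exact ⟨0, by norm_num, by rw [Nat.mod_eq_of_lt hlt]; ring⟩
    · refine ⟨1, by norm_num, ?_⟩
      rw [Nat.mod_eq_sub_mod hge, Nat.mod_eq_of_lt (by omega)]
      omega
  obtain ⟨s, hs2, hys⟩ := hs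
  refine ⟨(q + s) % 2, Nat.mod_lt _ (by norm_num), m * q + y.val % m, by omega, by omega, ?_⟩
  have hpar : ∃ k, q + (q + s) % 2 = s + 2 * k := arcS_par q s hs2
  obtain ⟨k, hk⟩ := hpar
  have e1 : m * q + y.val % m + (q + s) % 2 * m = y.val + 2 * m * k := by
    have : m * q + y.val % m + (q + s) % 2 * m = y.val % m + (q + (q + s) % 2) * m := by ring
    rw [this, hk]
    have h6 : y.val % m + (s + 2 * k) * m = (y.val % m + s * m) + 2 * m * k := by ring
    rw [h6, ← hys]
  rw [e1, Nat.add_mul_mod_self_left, Nat.mod_eq_of_lt hy2]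

theorem tl_of_half (m w e : ℕ) (D : Finset (Fin (2 * m))) (h : coneS m w D ⊆ half m e) : TL m w D := by
  induction w generalizing e D with
  | zero => trivial
  | succ w ih =>
    classical
    have hA := arcS_mem (w := w) h
    -- all points of the cone of `z` lie in the same arc
    have hcone : ∀ z ∈ D, ∀ j < 2 ^ w, ∀ s < 2, ArcS m e s ((2 ^ w * z.val) % (2 * m)) →
        ArcS m e s ((2 ^ w * z.val + j) % (2 * m)) := by
      intro z hz j
      have hz2 := z.isLt
      induction j with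
      | zero => intro _ s _ h0; simpa using h0
      | succ j ihj =>
        intro hj s hs h0
        have h1 := ihj (by omega) s hs h0
        have hmem : (⟨(2 ^ w * z.val + (j + 1)) % (2 * m), Nat.mod_lt _ (by omega)⟩ : Fin (2 * m)) ∈
            coneS m w D := by
          rw [mem_coneS_iff_exists]
          exact ⟨z, hz, (coneS_singleton m w z _).2 ⟨j + 1, hj, rfl⟩⟩
        obtain ⟨s', hs', h2⟩ := hA _ hmem
        have h3 : ((2 ^ w * z.val + j) % (2 * m) + 1) % (2 * m) =
            (2 ^ w * z.val + (j + 1)) % (2 * m) := by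
          rw [Nat.mod_add_mod, add_assoc]
        have h4 := arcS_succ hs hs' h1 (by rw [h3]; exact h2)
        rw [h4]
        exact h2
    set D0 := D.filter (fun z => ArcS m e 0 ((2 ^ w * z.val) % (2 * m))) with hD0
    set D1 := D.filter (fun z => ¬ ArcS m e 0 ((2 ^ w * z.val) % (2 * m))) with hD1
    have hc0 : ∀ y ∈ coneS m w D0, ArcS m e 0 y.val := by
      intro y hy
      obtain ⟨z, hz, hyz⟩ := (mem_coneS_iff_exists m w D0 y).1 hy
      obtain ⟨j, hj, hyj⟩ := (coneS_singleton m w z y).1 hyz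
      rw [hD0, Finset.mem_filter] at hz
      rw [hyj]
      exact hcone z hz.1 j hj 0 (by norm_num) hz.2
    have hc1 : ∀ y ∈ coneS m w D1, ArcS m e 1 y.val := by
      intro y hy
      obtain ⟨z, hz, hyz⟩ := (mem_coneS_iff_exists m w D1 y).1 hy
      obtain ⟨j, hj, hyj⟩ := (coneS_singleton m w z y).1 hyz
      rw [hD1, Finset.mem_filter] at hz
      rw [hyj]
      refine hcone z hz.1 j hj 1 (by norm_num) ?_
      have hz2 := z.isLt
      have hmem : (⟨(2 ^ w * z.val) % (2 * m), Nat.mod_lt _ (by omega)⟩ : Fin (2 * m)) ∈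
          coneS m w D := by
        rw [mem_coneS_iff_exists]
        exact ⟨z, hz.1, (coneS_singleton m w z _).2 ⟨0, by positivity, by simp⟩⟩
      obtain ⟨s', hs', h2⟩ := hA _ hmem
      have : s' = 0 ∨ s' = 1 := by omega
      rcases this with rfl | rfl
      · exact absurd h2 hz.2
      · exact h2
    have hhalf : ∀ s < 2, ∀ v : Fin (2 * m), ArcS m e s v.val →
        v ∈ half m ((e + 1) / 2 + s * m) := by
      intro s _ v hv
      obtain ⟨i, a1, a2, a3⟩ := hv
      unfold half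
      rw [Finset.mem_filter]
      refine ⟨Finset.mem_univ _, i - (e + 1) / 2, by omega, ?_⟩
      rw [a3]
      congr 1
      omega
    refine ⟨D0, D1, ?_, ?_, ?_, ?_, ?_, ?_, ?_⟩
    · rw [hD0, hD1]
      exact Finset.filter_union_filter_not_eq _ _
    · rw [hD0, hD1]
      exact Finset.disjoint_filter_filter_not _ _ _
    · exact ih _ D0 (fun y hy => hhalf 0 (by norm_num) y (hc0 y hy))
    · exact ih _ D1 (fun y hy => hhalf 1 (by norm_num) y (hc1 y hy))
    · rw [Finset.disjoint_left]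
      intro y hy0 hy1
      exact arcS_disj (hc0 y hy0) (hc1 y hy1)
    · intro y hy hay
      have h1 := arcS_antip0 (hc0 y hy)
      exact arcS_disj (hc0 _ hay) h1
    · intro y hy hay
      have h1 := arcS_antip1 (hc1 y hy)
      exact arcS_disj h1 (hc1 _ hay)

end Vale.Agent.P162
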