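import Vale.Agent.P162G.Steps

/-! P162G module N8: cyclic intervals of positions, exact blocks. -/

open Equiv

set_option linter.unusedSectionVars false

namespace Vale.Agent.P162

/-- cyclic interval of positions starting at `e`, of length `len` -/
def arc (m e len : ℕ) : Finset (Fin (2 * m)) := Finset.univ.filter (fun x => ∃ j, j < len ∧ x.val = (e + j) % (2 * m))

/-- cyclic interval of pair indices -/
def iarc (m e len : ℕ) : Finset (Fin m) := Finset.univ.filter (fun i => ∃ j, j < len ∧ i.val = (e + j) % m)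

/-- cyclic interval, generic length -/
def garc (n e len : ℕ) : Finset (Fin n) := Finset.univ.filter (fun x => ∃ j, j < len ∧ x.val = (e + j) % n)

theorem n8_modinj {n e j j' len : ℕ} (h : len ≤ n) (hj : j < len) (hj' : j' < len) (he : (e + j) % n = (e + j') % n) :
    j = j' := by
  have h1 : (e + j) ≡ (e + j') [MOD n] := he
  have h2 : j ≡ j' [MOD n] := Nat.ModEq.add_left_cancel' e h1
  exact Nat.ModEq.eq_of_lt_of_lt h2 (lt_of_lt_of_le hj h) (lt_of_lt_of_le hj' h)

theorem n8_card (n e len : ℕ) (h : len ≤ n) : (garc n e len).card = len := by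
  rcases Nat.eq_zero_or_pos n with hn | hn
  · subst hn
    have : len = 0 := by omega
    subst this
    rw [Finset.card_eq_zero, Finset.eq_empty_iff_forall_notMem]
    intro x
    exact x.elim0
  · have h1 : garc n e len = (Finset.range len).image (fun j => (⟨(e + j) % n, Nat.mod_lt _ hn⟩ : Fin n)) := by
      ext x
      simp only [garc, Finset.mem_filter, Finset.mem_univ, true_and, Finset.mem_image, Finset.mem_range]
      constructor
      · rintro ⟨j, hj, hx⟩
        exact ⟨j, hj, Fin.ext hx.symm⟩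
      · rintro ⟨j, hj, hx⟩
        exact ⟨j, hj, by rw [← hx]⟩
    rw [h1, Finset.card_image_of_injOn, Finset.card_range]
    intro j hj j' hj' he
    simp only [Fin.mk.injEq] at he
    have hj1 : j < len := by simpa using hj
    have hj1' : j' < len := by simpa using hj'
    exact n8_modinj h hj1 hj1' he

theorem mem_arc (m e len : ℕ) (x : Fin (2 * m)) : x ∈ arc m e len ↔ ∃ j, j < len ∧ x.val = (e + j) % (2 * m) := by
  simp [arc]

theorem mem_iarc (m e len : ℕ) (x : Fin m) : x ∈ iarc m e len ↔ ∃ j, j < len ∧ x.val = (e + j) % m := by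
  simp [iarc]

theorem mem_prI (m : ℕ) (I : Finset (Fin m)) (x : Fin (2 * m)) : x ∈ prI m I ↔ pix m x ∈ I := by
  simp [prI]

theorem card_arc (m e len : ℕ) (h : len ≤ 2 * m) : (arc m e len).card = len :=
  n8_card (2 * m) e len h

theorem card_iarc (m e len : ℕ) (h : len ≤ m) : (iarc m e len).card = len :=
  n8_card m e len h

theorem prI_iarc (m e len : ℕ) : prI m (iarc m e len) = arc m (2 * e) (2 * len) := by
  ext x
  rw [mem_prI, mem_iarc, mem_arc]
  constructor
  · rintro ⟨j, hj, hx⟩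
    refine ⟨2 * j + x.val % 2, by omega, ?_⟩
    have h1 : (2 * e + (2 * j + x.val % 2)) % (2 * m) =
        (2 * e + (2 * j + x.val % 2)) % 2 + 2 * ((2 * e + (2 * j + x.val % 2)) / 2 % m) := Nat.mod_mul
    have h2 : (2 * e + (2 * j + x.val % 2)) / 2 = e + j := by omega
    have h3 : (2 * e + (2 * j + x.val % 2)) % 2 = x.val % 2 := by omega
    rw [h1, h2, h3]
    have h4 : x.val / 2 = (e + j) % m := hx
    rw [← h4]
    omega
  · rintro ⟨j, hj, hx⟩
    refine ⟨j / 2, by omega, ?_⟩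
    change x.val / 2 = (e + j / 2) % m
    rw [hx, Nat.mod_mul_right_div_self]
    congr 1
    omega

theorem pim_up (m : ℕ) (i : Fin m) (b : Bool) : pim m (up m i b) = i := by
  ext
  have := i.isLt
  cases b
  · change (i.val + 0) % m = i.val
    rw [Nat.add_zero, Nat.mod_eq_of_lt this]
  · change (i.val + m) % m = i.val
    rw [Nat.add_mod_right, Nat.mod_eq_of_lt this]

/-- for `len ≤ m` the children of the pair indices `iarc m e len` split into the arcs of length `len` starting at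
`e` and at `e + m` -/
theorem arc_sel (m e len : ℕ) (h : len ≤ m) : ∃ sel : Fin m → Bool,
    ((iarc m e len).image (fun i => up m i (sel i)) = arc m e len) ∧
    ((iarc m e len).image (fun i => up m i (!sel i)) = arc m (e + m) len) := by
  classical
  refine ⟨fun i => decide (∃ j, j < len ∧ i.val = (e + j) % m ∧ (e + j) / m % 2 = 1), ?_, ?_⟩
  all_goals
    ext x
    rw [Finset.mem_image, mem_arc]
  · have key : ∀ (i : Fin m) (j : ℕ), j < len → i.val = (e + j) % m →
        (up m i (decide (∃ j, j < len ∧ i.val = (e + j) % m ∧ (e + j) / m % 2 = 1))).val = (e + j) % (2 * m) := by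
      intro i j hj hi
      have h1 : (e + j) % (2 * m) = (e + j) % m + m * ((e + j) / m % 2) := by
        rw [Nat.mul_comm 2 m]; exact Nat.mod_mul
      rw [h1, ← hi]
      rcases Nat.mod_two_eq_zero_or_one ((e + j) / m) with h2 | h2
      · have h3 : ¬ (∃ j, j < len ∧ i.val = (e + j) % m ∧ (e + j) / m % 2 = 1) := by
          rintro ⟨j', hj', hi', h4⟩
          have h5 : j = j' := n8_modinj h hj hj' (by rw [← hi, ← hi'])
          rw [← h5] at h4
          omega
        simp [up, h3, h2]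
      · have h3 : (∃ j, j < len ∧ i.val = (e + j) % m ∧ (e + j) / m % 2 = 1) := ⟨j, hj, hi, h2⟩
        simp [up, h3, h2]
    constructor
    · rintro ⟨i, hi, hx⟩
      rw [mem_iarc] at hi
      obtain ⟨j, hj, hi⟩ := hi
      exact ⟨j, hj, by rw [← hx]; exact key i j hj hi⟩
    · rintro ⟨j, hj, hx⟩
      have hm : 0 < m := by omega
      refine ⟨⟨(e + j) % m, Nat.mod_lt _ hm⟩, (mem_iarc m e len _).mpr ⟨j, hj, rfl⟩, ?_⟩
      apply Fin.ext
      rw [hx]
      exact key _ j hj rfl
  · have key : ∀ (i : Fin m) (j : ℕ), j < len → i.val = (e + j) % m →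
        (up m i (!decide (∃ j, j < len ∧ i.val = (e + j) % m ∧ (e + j) / m % 2 = 1))).val = (e + m + j) % (2 * m) := by
      intro i j hj hi
      have hm : 0 < m := by omega
      have h1 : (e + m + j) % (2 * m) = (e + m + j) % m + m * ((e + m + j) / m % 2) := by
        rw [Nat.mul_comm 2 m]; exact Nat.mod_mul
      have h6 : (e + m + j) % m = (e + j) % m := by
        rw [show e + m + j = e + j + m by ring, Nat.add_mod_right]
      have h7 : (e + m + j) / m = (e + j) / m + 1 := by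
        rw [show e + m + j = e + j + m by ring, Nat.add_div_right _ hm]
      rw [h1, h6, h7, ← hi]
      rcases Nat.mod_two_eq_zero_or_one ((e + j) / m) with h2 | h2
      · have h3 : ¬ (∃ j, j < len ∧ i.val = (e + j) % m ∧ (e + j) / m % 2 = 1) := by
          rintro ⟨j', hj', hi', h4⟩
          have h5 : j = j' := n8_modinj h hj hj' (by rw [← hi, ← hi'])
          rw [← h5] at h4
          omega
        have h8 : ((e + j) / m + 1) % 2 = 1 := by omega
        simp [up, h3, h8]
      · have h3 : (∃ j, j < len ∧ i.val = (e + j) % m ∧ (e + j) / m % 2 = 1) := ⟨j, hj, hi, h2⟩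
        have h8 : ((e + j) / m + 1) % 2 = 0 := by omega
        simp [up, h3, h8]
    constructor
    · rintro ⟨i, hi, hx⟩
      rw [mem_iarc] at hi
      obtain ⟨j, hj, hi⟩ := hi
      exact ⟨j, hj, by rw [← hx]; exact key i j hj hi⟩
    · rintro ⟨j, hj, hx⟩
      have hm : 0 < m := by omega
      refine ⟨⟨(e + j) % m, Nat.mod_lt _ hm⟩, (mem_iarc m e len _).mpr ⟨j, hj, rfl⟩, ?_⟩
      apply Fin.ext
      rw [hx]
      exact key _ j hj rfl

theorem arc_sub (m e len e' len' : ℕ) (h1 : e' ≤ e) (h2 : e + len ≤ e' + len') : arc m e len ⊆ arc m e' len' := by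
  intro x hx
  rw [mem_arc] at hx ⊢
  obtain ⟨j, hj, hx⟩ := hx
  refine ⟨j + (e - e'), by omega, ?_⟩
  rw [hx]
  congr 1
  omega

theorem arc_shift (m e len : ℕ) : arc m (e + 2 * m) len = arc m e len := by
  ext x
  rw [mem_arc, mem_arc]
  have h : ∀ j, (e + 2 * m + j) % (2 * m) = (e + j) % (2 * m) := by
    intro j
    rw [show e + 2 * m + j = e + j + 2 * m by ring, Nat.add_mod_right]
  simp only [h]

theorem arc_disj (m e len e' len' : ℕ) (h1 : e + len ≤ e') (h2 : e' + len' ≤ e + 2 * m) :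
    Disjoint (arc m e len) (arc m e' len') := by
  rw [Finset.disjoint_left]
  intro x hx hx'
  rw [mem_arc] at hx hx'
  obtain ⟨j, hj, hx⟩ := hx
  obtain ⟨j', hj', hx'⟩ := hx'
  have h3 : (e + j) ≡ (e' + j') [MOD (2 * m)] := by
    unfold Nat.ModEq
    rw [← hx, ← hx']
  have h4 : e + j ≤ e' + j' := by omega
  have h5 : 2 * m ∣ (e' + j') - (e + j) := (Nat.modEq_iff_dvd' h4).mp h3
  have h6 := Nat.le_of_dvd (by omega) h5
  omega

theorem arc_mod (m Q c t len : ℕ) (hm : 2 * m = c * Q) : arc m (c * t) len = arc m (c * (t % Q)) len := by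
  ext x
  rw [mem_arc, mem_arc]
  have h : ∀ j, (c * t + j) % (2 * m) = (c * (t % Q) + j) % (2 * m) := by
    intro j
    have h1 : c * t + j = c * (t % Q) + j + (2 * m) * (t / Q) := by
      have := Nat.mod_add_div t Q
      rw [hm]
      calc c * t + j = c * (t % Q + Q * (t / Q)) + j := by rw [this]
        _ = _ := by ring
    rw [h1, Nat.add_mul_mod_self_left]
  simp only [h]

/-- blocks of length `c` starting at multiples of `c` -/
theorem blocks_disj (m Q c : ℕ) (hm : 2 * m = c * Q) {i j : ℕ} (hi : i < Q) (hj : j < Q) (hij : i ≠ j) :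
    Disjoint (arc m (c * i) c) (arc m (c * j) c) := by
  rcases Nat.lt_or_gt_of_ne hij with h | h
  · apply arc_disj
    · calc c * i + c = c * (i + 1) := by ring
        _ ≤ c * j := Nat.mul_le_mul_left _ h
    · calc c * j + c = c * (j + 1) := by ring
        _ ≤ c * Q := Nat.mul_le_mul_left _ hj
        _ ≤ c * i + 2 * m := by rw [hm]; omega
  · apply Disjoint.symm
    apply arc_disj
    · calc c * j + c = c * (j + 1) := by ring
        _ ≤ c * i := Nat.mul_le_mul_left _ h
    · calc c * i + c = c * (i + 1) := by ring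
        _ ≤ c * Q := Nat.mul_le_mul_left _ hi
        _ ≤ c * j + 2 * m := by rw [hm]; omega

variable {E : Type} [NormedAddCommGroup E] [InnerProductSpace ℝ E] [FiniteDimensional ℝ E]

theorem n8_pow (b k q : ℕ) (hk : k ≤ b + 1) : 2 * (2 ^ b * q) = 2 ^ k * (2 ^ (b + 1 - k) * q) := by
  rw [← mul_assoc, ← mul_assoc, ← pow_add]
  congr 1
  rw [show k + (b + 1 - k) = b + 1 by omega, pow_succ]
  ring

/-- the exact levels `k ≤ b + 1`, `m = 2 ^ b * q` -/
theorem dom_exact (b q : ℕ) (hq : 0 < q) (ρ : Perm (Fin (2 * (2 ^ b * q))) →* (E ≃ₗᵢ[ℝ] E)) (k : ℕ) (hk : k ≤ b + 1) :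
    DomB ρ k (sd k) (fun j : Fin (2 ^ (b + 1 - k) * q) => arc (2 ^ b * q) (2 ^ k * j.val) (2 ^ k)) := by
  have hm0 : 0 < 2 ^ b * q := by positivity
  induction k with
  | zero =>
    apply DomB_zero
    intro i
    rw [card_arc _ _ _ (by rw [pow_zero]; omega)]
    simp
  | succ k ih =>
    have ih' := ih (by omega)
    have hkb : k ≤ b := by omega
    have hQ : 2 ^ (b + 1 - k) * q = 2 * (2 ^ (b + 1 - (k + 1)) * q) := by
      rw [show b + 1 - k = (b + 1 - (k + 1)) + 1 by omega, pow_succ]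
      ring
    have hmk : 2 ^ b * q = 2 ^ k * (2 ^ (b + 1 - (k + 1)) * q) := by
      rw [← mul_assoc, ← pow_add]
      congr 2
      omega
    have hle : 2 ^ k ≤ 2 ^ b * q := by
      calc 2 ^ k ≤ 2 ^ b := Nat.pow_le_pow_right (by norm_num) hkb
        _ ≤ 2 ^ b * q := Nat.le_mul_of_pos_right _ hq
    have hblk : Pairwise fun i j : Fin (2 ^ (b + 1 - k) * q) =>
        Disjoint (arc (2 ^ b * q) (2 ^ k * i.val) (2 ^ k)) (arc (2 ^ b * q) (2 ^ k * j.val) (2 ^ k)) := by
      intro i j hij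
      exact blocks_disj _ _ _ (n8_pow b k q (by omega)) i.isLt j.isLt (fun h => hij (Fin.ext h))
    choose sel hsel1 hsel2 using fun j : Fin (2 ^ (b + 1 - (k + 1)) * q) => arc_sel (2 ^ b * q) (2 ^ k * j.val) (2 ^ k) hle
    let f : Fin (2 ^ (b + 1 - (k + 1)) * q) ⊕ Fin (2 ^ (b + 1 - (k + 1)) * q) → Fin (2 ^ (b + 1 - k) * q) :=
      Sum.elim (fun j => ⟨j.val, by have := j.isLt; rw [hQ]; omega⟩)
        (fun j => ⟨j.val + 2 ^ (b + 1 - (k + 1)) * q, by have := j.isLt; rw [hQ]; omega⟩)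
    have hf : Function.Injective f := by
      rintro (i | i) (j | j) hij
      · have h0 := congrArg Fin.val hij
        have : i.val = j.val := h0
        rw [Fin.ext this]
      · have h0 := congrArg Fin.val hij
        have h1 : i.val = j.val + 2 ^ (b + 1 - (k + 1)) * q := h0
        have := i.isLt
        omega
      · have h0 := congrArg Fin.val hij
        have h1 : i.val + 2 ^ (b + 1 - (k + 1)) * q = j.val := h0
        have := j.isLt
        omega
      · have h0 := congrArg Fin.val hij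
        have h1 : i.val + 2 ^ (b + 1 - (k + 1)) * q = j.val + 2 ^ (b + 1 - (k + 1)) * q := h0
        have : i.val = j.val := by omega
        rw [Fin.ext this]
    have hel : (fun x => arc (2 ^ b * q) (2 ^ k * (f x).val) (2 ^ k)) =
        Sum.elim (fun j : Fin (2 ^ (b + 1 - (k + 1)) * q) => arc (2 ^ b * q) (2 ^ k * j.val) (2 ^ k))
          (fun j : Fin (2 ^ (b + 1 - (k + 1)) * q) => arc (2 ^ b * q) (2 ^ k * j.val + 2 ^ b * q) (2 ^ k)) := by
      funext x
      rcases x with j | j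
      · rfl
      · change arc (2 ^ b * q) (2 ^ k * (j.val + 2 ^ (b + 1 - (k + 1)) * q)) (2 ^ k) =
          arc (2 ^ b * q) (2 ^ k * j.val + 2 ^ b * q) (2 ^ k)
        congr 1
        rw [Nat.mul_add, ← hmk]
    have hD := DomB_sub ρ k (sd k) (sd k) (sd_pos k).le le_rfl _ hblk f hf ih'
    have hdis : Pairwise fun x y => Disjoint
        (Sum.elim (fun j : Fin (2 ^ (b + 1 - (k + 1)) * q) => arc (2 ^ b * q) (2 ^ k * j.val) (2 ^ k))
          (fun j : Fin (2 ^ (b + 1 - (k + 1)) * q) => arc (2 ^ b * q) (2 ^ k * j.val + 2 ^ b * q) (2 ^ k)) x)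
        (Sum.elim (fun j : Fin (2 ^ (b + 1 - (k + 1)) * q) => arc (2 ^ b * q) (2 ^ k * j.val) (2 ^ k))
          (fun j : Fin (2 ^ (b + 1 - (k + 1)) * q) => arc (2 ^ b * q) (2 ^ k * j.val + 2 ^ b * q) (2 ^ k)) y) := by
      rw [← hel]
      intro x y hxy
      exact hblk (fun h => hxy (hf h))
    rw [hel] at hD
    have hpr : ∀ j : Fin (2 ^ (b + 1 - (k + 1)) * q), prI (2 ^ b * q) (iarc (2 ^ b * q) (2 ^ k * j.val) (2 ^ k)) =
        arc (2 ^ b * q) (2 ^ (k + 1) * j.val) (2 ^ (k + 1)) := by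
      intro j
      rw [prI_iarc]
      congr 1
      · rw [pow_succ]; ring
      · rw [pow_succ]; ring
    have hIdis : Pairwise fun i j : Fin (2 ^ (b + 1 - (k + 1)) * q) =>
        Disjoint (iarc (2 ^ b * q) (2 ^ k * i.val) (2 ^ k)) (iarc (2 ^ b * q) (2 ^ k * j.val) (2 ^ k)) := by
      intro i j hij
      rw [Finset.disjoint_left]
      intro x hx hx'
      have hd : Disjoint (arc (2 ^ b * q) (2 ^ (k + 1) * i.val) (2 ^ (k + 1))) (arc (2 ^ b * q) (2 ^ (k + 1) * j.val) (2 ^ (k + 1))) :=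
        blocks_disj _ _ _ (n8_pow b (k + 1) q hk) i.isLt j.isLt (fun h => hij (Fin.ext h))
      rw [← hpr i, ← hpr j, Finset.disjoint_left] at hd
      have hx2 : pix (2 ^ b * q) ⟨2 * x.val, by have := x.isLt; omega⟩ = x := by
        ext
        change 2 * x.val / 2 = x.val
        omega
      apply hd (a := ⟨2 * x.val, by have := x.isLt; omega⟩)
      · rw [mem_prI, hx2]; exact hx
      · rw [mem_prI, hx2]; exact hx'
    have hstep := step2 ρ k (sd k) 1 (2 ^ k) (by positivity)
      (fun j : Fin (2 ^ (b + 1 - (k + 1)) * q) => iarc (2 ^ b * q) (2 ^ k * j.val) (2 ^ k)) hIdis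
      (fun a => by rw [card_iarc _ _ _ hle]) sel
      (fun j : Fin (2 ^ (b + 1 - (k + 1)) * q) => arc (2 ^ b * q) (2 ^ k * j.val) (2 ^ k))
      (fun j : Fin (2 ^ (b + 1 - (k + 1)) * q) => arc (2 ^ b * q) (2 ^ k * j.val + 2 ^ b * q) (2 ^ k))
      (fun a i hi => by
        change _ ∈ arc (2 ^ b * q) (2 ^ k * a.val) (2 ^ k)
        rw [← hsel1 a]; exact Finset.mem_image_of_mem _ hi)
      (fun a i hi => by
        change _ ∈ arc (2 ^ b * q) (2 ^ k * a.val + 2 ^ b * q) (2 ^ k)
        rw [← hsel2 a]; exact Finset.mem_image_of_mem _ hi)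
      hdis zero_le_one
      (fun a => by rw [card_iarc _ _ _ hle, card_arc _ _ _ (by omega)]; simp)
      (fun a => by rw [card_iarc _ _ _ hle, card_arc _ _ _ (by omega)]; simp)
      (sd_pos k).le (by rw [one_mul]; exact sd_le k) hD
    have hfin := DomB_sub ρ (k + 1) _ (sd (k + 1)) (sd_pos (k + 1)).le
      (by
        have := sd_step k
        rw [one_mul]
        push_cast
        exact this) _ (fun i j hij => by
          change Disjoint (prI (2 ^ b * q) (iarc (2 ^ b * q) (2 ^ k * i.val) (2 ^ k)))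
            (prI (2 ^ b * q) (iarc (2 ^ b * q) (2 ^ k * j.val) (2 ^ k)))
          rw [hpr i, hpr j]
          exact blocks_disj _ _ _ (n8_pow b (k + 1) q hk) i.isLt j.isLt (fun h => hij (Fin.ext h)))
      id Function.injective_id hstep
    have heq : (fun i : Fin (2 ^ (b + 1 - (k + 1)) * q) => prI (2 ^ b * q) (iarc (2 ^ b * q) (2 ^ k * (id i).val) (2 ^ k))) =
        (fun j : Fin (2 ^ (b + 1 - (k + 1)) * q) => arc (2 ^ b * q) (2 ^ (k + 1) * j.val) (2 ^ (k + 1))) := by
      funext j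
      exact hpr j
    rw [← heq]
    exact hfin

/-- the transitional level `b + 2` -/
theorem dom_base (b q : ℕ) (hq : Odd q) (hq3 : 3 ≤ q) (ρ : Perm (Fin (2 * (2 ^ b * q))) →* (E ≃ₗᵢ[ℝ] E))
    {κ : Type} [Fintype κ] (X : κ → ℕ)
    (hX : Pairwise fun x y => Disjoint (arc (2 ^ b * q) (2 ^ (b + 1) * X x) (2 ^ (b + 2)))
      (arc (2 ^ b * q) (2 ^ (b + 1) * X y) (2 ^ (b + 2)))) :
    DomB ρ (b + 2) (1 / 768) (fun a => arc (2 ^ b * q) (2 ^ (b + 1) * X a) (2 ^ (b + 2))) := by
  classical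
  have hq0 : 0 < q := by omega
  have h2b : 0 < 2 ^ b := by positivity
  have hle : 2 ^ (b + 1) ≤ 2 ^ b * q := by
    rw [pow_succ]
    exact Nat.mul_le_mul_left _ (by omega)
  have hpr : ∀ a : κ, prI (2 ^ b * q) (iarc (2 ^ b * q) (2 ^ b * X a) (2 ^ (b + 1))) =
      arc (2 ^ b * q) (2 ^ (b + 1) * X a) (2 ^ (b + 2)) := by
    intro a
    rw [prI_iarc]
    congr 1
    · rw [pow_succ]; ring
    · rw [pow_succ 2 (b + 1)]; ring
  have hIdis : Pairwise fun x y : κ => Disjoint (iarc (2 ^ b * q) (2 ^ b * X x) (2 ^ (b + 1)))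
      (iarc (2 ^ b * q) (2 ^ b * X y) (2 ^ (b + 1))) := by
    intro i j hij
    rw [Finset.disjoint_left]
    intro x hx hx'
    have hd := hX hij
    simp only at hd
    rw [← hpr i, ← hpr j, Finset.disjoint_left] at hd
    have hx2 : pix (2 ^ b * q) ⟨2 * x.val, by have := x.isLt; omega⟩ = x := by
      ext
      change 2 * x.val / 2 = x.val
      omega
    apply hd (a := ⟨2 * x.val, by have := x.isLt; omega⟩)
    · rw [mem_prI, hx2]; exact hx
    · rw [mem_prI, hx2]; exact hx'
  have hne : ∀ a : κ, (iarc (2 ^ b * q) (2 ^ b * X a) (2 ^ (b + 1))).Nonempty := by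
    intro a
    rw [← Finset.card_pos, card_iarc _ _ _ hle]
    positivity
  -- the good child
  have hgood : ∀ a : κ, ∃ (sel : Fin (2 ^ b * q) → Bool) (Y : Fin (2 ^ (b + 1 - (b + 1)) * q)),
      (iarc (2 ^ b * q) (2 ^ b * X a) (2 ^ (b + 1))).image (fun i => up (2 ^ b * q) i (sel i)) =
        arc (2 ^ b * q) (2 ^ (b + 1) * Y.val) (2 ^ (b + 1)) := by
    intro a
    obtain ⟨sel, h1, h2⟩ := arc_sel (2 ^ b * q) (2 ^ b * X a) (2 ^ (b + 1)) hle
    have hmm : 2 * (2 ^ b * q) = 2 ^ (b + 1) * q := by rw [pow_succ]; ring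
    have hQ : 2 ^ (b + 1 - (b + 1)) * q = q := by simp
    rcases Nat.even_or_odd (X a) with he | ho
    · obtain ⟨y, hy⟩ := he
      refine ⟨sel, ⟨y % q, by rw [hQ]; exact Nat.mod_lt _ hq0⟩, ?_⟩
      rw [h1]
      change _ = arc (2 ^ b * q) (2 ^ (b + 1) * (y % q)) (2 ^ (b + 1))
      rw [← arc_mod _ q _ _ _ hmm, hy]
      congr 1
      rw [pow_succ]; ring
    · obtain ⟨y, hy⟩ := ho.add_odd hq
      refine ⟨fun i => !sel i, ⟨y % q, by rw [hQ]; exact Nat.mod_lt _ hq0⟩, ?_⟩
      rw [h2]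
      change _ = arc (2 ^ b * q) (2 ^ (b + 1) * (y % q)) (2 ^ (b + 1))
      rw [← arc_mod _ q _ _ _ hmm, ← Nat.mul_add, hy]
      congr 1
      rw [pow_succ]; ring
  choose sel Y hsel using hgood
  have hYinj : Function.Injective Y := by
    intro a a' haa
    by_contra hne'
    have hd := hIdis hne'
    simp only at hd
    obtain ⟨i, hi⟩ := hne a
    have h1 : up (2 ^ b * q) i (sel a i) ∈ arc (2 ^ b * q) (2 ^ (b + 1) * (Y a).val) (2 ^ (b + 1)) := by
      rw [← hsel a]
      exact Finset.mem_image_of_mem _ hi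
    rw [haa, ← hsel a', Finset.mem_image] at h1
    obtain ⟨i', hi', h2⟩ := h1
    have h3 : i' = i := by
      rw [← pim_up _ i' (sel a' i'), h2, pim_up]
    rw [h3] at hi'
    exact Finset.disjoint_left.mp hd hi hi'
  have hex := dom_exact b q hq0 ρ (b + 1) le_rfl
  have hblk : Pairwise fun i j : Fin (2 ^ (b + 1 - (b + 1)) * q) =>
      Disjoint (arc (2 ^ b * q) (2 ^ (b + 1) * i.val) (2 ^ (b + 1))) (arc (2 ^ b * q) (2 ^ (b + 1) * j.val) (2 ^ (b + 1))) := by
    intro i j hij
    exact blocks_disj _ _ _ (n8_pow b (b + 1) q le_rfl) i.isLt j.isLt (fun h => hij (Fin.ext h))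
  have hsd : (1 : ℝ) / 192 ≤ sd (b + 1) := by
    unfold sd
    have : (0 : ℝ) < (1 / 2) ^ (b + 1) := by positivity
    linarith
  have hD := DomB_sub ρ (b + 1) (sd (b + 1)) (1 / 192) (by norm_num) hsd _ hblk Y hYinj hex
  have hfun : (fun a : κ => arc (2 ^ b * q) (2 ^ (b + 1) * (Y a).val) (2 ^ (b + 1))) =
      (fun a : κ => (iarc (2 ^ b * q) (2 ^ b * X a) (2 ^ (b + 1))).image (fun i => up (2 ^ b * q) i (sel a i))) := by
    funext a
    exact (hsel a).symm
  rw [hfun] at hD
  have hstep := step1 ρ (b + 1) (1 / 192) (fun a : κ => iarc (2 ^ b * q) (2 ^ b * X a) (2 ^ (b + 1))) hIdis hne sel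
    (by norm_num) le_rfl hD
  have heq : (fun a : κ => prI (2 ^ b * q) (iarc (2 ^ b * q) (2 ^ b * X a) (2 ^ (b + 1)))) =
      (fun a => arc (2 ^ b * q) (2 ^ (b + 1) * X a) (2 ^ (b + 2))) := by
    funext a
    exact hpr a
  rw [heq] at hstep
  rw [show (1 : ℝ) / 768 = 1 / 192 / 4 by norm_num]
  exact hstep

end Vale.Agent.P162
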