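import Vale.Agent.P162G.WinG

/-! P162G module M12: sequential integration over windows (analogue of `b4`). -/

open Equiv

set_option linter.unusedSectionVars false

namespace Vale.Agent.P162

variable {ι : Type} [Fintype ι] [DecidableEq ι]

/-- an average over `w + r` layers of a function of the first `w` layers -/
theorem b4g_EE_first (m w r : ℕ) (g : (ℕ → Fin m → Bool) → ℝ)
    (hg : ∀ ω ω' : ℕ → Fin m → Bool, (∀ i < w, ω i = ω' i) → g ω = g ω') :
    EE m (w + r) g = EE m w g := by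
  rw [EE_split]
  have h : ∀ ω : ℕ → Fin m → Bool,
      EE m r (fun ω' => g (fun i => if i < w then ω i else ω' (i - w))) = g ω := by
    intro ω
    have h2 : (fun ω' : ℕ → Fin m → Bool => g (fun i => if i < w then ω i else ω' (i - w))) =
        fun _ => g ω := by
      funext ω'
      refine hg _ _ (fun i hi => ?_)
      rw [if_pos hi]
    rw [h2, EE_const]
  simp only [h]

/-- one factor -/
noncomputable def b4g_fac (m : ℕ) (e : ℕ → ℕ) (μ : ι → Fin (2 * m)) (I : ℕ → Finset ι)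
    (x : ℕ → ι → Fin m) (i : ℕ) (ω : ℕ → Fin m → Bool) : ℝ :=
  ((cc (I i) (x i) (fun k => pim m ((RR m i ω)⁻¹ (μ k))) : ℕ) : ℝ) ^ (e i)

theorem b4g_fac_nonneg (m : ℕ) (e : ℕ → ℕ) (μ : ι → Fin (2 * m)) (I : ℕ → Finset ι)
    (x : ℕ → ι → Fin m) (i : ℕ) (ω : ℕ → Fin m → Bool) : 0 ≤ b4g_fac m e μ I x i ω :=
  pow_nonneg (Nat.cast_nonneg _) _

theorem b4g_fac_congr (m : ℕ) (e : ℕ → ℕ) (μ : ι → Fin (2 * m)) (I : ℕ → Finset ι)
    (x : ℕ → ι → Fin m) (i : ℕ) {ω ω' : ℕ → Fin m → Bool} (h : ∀ j < i, ω j = ω' j) :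
    b4g_fac m e μ I x i ω = b4g_fac m e μ I x i ω' := by
  unfold b4g_fac
  rw [RR_congr h]

theorem b4g_prod_congr (m : ℕ) (e : ℕ → ℕ) (μ : ι → Fin (2 * m)) (I : ℕ → Finset ι)
    (x : ℕ → ι → Fin m) (T s : ℕ) (hgap : ∀ i, s ≤ i → i < T → e i = 0)
    {ω ω' : ℕ → Fin m → Bool} (h : ∀ j < s, ω j = ω' j) :
    ∏ i ∈ Finset.range T, b4g_fac m e μ I x i ω = ∏ i ∈ Finset.range T, b4g_fac m e μ I x i ω' := by
  refine Finset.prod_congr rfl (fun i hi => ?_)
  rw [Finset.mem_range] at hi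
  by_cases his : s ≤ i
  · unfold b4g_fac
    rw [hgap i his hi, pow_zero, pow_zero]
  · exact b4g_fac_congr m e μ I x i (fun j hj => h j (by omega))

/-- integration over the window of one layer -/
theorem b4g_window (m s w r e p : ℕ) (hwr : w ≤ r)
    (μ : ι → Fin (2 * m)) (hμ : Function.Injective μ) (I : Finset ι) (x : ι → Fin m) (side : ι → Bool)
    (hx : Set.InjOn (fun k => (side k, x k)) (I : Set ι))
    (hc : ∀ k ∈ I, coneS m (s + w) {μ k} ⊆ half m (p + (if side k then m else 0)))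
    (ω : ℕ → Fin m → Bool) :
    EE m r (fun ω' => ((cc I x (fun k => pim m ((RR m (s + w)
        (fun i => if i < s then ω i else ω' (i - s)))⁻¹ (μ k))) : ℕ) : ℝ) ^ e)
      ≤ (1 + ((2 : ℝ) ^ e - 1) * (3 / 4) ^ w) ^ (full I x) := by
  have h1 : ∀ ω' : ℕ → Fin m → Bool, ∀ k, (RR m (s + w)
      (fun i => if i < s then ω i else ω' (i - s)))⁻¹ (μ k) =
      (RR m w ω')⁻¹ ((RR m s ω)⁻¹ (μ k)) := by
    intro ω' k
    rw [RR_add, mul_inv_rev, Perm.mul_apply]
    have e1 : RR m s (fun i => if i < s then ω i else ω' (i - s)) = RR m s ω :=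
      RR_congr (fun i hi => by rw [if_pos hi])
    have e2 : RR m w (fun i => (fun i => if i < s then ω i else ω' (i - s)) (s + i)) = RR m w ω' := by
      refine RR_congr (fun i _ => ?_)
      simp only
      rw [if_neg (by omega), Nat.add_sub_cancel_left]
    rw [e1, e2]
  simp only [h1]
  obtain ⟨r', rfl⟩ := Nat.exists_eq_add_of_le hwr
  rw [b4g_EE_first m w r' (fun ω' => ((cc I x (fun k => pim m ((RR m w ω')⁻¹
    ((RR m s ω)⁻¹ (μ k)))) : ℕ) : ℝ) ^ e) (fun ω1 ω2 h => by simp only [RR_congr h])]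
  refine winG m w e p I (fun k => (RR m s ω)⁻¹ (μ k)) x side hx ?_ ?_
  · intro k _ k' _ hkk
    exact hμ ((RR m s ω)⁻¹.injective hkk)
  · intro k hk
    refine Finset.Subset.trans ?_ (hc k hk)
    rw [Nat.add_comm s w, coneS_add]
    refine coneS_mono m w ?_
    rw [Finset.singleton_subset_iff, mem_coneS]
    refine ⟨ω, ?_⟩
    rw [Finset.mem_singleton, ← Perm.mul_apply, mul_inv_cancel, Perm.one_apply]

theorem b4g_main (m T t : ℕ) (hTt : T ≤ t) (e win : ℕ → ℕ) (hwin : ∀ i, win i ≤ i)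
    (hgap : ∀ i, e i ≠ 0 → ∀ i', i - win i ≤ i' → i' < i → e i' = 0)
    (μ : ι → Fin (2 * m)) (hμ : Function.Injective μ) (I : ℕ → Finset ι) (x : ℕ → ι → Fin m) (side : ℕ → ι → Bool)
    (p : ℕ → ℕ) (hx : ∀ i < T, Set.InjOn (fun k => (side i k, x i k)) (I i : Set ι))
    (hc : ∀ i < T, ∀ k ∈ I i, coneS m i {μ k} ⊆ half m (p i + (if side i k then m else 0))) :
    EE m t (fun ω => ∏ i ∈ Finset.range T, b4g_fac m e μ I x i ω)
      ≤ ∏ i ∈ Finset.range T, (1 + ((2 : ℝ) ^ (e i) - 1) * (3 / 4) ^ (win i)) ^ (full (I i) (x i)) := by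
  induction T with
  | zero =>
    simp only [Finset.range_zero, Finset.prod_empty]
    exact le_of_eq (EE_const 1)
  | succ T ih =>
    have ih' := ih (by omega) (fun i hi => hx i (by omega)) (fun i hi => hc i (by omega))
    have hB0 : (0 : ℝ) ≤ (1 + ((2 : ℝ) ^ (e T) - 1) * (3 / 4) ^ (win T)) ^ (full (I T) (x T)) := by
      have h1 : (1 : ℝ) ≤ 2 ^ (e T) := one_le_pow₀ (by norm_num)
      have h2 : (0 : ℝ) ≤ ((2 : ℝ) ^ (e T) - 1) * (3 / 4) ^ (win T) :=
        mul_nonneg (by linarith) (by positivity)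
      exact pow_nonneg (by linarith) _
    rw [Finset.prod_range_succ (fun i =>
      (1 + ((2 : ℝ) ^ (e i) - 1) * (3 / 4) ^ (win i)) ^ (full (I i) (x i)))]
    simp only [Finset.prod_range_succ (fun i => b4g_fac m e μ I x i _)]
    by_cases he : e T = 0
    · have h1 : ∀ ω : ℕ → Fin m → Bool, b4g_fac m e μ I x T ω = 1 := by
        intro ω
        unfold b4g_fac
        rw [he, pow_zero]
      simp only [h1, mul_one]
      rw [he, pow_zero, sub_self, zero_mul, add_zero, one_pow, mul_one]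
      exact ih'
    · set w := win T with hw
      have hwT : w ≤ T := hwin T
      obtain ⟨s, hs⟩ := Nat.exists_eq_add_of_le' hwT
      have hst : s ≤ t := by omega
      obtain ⟨r, rfl⟩ := Nat.exists_eq_add_of_le hst
      have hgap' : ∀ i, s ≤ i → i < T → e i = 0 := fun i h1 h2 => hgap T he i (by omega) h2
      have hP : ∀ ω ω' : ℕ → Fin m → Bool,
          ∏ i ∈ Finset.range T, b4g_fac m e μ I x i (fun i => if i < s then ω i else ω' (i - s)) =
          ∏ i ∈ Finset.range T, b4g_fac m e μ I x i ω := by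
        intro ω ω'
        refine b4g_prod_congr m e μ I x T s hgap' (fun j hj => ?_)
        rw [if_pos hj]
      rw [EE_split] at ih' ⊢
      simp only [hP, EE_const] at ih' ⊢
      simp only [EE_const_mul]
      refine le_trans ?_ (mul_le_mul_of_nonneg_right ih' hB0)
      rw [← EE_mul_const]
      refine EE_mono (fun ω => ?_)
      refine mul_le_mul_of_nonneg_left ?_
        (Finset.prod_nonneg (fun i _ => b4g_fac_nonneg m e μ I x i ω))
      have hcT : ∀ k ∈ I T, coneS m (s + w) {μ k} ⊆ half m (p T + (if side T k then m else 0)) := by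
        intro k hk
        rw [← hs]
        exact hc T (by omega) k hk
      have h := b4g_window m s w r (e T) (p T) (by omega) μ hμ (I T) (x T) (side T)
        (hx T (by omega)) hcT ω
      refine le_trans (le_of_eq ?_) h
      unfold b4g_fac
      rw [← hs]

theorem b4G (m T t : ℕ) (hTt : T ≤ t) (e win : ℕ → ℕ) (hwin : ∀ i, win i ≤ i)
    (hgap : ∀ i, e i ≠ 0 → ∀ i', i - win i ≤ i' → i' < i → e i' = 0)
    (μ : ι → Fin (2 * m)) (hμ : Function.Injective μ) (I : ℕ → Finset ι) (x : ℕ → ι → Fin m) (side : ℕ → ι → Bool)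
    (p : ℕ → ℕ) (hx : ∀ i < T, Set.InjOn (fun k => (side i k, x i k)) (I i : Set ι))
    (hc : ∀ i < T, ∀ k ∈ I i, coneS m i {μ k} ⊆ half m (p i + (if side i k then m else 0))) :
    EE m t (fun ω => ∏ i ∈ Finset.range T,
      ((cc (I i) (x i) (fun k => pim m ((RR m i ω)⁻¹ (μ k))) : ℕ) : ℝ) ^ (e i))
      ≤ ∏ i ∈ Finset.range T, (1 + ((2 : ℝ) ^ (e i) - 1) * (3 / 4) ^ (win i)) ^ (full (I i) (x i)) :=
  b4g_main m T t hTt e win hwin hgap μ hμ I x side p hx hc

end Vale.Agent.P162
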