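import Vale.Agent.P162G.SA

/-! P162G module M15: the bad layers (Hölder). -/

open Equiv

set_option linter.unusedSectionVars false

namespace Vale.Agent.P162

variable {ι : Type} [Fintype ι] [DecidableEq ι]

/-- AM-GM for powers of two -/
theorem bad_amgm (S : Finset ℕ) (hS : S.Nonempty) (ε : ℝ) (A B : ℕ → ℕ) :
    ∏ i ∈ S, (2 : ℝ) ^ (ε * ((A i : ℝ) + (B i : ℝ))) ≤
      ∑ i ∈ S, (S.card : ℝ)⁻¹ * (1 / 2 * (((2 : ℝ) ^ (2 * (S.card : ℝ) * ε)) ^ (A i) +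
        ((2 : ℝ) ^ (2 * (S.card : ℝ) * ε)) ^ (B i))) := by
  have hn : S.card ≠ 0 := Finset.card_ne_zero.mpr hS
  have hn0 : (S.card : ℝ) ≠ 0 := by exact_mod_cast hn
  have h1 := Real.geom_mean_le_arith_mean_weighted S (fun _ => (S.card : ℝ)⁻¹)
    (fun i => ((2 : ℝ) ^ (ε * ((A i : ℝ) + (B i : ℝ)))) ^ S.card)
    (fun _ _ => by positivity) (by
      rw [Finset.sum_const, nsmul_eq_mul]
      exact mul_inv_cancel₀ hn0) (fun _ _ => by positivity)
  have h2 : ∀ i ∈ S, (((2 : ℝ) ^ (ε * ((A i : ℝ) + (B i : ℝ)))) ^ S.card) ^ (S.card : ℝ)⁻¹ =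
      (2 : ℝ) ^ (ε * ((A i : ℝ) + (B i : ℝ))) := fun i _ =>
    Real.pow_rpow_inv_natCast (by positivity) hn
  rw [Finset.prod_congr rfl h2] at h1
  refine h1.trans (Finset.sum_le_sum fun i _ => ?_)
  refine mul_le_mul_of_nonneg_left ?_ (by positivity)
  have e1 : ((2 : ℝ) ^ (ε * ((A i : ℝ) + (B i : ℝ)))) ^ S.card =
      (2 : ℝ) ^ ((S.card : ℝ) * ε * A i) * (2 : ℝ) ^ ((S.card : ℝ) * ε * B i) := by
    rw [← Real.rpow_natCast, ← Real.rpow_mul (by norm_num), ← Real.rpow_add (by norm_num)]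
    congr 1
    ring
  have e2 : ∀ k : ℕ, ((2 : ℝ) ^ (2 * (S.card : ℝ) * ε)) ^ k =
      ((2 : ℝ) ^ ((S.card : ℝ) * ε * k)) ^ 2 := by
    intro k
    rw [← Real.rpow_natCast, ← Real.rpow_mul (by norm_num), ← Real.rpow_natCast,
      ← Real.rpow_mul (by norm_num)]
    congr 1
    push_cast
    ring
  rw [e1, e2, e2]
  nlinarith [sq_nonneg ((2 : ℝ) ^ ((S.card : ℝ) * ε * A i) - (2 : ℝ) ^ ((S.card : ℝ) * ε * B i))]

theorem bad_main (m t N : ℕ) (hm : 0 < m) (hN : 1 ≤ N) (S : Finset ℕ) (hS : ∀ i ∈ S, i ≤ t ∧ 2 * m ≤ 2 ^ (t - i))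
    (hSN : S.card ≤ N) (ε : ℝ) (hε : 0 ≤ ε) (a : ι → Fin (2 * m)) (ha : Function.Injective a) :
    EE m t (fun ω' => EE m t (fun ω => ∏ i ∈ S, (2 : ℝ) ^ (ε *
      ((full Finset.univ (fun k => pim m ((RR m i ω')⁻¹ (RR m t ω' (a k)))) : ℝ) +
       (full Finset.univ (fun k => pim m ((RR m i ω)⁻¹ (RR m t ω' (a k)))) : ℝ)))))
      ≤ Real.exp (4 * (2 : ℝ) ^ (4 * N * ε) * (Fintype.card ι : ℝ) ^ 2 / (2 * m)) := by
  have hm0 : (0 : ℝ) < m := by exact_mod_cast hm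
  rcases S.eq_empty_or_nonempty with hSe | hSne
  · subst hSe
    simp only [Finset.prod_empty]
    rw [EE_const, EE_const]
    exact Real.one_le_exp (by positivity)
  obtain ⟨θ, hθ⟩ : ∃ θ, θ = (2 : ℝ) ^ (2 * (S.card : ℝ) * ε) := ⟨_, rfl⟩
  have hθ1 : 1 ≤ θ := by
    rw [hθ]
    exact Real.one_le_rpow (by norm_num) (by positivity)
  have hθ2 : θ ^ 2 ≤ (2 : ℝ) ^ (4 * N * ε) := by
    rw [hθ, ← Real.rpow_natCast, ← Real.rpow_mul (by norm_num)]
    apply Real.rpow_le_rpow_of_exponent_le (by norm_num)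
    have : (S.card : ℝ) ≤ N := by exact_mod_cast hSN
    push_cast
    nlinarith
  have hexp : Real.exp (4 * θ ^ 2 * (Fintype.card ι : ℝ) ^ 2 / (2 * m)) ≤
      Real.exp (4 * (2 : ℝ) ^ (4 * N * ε) * (Fintype.card ι : ℝ) ^ 2 / (2 * m)) := by
    apply Real.exp_le_exp.mpr
    gcongr
  refine le_trans ?_ hexp
  have hn0 : (S.card : ℝ) ≠ 0 := by exact_mod_cast Finset.card_ne_zero.mpr hSne
  -- pointwise AM-GM
  have h1 : EE m t (fun ω' => EE m t (fun ω => ∏ i ∈ S, (2 : ℝ) ^ (ε *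
      ((full Finset.univ (fun k => pim m ((RR m i ω')⁻¹ (RR m t ω' (a k)))) : ℝ) +
       (full Finset.univ (fun k => pim m ((RR m i ω)⁻¹ (RR m t ω' (a k)))) : ℝ))))) ≤
      EE m t (fun ω' => EE m t (fun ω => ∑ i ∈ S, (S.card : ℝ)⁻¹ * (1 / 2 *
        (θ ^ (full Finset.univ (fun k => pim m ((RR m i ω')⁻¹ (RR m t ω' (a k))))) +
         θ ^ (full Finset.univ (fun k => pim m ((RR m i ω)⁻¹ (RR m t ω' (a k))))))))) := by
    refine EE_mono fun ω' => EE_mono fun ω => ?_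
    rw [hθ]
    exact bad_amgm S hSne ε _ _
  refine h1.trans ?_
  have h2 : ∀ i ∈ S, EE m t (fun ω' =>
      θ ^ (full Finset.univ (fun k => pim m ((RR m i ω')⁻¹ (RR m t ω' (a k)))))) ≤
      Real.exp (4 * θ ^ 2 * (Fintype.card ι : ℝ) ^ 2 / (2 * m)) := by
    intro i hi
    have := sparse_adj m i t hm (hS i hi).1 (hS i hi).2 a ha 1 θ hθ1
    simpa using this
  have h3 : ∀ i ∈ S, EE m t (fun ω' => EE m t (fun ω =>
      θ ^ (full Finset.univ (fun k => pim m ((RR m i ω)⁻¹ (RR m t ω' (a k))))))) ≤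
      Real.exp (4 * θ ^ 2 * (Fintype.card ι : ℝ) ^ 2 / (2 * m)) := by
    intro i hi
    rw [EE_comm]
    rw [← EE_const (m := m) (t := t) (Real.exp (4 * θ ^ 2 * (Fintype.card ι : ℝ) ^ 2 / (2 * m)))]
    refine EE_mono fun ω => ?_
    have := sparse_adj m 0 t hm (Nat.zero_le _)
      ((hS i hi).2.trans (Nat.pow_le_pow_right (by norm_num) (by omega))) a ha
      (RR m i ω)⁻¹ θ hθ1
    simpa [RR] using this
  have e1 : EE m t (fun ω' => EE m t (fun ω => ∑ i ∈ S, (S.card : ℝ)⁻¹ * (1 / 2 *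
        (θ ^ (full Finset.univ (fun k => pim m ((RR m i ω')⁻¹ (RR m t ω' (a k))))) +
         θ ^ (full Finset.univ (fun k => pim m ((RR m i ω)⁻¹ (RR m t ω' (a k))))))))) =
      ∑ i ∈ S, (S.card : ℝ)⁻¹ * (1 / 2 * (EE m t (fun ω' =>
        θ ^ (full Finset.univ (fun k => pim m ((RR m i ω')⁻¹ (RR m t ω' (a k)))))) +
        EE m t (fun ω' => EE m t (fun ω =>
          θ ^ (full Finset.univ (fun k => pim m ((RR m i ω)⁻¹ (RR m t ω' (a k))))))))) := by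
    have e2 : ∀ f g : (ℕ → Fin m → Bool) → ℝ, EE m t (fun ω => f ω + g ω) =
        EE m t f + EE m t g := by
      intro f g
      have := EE_sum (m := m) (t := t) (Finset.univ : Finset Bool)
        (fun b ω => if b then f ω else g ω)
      simpa using this
    have e3 : ∀ ω', EE m t (fun ω => ∑ i ∈ S, (S.card : ℝ)⁻¹ * (1 / 2 *
        (θ ^ (full Finset.univ (fun k => pim m ((RR m i ω')⁻¹ (RR m t ω' (a k))))) +
         θ ^ (full Finset.univ (fun k => pim m ((RR m i ω)⁻¹ (RR m t ω' (a k)))))))) =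
        ∑ i ∈ S, (S.card : ℝ)⁻¹ * (1 / 2 *
        (θ ^ (full Finset.univ (fun k => pim m ((RR m i ω')⁻¹ (RR m t ω' (a k))))) +
         EE m t (fun ω =>
          θ ^ (full Finset.univ (fun k => pim m ((RR m i ω)⁻¹ (RR m t ω' (a k)))))))) := by
      intro ω'
      rw [EE_sum]
      refine Finset.sum_congr rfl fun i _ => ?_
      rw [EE_const_mul, EE_const_mul, e2, EE_const]
    rw [show (fun ω' => EE m t (fun ω => ∑ i ∈ S, (S.card : ℝ)⁻¹ * (1 / 2 *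
        (θ ^ (full Finset.univ (fun k => pim m ((RR m i ω')⁻¹ (RR m t ω' (a k))))) +
         θ ^ (full Finset.univ (fun k => pim m ((RR m i ω)⁻¹ (RR m t ω' (a k))))))))) = _ from
      funext e3, EE_sum]
    refine Finset.sum_congr rfl fun i _ => ?_
    rw [EE_const_mul, EE_const_mul, e2]
  rw [e1]
  calc ∑ i ∈ S, (S.card : ℝ)⁻¹ * (1 / 2 * (EE m t (fun ω' =>
        θ ^ (full Finset.univ (fun k => pim m ((RR m i ω')⁻¹ (RR m t ω' (a k)))))) +
        EE m t (fun ω' => EE m t (fun ω =>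
          θ ^ (full Finset.univ (fun k => pim m ((RR m i ω)⁻¹ (RR m t ω' (a k)))))))))
      ≤ ∑ i ∈ S, (S.card : ℝ)⁻¹ * Real.exp (4 * θ ^ 2 * (Fintype.card ι : ℝ) ^ 2 / (2 * m)) := by
        refine Finset.sum_le_sum fun i hi => ?_
        refine mul_le_mul_of_nonneg_left ?_ (by positivity)
        have a1 := h2 i hi
        have a2 := h3 i hi
        linarith
    _ = Real.exp (4 * θ ^ 2 * (Fintype.card ι : ℝ) ^ 2 / (2 * m)) := by
        rw [Finset.sum_const, nsmul_eq_mul, ← mul_assoc, mul_inv_cancel₀ hn0, one_mul]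

end Vale.Agent.P162
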