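import Vale.Agent.P162G.K1
import Vale.Agent.P162.Small

/-! P162G module M13: sparse adjacency. -/

open Equiv

set_option linter.unusedSectionVars false

namespace Vale.Agent.P162

variable {ι : Type} [Fintype ι] [DecidableEq ι]

private theorem sa_bool (P : Finset Bool) (u : Bool → ℝ) :
    ∏ p ∈ P, u (xor false p) + ∏ p ∈ P, u (xor true p) ≤ 2 * ((u false + u true) / 2) ^ P.card := by
  by_cases h0 : false ∈ P <;> by_cases h1 : true ∈ P
  · have : P = Finset.univ := by
      ext b; cases b <;> simp [h0, h1]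
    rw [this]
    simp only [Fintype.prod_bool, Finset.card_univ, Fintype.card_bool]
    simp
    nlinarith [sq_nonneg (u false - u true)]
  · have : P = {false} := by
      ext b; cases b <;> simp [h0, h1]
    rw [this]
    simp
    linarith
  · have : P = {true} := by
      ext b; cases b <;> simp [h0, h1]
    rw [this]
    simp
    linarith
  · have : P = ∅ := by
      ext b; cases b <;> simp [h0, h1]
    rw [this]
    simp
    norm_num

private theorem sa_pos_eq (m : ℕ) (x y : Fin (2 * m)) (h1 : pix m x = pix m y) (h2 : par m x = par m y) : x = y := by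
  unfold pix at h1
  unfold par at h2
  have h3 := congrArg Fin.val h1
  simp only at h3
  have h4 : (x.val % 2 = 1) ↔ (y.val % 2 = 1) := by
    simpa using h2
  ext
  omega

private theorem sa_ch (m : ℕ) (x : Fin (2 * m)) (b : Bool) :
    ch m x b = ⟨(pix m x).val + (if b then m else 0), by
      have := (pix m x).isLt
      split_ifs <;> omega⟩ := by
  unfold ch pix
  rfl

/-- one layer -/
private theorem sa_layer (m : ℕ) (a : ι → Fin (2 * m)) (ha : Function.Injective a) (F : Fin (2 * m) → ℝ)
    (hF : ∀ v, 0 ≤ F v) :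
    av (fun c : Fin m → Bool => ∏ k, F (St m c (a k))) ≤
      ∏ k, ((F (ch m (a k) false) + F (ch m (a k) true)) / 2) := by
  let u : Fin m → Bool → ℝ := fun i b => F ⟨i.val + (if b then m else 0), by
      have := i.isLt
      split_ifs <;> omega⟩
  have hu : ∀ (x : Fin (2 * m)) (b : Bool), F (ch m x b) = u (pix m x) b := by
    intro x b
    rw [sa_ch]
  let P : Fin m → Finset Bool := fun i => (Finset.univ.filter (fun k => pix m (a k) = i)).image (fun k => par m (a k))
  have hinj : ∀ i : Fin m, Set.InjOn (fun k => par m (a k)) ((Finset.univ.filter (fun k => pix m (a k) = i) : Finset ι) : Set ι) := by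
    intro i k hk k' hk' hkk
    have h1 := (Finset.mem_filter.mp (Finset.mem_coe.mp hk)).2
    have h2 := (Finset.mem_filter.mp (Finset.mem_coe.mp hk')).2
    exact ha (sa_pos_eq m _ _ (h1.trans h2.symm) hkk)
  have hL : ∀ c : Fin m → Bool, ∏ k, F (St m c (a k)) = ∏ i ∈ (Finset.univ : Finset (Fin m)), ∏ p ∈ P i, u i (xor (c i) p) := by
    intro c
    rw [← Finset.prod_fiberwise Finset.univ (fun k => pix m (a k)) (fun k => F (St m c (a k)))]
    refine Finset.prod_congr rfl fun i _ => ?_
    rw [Finset.prod_image (hinj i)]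
    refine Finset.prod_congr rfl fun k hk => ?_
    have h1 := (Finset.mem_filter.mp hk).2
    rw [St_apply, hu, h1]
  have hR : ∏ k, ((F (ch m (a k) false) + F (ch m (a k) true)) / 2) = ∏ i ∈ (Finset.univ : Finset (Fin m)), ((u i false + u i true) / 2) ^ (P i).card := by
    rw [← Finset.prod_fiberwise Finset.univ (fun k => pix m (a k)) (fun k => (F (ch m (a k) false) + F (ch m (a k) true)) / 2)]
    refine Finset.prod_congr rfl fun i _ => ?_
    rw [Finset.card_image_of_injOn (hinj i), ← Finset.prod_const]
    refine Finset.prod_congr rfl fun k hk => ?_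
    have h1 := (Finset.mem_filter.mp hk).2
    rw [hu, hu, h1]
  rw [hR]
  have h5 := sm_sum_prod (Finset.univ : Finset (Fin m)) (fun i b _ => ∏ p ∈ P i, u i (xor b p))
    (fun i => ((u i false + u i true) / 2) ^ (P i).card)
    (fun i b c => Finset.prod_nonneg fun p _ => hF _) (fun _ _ _ _ _ => rfl)
    (fun i _ c => sa_bool (P i) (u i))
  refine le_trans (le_of_eq ?_) h5
  congr 1
  funext c
  exact hL c

private theorem sa_layer1 (m : ℕ) (x : Fin (2 * m)) (F : Fin (2 * m) → ℝ) :
    av (fun c : Fin m → Bool => F (St m c x)) = (F (ch m x false) + F (ch m x true)) / 2 := by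
  have h1 : ∀ c : Fin m → Bool, F (St m c x) + F (St m (Function.update c (pix m x) (! (c (pix m x)))) x) =
      F (ch m x false) + F (ch m x true) := by
    intro c
    rw [St_apply, St_apply, Function.update_self]
    cases c (pix m x) <;> cases par m x <;> simp [add_comm]
  let e : (Fin m → Bool) ≃ (Fin m → Bool) :=
    { toFun := fun c => Function.update c (pix m x) (! (c (pix m x)))
      invFun := fun c => Function.update c (pix m x) (! (c (pix m x)))
      left_inv := fun c => by
        funext j
        by_cases hj : j = pix m x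
        · subst hj; simp
        · simp [Function.update_of_ne hj]
      right_inv := fun c => by
        funext j
        by_cases hj : j = pix m x
        · subst hj; simp
        · simp [Function.update_of_ne hj] }
  have h2 : ∑ c : Fin m → Bool, F (St m c x) = ∑ c : Fin m → Bool, F (St m (Function.update c (pix m x) (! (c (pix m x)))) x) :=
    (Equiv.sum_comp e (fun c => F (St m c x))).symm
  have h3 : ∑ c : Fin m → Bool, F (St m c x) + ∑ c : Fin m → Bool, F (St m c x) =
      (Fintype.card (Fin m → Bool) : ℝ) * (F (ch m x false) + F (ch m x true)) := by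
    nth_rewrite 2 [h2]
    rw [← Finset.sum_add_distrib, Finset.sum_congr rfl fun c _ => h1 c, Finset.sum_const, nsmul_eq_mul, Finset.card_univ]
  have h4 : (0 : ℝ) < (Fintype.card (Fin m → Bool) : ℝ) := by exact_mod_cast Fintype.card_pos
  unfold av
  rw [div_eq_iff h4.ne']
  linarith

private theorem sa_RR_succ (m t : ℕ) (ω : ℕ → Fin m → Bool) (c : Fin m → Bool) (x : Fin (2 * m)) :
    RR m (t + 1) (Function.update ω t c) x = RR m t ω (St m c x) := by
  have h1 : RR m (t + 1) (Function.update ω t c) =
      RR m t (Function.update ω t c) * St m (Function.update ω t c t) := rfl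
  have h2 : RR m t (Function.update ω t c) = RR m t ω := by
    apply RR_congr
    intro i hi
    rw [Function.update_of_ne (by omega)]
  rw [h1, h2, Function.update_self]
  rfl

/-- product test functions: negative dependence of the swap network -/
theorem hitG (m t : ℕ) (a : ι → Fin (2 * m)) (ha : Function.Injective a) (f : Fin (2 * m) → ℝ) (hf : ∀ v, 0 ≤ f v) :
    EE m t (fun ω => ∏ k, f (RR m t ω (a k))) ≤ ∏ k, EE m t (fun ω => f (RR m t ω (a k))) := by
  induction t generalizing a with
  | zero =>
    rw [EE_zero]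
    apply le_of_eq
    refine Finset.prod_congr rfl fun k _ => ?_
    rw [EE_zero]
  | succ t ih =>
    have e1 : ∀ k, EE m (t + 1) (fun ω => f (RR m (t + 1) ω (a k))) =
        (EE m t (fun ω => f (RR m t ω (ch m (a k) false))) + EE m t (fun ω => f (RR m t ω (ch m (a k) true)))) / 2 := by
      intro k
      rw [EE_succ, ← sa_layer1 m (a k) (fun v => EE m t (fun ω => f (RR m t ω v)))]
      congr 1
      funext c
      congr 1
      funext ω
      rw [sa_RR_succ]
    rw [Finset.prod_congr rfl fun k _ => e1 k]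
    refine le_trans ?_ (sa_layer m a ha (fun v => EE m t (fun ω => f (RR m t ω v))) (fun v => EE_nonneg fun ω => hf _))
    rw [EE_succ]
    refine Avg.mono fun c => ?_
    have h2 := ih (fun k => St m c (a k)) (fun k k' h => ha ((St m c).injective h))
    refine le_trans (le_of_eq ?_) h2
    congr 1
    funext ω
    refine Finset.prod_congr rfl fun k _ => ?_
    rw [sa_RR_succ]


/-- randomized form of the weight of full classes -/
private theorem sa_expand {γ : Type} [Fintype γ] [DecidableEq γ] (x : ι → γ)
    (hx : ∀ z, (Finset.univ.filter (fun k => x k = z)).card ≤ 2) (θ : ℝ) (hθ : 1 ≤ θ) :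
    θ ^ (full Finset.univ x) = ∑ S ∈ (Finset.univ : Finset γ).powerset,
      ((∏ _i ∈ S, (1 / θ)) * ∏ _i ∈ Finset.univ \ S, (1 - 1 / θ)) * ∏ k, (if x k ∈ S then θ else 0) := by
  have hθ0 : θ ≠ 0 := by linarith
  have h1 : θ ^ (full Finset.univ x) = ∏ z : γ, ((1 / θ) * θ ^ (Finset.univ.filter (fun k => x k = z)).card +
      (1 - 1 / θ) * 0 ^ (Finset.univ.filter (fun k => x k = z)).card) := by
    unfold full
    rw [← Finset.prod_const, Finset.prod_filter]
    refine Finset.prod_congr rfl fun z _ => ?_
    have h2 := hx z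
    generalize (Finset.univ.filter (fun k => x k = z)).card = n at h2 ⊢
    interval_cases n
    · simp
    · simp [hθ0]
    · rw [if_pos (le_refl 2)]
      field_simp
      simp
  rw [h1, Finset.prod_add]
  refine Finset.sum_congr rfl fun S _ => ?_
  rw [Finset.prod_mul_distrib, Finset.prod_mul_distrib]
  have h3 : ∏ k, (if x k ∈ S then θ else 0) =
      (∏ z ∈ S, θ ^ (Finset.univ.filter (fun k => x k = z)).card) *
        ∏ z ∈ Finset.univ \ S, (0 : ℝ) ^ (Finset.univ.filter (fun k => x k = z)).card := by
    rw [← Finset.prod_fiberwise Finset.univ x (fun k => if x k ∈ S then θ else (0 : ℝ))]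
    rw [← Finset.prod_mul_prod_compl S, Finset.compl_eq_univ_sdiff]
    congr 1
    · refine Finset.prod_congr rfl fun z hz => ?_
      rw [← Finset.prod_const]
      refine Finset.prod_congr rfl fun k hk => ?_
      rw [(Finset.mem_filter.mp hk).2, if_pos hz]
    · refine Finset.prod_congr rfl fun z hz => ?_
      rw [← Finset.prod_const]
      refine Finset.prod_congr rfl fun k hk => ?_
      rw [(Finset.mem_filter.mp hk).2, if_neg (Finset.mem_sdiff.mp hz).2]
  rw [h3]
  ring

private theorem sa_exp (θ b : ℝ) (hθ : 1 ≤ θ) (hb : 0 ≤ b) (h : θ * b ≤ 1) :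
    (1 / θ) * Real.exp (b * (θ - 1)) + (1 - 1 / θ) * Real.exp (- b) ≤ Real.exp (b ^ 2 * (θ - 1)) := by
  have hθ0 : 0 < θ := by linarith
  have h1 : Real.exp (b * (θ - 1)) ≤ 1 + b * (θ - 1) + (b * (θ - 1)) ^ 2 := by
    have h2 : |b * (θ - 1)| ≤ 1 := by
      rw [abs_of_nonneg (mul_nonneg hb (by linarith))]
      nlinarith
    have h3 := (abs_le.mp (Real.abs_exp_sub_one_sub_id_le h2)).2
    linarith
  have h2 : Real.exp (- b) ≤ 1 + (- b) + (- b) ^ 2 := by
    have h2 : |- b| ≤ 1 := by
      rw [abs_neg, abs_of_nonneg hb]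
      nlinarith
    have h3 := (abs_le.mp (Real.abs_exp_sub_one_sub_id_le h2)).2
    linarith
  have h3 : 0 ≤ 1 / θ := by positivity
  have h4 : 0 ≤ 1 - 1 / θ := by
    rw [sub_nonneg, div_le_one hθ0]
    exact hθ
  have h5 := mul_le_mul_of_nonneg_left h1 h3
  have h6 := mul_le_mul_of_nonneg_left h2 h4
  have h7 : (1 / θ) * (1 + b * (θ - 1) + (b * (θ - 1)) ^ 2) + (1 - 1 / θ) * (1 + (- b) + (- b) ^ 2) =
      b ^ 2 * (θ - 1) + 1 := by
    field_simp
    ring
  have h8 := Real.add_one_le_exp (b ^ 2 * (θ - 1))
  linarith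

private theorem sa_pim_card (m : ℕ) (z : Fin m) : ((Finset.univ : Finset (Fin (2 * m))).filter (fun v => pim m v = z)).card ≤ 2 := by
  have hz := z.isLt
  have h1 : ((Finset.univ : Finset (Fin (2 * m))).filter (fun v => pim m v = z)) ⊆
      {(⟨z.val, by omega⟩ : Fin (2 * m)), (⟨z.val + m, by omega⟩ : Fin (2 * m))} := by
    intro v hv
    have h2 := (Finset.mem_filter.mp hv).2
    have h3 := congrArg Fin.val h2
    unfold pim at h3
    simp only at h3
    have hv2 := v.isLt
    rw [Finset.mem_insert, Finset.mem_singleton]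
    by_cases h4 : v.val < m
    · left
      ext
      rw [Nat.mod_eq_of_lt h4] at h3
      exact h3
    · right
      ext
      have h5 : v.val % m = v.val - m := by
        rw [Nat.mod_eq_sub_mod (by omega), Nat.mod_eq_of_lt (by omega)]
      simp only
      omega
  exact (Finset.card_le_card h1).trans Finset.card_le_two

private theorem sa_full_le {γ : Type} [Fintype γ] [DecidableEq γ] (x : ι → γ) : 2 * full Finset.univ x ≤ Fintype.card ι := by
  unfold full
  have h1 : Fintype.card ι = ∑ z : γ, (Finset.univ.filter (fun k => x k = z)).card := by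
    rw [← Finset.card_univ]
    exact Finset.card_eq_sum_card_fiberwise (fun k _ => Finset.mem_coe.mpr (Finset.mem_univ _))
  rw [h1]
  refine le_trans ?_ (Finset.sum_le_sum_of_subset (Finset.filter_subset (fun z : γ => 2 ≤ (Finset.univ.filter (fun k => x k = z)).card) Finset.univ))
  rw [mul_comm, ← smul_eq_mul, ← Finset.sum_const]
  exact Finset.sum_le_sum fun z hz => (Finset.mem_filter.mp hz).2

/-- the bound for a network of `r` layers -/
private theorem sa_main (m r : ℕ) (hm : 0 < m) (h : 2 * m ≤ 2 ^ r) (a : ι → Fin (2 * m))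
    (ha : Function.Injective a) (g : Perm (Fin (2 * m))) (θ : ℝ) (hθ : 1 ≤ θ) :
    EE m r (fun ω => θ ^ (full Finset.univ (fun k => pim m (g (RR m r ω (a k))))))
      ≤ Real.exp (4 * θ ^ 2 * (Fintype.card ι : ℝ) ^ 2 / (2 * m)) := by
  have hm0 : (0 : ℝ) < m := by exact_mod_cast hm
  have hθ0 : 0 < θ := by linarith
  set J : ℝ := (Fintype.card ι : ℝ) with hJ
  have hJ0 : 0 ≤ J := Nat.cast_nonneg _
  rcases le_or_gt (2 * θ * J / m) 1 with hc | hc
  · -- main case
    have hcard : ∀ (ω : ℕ → Fin m → Bool) (z : Fin m), (Finset.univ.filter (fun k => pim m (g (RR m r ω (a k))) = z)).card ≤ 2 := by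
      intro ω z
      refine le_trans ?_ (sa_pim_card m z)
      refine Finset.card_le_card_of_injOn (fun k => g (RR m r ω (a k))) ?_ ?_
      · intro k hk
        have h1 := (Finset.mem_filter.mp (Finset.mem_coe.mp hk)).2
        exact Finset.mem_coe.mpr (Finset.mem_filter.mpr ⟨Finset.mem_univ _, h1⟩)
      · intro k _ k' _ hkk
        exact ha ((RR m r ω).injective (g.injective hkk))
    obtain ⟨q, hq⟩ : ∃ q : ι → Fin m → ℝ, q = fun k p => EE m r (fun ω => if pim m (g (RR m r ω (a k))) = p then (1 : ℝ) else 0) := ⟨_, rfl⟩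
    have hq0 : ∀ k p, 0 ≤ q k p := by
      intro k p
      rw [hq]
      refine EE_nonneg fun ω => ?_
      split_ifs <;> norm_num
    have hq1 : ∀ k, ∑ p, q k p = 1 := by
      intro k
      rw [hq]
      simp only
      rw [← EE_sum Finset.univ (fun p ω => if pim m (g (RR m r ω (a k))) = p then (1 : ℝ) else 0)]
      refine Eq.trans ?_ (EE_const (m := m) (t := r) (1 : ℝ))
      congr 1
      funext ω
      rw [Finset.sum_ite_eq]
      simp
    have hq2 : ∀ k p, q k p ≤ 2 / m := by
      intro k p
      have h1 : q k p = ∑ v ∈ (Finset.univ : Finset (Fin (2 * m))).filter (fun v => pim m (g v) = p),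
          EE m r (fun ω => if RR m r ω (a k) = v then (1 : ℝ) else 0) := by
        rw [← EE_sum, hq]
        simp only
        congr 1
        funext ω
        rw [Finset.sum_ite_eq]
        simp
      rw [h1]
      have h2 : ∀ v ∈ (Finset.univ : Finset (Fin (2 * m))).filter (fun v => pim m (g v) = p),
          EE m r (fun ω => if RR m r ω (a k) = v then (1 : ℝ) else 0) ≤ 2 / (2 * m) :=
        fun v _ => p1_le m r h (a k) v
      refine (Finset.sum_le_sum h2).trans ?_
      rw [Finset.sum_const, nsmul_eq_mul]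
      have h3 : ((Finset.univ : Finset (Fin (2 * m))).filter (fun v => pim m (g v) = p)).card ≤ 2 := by
        refine le_trans ?_ (sa_pim_card m p)
        refine Finset.card_le_card_of_injOn (fun v => g v) ?_ ?_
        · intro v hv
          have h1 := (Finset.mem_filter.mp (Finset.mem_coe.mp hv)).2
          exact Finset.mem_coe.mpr (Finset.mem_filter.mpr ⟨Finset.mem_univ _, h1⟩)
        · intro v _ v' _ hvv
          exact g.injective hvv
      have h4 : ((((Finset.univ : Finset (Fin (2 * m))).filter (fun v => pim m (g v) = p)).card : ℕ) : ℝ) ≤ 2 := by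
        exact_mod_cast h3
      refine (mul_le_mul_of_nonneg_right h4 (by positivity)).trans (le_of_eq ?_)
      field_simp
    obtain ⟨b, hb⟩ : ∃ b : Fin m → ℝ, b = fun p => ∑ k, q k p := ⟨_, rfl⟩
    have hb0 : ∀ p, 0 ≤ b p := by
      intro p
      rw [hb]
      exact Finset.sum_nonneg fun k _ => hq0 k p
    have hb1 : ∑ p, b p = J := by
      rw [hb]
      simp only
      rw [Finset.sum_comm, Finset.sum_congr rfl fun k _ => hq1 k, Finset.sum_const, nsmul_eq_mul, mul_one, Finset.card_univ]
    have hb2 : ∀ p, b p ≤ 2 * J / m := by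
      intro p
      rw [hb]
      simp only
      refine (Finset.sum_le_sum fun k _ => hq2 k p).trans ?_
      rw [Finset.sum_const, nsmul_eq_mul, Finset.card_univ]
      apply le_of_eq
      rw [hJ]
      ring
    have e1 : ∀ ω : ℕ → Fin m → Bool, θ ^ (full Finset.univ (fun k => pim m (g (RR m r ω (a k))))) =
        ∑ S ∈ (Finset.univ : Finset (Fin m)).powerset,
          ((∏ _i ∈ S, (1 / θ)) * ∏ _i ∈ Finset.univ \ S, (1 - 1 / θ)) *
            ∏ k, (if pim m (g (RR m r ω (a k))) ∈ S then θ else 0) :=
      fun ω => sa_expand _ (hcard ω) θ hθ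
    have hw : ∀ S : Finset (Fin m), 0 ≤ (∏ _i ∈ S, (1 / θ)) * ∏ _i ∈ Finset.univ \ S, (1 - 1 / θ) := by
      intro S
      have h4 : 0 ≤ 1 - 1 / θ := by
        rw [sub_nonneg, div_le_one hθ0]
        exact hθ
      exact mul_nonneg (Finset.prod_nonneg fun _ _ => by positivity) (Finset.prod_nonneg fun _ _ => h4)
    have e2 : EE m r (fun ω => θ ^ (full Finset.univ (fun k => pim m (g (RR m r ω (a k)))))) =
        ∑ S ∈ (Finset.univ : Finset (Fin m)).powerset,
          ((∏ _i ∈ S, (1 / θ)) * ∏ _i ∈ Finset.univ \ S, (1 - 1 / θ)) *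
            EE m r (fun ω => ∏ k, (if pim m (g (RR m r ω (a k))) ∈ S then θ else 0)) := by
      rw [show (fun ω => θ ^ (full Finset.univ (fun k => pim m (g (RR m r ω (a k)))))) = _ from funext e1]
      rw [EE_sum]
      refine Finset.sum_congr rfl fun S _ => ?_
      rw [EE_const_mul]
    rw [e2]
    have e3 : ∀ S : Finset (Fin m), EE m r (fun ω => ∏ k, (if pim m (g (RR m r ω (a k))) ∈ S then θ else 0)) ≤
        (∏ p ∈ S, Real.exp (b p * (θ - 1))) * ∏ p ∈ Finset.univ \ S, Real.exp (- b p) := by
      intro S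
      have h1 := hitG m r a ha (fun v => if pim m (g v) ∈ S then θ else 0) (fun v => by split_ifs <;> linarith)
      refine h1.trans ?_
      have h2 : ∀ k, EE m r (fun ω => if pim m (g (RR m r ω (a k))) ∈ S then θ else 0) = ∑ p, q k p * (if p ∈ S then θ else 0) := by
        intro k
        rw [hq]
        simp only
        have h3 : ∀ p : Fin m, EE m r (fun ω => if pim m (g (RR m r ω (a k))) = p then (1 : ℝ) else 0) * (if p ∈ S then θ else 0) =
            EE m r (fun ω => (if pim m (g (RR m r ω (a k))) = p then (1 : ℝ) else 0) * (if p ∈ S then θ else 0)) :=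
          fun p => (EE_mul_const _ _).symm
        rw [Finset.sum_congr rfl fun p _ => h3 p, ← EE_sum Finset.univ (fun (p : Fin m) ω => (if pim m (g (RR m r ω (a k))) = p then (1 : ℝ) else 0) * (if p ∈ S then θ else 0))]
        congr 1
        funext ω
        simp
      rw [Finset.prod_congr rfl fun k _ => h2 k]
      have h3 : ∀ k, ∑ p, q k p * (if p ∈ S then θ else 0) ≤ Real.exp (∑ p, q k p * ((if p ∈ S then θ else 0) - 1)) := by
        intro k
        have h4 := Real.add_one_le_exp (∑ p, q k p * ((if p ∈ S then θ else 0) - 1))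
        refine le_trans (le_of_eq ?_) h4
        have h6 : ∑ p, q k p * ((if p ∈ S then θ else 0) - 1) + ∑ p, q k p = ∑ p, q k p * (if p ∈ S then θ else 0) := by
          rw [← Finset.sum_add_distrib]
          refine Finset.sum_congr rfl fun p _ => ?_
          ring
        rw [← h6, hq1 k]
      refine (Finset.prod_le_prod (fun k _ => ?_) fun k _ => h3 k).trans ?_
      · refine Finset.sum_nonneg fun p _ => mul_nonneg (hq0 k p) ?_
        split_ifs <;> linarith
      · rw [← Real.exp_sum, Finset.sum_comm]
        have h5 : ∀ p, ∑ k, q k p * ((if p ∈ S then θ else 0) - 1) = b p * ((if p ∈ S then θ else 0) - 1) := by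
          intro p
          rw [hb, Finset.sum_mul]
        rw [Finset.sum_congr rfl fun p _ => h5 p, Real.exp_sum, ← Finset.prod_mul_prod_compl S, Finset.compl_eq_univ_sdiff]
        apply le_of_eq
        congr 1
        · refine Finset.prod_congr rfl fun p hp => ?_
          rw [if_pos hp]
        · refine Finset.prod_congr rfl fun p hp => ?_
          rw [if_neg (Finset.mem_sdiff.mp hp).2]
          congr 1
          ring
    refine (Finset.sum_le_sum fun S _ => mul_le_mul_of_nonneg_left (e3 S) (hw S)).trans ?_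
    have e4 : ∑ S ∈ (Finset.univ : Finset (Fin m)).powerset,
        ((∏ _i ∈ S, (1 / θ)) * ∏ _i ∈ Finset.univ \ S, (1 - 1 / θ)) *
          ((∏ p ∈ S, Real.exp (b p * (θ - 1))) * ∏ p ∈ Finset.univ \ S, Real.exp (- b p)) =
        ∏ p : Fin m, ((1 / θ) * Real.exp (b p * (θ - 1)) + (1 - 1 / θ) * Real.exp (- b p)) := by
      rw [Finset.prod_add]
      refine Finset.sum_congr rfl fun S _ => ?_
      rw [Finset.prod_mul_distrib, Finset.prod_mul_distrib]
      ring
    rw [e4]
    have hth : ∀ p, θ * b p ≤ 1 := by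
      intro p
      refine (mul_le_mul_of_nonneg_left (hb2 p) hθ0.le).trans (le_trans (le_of_eq ?_) hc)
      ring
    have e5 : ∏ p : Fin m, ((1 / θ) * Real.exp (b p * (θ - 1)) + (1 - 1 / θ) * Real.exp (- b p)) ≤
        ∏ p : Fin m, Real.exp ((b p) ^ 2 * (θ - 1)) := by
      refine Finset.prod_le_prod (fun p _ => ?_) fun p _ => sa_exp θ (b p) hθ (hb0 p) (hth p)
      have h4 : 0 ≤ 1 - 1 / θ := by
        rw [sub_nonneg, div_le_one hθ0]
        exact hθ
      exact add_nonneg (mul_nonneg (by positivity) (Real.exp_pos _).le) (mul_nonneg h4 (Real.exp_pos _).le)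
    refine e5.trans ?_
    rw [← Real.exp_sum]
    apply Real.exp_le_exp.mpr
    have e6 : ∀ p, (b p) ^ 2 * (θ - 1) ≤ (2 * J / m * (θ - 1)) * b p := by
      intro p
      have h1 := mul_le_mul_of_nonneg_right (hb2 p) (mul_nonneg (hb0 p) (by linarith : 0 ≤ θ - 1))
      refine le_trans (le_of_eq ?_) (h1.trans (le_of_eq ?_)) <;> ring
    refine (Finset.sum_le_sum fun p _ => e6 p).trans ?_
    rw [← Finset.mul_sum, hb1]
    have e7 : 2 * J / m * (θ - 1) * J = (2 * J ^ 2 / m) * (θ - 1) := by ring
    have e8 : 4 * θ ^ 2 * J ^ 2 / (2 * m) = (2 * J ^ 2 / m) * θ ^ 2 := by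
      field_simp
      ring
    rw [e7, e8]
    apply mul_le_mul_of_nonneg_left _ (by positivity)
    nlinarith
  · -- trivial case
    have h1 : ∀ ω : ℕ → Fin m → Bool, θ ^ (full Finset.univ (fun k => pim m (g (RR m r ω (a k))))) ≤
        Real.exp (4 * θ ^ 2 * J ^ 2 / (2 * m)) := by
      intro ω
      have h2 : θ ≤ Real.exp θ := by
        have := Real.add_one_le_exp θ
        linarith
      have h3 := sa_full_le (fun k => pim m (g (RR m r ω (a k))))
      generalize full Finset.univ (fun k => pim m (g (RR m r ω (a k)))) = N at h3 ⊢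
      refine (pow_le_pow_left₀ hθ0.le h2 N).trans ?_
      rw [← Real.exp_nat_mul]
      apply Real.exp_le_exp.mpr
      have h4 : (N : ℝ) ≤ J / 2 := by
        have h5 : ((2 * N : ℕ) : ℝ) ≤ J := by
          rw [hJ]
          exact_mod_cast h3
        push_cast at h5
        linarith
      refine (mul_le_mul_of_nonneg_right h4 hθ0.le).trans ?_
      have h6 : 4 * θ ^ 2 * J ^ 2 / (2 * m) = (2 * θ * J / m) * (θ * J) := by
        field_simp
        ring
      rw [h6]
      nlinarith [mul_nonneg hθ0.le hJ0]
    refine (EE_mono h1).trans ?_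
    rw [EE_const]

/-- Paper proof in `NOTES1.md` (M13).  `J = card ι` cards. -/
theorem sparse_adj (m s t : ℕ) (hm : 0 < m) (hst : s ≤ t) (h : 2 * m ≤ 2 ^ (t - s)) (a : ι → Fin (2 * m))
    (ha : Function.Injective a) (g : Perm (Fin (2 * m))) (θ : ℝ) (hθ : 1 ≤ θ) :
    EE m t (fun ω => θ ^ (full Finset.univ (fun k => pim m (g ((RR m s ω)⁻¹ (RR m t ω (a k)))))))
      ≤ Real.exp (4 * θ ^ 2 * (Fintype.card ι : ℝ) ^ 2 / (2 * m)) := by
  obtain ⟨r, rfl⟩ := Nat.exists_eq_add_of_le hst
  rw [Nat.add_sub_cancel_left] at h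
  have h1 := sa_main m r hm h a ha g θ hθ
  rw [EE_split]
  rw [← EE_const (m := m) (t := s) (Real.exp (4 * θ ^ 2 * (Fintype.card ι : ℝ) ^ 2 / (2 * m)))]
  refine EE_mono fun ω => ?_
  refine le_trans (le_of_eq ?_) h1
  congr 1
  funext ω'
  congr 2
  funext k
  rw [RR_add]
  have h2 : (fun i => (fun i => if i < s then ω i else ω' (i - s)) (s + i)) = ω' := by
    funext i
    simp
  rw [h2, Perm.mul_apply]
  exact congrArg (fun v => pim m (g v)) (Equiv.symm_apply_apply (RR m s (fun i => if i < s then ω i else ω' (i - s))) (RR m r ω' (a k)))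

end Vale.Agent.P162
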