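import Vale.Agent.P162G.Cone

/-! P162G module M11: choice of the cut, removal of the zone cards. -/

open Equiv

set_option linter.unusedSectionVars false

namespace Vale.Agent.P162

variable {ι : Type} [Fintype ι] [DecidableEq ι]

/-- cards whose cone crosses the cut -/
def zoneC (m i p : ℕ) (μ : ι → Fin (2 * m)) : Finset ι :=
  Finset.univ.filter (fun k => ¬ (coneS m i {μ k} ⊆ half m p) ∧ ¬ (coneS m i {μ k} ⊆ half m (p + m)))

private theorem zone_good (m i p : ℕ) (hi : 2 ^ i ≤ m) (hp : p < m) (z : Fin (2 * m))
    (hr : (2 ^ i * z.val + (m - p)) % m ≤ m - 2 ^ i) :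
    coneS m i {z} ⊆ half m p ∨ coneS m i {z} ⊆ half m (p + m) := by
  have hpos : 0 < 2 ^ i := by positivity
  have hm : 0 < m := by omega
  set c := 2 ^ i * z.val with hc
  set r := (c + (m - p)) % m with hrd
  have hrm : r < m := Nat.mod_lt _ hm
  set a := (c + (2 * m - p)) % (2 * m) with had
  have ha2 : a < 2 * m := Nat.mod_lt _ (by omega)
  have har : a % m = r := by
    rw [had, hrd, Nat.mod_mod_of_dvd _ (Dvd.intro_left 2 rfl)]
    have : c + (2 * m - p) = c + (m - p) + m := by omega
    rw [this, Nat.add_mod_right]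
  have hcases : a = r ∨ a = r + m := by
    rcases Nat.lt_or_ge a m with h | h
    · left; rw [← har, Nat.mod_eq_of_lt h]
    · right
      have h1 : a % m = (a - m) % m := by
        conv_lhs => rw [← Nat.sub_add_cancel h, Nat.add_mod_right]
      have h2 : (a - m) % m = a - m := Nat.mod_eq_of_lt (by omega)
      omega
  -- the congruence
  have hcong : ∀ j, (p + a + j) % (2 * m) = (c + j) % (2 * m) := by
    intro j
    have e1 : (p + a + j) ≡ (p + (c + (2 * m - p)) + j) [MOD 2 * m] := by
      apply Nat.ModEq.add_right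
      apply Nat.ModEq.add_left
      exact Nat.mod_modEq _ _
    have e2 : p + (c + (2 * m - p)) + j = c + j + 2 * m := by omega
    rw [e2] at e1
    have e3 : (c + j + 2 * m) % (2 * m) = (c + j) % (2 * m) := Nat.add_mod_right _ _
    rw [← e3]; exact e1
  rcases hcases with h | h
  · left
    intro x hx
    rw [coneS_singleton] at hx
    obtain ⟨j, hj, hxj⟩ := hx
    simp only [half, Finset.mem_filter, Finset.mem_univ, true_and]
    refine ⟨r + j, by omega, ?_⟩
    rw [hxj, ← hcong j, h]
    congr 1
    ring
  · right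
    intro x hx
    rw [coneS_singleton] at hx
    obtain ⟨j, hj, hxj⟩ := hx
    simp only [half, Finset.mem_filter, Finset.mem_univ, true_and]
    refine ⟨r + j, by omega, ?_⟩
    rw [hxj, ← hcong j, h]
    congr 1
    ring

private theorem bad_card (m i : ℕ) (hi : 2 ^ i ≤ m) (z : Fin (2 * m)) :
    ((Finset.range m).filter (fun p => ¬ (coneS m i {z} ⊆ half m p) ∧
      ¬ (coneS m i {z} ⊆ half m (p + m)))).card ≤ 2 ^ i := by
  have hpos : 0 < 2 ^ i := by positivity
  have hm : 0 < m := by omega
  have h1 : ((Finset.range m).filter (fun p => ¬ (coneS m i {z} ⊆ half m p) ∧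
      ¬ (coneS m i {z} ⊆ half m (p + m)))).card ≤ (Finset.Ico (m - 2 ^ i) m).card := by
    refine Finset.card_le_card_of_injOn (fun p => (2 ^ i * z.val + (m - p)) % m) ?_ ?_
    · intro p hp
      rw [Finset.mem_coe, Finset.mem_filter, Finset.mem_range] at hp
      rw [Finset.mem_coe, Finset.mem_Ico]
      refine ⟨?_, Nat.mod_lt _ hm⟩
      by_contra hcon
      have hcon' : (2 ^ i * z.val + (m - p)) % m ≤ m - 2 ^ i := (not_le.1 hcon).le
      rcases zone_good m i p hi hp.1 z hcon' with h | h
      · exact hp.2.1 h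
      · exact hp.2.2 h
    · intro p hp p' hp' heq
      rw [Finset.mem_coe, Finset.mem_filter, Finset.mem_range] at hp hp'
      have hc : (m - p) ≡ (m - p') [MOD m] := Nat.ModEq.add_left_cancel' _ heq
      -- both in (0, m]
      have hc2 : (p + p') + (m - p) ≡ (p + p') + (m - p') [MOD m] := Nat.ModEq.add_left _ hc
      have e1 : (p + p') + (m - p) = p' + m := by omega
      have e2 : (p + p') + (m - p') = p + m := by omega
      rw [e1, e2] at hc2
      have h3 := Nat.ModEq.add_right_cancel' _ hc2
      have h4 : p' % m = p % m := h3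
      rw [Nat.mod_eq_of_lt hp.1, Nat.mod_eq_of_lt hp'.1] at h4
      exact h4.symm
  rw [Nat.card_Ico] at h1
  omega

theorem zone_exists (m i : ℕ) (hi : 2 ^ i ≤ m) (μ : ι → Fin (2 * m)) :
    ∃ p, p < m ∧ (zoneC m i p μ).card * m ≤ Fintype.card ι * 2 ^ i := by
  have hpos : 0 < 2 ^ i := by positivity
  have hm : 0 < m := by omega
  by_contra hcon
  push Not at hcon
  have h1 : ∑ p ∈ Finset.range m, (Fintype.card ι * 2 ^ i) <
      ∑ p ∈ Finset.range m, (zoneC m i p μ).card * m := by
    refine Finset.sum_lt_sum_of_nonempty ⟨0, Finset.mem_range.2 hm⟩ fun p hp => ?_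
    exact hcon p (Finset.mem_range.1 hp)
  have h2 : ∑ p ∈ Finset.range m, (zoneC m i p μ).card ≤ Fintype.card ι * 2 ^ i := by
    have h3 : ∑ p ∈ Finset.range m, (zoneC m i p μ).card =
        ∑ k : ι, ((Finset.range m).filter (fun p => ¬ (coneS m i {μ k} ⊆ half m p) ∧
          ¬ (coneS m i {μ k} ⊆ half m (p + m)))).card := by
      unfold zoneC
      simp only [Finset.card_filter]
      rw [Finset.sum_comm]
    rw [h3]
    refine (Finset.sum_le_card_nsmul _ _ _ fun k _ => bad_card m i hi (μ k)).trans ?_
    rw [smul_eq_mul, Finset.card_univ]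
  rw [Finset.sum_const, Finset.card_range, smul_eq_mul, ← Finset.sum_mul] at h1
  nlinarith

private theorem even_symmDiff_filter (u v : Finset ι) (P : ι → Prop) [DecidablePred P]
    (hu : Even (u.filter P).card) (hv : Even (v.filter P).card) :
    Even ((symmDiff u v).filter P).card := by
  have h1 : (symmDiff u v).filter P = (u.filter P \ v.filter P) ∪ (v.filter P \ u.filter P) := by
    ext k
    simp only [Finset.mem_filter, Finset.mem_symmDiff, Finset.mem_union, Finset.mem_sdiff]
    tauto
  have h2 : Disjoint (u.filter P \ v.filter P) (v.filter P \ u.filter P) := by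
    rw [Finset.disjoint_left]
    intro k hk hk'
    rw [Finset.mem_sdiff] at hk hk'
    exact hk'.2 hk.1
  rw [h1, Finset.card_union_of_disjoint h2]
  have h3 := Finset.card_sdiff_add_card_inter (u.filter P) (v.filter P)
  have h4 := Finset.card_sdiff_add_card_inter (v.filter P) (u.filter P)
  rw [Finset.inter_comm] at h4
  rw [Nat.even_iff] at hu hv ⊢
  omega

theorem cc_remove {β : Type} [Fintype β] [DecidableEq β] (I Z : Finset ι) (x y : ι → β) :
    cc I x y ≤ 2 ^ Z.card * cc (I \ Z) x y := by
  classical
  unfold cc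
  set A := I.powerset.filter (fun u => (∀ z : β, Even (u.filter (fun k => x k = z)).card) ∧
    (∀ z : β, Even (u.filter (fun k => y k = z)).card)) with hA
  set B := (I \ Z).powerset.filter (fun u => (∀ z : β, Even (u.filter (fun k => x k = z)).card) ∧
    (∀ z : β, Even (u.filter (fun k => y k = z)).card)) with hB
  have h1 : A.card ≤ B.card * Z.powerset.card := by
    refine Finset.card_le_mul_card_image_of_maps_to (f := fun u => u ∩ Z) ?_ B.card ?_
    · intro u _
      rw [Finset.mem_powerset]
      exact Finset.inter_subset_right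
    · intro w _
      rcases (A.filter fun u => u ∩ Z = w).eq_empty_or_nonempty with h | ⟨u0, hu0⟩
      · rw [h]; simp
      · refine Finset.card_le_card_of_injOn (fun u => symmDiff u u0) ?_ ?_
        · intro u hu
          rw [Finset.mem_coe, Finset.mem_filter, hA, Finset.mem_filter, Finset.mem_powerset] at hu
          rw [Finset.mem_filter, hA, Finset.mem_filter, Finset.mem_powerset] at hu0
          rw [Finset.mem_coe, hB, Finset.mem_filter, Finset.mem_powerset]
          refine ⟨?_, fun z => even_symmDiff_filter _ _ _ (hu.1.2.1 z) (hu0.1.2.1 z),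
            fun z => even_symmDiff_filter _ _ _ (hu.1.2.2 z) (hu0.1.2.2 z)⟩
          intro k hk
          rw [Finset.mem_symmDiff] at hk
          rw [Finset.mem_sdiff]
          have e : u ∩ Z = u0 ∩ Z := hu.2.trans hu0.2.symm
          rcases hk with ⟨ha, hb⟩ | ⟨ha, hb⟩
          · refine ⟨hu.1.1 ha, fun hz => hb ?_⟩
            have : k ∈ u0 ∩ Z := e ▸ Finset.mem_inter.2 ⟨ha, hz⟩
            exact (Finset.mem_inter.1 this).1
          · refine ⟨hu0.1.1 ha, fun hz => hb ?_⟩
            have : k ∈ u ∩ Z := e ▸ Finset.mem_inter.2 ⟨ha, hz⟩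
            exact (Finset.mem_inter.1 this).1
        · intro u _ v _ huv
          exact symmDiff_left_injective u0 huv
  rw [Finset.card_powerset] at h1
  rw [mul_comm]
  exact h1

private theorem half_inj (m e : ℕ) {x y : Fin (2 * m)} (hx : x ∈ half m e) (hy : y ∈ half m e)
    (h : pim m x = pim m y) : x = y := by
  simp only [half, Finset.mem_filter, Finset.mem_univ, true_and] at hx hy
  obtain ⟨j, hj, hxj⟩ := hx
  obtain ⟨j', hj', hyj⟩ := hy
  have h1 : x.val % m = y.val % m := by
    have := congrArg Fin.val h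
    exact this
  rw [hxj, hyj, Nat.mod_mod_of_dvd _ (Dvd.intro_left 2 rfl),
    Nat.mod_mod_of_dvd _ (Dvd.intro_left 2 rfl)] at h1
  have h2 : j ≡ j' [MOD m] := Nat.ModEq.add_left_cancel' e h1
  have h3 : j % m = j' % m := h2
  rw [Nat.mod_eq_of_lt hj, Nat.mod_eq_of_lt hj'] at h3
  apply Fin.ext
  rw [hxj, hyj, h3]

/-- for a non-zone card the side is determined, and two non-zone cards of the same side with the same `pim` of
positions in their cones coincide -/
theorem side_inj (m i p : ℕ) (μ A : ι → Fin (2 * m)) (hA : Function.Injective A) (hcone : ∀ k, A k ∈ coneS m i {μ k}) :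
    ∃ side : ι → Bool, (∀ k, k ∉ zoneC m i p μ → coneS m i {μ k} ⊆ half m (p + (if side k then m else 0))) ∧
      Set.InjOn (fun k => (side k, pim m (A k))) ((Finset.univ \ zoneC m i p μ : Finset ι) : Set ι) := by
  classical
  have hside : ∀ k, k ∉ zoneC m i p μ → coneS m i {μ k} ⊆
      half m (p + (if decide (¬ coneS m i {μ k} ⊆ half m p) = true then m else 0)) := by
    intro k hk
    by_cases h : coneS m i {μ k} ⊆ half m p
    · simp only [h, not_true, decide_false, Bool.false_eq_true, if_false, add_zero]
    · simp only [h, not_false_eq_true, decide_true, if_true]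
      by_contra h2
      exact hk (by simp only [zoneC, Finset.mem_filter, Finset.mem_univ, true_and]; exact ⟨h, h2⟩)
  refine ⟨fun k => decide (¬ coneS m i {μ k} ⊆ half m p), hside, ?_⟩
  intro k hk k' hk' heq
  simp only [Finset.coe_sdiff, Finset.coe_univ, Set.mem_sdiff, Set.mem_univ, true_and,
    Finset.mem_coe] at hk hk'
  simp only [Prod.mk.injEq] at heq
  have h1 := hside k hk (hcone k)
  have h2 := hside k' hk' (hcone k')
  rw [heq.1] at h1
  exact hA (half_inj m _ h1 h2 heq.2)

end Vale.Agent.P162
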