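import Vale.Agent.P162G.B4G
import Vale.Agent.P162G.ZoneG
import Vale.Agent.P162G.SA
import Vale.Agent.P162.B6

/-! P162G module M14: the main product of `cc` factors (analogue of `pattern_bound`, `b6`). -/

open Equiv

set_option linter.unusedSectionVars false

namespace Vale.Agent.P162

variable {ι : Type} [Fintype ι] [DecidableEq ι]

/-- `cc` factor of layer `i` -/
noncomputable def ccf (m i : ℕ) (μ : ι → Fin (2 * m)) (ω' ω : ℕ → Fin m → Bool) : ℝ :=
  ((cc Finset.univ (fun k => pim m ((RR m i ω')⁻¹ (μ k))) (fun k => pim m ((RR m i ω)⁻¹ (μ k))) : ℕ) : ℝ)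

/-- weighted AM-GM for products of powers -/
theorem prod_rpow_convex {Ω : Type} (s : Finset Ω) (lam : Ω → ℝ) (h0 : ∀ ω ∈ s, 0 ≤ lam ω)
    (h1 : ∑ ω ∈ s, lam ω = 1) (T : ℕ) (c : ℕ → ℝ) (hc : ∀ i, 1 ≤ c i) (q : ℝ) (E : Ω → ℕ → ℕ)
    (he : ∀ i, i < T → ∑ ω ∈ s, lam ω * (E ω i : ℝ) = q) :
    ∏ i ∈ Finset.range T, c i ^ q ≤ ∑ ω ∈ s, lam ω * ∏ i ∈ Finset.range T, c i ^ (E ω i) := by
  have hpos : ∀ i, 0 < c i := fun i => lt_of_lt_of_le one_pos (hc i)
  have e1 : ∏ i ∈ Finset.range T, c i ^ q = Real.exp (∑ i ∈ Finset.range T, q * Real.log (c i)) := by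
    rw [Real.exp_sum]
    refine Finset.prod_congr rfl fun i _ => ?_
    rw [Real.rpow_def_of_pos (hpos i), mul_comm]
  have e2 : ∀ ω, ∏ i ∈ Finset.range T, c i ^ (E ω i) =
      Real.exp (∑ i ∈ Finset.range T, (E ω i : ℝ) * Real.log (c i)) := by
    intro ω
    rw [Real.exp_sum]
    refine Finset.prod_congr rfl fun i _ => ?_
    rw [mul_comm, ← Real.rpow_def_of_pos (hpos i), Real.rpow_natCast]
  rw [e1]
  simp only [e2]
  have key := (convexOn_exp).map_sum_le (t := s) (w := lam)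
    (p := fun ω => ∑ i ∈ Finset.range T, (E ω i : ℝ) * Real.log (c i)) h0 h1
    (fun _ _ => Set.mem_univ _)
  have e3 : ∑ ω ∈ s, lam ω • (∑ i ∈ Finset.range T, (E ω i : ℝ) * Real.log (c i)) =
      ∑ i ∈ Finset.range T, q * Real.log (c i) := by
    simp only [smul_eq_mul, Finset.mul_sum]
    rw [Finset.sum_comm]
    refine Finset.sum_congr rfl fun i hi => ?_
    rw [← he i (Finset.mem_range.mp hi), Finset.sum_mul]
    exact Finset.sum_congr rfl fun ω _ => by ring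
  rw [e3] at key
  simpa [smul_eq_mul] using key

/-- pointwise bound for the product over scales of a pattern (general multiplicities) -/
theorem pattern_prodD (t l0 K b r : ℕ) (h : 1 ≤ l0) (N : ℕ) (D : ℕ → ℕ) (hD : ∀ i, 2 * D i ≤ N) :
    ∏ i ∈ Finset.range t, (1 + ((2 : ℝ) ^ (pe l0 K b r i) - 1) * (3 / 4) ^ (pw l0 K r i)) ^ (D i)
      ≤ ((4 : ℝ) ^ l0) ^ (D (cs l0 r 0)) * Real.exp (N * (283 / 100 * (27 / 50) ^ l0)) := by
  classical
  set F : ℕ → ℝ := fun i => (1 + ((2 : ℝ) ^ (pe l0 K b r i) - 1) * (3 / 4) ^ (pw l0 K r i)) ^ (D i) with hF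
  have hFge : ∀ i, 1 ≤ F i := by
    intro i
    rw [hF]
    apply one_le_pow₀
    have h1 : (1 : ℝ) ≤ 2 ^ (pe l0 K b r i) := one_le_pow₀ (by norm_num)
    have h2 : (0 : ℝ) < (3 / 4 : ℝ) ^ (pw l0 K r i) := by positivity
    nlinarith
  set S := (Finset.range K).filter (fun k => k % 2 = b) with hS
  have h1 : ∏ i ∈ Finset.range t, F i ≤ ∏ i ∈ S.image (cs l0 r), F i := by
    have h2 : ∏ i ∈ Finset.range t, F i = ∏ i ∈ (Finset.range t).filter (fun i => i ∈ S.image (cs l0 r)), F i := by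
      rw [Finset.prod_filter]
      apply Finset.prod_congr rfl
      intro i _
      split_ifs with h3
      · rfl
      · rw [hF]
        have h4 : pe l0 K b r i = 0 := by
          by_contra h5
          obtain ⟨k, hk, hkb, rfl⟩ := pe_ne_zero l0 K b r i h5
          exact h3 (Finset.mem_image.mpr ⟨k, by simp [hS, hk, hkb], rfl⟩)
        simp [h4]
    rw [h2]
    have hsub : (Finset.range t).filter (fun i => i ∈ S.image (cs l0 r)) ⊆ S.image (cs l0 r) := by
      intro i hi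
      exact (Finset.mem_filter.mp hi).2
    rw [← Finset.prod_sdiff hsub]
    have hge : (1 : ℝ) ≤ ∏ i ∈ S.image (cs l0 r) \ (Finset.range t).filter (fun i => i ∈ S.image (cs l0 r)), F i := by
      calc (1 : ℝ) = ∏ i ∈ S.image (cs l0 r) \ (Finset.range t).filter (fun i => i ∈ S.image (cs l0 r)), (1 : ℝ) := by
            rw [Finset.prod_const_one]
        _ ≤ _ := Finset.prod_le_prod (fun _ _ => zero_le_one) (fun i _ => hFge i)
    apply le_mul_of_one_le_left _ hge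
    apply Finset.prod_nonneg
    intro i _
    linarith [hFge i]
  refine le_trans h1 ?_
  rw [Finset.prod_image (fun x _ y _ hxy => (cs_strictMono l0 r h).injective hxy)]
  -- bound each factor
  have h5 : ∀ k ∈ S, F (cs l0 r k) ≤ (if k = 0 then ((4 : ℝ) ^ l0) ^ (D (cs l0 r 0)) else 1) *
      Real.exp (N / 2 * ((27 / 50 : ℝ) ^ l0 * (if k % 2 = b ∧ 1 ≤ k then 4 * (27 / 50 : ℝ) ^ (k - 1) else 0))) := by
    intro k hk
    rw [hS, Finset.mem_filter, Finset.mem_range] at hk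
    rw [hF]
    simp only
    rw [pe_cs l0 K b r k h hk.1 hk.2, pw_cs l0 K r k h hk.1]
    by_cases hk0 : k = 0
    · subst hk0
      simp
      rw [pow_mul]
      norm_num
    · have hk1 : 1 ≤ k := by omega
      rw [if_neg hk0, if_neg hk0, if_pos ⟨hk.2, hk1⟩, one_mul, mul_one]
      have h6 := fac_bound l0 k h hk1
      set x := (27 / 50 : ℝ) ^ l0 * (4 * (27 / 50 : ℝ) ^ (k - 1)) with hx
      have hx0 : 0 ≤ x := by positivity
      have h7 : 0 ≤ ((2 : ℝ) ^ (2 * (l0 + k)) - 1) * (3 / 4) ^ (7 * (l0 + k - 1)) := by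
        apply mul_nonneg _ (by positivity)
        have : (1 : ℝ) ≤ 2 ^ (2 * (l0 + k)) := one_le_pow₀ (by norm_num)
        linarith
      calc (1 + ((2 : ℝ) ^ (2 * (l0 + k)) - 1) * (3 / 4) ^ (7 * (l0 + k - 1))) ^ (D (cs l0 r k))
          ≤ (Real.exp x) ^ (D (cs l0 r k)) := by
            apply pow_le_pow_left₀ (by linarith)
            have := Real.add_one_le_exp x
            linarith
        _ = Real.exp ((D (cs l0 r k) : ℝ) * x) := by rw [← Real.exp_nat_mul]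
        _ ≤ _ := by
            apply Real.exp_le_exp.mpr
            apply mul_le_mul_of_nonneg_right _ hx0
            have := hD (cs l0 r k)
            have h8 : (2 : ℝ) * (D (cs l0 r k) : ℝ) ≤ N := by exact_mod_cast this
            linarith
  refine le_trans (Finset.prod_le_prod (fun k _ => by linarith [hFge (cs l0 r k)]) h5) ?_
  rw [Finset.prod_mul_distrib, ← Real.exp_sum]
  have h9 : ∏ k ∈ S, (if k = 0 then ((4 : ℝ) ^ l0) ^ (D (cs l0 r 0)) else 1) ≤ ((4 : ℝ) ^ l0) ^ (D (cs l0 r 0)) := by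
    rw [Finset.prod_ite_eq' S 0 (fun _ => ((4 : ℝ) ^ l0) ^ (D (cs l0 r 0)))]
    split_ifs
    · exact le_rfl
    · apply one_le_pow₀
      apply one_le_pow₀
      norm_num
  apply mul_le_mul h9 _ (Real.exp_pos _).le (by positivity)
  apply Real.exp_le_exp.mpr
  rw [← Finset.mul_sum, ← Finset.mul_sum]
  have h10 : ∑ k ∈ S, (if k % 2 = b ∧ 1 ≤ k then 4 * (27 / 50 : ℝ) ^ (k - 1) else 0) ≤ 2 * (283 / 100) := by
    calc _ ≤ ∑ k ∈ Finset.range K, (if k % 2 = b ∧ 1 ≤ k then 4 * (27 / 50 : ℝ) ^ (k - 1) else 0) := by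
          apply Finset.sum_le_sum_of_subset_of_nonneg (Finset.filter_subset _ _)
          intro k _ _
          split_ifs
          · positivity
          · exact le_rfl
      _ = 2 * ∑ k ∈ Finset.range K, (if k % 2 = b ∧ 1 ≤ k then 2 * (27 / 50 : ℝ) ^ (k - 1) else 0) := by
          rw [Finset.mul_sum]
          apply Finset.sum_congr rfl
          intro k _
          split_ifs <;> ring
      _ ≤ _ := by
          have := num_sum b K
          linarith
  have h11 : (0 : ℝ) ≤ N := Nat.cast_nonneg _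
  have h12 : (0 : ℝ) < (27 / 50 : ℝ) ^ l0 := by positivity
  calc (N : ℝ) / 2 * ((27 / 50 : ℝ) ^ l0 * ∑ k ∈ S, (if k % 2 = b ∧ 1 ≤ k then 4 * (27 / 50 : ℝ) ^ (k - 1) else 0))
      ≤ (N : ℝ) / 2 * ((27 / 50 : ℝ) ^ l0 * (2 * (283 / 100))) := by
        apply mul_le_mul_of_nonneg_left _ (by linarith)
        apply mul_le_mul_of_nonneg_left h10 h12.le
    _ ≤ _ := by
        nlinarith [mul_nonneg h11 h12.le]

theorem full_mono {β : Type} [Fintype β] [DecidableEq β] {I I' : Finset ι} (h : I ⊆ I') (x : ι → β) :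
    full I x ≤ full I' x := by
  unfold full
  refine Finset.card_le_card fun z hz => ?_
  rw [Finset.mem_filter] at hz ⊢
  exact ⟨hz.1, hz.2.trans (Finset.card_le_card (Finset.filter_subset_filter _ h))⟩

/-- sum of the sizes of the zones -/
theorem zone_sum (T m l0 J : ℕ) (hm : 0 < m) (hT : 2 ^ T * 4 ^ l0 ≤ 2 * m) (Z : ℕ → ℕ)
    (hZ : ∀ i < T, Z i * m ≤ J * 2 ^ i) :
    ∑ i ∈ Finset.range T, (Z i : ℝ) ≤ J * (2 * (27 / 50) ^ l0) := by
  have hmR : (0 : ℝ) < m := by exact_mod_cast hm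
  have h1 : ∑ i ∈ Finset.range T, (Z i : ℝ) ≤ ∑ i ∈ Finset.range T, (J : ℝ) * 2 ^ i / m := by
    refine Finset.sum_le_sum fun i hi => ?_
    rw [le_div_iff₀ hmR]
    exact_mod_cast hZ i (Finset.mem_range.1 hi)
  have h2 : ∑ i ∈ Finset.range T, (J : ℝ) * 2 ^ i / m = J * (2 ^ T - 1) / m := by
    rw [← Finset.sum_div, ← Finset.mul_sum, geom_sum_eq (by norm_num) T]
    ring
  have h3 : ((2 : ℝ) ^ T) * 4 ^ l0 ≤ 2 * m := by exact_mod_cast hT
  have h4 : (1 : ℝ) ≤ 4 ^ l0 * (27 / 50) ^ l0 := by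
    rw [← mul_pow]
    exact one_le_pow₀ (by norm_num)
  have h5 : ((2 : ℝ) ^ T - 1) / m ≤ 2 * (27 / 50) ^ l0 := by
    rw [div_le_iff₀ hmR]
    have h6 : (0 : ℝ) < (27 / 50) ^ l0 := by positivity
    calc (2 : ℝ) ^ T - 1 ≤ 2 ^ T := by linarith
      _ ≤ 2 ^ T * (4 ^ l0 * (27 / 50) ^ l0) := le_mul_of_one_le_right (by positivity) h4
      _ = (2 ^ T * 4 ^ l0) * (27 / 50) ^ l0 := by ring
      _ ≤ (2 * m) * (27 / 50) ^ l0 := mul_le_mul_of_nonneg_right h3 h6.le
      _ = _ := by ring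
  rw [h2] at h1
  refine h1.trans ?_
  rw [mul_div_assoc]
  exact mul_le_mul_of_nonneg_left h5 (Nat.cast_nonneg _)

/-- bound for fixed `ω'` and a fixed pattern -/
theorem cc_pattern (m l0 t ti K b r : ℕ) (hl0 : 1 ≤ l0) (htt : ti ≤ t) (μ : ι → Fin (2 * m))
    (hμ : Function.Injective μ) (ω' : ℕ → Fin m → Bool) (I : ℕ → Finset ι) (side : ℕ → ι → Bool)
    (p : ℕ → ℕ)
    (hx : ∀ i < ti, Set.InjOn (fun k => (side i k, pim m ((RR m i ω')⁻¹ (μ k)))) (I i : Set ι))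
    (hc : ∀ i < ti, ∀ k ∈ I i, coneS m i {μ k} ⊆ half m (p i + (if side i k then m else 0))) :
    EE m t (fun ω => ∏ i ∈ Finset.range ti,
      ((cc (I i) (fun k => pim m ((RR m i ω')⁻¹ (μ k))) (fun k => pim m ((RR m i ω)⁻¹ (μ k))) : ℕ) : ℝ) ^
        (pe l0 K b r i))
      ≤ ((4 : ℝ) ^ l0) ^ (full Finset.univ (fun k => pim m ((RR m (cs l0 r 0) ω')⁻¹ (μ k)))) *
        Real.exp (Fintype.card ι * (283 / 100 * (27 / 50) ^ l0)) := by
  refine (b4G m ti t htt (pe l0 K b r) (pw l0 K r) (fun i => pw_le l0 K r i hl0)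
    (fun i hi i' h1 h2 => pgap l0 K b r i hl0 hi i' h1 h2) μ hμ I
    (fun i k => pim m ((RR m i ω')⁻¹ (μ k))) side p hx hc).trans ?_
  have h1 := pattern_prodD ti l0 K b r hl0 (Fintype.card ι)
    (fun i => full Finset.univ (fun k => pim m ((RR m i ω')⁻¹ (μ k))))
    (fun i => full_le Finset.univ (fun k => pim m ((RR m i ω')⁻¹ (μ k))))
  refine le_trans (Finset.prod_le_prod (fun i _ => ?_) (fun i _ => ?_)) h1
  · have h2 : (1 : ℝ) ≤ 2 ^ (pe l0 K b r i) := one_le_pow₀ (by norm_num)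
    have h3 : (0 : ℝ) < (3 / 4 : ℝ) ^ (pw l0 K r i) := by positivity
    have h4 : 0 ≤ 1 + ((2 : ℝ) ^ (pe l0 K b r i) - 1) * (3 / 4 : ℝ) ^ (pw l0 K r i) := by nlinarith
    positivity
  · have h2 : (1 : ℝ) ≤ 2 ^ (pe l0 K b r i) := one_le_pow₀ (by norm_num)
    have h3 : (0 : ℝ) < (3 / 4 : ℝ) ^ (pw l0 K r i) := by positivity
    refine pow_le_pow_right₀ ?_ (full_mono (Finset.subset_univ _) _)
    nlinarith

/-- bound for fixed `ω'` -/
theorem cc_fixed (m l0 t ti : ℕ) (hm : 0 < m) (hl0 : 1 ≤ l0) (hti : 2 ^ ti * 4 ^ l0 ≤ 2 * m)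
    (htt : ti ≤ t) (μ : ι → Fin (2 * m)) (hμ : Function.Injective μ) (ω' : ℕ → Fin m → Bool) :
    EE m t (fun ω => ∏ i ∈ Finset.range ti, ccf m i μ ω' ω ^ (1 / 7 : ℝ)) ≤
      Real.exp (Fintype.card ι * ((27 / 50) ^ l0)) *
      ∑ ω ∈ Finset.range 2 ×ˢ Finset.range (7 * (l0 + ti)).factorial,
        (1 / (2 * ((7 * (l0 + ti)).factorial : ℝ))) *
        (((4 : ℝ) ^ l0) ^ (full Finset.univ (fun k => pim m ((RR m (cs l0 ω.2 0) ω')⁻¹ (μ k)))) *
        Real.exp (Fintype.card ι * (283 / 100 * (27 / 50) ^ l0))) := by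
  classical
  -- the zones
  have hz : ∀ i, ∃ (p : ℕ) (side : ι → Bool), (i < ti → (zoneC m i p μ).card * m ≤ Fintype.card ι * 2 ^ i) ∧
      (∀ k, k ∉ zoneC m i p μ → coneS m i {μ k} ⊆ half m (p + (if side k then m else 0))) ∧
      Set.InjOn (fun k => (side k, pim m ((RR m i ω')⁻¹ (μ k)))) ((Finset.univ \ zoneC m i p μ : Finset ι) : Set ι) := by
    intro i
    have hp : ∃ p, (i < ti → (zoneC m i p μ).card * m ≤ Fintype.card ι * 2 ^ i) := by
      by_cases hi : i < ti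
      · have h2 : 2 ^ i ≤ m := by
          have h3 : 2 ^ (i + 1) ≤ 2 ^ ti := Nat.pow_le_pow_right (by norm_num) hi
          have h4 : 1 ≤ 4 ^ l0 := Nat.one_le_pow _ _ (by norm_num)
          have h5 : 2 ^ ti ≤ 2 ^ ti * 4 ^ l0 := Nat.le_mul_of_pos_right _ h4
          rw [pow_succ] at h3
          omega
        obtain ⟨p, _, hp⟩ := zone_exists m i h2 μ
        exact ⟨p, fun _ => hp⟩
      · exact ⟨0, fun h => absurd h hi⟩
    obtain ⟨p, hp⟩ := hp
    obtain ⟨side, hs1, hs2⟩ := side_inj m i p μ (fun k => (RR m i ω')⁻¹ (μ k))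
      ((RR m i ω')⁻¹.injective.comp hμ) (fun k => by
        rw [mem_coneS]
        exact ⟨ω', Finset.mem_singleton.2 ((RR m i ω').apply_symm_apply (μ k))⟩)
    exact ⟨p, side, hp, hs1, hs2⟩
  choose p side hZ hs1 hs2 using hz
  set Z : ℕ → Finset ι := fun i => zoneC m i (p i) μ with hZdef
  set X : ℕ → ι → Fin m := fun i k => pim m ((RR m i ω')⁻¹ (μ k)) with hX
  set M := (7 * (l0 + ti)).factorial with hM
  have hMpos : 0 < M := Nat.factorial_pos _
  have hdvd : ∀ k, k < ti → 7 * (l0 + k) ∣ M := fun k hk => Nat.dvd_factorial (by omega) (by omega)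
  have hMR : (0 : ℝ) < M := by exact_mod_cast hMpos
  have hlam : ∑ ω ∈ Finset.range 2 ×ˢ Finset.range M, (1 / (2 * M : ℝ)) = 1 := by
    rw [Finset.sum_const, Finset.card_product, Finset.card_range, Finset.card_range, nsmul_eq_mul]
    push_cast
    field_simp
  -- pointwise
  have hpt : ∀ ω, ∏ i ∈ Finset.range ti, ccf m i μ ω' ω ^ (1 / 7 : ℝ) ≤
      Real.exp (Fintype.card ι * ((27 / 50) ^ l0)) *
      ∑ v ∈ Finset.range 2 ×ˢ Finset.range M, (1 / (2 * M : ℝ)) * ∏ i ∈ Finset.range ti,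
        ((cc (Finset.univ \ Z i) (X i) (fun k => pim m ((RR m i ω)⁻¹ (μ k))) : ℕ) : ℝ) ^
          (pe l0 ti v.1 v.2 i) := by
    intro ω
    have h1 : ∀ i ∈ Finset.range ti, ccf m i μ ω' ω ^ (1 / 7 : ℝ) ≤
        Real.exp ((Z i).card * (1 / 7)) *
        ((cc (Finset.univ \ Z i) (X i) (fun k => pim m ((RR m i ω)⁻¹ (μ k))) : ℕ) : ℝ) ^ (1 / 7 : ℝ) := by
      intro i _
      have h2 : ccf m i μ ω' ω ≤ 2 ^ (Z i).card *
          ((cc (Finset.univ \ Z i) (X i) (fun k => pim m ((RR m i ω)⁻¹ (μ k))) : ℕ) : ℝ) := by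
        unfold ccf
        exact_mod_cast cc_remove Finset.univ (Z i) (X i) (fun k => pim m ((RR m i ω)⁻¹ (μ k)))
      have h3 : (2 : ℝ) ^ (Z i).card ≤ Real.exp ((Z i).card) := by
        rw [← Real.exp_one_pow]
        exact pow_le_pow_left₀ (by norm_num) (by linarith [Real.add_one_le_exp (1 : ℝ)]) _
      have h4 : 0 ≤ ccf m i μ ω' ω := by
        unfold ccf
        exact Nat.cast_nonneg _
      have h5 : ccf m i μ ω' ω ≤ Real.exp ((Z i).card) *
          ((cc (Finset.univ \ Z i) (X i) (fun k => pim m ((RR m i ω)⁻¹ (μ k))) : ℕ) : ℝ) :=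
        h2.trans (mul_le_mul_of_nonneg_right h3 (Nat.cast_nonneg _))
      refine (Real.rpow_le_rpow h4 h5 (by norm_num)).trans (le_of_eq ?_)
      rw [Real.mul_rpow (Real.exp_pos _).le (Nat.cast_nonneg _), ← Real.exp_mul]
    refine (Finset.prod_le_prod (fun i _ => ?_) h1).trans ?_
    · apply Real.rpow_nonneg
      unfold ccf
      exact Nat.cast_nonneg _
    rw [Finset.prod_mul_distrib, ← Real.exp_sum]
    have h6 : ∑ i ∈ Finset.range ti, ((Z i).card * (1 / 7) : ℝ) ≤ Fintype.card ι * ((27 / 50) ^ l0) := by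
      rw [← Finset.sum_mul]
      have h7 := zone_sum ti m l0 (Fintype.card ι) hm hti (fun i => (Z i).card) (fun i hi => hZ i hi)
      have h8 : (0 : ℝ) ≤ Fintype.card ι * (27 / 50) ^ l0 := by positivity
      nlinarith
    refine mul_le_mul (Real.exp_le_exp.mpr h6) ?_ (Finset.prod_nonneg fun i _ => by positivity)
      (Real.exp_pos _).le
    refine prod_rpow_convex _ (fun _ => (1 / (2 * M : ℝ))) (fun _ _ => by positivity) hlam ti
      (fun i => ((cc (Finset.univ \ Z i) (X i) (fun k => pim m ((RR m i ω)⁻¹ (μ k))) : ℕ) : ℝ))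
      (fun i => by exact_mod_cast one_le_cc _ _ _) (1 / 7) (fun v i => pe l0 ti v.1 v.2 i) ?_
    intro i hi
    exact weight_sum l0 ti M i hl0 hMpos hdvd (lt_of_lt_of_le hi (le_gs l0 ti hl0))
  refine (EE_mono hpt).trans ?_
  rw [EE_const_mul, EE_sum]
  refine mul_le_mul_of_nonneg_left ?_ (Real.exp_pos _).le
  refine Finset.sum_le_sum fun v _ => ?_
  rw [EE_const_mul]
  refine mul_le_mul_of_nonneg_left ?_ (by positivity)
  refine cc_pattern m l0 t ti ti v.1 v.2 hl0 htt μ hμ ω' (fun i => Finset.univ \ Z i) side p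
    (fun i _ => hs2 i) (fun i _ k hk => hs1 i k ?_)
  exact (Finset.mem_sdiff.1 hk).2

/-- Paper proof in `NOTES1.md` (M14). -/
theorem cc_main (m l0 t ti : ℕ) (hm : 0 < m) (hl0 : 1 ≤ l0) (hti : 2 ^ ti * 4 ^ l0 ≤ 2 * m)
    (ht : 2 * m * 2 ^ (7 * l0) ≤ 2 ^ t) (htt : ti ≤ t) (a : ι → Fin (2 * m)) (ha : Function.Injective a) :
    EE m t (fun ω' => EE m t (fun ω => ∏ i ∈ Finset.range ti,
      ccf m i (fun k => RR m t ω' (a k)) ω' ω ^ (1 / 7 : ℝ)))
      ≤ Real.exp (Fintype.card ι * ((2 : ℝ) ^ (4 * l0 + 2) * Fintype.card ι / (2 * m) + 4 * (27 / 50) ^ l0)) := by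
  set M := (7 * (l0 + ti)).factorial with hM
  have hMpos : 0 < M := Nat.factorial_pos _
  have hMR : (0 : ℝ) < M := by exact_mod_cast hMpos
  have hlam : ∑ ω ∈ Finset.range 2 ×ˢ Finset.range M, (1 / (2 * M : ℝ)) = 1 := by
    rw [Finset.sum_const, Finset.card_product, Finset.card_range, Finset.card_range, nsmul_eq_mul]
    push_cast
    field_simp
  have hθ : (1 : ℝ) ≤ (4 : ℝ) ^ l0 := one_le_pow₀ (by norm_num)
  have h1 := EE_mono (m := m) (t := t) fun ω' =>
    cc_fixed m l0 t ti hm hl0 hti htt (fun k => RR m t ω' (a k)) ((RR m t ω').injective.comp ha) ω'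
  refine h1.trans ?_
  rw [EE_const_mul, EE_sum]
  have h2 : ∀ v ∈ Finset.range 2 ×ˢ Finset.range M,
      EE m t (fun ω' => (1 / (2 * (M : ℝ))) * (((4 : ℝ) ^ l0) ^ (full Finset.univ
        (fun k => pim m ((RR m (cs l0 v.2 0) ω')⁻¹ (RR m t ω' (a k))))) *
        Real.exp (Fintype.card ι * (283 / 100 * (27 / 50) ^ l0)))) ≤
      (1 / (2 * (M : ℝ))) * (Real.exp (4 * ((4 : ℝ) ^ l0) ^ 2 * (Fintype.card ι : ℝ) ^ 2 / (2 * m)) *
        Real.exp (Fintype.card ι * (283 / 100 * (27 / 50) ^ l0))) := by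
    intro v _
    rw [EE_const_mul, EE_mul_const]
    refine mul_le_mul_of_nonneg_left (mul_le_mul_of_nonneg_right ?_ (Real.exp_pos _).le)
      (by positivity)
    have hcs : cs l0 v.2 0 < 7 * l0 := by
      have := cs_lt l0 v.2 0 hl0
      simp only [gs] at this
      omega
    have h7 : 7 * l0 ≤ t := by
      have h8 : 2 ^ (7 * l0) ≤ 2 ^ t := by
        refine le_trans ?_ ht
        exact Nat.le_mul_of_pos_left _ (by omega)
      exact (Nat.pow_le_pow_iff_right (by norm_num)).1 h8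
    have h8 : 2 * m ≤ 2 ^ (t - cs l0 v.2 0) := by
      have h9 : 2 ^ t = 2 ^ (t - 7 * l0) * 2 ^ (7 * l0) := by
        rw [← pow_add]
        congr 1
        omega
      rw [h9] at ht
      have h10 : 2 * m ≤ 2 ^ (t - 7 * l0) := Nat.le_of_mul_le_mul_right ht (by positivity)
      exact h10.trans (Nat.pow_le_pow_right (by norm_num) (by omega))
    exact sparse_adj m (cs l0 v.2 0) t hm (by omega) h8 a ha 1 _ hθ
  refine (mul_le_mul_of_nonneg_left (Finset.sum_le_sum h2) (Real.exp_pos _).le).trans ?_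
  rw [← Finset.sum_mul, hlam, one_mul, ← Real.exp_add, ← Real.exp_add]
  refine Real.exp_le_exp.mpr ?_
  have e1 : ((4 : ℝ) ^ l0) ^ 2 * 4 = (2 : ℝ) ^ (4 * l0 + 2) := by
    rw [← pow_mul, pow_add, show (4 : ℝ) = 2 ^ 2 by norm_num, ← pow_mul]
    congr 2
    ring
  have e2 : 4 * ((4 : ℝ) ^ l0) ^ 2 * (Fintype.card ι : ℝ) ^ 2 / (2 * m) =
      Fintype.card ι * ((2 : ℝ) ^ (4 * l0 + 2) * Fintype.card ι / (2 * m)) := by
    rw [← e1]
    ring
  rw [e2]
  have h3 : (0 : ℝ) ≤ Fintype.card ι * (27 / 50) ^ l0 := by positivity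
  nlinarith

end Vale.Agent.P162
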