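import Vale.Agent.P162G.NetG

/-! P162G module M6: backward cones and decoupling. -/

open Equiv

set_option linter.unusedSectionVars false

namespace Vale.Agent.P162

/-- positions from which `D` can be reached in `w` reversed steps -/
def coneS (m : ℕ) : ℕ → Finset (Fin (2 * m)) → Finset (Fin (2 * m))
  | 0, D => D
  | (w + 1), D => Finset.univ.filter (fun x => ch m x false ∈ coneS m w D ∨ ch m x true ∈ coneS m w D)

theorem mem_coneS_succ (m w : ℕ) (D : Finset (Fin (2 * m))) (x : Fin (2 * m)) :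
    x ∈ coneS m (w + 1) D ↔ ∃ b, ch m x b ∈ coneS m w D := by
  simp [coneS, Bool.exists_bool]

theorem mem_coneS (m w : ℕ) (D : Finset (Fin (2 * m))) (x : Fin (2 * m)) :
    x ∈ coneS m w D ↔ ∃ ω : ℕ → Fin m → Bool, RR m w ω x ∈ D := by
  induction w generalizing x with
  | zero => simp [coneS, RR]
  | succ w ih =>
    rw [mem_coneS_succ]
    constructor
    · rintro ⟨b, hb⟩
      obtain ⟨ω, hω⟩ := (ih _).1 hb
      refine ⟨Function.update ω w (fun _ => xor b (par m x)), ?_⟩
      have h1 : RR m w (Function.update ω w (fun _ => xor b (par m x))) = RR m w ω :=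
        RR_congr (fun i hi => Function.update_of_ne (by omega) _ _)
      rw [RR, Perm.mul_apply, h1, St_apply]
      simpa using hω
    · rintro ⟨ω, hω⟩
      rw [RR, Perm.mul_apply, St_apply] at hω
      exact ⟨_, (ih _).2 ⟨ω, hω⟩⟩

theorem coneS_union (m w : ℕ) (D D' : Finset (Fin (2 * m))) : coneS m w (D ∪ D') = coneS m w D ∪ coneS m w D' := by
  ext x
  simp only [Finset.mem_union, mem_coneS]
  rw [← exists_or]

theorem coneS_mono (m w : ℕ) {D D' : Finset (Fin (2 * m))} (h : D ⊆ D') : coneS m w D ⊆ coneS m w D' := by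
  intro x hx
  rw [mem_coneS] at hx ⊢
  obtain ⟨ω, hω⟩ := hx
  exact ⟨ω, h hω⟩

theorem mem_coneS_iff_exists (m w : ℕ) (D : Finset (Fin (2 * m))) (x : Fin (2 * m)) :
    x ∈ coneS m w D ↔ ∃ z ∈ D, x ∈ coneS m w {z} := by
  simp only [mem_coneS, Finset.mem_singleton]
  constructor
  · rintro ⟨ω, hω⟩
    exact ⟨_, hω, ω, rfl⟩
  · rintro ⟨z, hz, ω, hω⟩
    exact ⟨ω, hω ▸ hz⟩

theorem coneS_add (m w w' : ℕ) (D : Finset (Fin (2 * m))) : coneS m (w + w') D = coneS m w (coneS m w' D) := by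
  induction w with
  | zero => simp [coneS]
  | succ w ih =>
    ext x
    rw [Nat.succ_add, mem_coneS_succ, mem_coneS_succ, ih]

/-- half circle of positions starting at `e` -/
def half (m e : ℕ) : Finset (Fin (2 * m)) := Finset.univ.filter (fun x => ∃ j, j < m ∧ x.val = (e + j) % (2 * m))

/-- the cone of a point is a cyclic interval -/
theorem coneS_singleton (m w : ℕ) (z x : Fin (2 * m)) :
    x ∈ coneS m w {z} ↔ ∃ j, j < 2 ^ w ∧ x.val = (2 ^ w * z.val + j) % (2 * m) := by
  induction w generalizing x with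
  | zero =>
    simp only [coneS, Finset.mem_singleton, pow_zero, Nat.lt_one_iff, one_mul, exists_eq_left, add_zero]
    rw [Nat.mod_eq_of_lt z.isLt, Fin.ext_iff]
  | succ w ih =>
    rw [mem_coneS_succ]
    have hm : 0 < m := by have := x.isLt; omega
    constructor
    · rintro ⟨b, hb⟩
      obtain ⟨j, hj, hx⟩ := (ih _).1 hb
      refine ⟨2 * j + x.val % 2, by rw [pow_succ]; omega, ?_⟩
      have h1 : 2 * (ch m x b).val + x.val % 2 = x.val + 2 * m * (if b then 1 else 0) := by
        unfold ch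
        cases b <;> simp <;> omega
      have h2 : (x.val + 2 * m * (if b then 1 else 0)) % (2 * m) = x.val := by
        rw [Nat.add_mul_mod_self_left, Nat.mod_eq_of_lt x.isLt]
      have h3 : 2 ^ (w + 1) * z.val + (2 * j + x.val % 2) = 2 * (2 ^ w * z.val + j) + x.val % 2 := by ring
      have h4 : (2 * ((2 ^ w * z.val + j) % (2 * m)) + x.val % 2) % (2 * m)
          = (2 * (2 ^ w * z.val + j) + x.val % 2) % (2 * m) := by
        conv_rhs => rw [Nat.add_mod, Nat.mul_mod]
        conv_lhs => rw [Nat.add_mod, Nat.mul_mod, Nat.mod_mod]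
      rw [h3, ← h4, ← hx, h1, h2]
    · rintro ⟨j, hj, hx⟩
      set Y := 2 ^ w * z.val + j / 2 with hY
      have hj2 : j / 2 < 2 ^ w := by rw [pow_succ] at hj; omega
      have h1 : 2 ^ (w + 1) * z.val + j = 2 * Y + j % 2 := by
        have : j = 2 * (j / 2) + j % 2 := by omega
        rw [hY]
        conv_lhs => rw [this]
        ring
      have h2 : x.val = 2 * (Y % m) + j % 2 := by
        rw [hx, h1]
        have h3 : 2 * Y + j % 2 = 2 * (Y % m) + j % 2 + 2 * m * (Y / m) := by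
          have := Nat.mod_add_div Y m
          calc 2 * Y + j % 2 = 2 * (Y % m + m * (Y / m)) + j % 2 := by rw [this]
            _ = _ := by ring
        rw [h3, Nat.add_mul_mod_self_left, Nat.mod_eq_of_lt]
        have := Nat.mod_lt Y hm
        omega
      have h4 : Y % (2 * m) = Y % m + m * (Y / m % 2) := by
        rw [mul_comm 2 m, Nat.mod_mul]
      refine ⟨decide (Y / m % 2 = 1), (ih _).2 ⟨j / 2, hj2, ?_⟩⟩
      rw [← hY, h4]
      unfold ch
      have hx2 : x.val / 2 = Y % m := by omega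
      simp only [hx2, decide_eq_true_eq]
      rcases Nat.mod_two_eq_zero_or_one (Y / m) with h | h <;> simp [h]

/-- the coins that matter for reaching `D` -/
def coneQ (m : ℕ) (D : Finset (Fin (2 * m))) (i : ℕ) (j : Fin m) : Prop :=
  ∃ x ∈ coneS m (i + 1) D, pix m x = j

theorem ch_congr {m : ℕ} {x x' : Fin (2 * m)} (h : pix m x = pix m x') (b : Bool) : ch m x b = ch m x' b := by
  unfold pix at h
  unfold ch
  rw [Fin.mk.injEq] at h
  simp [h]

theorem coneQ_disj {m w : ℕ} {D0 D1 : Finset (Fin (2 * m))}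
    (hdis : Disjoint (coneS m w D0) (coneS m w D1)) {i : ℕ} (hi : i < w) {j : Fin m}
    (h0 : coneQ m D0 i j) (h1 : coneQ m D1 i j) : False := by
  obtain ⟨x, hx, hxj⟩ := h0
  obtain ⟨x', hx', hxj'⟩ := h1
  have h2 : x ∈ coneS m (i + 1) D1 := by
    rw [mem_coneS_succ] at hx' ⊢
    obtain ⟨b, hb⟩ := hx'
    exact ⟨b, by rwa [ch_congr (hxj.trans hxj'.symm)]⟩
  obtain ⟨k, hk⟩ : ∃ k, w = k + (i + 1) := ⟨w - (i + 1), by omega⟩
  rw [hk, coneS_add m k (i + 1) D0, coneS_add m k (i + 1) D1, Finset.disjoint_left] at hdis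
  have h3 : ∃ y, y ∈ coneS m k {x} := ⟨(RR m k (fun _ _ => false))⁻¹ x, by
    rw [mem_coneS]
    exact ⟨fun _ _ => false, by simp⟩⟩
  obtain ⟨y, hy⟩ := h3
  exact hdis (coneS_mono m k (Finset.singleton_subset_iff.2 hx) hy)
    (coneS_mono m k (Finset.singleton_subset_iff.2 h2) hy)

theorem RR_agree {m : ℕ} {D : Finset (Fin (2 * m))} (w : ℕ) (ω ω' : ℕ → Fin m → Bool)
    (h : ∀ i < w, ∀ j, coneQ m D i j → ω i j = ω' i j) (x : Fin (2 * m)) (hx : RR m w ω x ∈ D) :
    RR m w ω' x = RR m w ω x := by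
  induction w generalizing x with
  | zero => simp [RR]
  | succ w ih =>
    rw [RR, Perm.mul_apply] at hx
    rw [RR, RR, Perm.mul_apply, Perm.mul_apply]
    have h1 : St m (ω w) x ∈ coneS m w D := (mem_coneS _ _ _ _).2 ⟨ω, hx⟩
    have h2 : coneQ m D w (pix m x) := by
      refine ⟨x, ?_, rfl⟩
      rw [mem_coneS_succ]
      rw [St_apply] at h1
      exact ⟨_, h1⟩
    have h3 : St m (ω' w) x = St m (ω w) x := by
      rw [St_apply, St_apply, h w (by omega) _ h2]
    rw [h3]
    exact ih (fun i hi j hj => h i (by omega) j hj) _ hx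

theorem comp_RR_agree {m w : ℕ} {K : Type} [Zero K] {D : Finset (Fin (2 * m))} (C : Fin (2 * m) → K)
    (hC : ∀ z, z ∉ D → C z = 0) (ω ω' : ℕ → Fin m → Bool)
    (h : ∀ i < w, ∀ j, coneQ m D i j → ω i j = ω' i j) (x : Fin (2 * m)) :
    C (RR m w ω x) = C (RR m w ω' x) := by
  by_cases h1 : RR m w ω x ∈ D
  · rw [RR_agree w ω ω' h x h1]
  · by_cases h2 : RR m w ω' x ∈ D
    · rw [RR_agree w ω' ω (fun i hi j hj => (h i hi j hj).symm) x h2]
    · rw [hC _ h1, hC _ h2]

/-- colourings supported on sets with disjoint cones are pulled back by independent networks -/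
theorem decouple (m w : ℕ) {K : Type} [Zero K] (D0 D1 : Finset (Fin (2 * m)))
    (hdis : Disjoint (coneS m w D0) (coneS m w D1)) (C0 C1 : Fin (2 * m) → K)
    (h0 : ∀ z, z ∉ D0 → C0 z = 0) (h1 : ∀ z, z ∉ D1 → C1 z = 0) (Ψ : (Fin (2 * m) → K) → (Fin (2 * m) → K) → ℝ) :
    EE m w (fun ω => Ψ (fun y => C0 (RR m w ω y)) (fun y => C1 (RR m w ω y)))
      = EE m w (fun ω0 => EE m w (fun ω1 => Ψ (fun y => C0 (RR m w ω0 y)) (fun y => C1 (RR m w ω1 y)))) := by
  classical
  rw [EE_mix (fun i j => coneQ m D0 i j), EE_comm]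
  refine congrArg _ (funext fun ω' => congrArg _ (funext fun ω => ?_))
  congr 1
  · funext y
    exact comp_RR_agree C0 h0 _ _ (fun i _ j hj => if_pos hj) y
  · funext y
    exact comp_RR_agree C1 h1 _ _ (fun i hi j hj => if_neg (fun hj0 => coneQ_disj hdis hi hj0 hj)) y

end Vale.Agent.P162
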