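import Vale.Agent.P162.Law
import Vale.Agent.P162.D
import Vale.Agent.P162.B
import Vale.Agent.P162.Avg

open Equiv

set_option linter.unusedSectionVars false

namespace Vale.Agent.P162

/-! General even `n = 2 * m`.  Positions: `Fin (2 * m)`.  The reversed Thorp step with coins `c : Fin m → Bool`
sends `x` to `x / 2 + m * (c (x / 2) xor x % 2)`. -/

/-- the pair index of a position before a reversed step -/
def pix (m : ℕ) (x : Fin (2 * m)) : Fin m := ⟨x.val / 2, by omega⟩

/-- the pair index of a position after a reversed step -/
def pim (m : ℕ) (y : Fin (2 * m)) : Fin m := ⟨y.val % m, Nat.mod_lt _ (by have := y.isLt; omega)⟩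

/-- the child of `x` with bit `b` -/
def ch (m : ℕ) (x : Fin (2 * m)) (b : Bool) : Fin (2 * m) := ⟨x.val / 2 + (if b then m else 0), by split_ifs <;> omega⟩

/-- parity of a position -/
def par (m : ℕ) (x : Fin (2 * m)) : Bool := decide (x.val % 2 = 1)

/-- the reversed Thorp step: the inverse of the Thorp shuffle `thorpPerm m c` -/
noncomputable def St (m : ℕ) (c : Fin m → Bool) : Perm (Fin (2 * m)) := (thorpPerm m c)⁻¹

/-- swapping the two positions `2 i, 2 i + 1` of the pairs with `c i = true` -/
def flp (m : ℕ) (c : Fin m → Bool) : Perm (Fin (2 * m)) where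
  toFun x := if c (pix m x) then ⟨2 * (x.val / 2) + (1 - x.val % 2), by omega⟩ else x
  invFun x := if c (pix m x) then ⟨2 * (x.val / 2) + (1 - x.val % 2), by omega⟩ else x
  left_inv := by
    intro x
    by_cases h : c (pix m x)
    · have h2 : pix m (⟨2 * (x.val / 2) + (1 - x.val % 2), by omega⟩ : Fin (2 * m)) = pix m x := by
        unfold pix
        ext
        simp only
        omega
      simp only [h, if_true, h2]
      ext
      simp only
      omega
    · simp [h]
  right_inv := by
    intro x
    by_cases h : c (pix m x)
    · have h2 : pix m (⟨2 * (x.val / 2) + (1 - x.val % 2), by omega⟩ : Fin (2 * m)) = pix m x := by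
        unfold pix
        ext
        simp only
        omega
      simp only [h, if_true, h2]
      ext
      simp only
      omega
    · simp [h]

theorem St_apply (m : ℕ) (c : Fin m → Bool) (x : Fin (2 * m)) :
    St m c x = ch m x (xor (c (pix m x)) (par m x)) := by
  have h : thorpPerm m c (ch m x (xor (c (pix m x)) (par m x))) = x := by
    change thorpFun m c _ = x
    unfold thorpFun ch par pix
    have hx := x.isLt
    rcases Nat.mod_two_eq_zero_or_one x.val with h2 | h2
    · cases hc : c ⟨x.val / 2, by omega⟩
      · simp only [h2]
        ext
        simp [hc, h2]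
        have : x.val / 2 < m := by omega
        simp [this, hc]
        omega
      · ext
        simp [hc, h2]
        omega
    · cases hc : c ⟨x.val / 2, by omega⟩
      · ext
        simp [hc, h2]
        omega
      · ext
        have : x.val / 2 < m := by omega
        simp [hc, h2, this]
        omega
  unfold St
  rw [Perm.inv_eq_iff_eq]
  exact h.symm

end Vale.Agent.P162
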