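import Vale.Agent.P162.A6

/-! P162G module N1: exponential of a symmetric operator in finite dimension. -/

open Equiv

set_option linter.unusedSectionVars false

namespace Vale.Agent.P162

variable {E : Type} [NormedAddCommGroup E] [InnerProductSpace ℝ E] [FiniteDimensional ℝ E]

/-- operator exponential -/
noncomputable def ex (A : E →ₗ[ℝ] E) : E →ₗ[ℝ] E :=
  ((NormedSpace.exp (LinearMap.toContinuousLinearMap A) : E →L[ℝ] E) : E →ₗ[ℝ] E)

theorem ex_hasSum (A : E →ₗ[ℝ] E) (v : E) :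
    HasSum (fun n : ℕ => ((n.factorial : ℝ)⁻¹) • (A ^ n) v) (ex A v) := by
  have : CompleteSpace E := FiniteDimensional.complete ℝ E
  have h1 := NormedSpace.exp_series_hasSum_exp' (𝕂 := ℝ) (LinearMap.toContinuousLinearMap A)
  have h2 := (ContinuousLinearMap.apply ℝ E v).hasSum h1
  have h3 : ∀ n : ℕ, ((LinearMap.toContinuousLinearMap A) ^ n) v = (A ^ n) v := by
    intro n
    induction n with
    | zero => rfl
    | succ n ih =>
      rw [pow_succ', pow_succ']
      change (LinearMap.toContinuousLinearMap A) (((LinearMap.toContinuousLinearMap A) ^ n) v) =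
        A ((A ^ n) v)
      rw [ih]
      rfl
  have h4 : (fun n : ℕ => (ContinuousLinearMap.apply ℝ E v)
      (((n.factorial : ℝ)⁻¹) • (LinearMap.toContinuousLinearMap A) ^ n)) =
      fun n : ℕ => ((n.factorial : ℝ)⁻¹) • (A ^ n) v := by
    funext n
    rw [← h3 n]
    rfl
  rw [h4] at h2
  exact h2

theorem ex_zero (v : E) : ex (0 : E →ₗ[ℝ] E) v = v := by
  unfold ex
  rw [map_zero, NormedSpace.exp_zero]
  rfl

theorem ex_eig (A : E →ₗ[ℝ] E) {v : E} {μ : ℝ} (h : A v = μ • v) : ex A v = Real.exp μ • v := by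
  have h1 := ex_hasSum A v
  have h2 : ∀ n : ℕ, (A ^ n) v = μ ^ n • v := by
    intro n
    induction n with
    | zero => simp
    | succ n ih =>
      rw [pow_succ']
      change A ((A ^ n) v) = _
      rw [ih, map_smul, h, smul_smul, pow_succ]
  have h4 := NormedSpace.exp_series_hasSum_exp' (𝕂 := ℝ) μ
  rw [← Real.exp_eq_exp_ℝ] at h4
  have h5 := h4.smul_const v
  have h6 : (fun n : ℕ => (((n.factorial : ℝ)⁻¹) • μ ^ n) • v) =
      fun n : ℕ => ((n.factorial : ℝ)⁻¹) • (A ^ n) v := by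
    funext n
    rw [h2 n, smul_assoc]
  rw [h6] at h5
  exact h1.unique h5

theorem ex_add (A B : E →ₗ[ℝ] E) (h : ∀ v, A (B v) = B (A v)) (v : E) : ex (A + B) v = ex A (ex B v) := by
  have : CompleteSpace E := FiniteDimensional.complete ℝ E
  have hc : Commute (LinearMap.toContinuousLinearMap A) (LinearMap.toContinuousLinearMap B) := by
    ext v
    exact h v
  unfold ex
  let _ : NormedAlgebra ℚ (E →L[ℝ] E) := NormedAlgebra.restrictScalars ℚ ℝ _
  rw [map_add, NormedSpace.exp_add_of_commute hc]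
  rfl

theorem ex_symm (A : E →ₗ[ℝ] E) (hA : A.IsSymmetric) : (ex A).IsSymmetric := by
  intro u v
  obtain ⟨s, f, hf, rfl⟩ := eig_decomp A hA ⊤ (fun _ _ => trivial) u trivial
  obtain ⟨t, g, hg, rfl⟩ := eig_decomp A hA ⊤ (fun _ _ => trivial) v trivial
  simp only [map_sum, sum_inner, inner_sum]
  refine Finset.sum_congr rfl fun b _ => Finset.sum_congr rfl fun a _ => ?_
  rw [ex_eig A (hf a).2, ex_eig A (hg b).2, inner_smul_left, inner_smul_right]
  by_cases hab : a = b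
  · rw [hab]
    rfl
  · rw [inner_eig_zero A hA hab (hf a).2 (hg b).2]
    simp

theorem ex_comm (A B : E →ₗ[ℝ] E) (h : ∀ v, A (B v) = B (A v)) (v : E) : ex A (B v) = B (ex A v) := by
  have hc : Commute (LinearMap.toContinuousLinearMap A) (LinearMap.toContinuousLinearMap B) := by
    ext v
    exact h v
  have h1 := hc.exp_left
  exact congrArg (fun (T : E →L[ℝ] E) => T v) h1.eq

/-- conjugation by an isometry (used with `g = ρ σ`) -/
theorem ex_conj (A B : E →ₗ[ℝ] E) (g : E ≃ₗᵢ[ℝ] E) (h : ∀ v, g (B v) = A (g v)) (v : E) :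
    g (ex B v) = ex A (g v) := by
  have h1 := ex_hasSum A (g v)
  have h2 := (g.toContinuousLinearEquiv : E →L[ℝ] E).hasSum (ex_hasSum B v)
  have h3 : ∀ n : ℕ, g ((B ^ n) v) = (A ^ n) (g v) := by
    intro n
    induction n with
    | zero => rfl
    | succ n ih =>
      rw [pow_succ', pow_succ']
      change g (B ((B ^ n) v)) = A ((A ^ n) (g v))
      rw [h, ih]
  have h4 : (fun n : ℕ => (g.toContinuousLinearEquiv : E →L[ℝ] E)
      (((n.factorial : ℝ)⁻¹) • (B ^ n) v)) =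
      fun n : ℕ => ((n.factorial : ℝ)⁻¹) • (A ^ n) (g v) := by
    funext n
    rw [map_smul, ← h3 n]
    rfl
  rw [h4] at h2
  exact h2.unique h1

theorem ex_mem (A : E →ₗ[ℝ] E) (K : Submodule ℝ E) (hK : ∀ v ∈ K, A v ∈ K) {v : E} (hv : v ∈ K) : ex A v ∈ K := by
  have h1 := ex_hasSum A v
  have h2 : ∀ n : ℕ, (A ^ n) v ∈ K := by
    intro n
    induction n with
    | zero => exact hv
    | succ n ih =>
      rw [pow_succ']
      exact hK _ ih
  have hcl : IsClosed (K : Set E) := K.closed_of_finiteDimensional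
  refine hcl.mem_of_tendsto h1 (Filter.Eventually.of_forall fun s => ?_)
  exact K.sum_mem fun n _ => K.smul_mem _ (h2 n)

theorem ex_half (A : E →ₗ[ℝ] E) (v : E) : ex A v = ex ((1 / 2 : ℝ) • A) (ex ((1 / 2 : ℝ) • A) v) := by
  rw [← ex_add _ _ (fun _ => rfl), ← add_smul]
  norm_num

theorem half_symm {A : E →ₗ[ℝ] E} (hA : A.IsSymmetric) : ((1 / 2 : ℝ) • A).IsSymmetric := by
  intro u v
  simp only [LinearMap.smul_apply, inner_smul_left, inner_smul_right, hA u v]
  rfl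

theorem ex_form (A : E →ₗ[ℝ] E) (hA : A.IsSymmetric) (v : E) :
    inner ℝ v (ex A v) = ‖ex ((1 / 2 : ℝ) • A) v‖ ^ 2 := by
  rw [ex_half, ← ex_symm _ (half_symm hA), real_inner_self_eq_norm_sq]

/-- spectral formula for the quadratic form of the exponential -/
theorem ex_form_sum (A : E →ₗ[ℝ] E) {ι : Type} (S : Finset ι) (g : ι → E) (μ : ι → ℝ)
    (hg : ∀ p ∈ S, A (g p) = μ p • g p) (horth : ∀ p ∈ S, ∀ q ∈ S, p ≠ q → inner ℝ (g p) (g q) = 0) :
    inner ℝ (∑ p ∈ S, g p) (ex A (∑ p ∈ S, g p)) = ∑ p ∈ S, Real.exp (μ p) * ‖g p‖ ^ 2 := by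
  rw [map_sum, sum_inner]
  refine Finset.sum_congr rfl fun p hp => ?_
  rw [inner_sum, Finset.sum_eq_single p]
  · rw [ex_eig A (hg p hp), inner_smul_right, real_inner_self_eq_norm_sq]
  · intro q hq hqp
    rw [ex_eig A (hg q hq), inner_smul_right, horth p hp q hq (Ne.symm hqp), mul_zero]
  · intro h
    exact absurd hp h

/-- monotonicity of the exponential for commuting symmetric operators -/
theorem ex_mono (A B : E →ₗ[ℝ] E) (hA : A.IsSymmetric) (hB : B.IsSymmetric) (hAB : ∀ v, A (B v) = B (A v))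
    (hle : ∀ v, inner ℝ v (A v) ≤ inner ℝ v (B v)) (v : E) :
    inner ℝ v (ex A v) ≤ inner ℝ v (ex B v) := by
  obtain ⟨S, g, hg, rfl⟩ := joint_decomp A B hA hB hAB ⊤ (fun _ _ => trivial) (fun _ _ => trivial)
    v trivial
  have horth : ∀ p ∈ S, ∀ q ∈ S, p ≠ q → inner ℝ (g p) (g q) = 0 := fun p _ q _ hpq =>
    joint_orth A B hA hB hpq (hg p).2.1 (hg p).2.2 (hg q).2.1 (hg q).2.2
  rw [ex_form_sum A S g (fun p => p.1) (fun p _ => (hg p).2.1) horth,
    ex_form_sum B S g (fun p => p.2) (fun p _ => (hg p).2.2) horth]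
  refine Finset.sum_le_sum fun p _ => ?_
  by_cases h0 : g p = 0
  · rw [h0]
    simp
  · have h1 := hle (g p)
    rw [(hg p).2.1, (hg p).2.2, inner_smul_right, inner_smul_right, real_inner_self_eq_norm_sq] at h1
    have h2 : 0 < ‖g p‖ ^ 2 := by positivity
    have h3 : p.1 ≤ p.2 := le_of_mul_le_mul_right h1 h2
    exact mul_le_mul_of_nonneg_right (Real.exp_le_exp.mpr h3) h2.le

/-- adding a commuting symmetric operator `C`: an inequality valid on a set `P` of vectors stable under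
`ex (C / 2)` extends -/
theorem ex_add_le (A B C : E →ₗ[ℝ] E) (hA : A.IsSymmetric) (hB : B.IsSymmetric) (hC : C.IsSymmetric)
    (hAC : ∀ v, A (C v) = C (A v)) (hBC : ∀ v, B (C v) = C (B v)) (P : Submodule ℝ E)
    (hP : ∀ v ∈ P, C v ∈ P) (hle : ∀ v ∈ P, inner ℝ v (ex A v) ≤ inner ℝ v (ex B v)) (v : E) (hv : v ∈ P) :
    inner ℝ v (ex (A + C) v) ≤ inner ℝ v (ex (B + C) v) := by
  have key : ∀ A : E →ₗ[ℝ] E, A.IsSymmetric → (∀ v, A (C v) = C (A v)) →
      inner ℝ (ex ((1 / 2 : ℝ) • C) v) (ex A (ex ((1 / 2 : ℝ) • C) v)) =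
        inner ℝ v (ex (A + C) v) := by
    intro A _ hAC
    have h1 : ∀ w, ex A (ex ((1 / 2 : ℝ) • C) w) = ex ((1 / 2 : ℝ) • C) (ex A w) := by
      intro w
      refine ex_comm A (ex ((1 / 2 : ℝ) • C)) (fun z => ?_) w
      refine (ex_comm ((1 / 2 : ℝ) • C) A (fun y => ?_) z).symm
      rw [LinearMap.smul_apply, LinearMap.smul_apply, map_smul, hAC]
    rw [ex_symm _ (half_symm hC), h1, ← ex_half, ← ex_comm A (ex C) (fun z =>
      (ex_comm C A (fun y => (hAC y).symm) z).symm), ← ex_add A C hAC]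
  have hw : ex ((1 / 2 : ℝ) • C) v ∈ P :=
    ex_mem _ P (fun z hz => by
      rw [LinearMap.smul_apply]
      exact P.smul_mem _ (hP z hz)) hv
  have h := hle _ hw
  rwa [key A hA hAC, key B hB hBC] at h

/-- Jensen: for `T* T ≤ exp (-A)` and an eigenvector `v` of `T* T` -/
theorem log_trick (T A : E →ₗ[ℝ] E) (hA : A.IsSymmetric)
    (h : ∀ u, ‖T u‖ ^ 2 ≤ inner ℝ u (ex (-A) u)) (v : E) (μ : ℝ)
    (hv : LinearMap.adjoint T (T v) = μ • v) (hv0 : v ≠ 0) :
    μ ≤ Real.exp (-(inner ℝ v (A v)) / ‖v‖ ^ 2) := by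
  have hn : 0 < ‖v‖ ^ 2 := by positivity
  set z : E := ex A v with hz
  have hzv : ex (-A) z = v := by
    rw [hz, ← ex_add (-A) A (fun w => by simp), neg_add_cancel, ex_zero]
  -- Jensen
  set x₀ : ℝ := inner ℝ v (A v) / ‖v‖ ^ 2 with hx₀
  have hJ : ‖v‖ ^ 2 * Real.exp x₀ ≤ inner ℝ v z := by
    obtain ⟨s, f, hf, hvs⟩ := eig_decomp A hA ⊤ (fun _ _ => trivial) v trivial
    have horth : ∀ p ∈ s, ∀ q ∈ s, p ≠ q → inner ℝ (f p) (f q) = 0 := fun p _ q _ hpq =>
      inner_eig_zero A hA hpq (hf p).2 (hf q).2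
    have h1 : inner ℝ v z = ∑ p ∈ s, Real.exp p * ‖f p‖ ^ 2 := by
      rw [hz, hvs]
      exact ex_form_sum A s f (fun p => p) (fun p _ => (hf p).2) horth
    have h2 : ‖v‖ ^ 2 = ∑ p ∈ s, ‖f p‖ ^ 2 := by
      rw [hvs]
      exact norm_sq_sum_of_orth s f horth
    have h3 : inner ℝ v (A v) = ∑ p ∈ s, p * ‖f p‖ ^ 2 := by
      conv_lhs => rw [hvs]
      rw [map_sum, sum_inner]
      refine Finset.sum_congr rfl fun p hp => ?_
      rw [inner_sum, Finset.sum_eq_single p]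
      · rw [(hf p).2, inner_smul_right, real_inner_self_eq_norm_sq]
      · intro q hq hqp
        rw [(hf q).2, inner_smul_right, horth p hp q hq (Ne.symm hqp), mul_zero]
      · intro h'
        exact absurd hp h'
    have h4 : ∀ p : ℝ, Real.exp x₀ * (1 + (p - x₀)) ≤ Real.exp p := by
      intro p
      have h5 := Real.add_one_le_exp (p - x₀)
      have h6 : Real.exp p = Real.exp x₀ * Real.exp (p - x₀) := by
        rw [← Real.exp_add]
        congr 1
        ring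
      rw [h6]
      exact mul_le_mul_of_nonneg_left (by linarith) (Real.exp_pos _).le
    have h5 : ∑ p ∈ s, Real.exp x₀ * (1 + (p - x₀)) * ‖f p‖ ^ 2 ≤ inner ℝ v z := by
      rw [h1]
      exact Finset.sum_le_sum fun p _ => mul_le_mul_of_nonneg_right (h4 p) (by positivity)
    refine le_trans (le_of_eq ?_) h5
    have h6 : ∑ p ∈ s, Real.exp x₀ * (1 + (p - x₀)) * ‖f p‖ ^ 2 =
        Real.exp x₀ * ((1 - x₀) * (∑ p ∈ s, ‖f p‖ ^ 2) + ∑ p ∈ s, p * ‖f p‖ ^ 2) := by
      rw [Finset.mul_sum, ← Finset.sum_add_distrib, Finset.mul_sum]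
      refine Finset.sum_congr rfl fun p _ => ?_
      ring
    rw [h6, ← h2, ← h3]
    have h7 : inner ℝ v (A v) = x₀ * ‖v‖ ^ 2 := by
      rw [hx₀]
      field_simp
    rw [h7]
    ring
  have hvz : 0 < inner ℝ v z := lt_of_lt_of_le (by positivity) hJ
  have hT : ‖T z‖ ^ 2 ≤ inner ℝ v z := by
    have := h z
    rw [hzv, real_inner_comm] at this
    exact this
  have hTv : ‖T v‖ ^ 2 = μ * ‖v‖ ^ 2 := by
    rw [← real_inner_self_eq_norm_sq, ← LinearMap.adjoint_inner_right, hv, inner_smul_right,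
      real_inner_self_eq_norm_sq]
  have hTT : inner ℝ (T z) (T v) = μ * inner ℝ v z := by
    rw [← LinearMap.adjoint_inner_right, hv, inner_smul_right, real_inner_comm]
  have hμ : 0 ≤ μ := by
    by_contra hneg
    push Not at hneg
    have : μ * ‖v‖ ^ 2 < 0 := mul_neg_of_neg_of_pos hneg hn
    have h2 : 0 ≤ ‖T v‖ ^ 2 := by positivity
    linarith
  have hCS : (inner ℝ (T z) (T v)) ^ 2 ≤ ‖T z‖ ^ 2 * ‖T v‖ ^ 2 := by
    have h1 := abs_real_inner_le_norm (T z) (T v)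
    have h2 : |inner ℝ (T z) (T v)| ^ 2 ≤ (‖T z‖ * ‖T v‖) ^ 2 :=
      pow_le_pow_left₀ (abs_nonneg _) h1 2
    rw [sq_abs, mul_pow] at h2
    exact h2
  have hfin : μ * inner ℝ v z ≤ ‖v‖ ^ 2 := by
    rcases hμ.eq_or_lt with h0 | h0
    · rw [← h0, zero_mul]
      exact hn.le
    · have h1 : (μ * inner ℝ v z) ^ 2 ≤ inner ℝ v z * (μ * ‖v‖ ^ 2) := by
        rw [← hTT, ← hTv]
        refine hCS.trans ?_
        exact mul_le_mul_of_nonneg_right hT (by positivity)
      have h2 : 0 < μ * inner ℝ v z := mul_pos h0 hvz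
      have h3 : (μ * inner ℝ v z) * (μ * inner ℝ v z) ≤ (μ * inner ℝ v z) * ‖v‖ ^ 2 := by
        have : (μ * inner ℝ v z) ^ 2 = (μ * inner ℝ v z) * (μ * inner ℝ v z) := sq _
        rw [this] at h1
        linarith
      exact le_of_mul_le_mul_left h3 h2
  have h1 : μ * (‖v‖ ^ 2 * Real.exp x₀) ≤ ‖v‖ ^ 2 :=
    (mul_le_mul_of_nonneg_left hJ hμ).trans hfin
  have h2 : μ * Real.exp x₀ ≤ 1 := by
    have h3 : ‖v‖ ^ 2 * (μ * Real.exp x₀) ≤ ‖v‖ ^ 2 * 1 := by linarith
    exact le_of_mul_le_mul_left h3 hn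
  have h3 : -(inner ℝ v (A v)) / ‖v‖ ^ 2 = -x₀ := by
    rw [hx₀]
    ring
  rw [h3, Real.exp_neg]
  rw [← one_div, le_div_iff₀ (Real.exp_pos _)]
  exact h2

end Vale.Agent.P162
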