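import Vale.Agent.P162G.ThmA
import Vale.Agent.P162.D
import Vale.Agent.P162.Lower

/-! P162G F1: `t_mix(n) = O((log n)^2)` for every even `n`, and the general lower bound. -/

open Equiv

set_option linter.unusedSectionVars false
set_option linter.unusedSimpArgs false

namespace Vale.Agent.P162

theorem log_two_mul_pos {m : ℕ} (hm : 1 ≤ m) : 1 ≤ Nat.log 2 (2 * m) :=
  Nat.log_pos (by norm_num) (by omega)

theorem two_mul_lt_pow_log (m : ℕ) : 2 * m < 2 ^ (Nat.log 2 (2 * m) + 1) :=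
  Nat.lt_pow_succ_log_self (by norm_num) _

theorem two_mul_le_four_pow_log {m : ℕ} (hm : 1 ≤ m) : 2 * m ≤ 4 ^ (Nat.log 2 (2 * m)) := by
  have h1 := two_mul_lt_pow_log m
  have h2 := log_two_mul_pos hm
  refine h1.le.trans ?_
  rw [show (4 : ℕ) = 2 ^ 2 by norm_num, ← pow_mul]
  exact Nat.pow_le_pow_right (by norm_num) (by omega)

theorem pow_log_le_two_mul {m : ℕ} (hm : 1 ≤ m) : 2 ^ (Nat.log 2 (2 * m)) ≤ 2 * m :=
  Nat.pow_log_le_self 2 (by omega)

section ops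

variable {E : Type} [NormedAddCommGroup E] [InnerProductSpace ℝ E]

theorem gen_rounds (c : ℝ) {m : ℕ} (ρ : Perm (Fin (2 * m)) →* (E ≃ₗᵢ[ℝ] E)) (j : ℕ) (L : ℕ)
    (hA : ∀ u ∈ Kj ρ Finset.univ j, ‖((opOf ρ (thorpLaw m)) ^ L) u‖ ^ 2 ≤ Real.exp (-c * j) * ‖u‖ ^ 2)
    (u : E) (hu : u ∈ Kj ρ Finset.univ j) (r : ℕ) :
    ‖((opOf ρ (thorpLaw m)) ^ (L * r)) u‖ ^ 2 ≤ (Real.exp (-(c * r))) ^ j * ‖u‖ ^ 2 := by
  induction r with
  | zero => simp
  | succ r ih =>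
    have e1 : L * (r + 1) = L + L * r := by ring
    rw [e1, pow_add, Module.End.mul_apply]
    have h1 := hA _ (pow_opOf_mem_Kj ρ (thorpLaw m) j (L * r) hu)
    refine h1.trans ?_
    have h2 := mul_le_mul_of_nonneg_left ih (Real.exp_pos (-c * j)).le
    refine h2.trans (le_of_eq ?_)
    rw [← mul_assoc, ← Real.exp_nat_mul, ← Real.exp_nat_mul, ← Real.exp_add]
    congr 2
    push_cast
    ring

end ops

theorem gen_sq : ∃ R : ℕ, 0 < R ∧ ∀ m : ℕ, 1 ≤ m →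
    (∑ g : Perm (Fin (2 * m)), |thorpPow m (R * Nat.log 2 (2 * m) ^ 2) g - 1 / ((2 * m).factorial : ℝ)|) ^ 2
      ≤ 1 / 4 := by
  obtain ⟨c, hc, hA⟩ := thmA_thorp
  obtain ⟨R, hR⟩ := exists_nat_gt (5 / c)
  have hR5 : 5 ≤ c * R := by
    rw [div_lt_iff₀ hc] at hR
    linarith
  have hR0 : 0 < R := by
    rcases Nat.eq_zero_or_pos R with h | h
    · subst h
      norm_num at hR5
    · exact h
  refine ⟨R, hR0, fun m hm => ?_⟩
  set L := Nat.log 2 (2 * m) with hL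
  have hL1 : 1 ≤ L := log_two_mul_pos hm
  set μ := thorpPow m (R * L ^ 2) with hμ
  have hsum : ∑ g, μ g = 1 := sum_thorpPow _ _
  have h1 := sq_tv_le μ hsum
  have hcard : (Fintype.card (Perm (Fin (2 * m))) : ℝ) = ((2 * m).factorial : ℝ) := by
    rw [Fintype.card_perm, Fintype.card_fin]
  rw [hcard] at h1
  refine h1.trans ?_
  set T := opOf (regRep (Fin (2 * m))) μ with hT
  have hTpow : T = (opOf (regRep (Fin (2 * m))) (thorpLaw m)) ^ (L * (R * L)) := by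
    rw [hT, hμ, opOf_thorpPow]
    congr 1
    ring
  have hn : (0 : ℝ) ≤ Real.exp (-(c * (R * L : ℕ))) := (Real.exp_pos _).le
  have h2 := l2bound T μ rfl (Real.exp (-(c * (R * L : ℕ)))) hn (by
    intro j hj u hu
    rw [hTpow]
    rw [Fintype.card_fin] at hj
    exact gen_rounds c _ j L (fun u hu => hA m hm _ _ j hj u hu L le_rfl) u hu (R * L))
  rw [norm_sq_T_delta T μ rfl, Fintype.card_fin] at h2
  have h3 : ((2 * m : ℕ) : ℝ) ^ 2 * Real.exp (-(c * (R * L : ℕ))) ≤ 1 / 5 := by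
    have e1 : Real.exp (-(c * (R * L : ℕ))) ≤ (Real.exp (-5)) ^ L := by
      rw [← Real.exp_nat_mul]
      apply Real.exp_le_exp.2
      push_cast
      have : (L : ℝ) * 5 ≤ L * (c * R) := mul_le_mul_of_nonneg_left hR5 (Nat.cast_nonneg _)
      nlinarith
    have e2 : ((2 * m : ℕ) : ℝ) ^ 2 ≤ 16 ^ L := by
      have h5 : ((2 * m : ℕ) : ℝ) ≤ 4 ^ L := by
        exact_mod_cast two_mul_le_four_pow_log hm
      calc ((2 * m : ℕ) : ℝ) ^ 2 ≤ (4 ^ L) ^ 2 := pow_le_pow_left₀ (Nat.cast_nonneg _) h5 2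
        _ = 16 ^ L := by rw [← pow_mul, mul_comm L 2, pow_mul]; norm_num
    have e3 : 16 * Real.exp (-5) ≤ 1 / 5 := by
      have h4 : (2.7182818283 : ℝ) ^ 5 ≤ Real.exp 5 := by
        have h5 := Real.exp_one_gt_d9
        have h6 : Real.exp 5 = (Real.exp 1) ^ 5 := by
          rw [← Real.exp_nat_mul]
          norm_num
        rw [h6]
        exact pow_le_pow_left₀ (by norm_num) h5.le 5
      rw [Real.exp_neg]
      have h7 : (0 : ℝ) < Real.exp 5 := Real.exp_pos _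
      rw [← div_eq_mul_inv, div_le_iff₀ h7]
      norm_num at h4
      linarith
    have e4 : (0 : ℝ) ≤ 16 * Real.exp (-5) := by positivity
    calc ((2 * m : ℕ) : ℝ) ^ 2 * Real.exp (-(c * (R * L : ℕ)))
        ≤ 16 ^ L * (Real.exp (-5)) ^ L := mul_le_mul e2 e1 (Real.exp_pos _).le (by positivity)
      _ = (16 * Real.exp (-5)) ^ L := (mul_pow _ _ _).symm
      _ ≤ (16 * Real.exp (-5)) ^ 1 := pow_le_pow_of_le_one e4 (e3.trans (by norm_num)) hL1
      _ ≤ 1 / 5 := by rw [pow_one]; exact e3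
  have h4 := h2.trans (Real.exp_le_exp.mpr h3)
  have h5 : Real.exp (1 / 5) ≤ 5 / 4 := by
    have h6 := Real.exp_bound' (x := 1 / 5) (by norm_num) (by norm_num) (n := 3) (by norm_num)
    refine h6.trans ?_
    norm_num [Finset.sum_range_succ, Nat.factorial]
  linarith

theorem gen_tv : ∃ R : ℕ, 0 < R ∧ ∀ m : ℕ, 1 ≤ m →
    tvUnif m (thorpPow m (R * Nat.log 2 (2 * m) ^ 2)) ≤ 1 / 4 := by
  obtain ⟨R, hR, h⟩ := gen_sq
  refine ⟨R, hR, fun m hm => ?_⟩
  have h1 := h m hm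
  unfold tvUnif
  have h2 : ∑ g : Perm (Fin (2 * m)), |thorpPow m (R * Nat.log 2 (2 * m) ^ 2) g - 1 / ((2 * m).factorial : ℝ)|
      ≤ 1 / 2 := by
    apply abs_le_of_sq_le_sq' (a := _) (b := (1 / 2 : ℝ)) _ (by norm_num) |>.2
    refine h1.trans (by norm_num)
  linarith

/-! lower bound -/

theorem gen_tv_zero (m : ℕ) (hm : 1 ≤ m) : ¬ (tvUnif m (thorpPow m 0) ≤ 1 / 4) := by
  intro h
  unfold tvUnif at h
  set i0 : Fin (2 * m) := ⟨0, by omega⟩ with hi0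
  set i1 : Fin (2 * m) := ⟨1, by omega⟩ with hi1
  have hne : (1 : Perm (Fin (2 * m))) ≠ swap i0 i1 := by
    intro h1
    have h2 := DFunLike.congr_fun h1 i0
    rw [swap_apply_left, Perm.one_apply] at h2
    have h3 := congrArg Fin.val h2
    simp [hi0, hi1] at h3
  have h1 : ∑ g ∈ ({1, swap i0 i1} : Finset (Perm (Fin (2 * m)))),
      |thorpPow m 0 g - 1 / ((2 * m).factorial : ℝ)|
      ≤ ∑ g : Perm (Fin (2 * m)), |thorpPow m 0 g - 1 / ((2 * m).factorial : ℝ)| :=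
    Finset.sum_le_sum_of_subset_of_nonneg (Finset.subset_univ _) (fun _ _ _ => abs_nonneg _)
  rw [Finset.sum_pair hne] at h1
  have h2 : thorpPow m 0 1 = 1 := by simp [thorpPow]
  have h3 : thorpPow m 0 (swap i0 i1) = 0 := by
    simp only [thorpPow]
    rw [if_neg (Ne.symm hne)]
  have h4 : (2 : ℝ) ≤ ((2 * m).factorial : ℝ) := by
    have : 2 ≤ (2 * m).factorial := by
      calc 2 = Nat.factorial 2 := rfl
        _ ≤ _ := Nat.factorial_le (by omega)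
    exact_mod_cast this
  have h6 : 1 / ((2 * m).factorial : ℝ) ≤ 1 / 2 := one_div_le_one_div_of_le (by norm_num) h4
  have h7 : 0 ≤ 1 / ((2 * m).factorial : ℝ) := by positivity
  rw [h2, h3, zero_sub, abs_neg, abs_of_nonneg h7, abs_of_nonneg (by linarith)] at h1
  linarith

/-- general lower bound: `log₂ n ≤ 2 t + 1` -/
theorem gen_lower_nat (m : ℕ) (hm : 1 ≤ m) (t : ℕ) (h : tvUnif m (thorpPow m t) ≤ 1 / 4) :
    Nat.log 2 (2 * m) ≤ 2 * t := by
  have ht : 1 ≤ t := by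
    by_contra h1
    have : t = 0 := by omega
    subst this
    exact gen_tv_zero m hm h
  have h1 := lower m hm t h
  have h2 : m ^ m ≤ (2 * m).factorial := by
    have h3 : m.factorial * (m + 1) ^ m ≤ (m + m).factorial := Nat.factorial_mul_pow_le_factorial
    have h4 : m ^ m ≤ (m + 1) ^ m := Nat.pow_le_pow_left (by omega) _
    have h5 : (m + 1) ^ m ≤ m.factorial * (m + 1) ^ m :=
      Nat.le_mul_of_pos_left _ (Nat.factorial_pos _)
    have h6 : m + m = 2 * m := by ring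
    rw [h6] at h3
    exact (h4.trans h5).trans h3
  have h3 : m ^ m ≤ 2 ^ (t * m + 1) := by
    have : ((m ^ m : ℕ) : ℝ) ≤ ((2 ^ (t * m + 1) : ℕ) : ℝ) := by
      refine le_trans (Nat.cast_le.mpr h2) ?_
      push_cast
      rw [pow_succ']
      exact_mod_cast h1
    exact_mod_cast this
  have h4 : Nat.log 2 (2 * m) = Nat.log 2 m + 1 := by
    rw [mul_comm, Nat.log_mul_base (by norm_num) (by omega)]
  rw [h4]
  have h5 : (2 ^ Nat.log 2 m) ^ m ≤ 2 ^ (t * m + 1) :=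
    (Nat.pow_le_pow_left (Nat.pow_log_le_self 2 (by omega)) m).trans h3
  rw [← pow_mul] at h5
  have h6 : Nat.log 2 m * m ≤ t * m + 1 := (Nat.pow_le_pow_iff_right (by norm_num)).mp h5
  rcases Nat.lt_or_ge m 2 with hm2 | hm2
  · have : m = 1 := by omega
    subst this
    simp
    omega
  · have h7 : Nat.log 2 m * m < (t + 1) * m := by
      rw [add_mul, one_mul]
      omega
    have h8 := Nat.lt_of_mul_lt_mul_right h7
    omega

theorem log_le_natlog {m : ℕ} (hm : 1 ≤ m) : Real.log (2 * m : ℕ) ≤ 2 * (Nat.log 2 (2 * m) : ℝ) := by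
  have h1 : ((2 * m : ℕ) : ℝ) ≤ 4 ^ (Nat.log 2 (2 * m)) := by exact_mod_cast two_mul_le_four_pow_log hm
  have h2 : (0 : ℝ) < ((2 * m : ℕ) : ℝ) := by
    have : 0 < 2 * m := by omega
    exact_mod_cast this
  have h3 := Real.log_le_log h2 h1
  rw [Real.log_pow] at h3
  have h4 : Real.log 4 ≤ 2 := by
    have : Real.log 4 = 2 * Real.log 2 := by
      rw [show (4 : ℝ) = 2 ^ 2 by norm_num, Real.log_pow]
      norm_num
    rw [this]
    have := Real.log_two_lt_d9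
    linarith
  nlinarith [Nat.cast_nonneg (α := ℝ) (Nat.log 2 (2 * m))]

theorem natlog_le_log {m : ℕ} (hm : 1 ≤ m) : (Nat.log 2 (2 * m) : ℝ) ≤ 2 * Real.log (2 * m : ℕ) := by
  have h1 : ((2 : ℝ) ^ (Nat.log 2 (2 * m))) ≤ ((2 * m : ℕ) : ℝ) := by exact_mod_cast pow_log_le_two_mul hm
  have h3 := Real.log_le_log (by positivity) h1
  rw [Real.log_pow] at h3
  have := Real.log_two_gt_d9
  nlinarith [Nat.cast_nonneg (α := ℝ) (Nat.log 2 (2 * m))]

/-- the lower bound with natural logarithm -/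
theorem gen_lower (m : ℕ) (hm : 1 ≤ m) (t : ℕ) (h : tvUnif m (thorpPow m t) ≤ 1 / 4) :
    1 / 4 * Real.log (2 * m : ℕ) ≤ t := by
  have h1 := gen_lower_nat m hm t h
  have h2 := log_le_natlog hm
  have h3 : ((Nat.log 2 (2 * m) : ℕ) : ℝ) ≤ ((2 * t : ℕ) : ℝ) := by exact_mod_cast h1
  push_cast at h3
  linarith

theorem gen_tmix_spec (m : ℕ) (T : ℕ) (hT : tvUnif m (thorpPow m T) ≤ 1 / 4) :
    tvUnif m (thorpPow m (tmix m)) ≤ 1 / 4 := by
  have hne : {t : ℕ | tvUnif m (thorpPow m t) ≤ 1 / 4}.Nonempty := ⟨T, hT⟩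
  exact Nat.sInf_mem hne

/-- `t_mix(n) = O((log n)^2)` for all even `n` -/
theorem gen_quadratic : ∃ C : ℝ, 0 < C ∧ ∀ m : ℕ, 1 ≤ m →
    1 / 4 * Real.log (2 * m : ℕ) ≤ (tmix m : ℝ) ∧ (tmix m : ℝ) ≤ C * Real.log (2 * m : ℕ) ^ 2 ∧
    ∀ t : ℕ, C * Real.log (2 * m : ℕ) ^ 2 ≤ (t : ℝ) → tvUnif m (thorpPow m t) ≤ 1 / 4 := by
  obtain ⟨R, hR, h⟩ := gen_tv
  refine ⟨4 * R, by positivity, fun m hm => ?_⟩
  have h1 := h m hm
  have h2 := natlog_le_log hm
  have h3 : ((R * Nat.log 2 (2 * m) ^ 2 : ℕ) : ℝ) ≤ 4 * R * Real.log (2 * m : ℕ) ^ 2 := by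
    push_cast
    have h4 : (Nat.log 2 (2 * m) : ℝ) ^ 2 ≤ (2 * Real.log (2 * m : ℕ)) ^ 2 :=
      pow_le_pow_left₀ (Nat.cast_nonneg _) h2 2
    have h5 : (0 : ℝ) ≤ R := Nat.cast_nonneg _
    push_cast at h4
    nlinarith
  refine ⟨gen_lower m hm _ (gen_tmix_spec m _ h1), ?_, fun t ht => ?_⟩
  · refine le_trans ?_ h3
    exact_mod_cast Nat.sInf_le h1
  · refine (tvUnif_antitone m ?_).trans h1
    exact_mod_cast h3.trans ht

end Vale.Agent.P162
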