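import Vale.Agent.P162G.Tau

/-! P162G module M5: bounds of the one-layer averages of the product weights. -/

open Equiv

set_option linter.unusedSectionVars false

namespace Vale.Agent.P162

variable {ι : Type} [Fintype ι] [DecidableEq ι]

theorem gb_law {β : Type} [Fintype β] [DecidableEq β] (x : ι → β)
    (hx : ∀ z, (Finset.univ.filter (fun k => x k = z)).card ≤ 2) (p b : ι → Bool) :
    av (fun c : β → Bool => if ∀ k, xor (c (x k)) (p k) = b k then (1 : ℝ) else 0)
      ≤ 2 ^ (full Finset.univ x) * (1 / 2) ^ (Fintype.card ι) := by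
  classical
  have h1 : ∀ c : β → Bool, (if ∀ k, xor (c (x k)) (p k) = b k then (1 : ℝ) else 0)
      = ∏ z : β, (if ∀ k, x k = z → xor (c z) (p k) = b k then (1 : ℝ) else 0) := by
    intro c
    by_cases h : ∀ k, xor (c (x k)) (p k) = b k
    · rw [if_pos h, Finset.prod_eq_one]
      intro z _
      rw [if_pos]
      intro k hk
      rw [← hk]
      exact h k
    · rw [if_neg h]
      push Not at h
      obtain ⟨k, hk⟩ := h
      rw [Finset.prod_eq_zero (Finset.mem_univ (x k))]
      rw [if_neg]
      intro h2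
      exact hk (h2 k rfl)
  unfold av
  simp only [h1]
  have h2 : ∑ c : β → Bool, ∏ z : β, (if ∀ k, x k = z → xor (c z) (p k) = b k then (1 : ℝ) else 0)
      = ∏ z : β, ∑ v : Bool, (if ∀ k, x k = z → xor v (p k) = b k then (1 : ℝ) else 0) := by
    rw [Finset.prod_univ_sum, Fintype.piFinset_univ]
  rw [h2]
  have h3 : ∏ z : β, ∑ v : Bool, (if ∀ k, x k = z → xor v (p k) = b k then (1 : ℝ) else 0)
      ≤ ∏ z : β, (2 * (1 / 2 : ℝ) ^ (if 1 ≤ (Finset.univ.filter (fun k => x k = z)).card then 1 else 0)) := by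
    apply Finset.prod_le_prod
    · intro z _
      apply Finset.sum_nonneg
      intro v _
      split_ifs <;> norm_num
    · intro z _
      by_cases hz : 1 ≤ (Finset.univ.filter (fun k => x k = z)).card
      · rw [if_pos hz]
        obtain ⟨k, hk⟩ := Finset.card_pos.mp hz
        have hk' : x k = z := (Finset.mem_filter.mp hk).2
        rw [Fintype.sum_bool]
        have h5 : ¬ ((∀ k, x k = z → xor true (p k) = b k) ∧ (∀ k, x k = z → xor false (p k) = b k)) := by
          rintro ⟨h6, h7⟩
          have h8 := h6 k hk'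
          have h9 := h7 k hk'
          revert h8 h9
          cases p k <;> cases b k <;> simp
        by_cases h6 : (∀ k, x k = z → xor true (p k) = b k)
        · by_cases h7 : (∀ k, x k = z → xor false (p k) = b k)
          · exact absurd ⟨h6, h7⟩ h5
          · rw [if_pos h6, if_neg h7]
            norm_num
        · by_cases h7 : (∀ k, x k = z → xor false (p k) = b k)
          · rw [if_neg h6, if_pos h7]
            norm_num
          · rw [if_neg h6, if_neg h7]
            norm_num
      · rw [if_neg hz, Fintype.sum_bool]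
        split_ifs <;> norm_num
  have h4 : ∏ z : β, (2 * (1 / 2 : ℝ) ^ (if 1 ≤ (Finset.univ.filter (fun k => x k = z)).card then 1 else 0))
      = 2 ^ Fintype.card β * (1 / 2) ^ (Finset.univ.filter (fun z : β => 1 ≤ (Finset.univ.filter (fun k => x k = z)).card)).card := by
    rw [Finset.prod_mul_distrib, Finset.prod_const, Finset.card_univ, Finset.prod_pow_eq_pow_sum, Finset.card_filter]
  have h5 : Fintype.card ι ≤ (Finset.univ.filter (fun z : β => 1 ≤ (Finset.univ.filter (fun k => x k = z)).card)).card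
      + full Finset.univ x := by
    unfold full
    have h6 : Fintype.card ι = ∑ z : β, (Finset.univ.filter (fun k => x k = z)).card := by
      rw [← Finset.card_univ]
      exact Finset.card_eq_sum_card_fiberwise (fun k _ => Finset.mem_coe.mpr (Finset.mem_univ (x k)))
    rw [h6, Finset.card_filter, Finset.card_filter, ← Finset.sum_add_distrib]
    apply Finset.sum_le_sum
    intro z _
    have := hx z
    split_ifs <;> omega
  rw [Fintype.card_fun, Fintype.card_bool]
  push_cast
  rw [div_le_iff₀ (by positivity)]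
  refine h3.trans ?_
  rw [h4]
  have h6 : (1 / 2 : ℝ) ^ (Finset.univ.filter (fun z : β => 1 ≤ (Finset.univ.filter (fun k => x k = z)).card)).card
      ≤ 2 ^ (full Finset.univ x) * (1 / 2) ^ (Fintype.card ι) := by
    have h7 : (2 : ℝ) ^ (full Finset.univ x) * (1 / 2) ^ (full Finset.univ x) = 1 := by
      rw [← mul_pow]
      norm_num
    calc (1 / 2 : ℝ) ^ (Finset.univ.filter (fun z : β => 1 ≤ (Finset.univ.filter (fun k => x k = z)).card)).card
        = 2 ^ (full Finset.univ x) * ((1 / 2) ^ ((Finset.univ.filter (fun z : β => 1 ≤ (Finset.univ.filter (fun k => x k = z)).card)).card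
          + full Finset.univ x)) := by
          rw [pow_add]
          linear_combination (-(1 / 2 : ℝ) ^ (Finset.univ.filter (fun z : β => 1 ≤ (Finset.univ.filter (fun k => x k = z)).card)).card) * h7
      _ ≤ 2 ^ (full Finset.univ x) * (1 / 2) ^ (Fintype.card ι) := by
          apply mul_le_mul_of_nonneg_left _ (by positivity)
          exact pow_le_pow_of_le_one (by norm_num) (by norm_num) h5
  nlinarith [pow_pos (show (0 : ℝ) < 2 by norm_num) (Fintype.card β)]

theorem gb_dens {β : Type} [Fintype β] [DecidableEq β] (x : ι → β)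
    (hx : ∀ z, (Finset.univ.filter (fun k => x k = z)).card ≤ 2) (p : ι → Bool) (F : (ι → Bool) → ℝ)
    (hF : ∀ b, 0 ≤ F b) :
    av (fun c : β → Bool => F (fun k => xor (c (x k)) (p k))) ≤ 2 ^ (full Finset.univ x) * av F := by
  classical
  have h1 : ∀ c : β → Bool, F (fun k => xor (c (x k)) (p k))
      = ∑ b : ι → Bool, F b * (if ∀ k, xor (c (x k)) (p k) = b k then (1 : ℝ) else 0) := by
    intro c
    rw [Finset.sum_eq_single (fun k => xor (c (x k)) (p k))]
    · rw [if_pos (fun k => rfl), mul_one]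
    · intro b _ hb
      rw [if_neg, mul_zero]
      intro h
      exact hb (funext fun k => (h k).symm)
    · intro h
      exact absurd (Finset.mem_univ _) h
  simp only [h1]
  rw [Avg.sum]
  have h2 : ∀ b ∈ (Finset.univ : Finset (ι → Bool)),
      av (fun c : β → Bool => F b * (if ∀ k, xor (c (x k)) (p k) = b k then (1 : ℝ) else 0))
      ≤ F b * (2 ^ (full Finset.univ x) * (1 / 2) ^ (Fintype.card ι)) := by
    intro b _
    rw [Avg.const_mul]
    exact mul_le_mul_of_nonneg_left (gb_law x hx p b) (hF b)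
  refine (Finset.sum_le_sum h2).trans (le_of_eq ?_)
  rw [← Finset.sum_mul]
  unfold av
  rw [Fintype.card_fun, Fintype.card_bool]
  push_cast
  rw [one_div, inv_pow]
  field_simp

theorem gb_class (m : ℕ) (A : ι → Fin (2 * m)) (hA : Function.Injective A) (z : Fin m) :
    (Finset.univ.filter (fun k => pix m (A k) = z)).card ≤ 2 := by
  have h : ((Finset.univ.filter (fun k => pix m (A k) = z)).image (fun k => (A k).val)) ⊆ {2 * z.val, 2 * z.val + 1} := by
    intro v hv
    rw [Finset.mem_image] at hv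
    obtain ⟨k, hk, rfl⟩ := hv
    have h1 : (pix m (A k)).val = z.val := by rw [(Finset.mem_filter.mp hk).2]
    unfold pix at h1
    simp only at h1
    simp only [Finset.mem_insert, Finset.mem_singleton]
    omega
  have h2 := Finset.card_le_card h
  rw [Finset.card_image_of_injective _ (fun a b hab => hA (Fin.ext hab))] at h2
  exact h2.trans Finset.card_le_two

theorem gb_indep (F : ι → Bool → Bool → ℝ) :
    av (fun b : ι → Bool => av (fun b' : ι → Bool => ∏ k, F k (b k) (b' k)))
      = ∏ k, ((1 / 4) * ∑ b : Bool, ∑ b' : Bool, F k b b') := by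
  classical
  have h1 : ∀ b : ι → Bool, av (fun b' : ι → Bool => ∏ k, F k (b k) (b' k)) = ∏ k, ((1 / 2) * ∑ b' : Bool, F k (b k) b') := by
    intro b
    unfold av
    have := Finset.prod_univ_sum (fun _ : ι => (Finset.univ : Finset Bool)) (fun k b' => F k (b k) b')
    rw [Fintype.piFinset_univ] at this
    rw [← this, Fintype.card_fun, Fintype.card_bool, Finset.prod_mul_distrib, Finset.prod_const, Finset.card_univ]
    push_cast
    rw [one_div, inv_pow]
    field_simp
  simp only [h1]
  unfold av
  have := Finset.prod_univ_sum (fun _ : ι => (Finset.univ : Finset Bool)) (fun k b => ((1 / 2) * ∑ b' : Bool, F k b b'))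
  rw [Fintype.piFinset_univ] at this
  rw [← this, Fintype.card_fun, Fintype.card_bool]
  have h2 : ∀ k, ((1 / 4) * ∑ b : Bool, ∑ b' : Bool, F k b b') = (1 / 2) * ∑ b : Bool, ((1 / 2) * ∑ b' : Bool, F k b b') := by
    intro k
    rw [← Finset.mul_sum]
    ring
  simp only [h2]
  rw [Finset.prod_mul_distrib (f := fun _ => (1 / 2 : ℝ)), Finset.prod_const, Finset.card_univ]
  push_cast
  rw [one_div, inv_pow]
  field_simp

/-- nice layers -/
theorem g_nice (m a q ti : ℕ) (ζ : ℝ) (hζ : 0 < ζ) (hm : 2 * m = 2 ^ a * q) (hq : Odd q) (hti : 2 ^ (ti + 1) ≤ 2 * m)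
    (s : ℕ) (hs : s + 1 ≤ ti) (A O : ι → Fin (2 * m)) :
    av (fun c : (Fin m → Bool) × (Fin m → Bool) => ∏ k, tau m ti ζ s (St m c.1 (A k)) (St m c.2 (O k)))
      ≤ (∏ k, tau m ti ζ (s + 1) (A k) (O k)) * ((1 + et a ζ s) ^ (Fintype.card ι) *
        ((cc Finset.univ (fun k => pix m (A k)) (fun k => pix m (O k)) : ℕ) : ℝ)) := by
  classical
  have hrow := fun k => tau_row m a q ti ζ hζ hm hq hti s hs (A k) (O k)
  choose δ hδ using hrow
  have hpt : ∀ c : (Fin m → Bool) × (Fin m → Bool),
      ∏ k, tau m ti ζ s (St m c.1 (A k)) (St m c.2 (O k)) ≤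
      (∏ k, (2 * (1 + et a ζ s) * tau m ti ζ (s + 1) (A k) (O k))) *
        (if ∀ k ∈ (Finset.univ : Finset ι), xor (xor (par m (A k)) (δ k)) (c.1 (pix m (A k))) = xor (par m (O k)) (c.2 (pix m (O k)))
          then (1 : ℝ) else 0) := by
    intro c
    by_cases h : ∀ k ∈ (Finset.univ : Finset ι), xor (xor (par m (A k)) (δ k)) (c.1 (pix m (A k))) = xor (par m (O k)) (c.2 (pix m (O k)))
    · rw [if_pos h, mul_one]
      apply Finset.prod_le_prod
      · intro k _
        exact tau_nonneg m ti ζ hζ.le s _ _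
      · intro k _
        rw [St_apply, St_apply]
        exact (hδ k _ _).2
    · rw [if_neg h, mul_zero]
      push Not at h
      obtain ⟨k, _, hk⟩ := h
      rw [Finset.prod_eq_zero (Finset.mem_univ k)]
      rw [St_apply, St_apply]
      apply (hδ k _ _).1
      intro h2
      apply hk
      revert h2
      cases c.1 (pix m (A k)) <;> cases c.2 (pix m (O k)) <;> cases par m (A k) <;> cases par m (O k) <;> cases δ k <;> simp
  refine (Avg.mono hpt).trans ?_
  rw [Avg.const_mul]
  have htop := jn_top (Finset.univ : Finset ι) (fun k => pix m (A k)) (fun k => pix m (O k))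
    (fun k => xor (par m (A k)) (δ k)) (fun k => par m (O k))
  have hnn : 0 ≤ ∏ k, (2 * (1 + et a ζ s) * tau m ti ζ (s + 1) (A k) (O k)) := by
    apply Finset.prod_nonneg
    intro k _
    refine (tau_nonneg m ti ζ hζ.le s _ _).trans (hδ k false false).2
  refine (mul_le_mul_of_nonneg_left htop hnn).trans (le_of_eq ?_)
  rw [Finset.prod_mul_distrib, Finset.prod_const, Finset.card_univ, mul_pow, Real.rpow_neg (by norm_num), Real.rpow_natCast]
  have h2 : (2 : ℝ) ^ (Fintype.card ι) ≠ 0 := by positivity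
  field_simp

/-- bad layers -/
theorem g_bad (m ti : ℕ) (ζ : ℝ) (hζ : 0 < ζ) (hti : 2 ^ (ti + 1) ≤ 2 * m) (s : ℕ) (A O : ι → Fin (2 * m))
    (hA : Function.Injective A) (hO : Function.Injective O) :
    av (fun c : (Fin m → Bool) × (Fin m → Bool) => ∏ k, tau m ti ζ s (St m c.1 (A k)) (St m c.2 (O k)))
      ≤ (∏ k, tau m ti ζ (s + 1) (A k) (O k)) *
        (2 : ℝ) ^ (full Finset.univ (fun k => pix m (A k)) + full Finset.univ (fun k => pix m (O k))) := by
  classical
  rw [Avg.prod]
  simp only [St_apply]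
  have hτ := fun (x y : Fin (2 * m)) => tau_nonneg m ti ζ hζ.le s x y
  have h1 : ∀ c : Fin m → Bool, av (fun c' : Fin m → Bool =>
      ∏ k, tau m ti ζ s (ch m (A k) (xor (c (pix m (A k))) (par m (A k)))) (ch m (O k) (xor (c' (pix m (O k))) (par m (O k)))))
      ≤ 2 ^ (full Finset.univ (fun k => pix m (O k))) * av (fun b' : ι → Bool =>
        ∏ k, tau m ti ζ s (ch m (A k) (xor (c (pix m (A k))) (par m (A k)))) (ch m (O k) (b' k))) := by
    intro c
    exact gb_dens (fun k => pix m (O k)) (gb_class m O hO) (fun k => par m (O k))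
      (fun b' => ∏ k, tau m ti ζ s (ch m (A k) (xor (c (pix m (A k))) (par m (A k)))) (ch m (O k) (b' k)))
      (fun b' => Finset.prod_nonneg fun k _ => hτ _ _)
  refine (Avg.mono h1).trans ?_
  rw [Avg.const_mul]
  have h2 := gb_dens (fun k => pix m (A k)) (gb_class m A hA) (fun k => par m (A k))
      (fun b => av (fun b' : ι → Bool => ∏ k, tau m ti ζ s (ch m (A k) (b k)) (ch m (O k) (b' k))))
      (fun b => Avg.nonneg fun b' => Finset.prod_nonneg fun k _ => hτ _ _)
  rw [gb_indep (fun k b b' => tau m ti ζ s (ch m (A k) b) (ch m (O k) b'))] at h2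
  have h3 : ∏ k, ((1 / 4) * ∑ b : Bool, ∑ b' : Bool, tau m ti ζ s (ch m (A k) b) (ch m (O k) b'))
      ≤ ∏ k, tau m ti ζ (s + 1) (A k) (O k) := by
    apply Finset.prod_le_prod
    · intro k _
      apply mul_nonneg (by norm_num)
      exact Finset.sum_nonneg fun b _ => Finset.sum_nonneg fun b' _ => hτ _ _
    · intro k _
      exact tau_avg m ti ζ hζ hti s (A k) (O k)
  have h4 : (0 : ℝ) < 2 ^ (full Finset.univ (fun k => pix m (O k))) := by positivity
  have h5 : (0 : ℝ) < 2 ^ (full Finset.univ (fun k => pix m (A k))) := by positivity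
  rw [pow_add]
  calc _ ≤ (2 : ℝ) ^ (full Finset.univ (fun k => pix m (O k))) *
        (2 ^ (full Finset.univ (fun k => pix m (A k))) *
          ∏ k, ((1 / 4) * ∑ b : Bool, ∑ b' : Bool, tau m ti ζ s (ch m (A k) b) (ch m (O k) b'))) :=
        mul_le_mul_of_nonneg_left h2 h4.le
    _ ≤ (2 : ℝ) ^ (full Finset.univ (fun k => pix m (O k))) *
        (2 ^ (full Finset.univ (fun k => pix m (A k))) * ∏ k, tau m ti ζ (s + 1) (A k) (O k)) :=
        mul_le_mul_of_nonneg_left (mul_le_mul_of_nonneg_left h3 h5.le) h4.le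
    _ = _ := by ring

/-- outer layers -/
theorem g_outer (m ti : ℕ) (hm : 0 < m) (ζ : ℝ) (hζ : 0 < ζ) (s : ℕ) (hs : 2 * (2 * m) ≤ 2 ^ s) (hsti : ti < s)
    (A O : ι → Fin (2 * m)) :
    av (fun c : (Fin m → Bool) × (Fin m → Bool) => ∏ k, tau m ti ζ s (St m c.1 (A k)) (St m c.2 (O k)))
      ≤ (∏ k, tau m ti ζ (s + 1) (A k) (O k)) * (1 + 4 * (2 * m) / 2 ^ s) ^ (Fintype.card ι) := by
  have h1 : ∀ c : (Fin m → Bool) × (Fin m → Bool), ∏ k, tau m ti ζ s (St m c.1 (A k)) (St m c.2 (O k))
      ≤ (∏ k, tau m ti ζ (s + 1) (A k) (O k)) * (1 + 4 * (2 * m) / 2 ^ s) ^ (Fintype.card ι) := by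
    intro c
    calc ∏ k, tau m ti ζ s (St m c.1 (A k)) (St m c.2 (O k))
        ≤ ∏ k, ((1 + 4 * (2 * m) / 2 ^ s) * tau m ti ζ (s + 1) (A k) (O k)) := by
          apply Finset.prod_le_prod
          · intro k _
            exact tau_nonneg m ti ζ hζ.le s _ _
          · intro k _
            exact tau_outer m ti hm ζ hζ s hs hsti (A k) (O k) _ _
      _ = _ := by
          rw [Finset.prod_mul_distrib, Finset.prod_const, Finset.card_univ, mul_comm]
  exact (Avg.mono h1).trans (le_of_eq (Avg.const _))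

end Vale.Agent.P162
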