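import Vale.Agent.P162G.JensenW
import Vale.Agent.P162G.GB
import Vale.Agent.P162G.CCmain
import Vale.Agent.P162G.BadMain

/-! P162G module M16: the kernel bound. -/

open Equiv

set_option linter.unusedSectionVars false

namespace Vale.Agent.P162

theorem kb_EE_add {m t : ℕ} (f g : (ℕ → Fin m → Bool) → ℝ) :
    EE m t (fun ω => f ω + g ω) = EE m t f + EE m t g := Avg.add _ _

/-- Cauchy-Schwarz for the double average -/
theorem kb_cs {m t : ℕ} (f g : (ℕ → Fin m → Bool) → (ℕ → Fin m → Bool) → ℝ) (p q : ℝ)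
    (hf : EE m t (fun w' => EE m t (fun w => f w' w ^ 2)) ≤ Real.exp p)
    (hg : EE m t (fun w' => EE m t (fun w => g w' w ^ 2)) ≤ Real.exp q) :
    EE m t (fun w' => EE m t (fun w => f w' w * g w' w)) ≤ Real.exp ((p + q) / 2) := by
  set c := Real.exp ((q - p) / 2) with hc
  have hcpos : 0 < c := Real.exp_pos _
  have h1 : ∀ w' w, f w' w * g w' w ≤ (c / 2) * f w' w ^ 2 + (1 / (2 * c)) * g w' w ^ 2 := by
    intro w' w
    have h2 : (c / 2) * f w' w ^ 2 + (1 / (2 * c)) * g w' w ^ 2 - f w' w * g w' w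
        = (c * f w' w - g w' w) ^ 2 / (2 * c) := by
      field_simp
      ring
    have h3 : 0 ≤ (c * f w' w - g w' w) ^ 2 / (2 * c) := by positivity
    linarith
  have h4 : EE m t (fun w' => EE m t (fun w => f w' w * g w' w))
      ≤ EE m t (fun w' => EE m t (fun w => (c / 2) * f w' w ^ 2 + (1 / (2 * c)) * g w' w ^ 2)) :=
    EE_mono fun w' => EE_mono fun w => h1 w' w
  have h5 : EE m t (fun w' => EE m t (fun w => (c / 2) * f w' w ^ 2 + (1 / (2 * c)) * g w' w ^ 2))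
      = (c / 2) * EE m t (fun w' => EE m t (fun w => f w' w ^ 2))
        + (1 / (2 * c)) * EE m t (fun w' => EE m t (fun w => g w' w ^ 2)) := by
    simp only [kb_EE_add, EE_const_mul]
  have h6 : c * Real.exp p = Real.exp ((p + q) / 2) := by
    rw [hc, ← Real.exp_add]
    congr 1
    ring
  have h7 : Real.exp q = Real.exp ((p + q) / 2) * c := by
    rw [hc, ← Real.exp_add]
    congr 1
    ring
  have h8 : (c / 2) * EE m t (fun w' => EE m t (fun w => f w' w ^ 2)) ≤ (c / 2) * Real.exp p :=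
    mul_le_mul_of_nonneg_left hf (by positivity)
  have h9 : (1 / (2 * c)) * EE m t (fun w' => EE m t (fun w => g w' w ^ 2)) ≤ (1 / (2 * c)) * Real.exp q :=
    mul_le_mul_of_nonneg_left hg (by positivity)
  have h10 : (1 / (2 * c)) * Real.exp q = Real.exp ((p + q) / 2) / 2 := by
    rw [h7]
    field_simp
  have h11 : (c / 2) * Real.exp p = Real.exp ((p + q) / 2) / 2 := by
    rw [← h6]
    ring
  linarith

theorem kb_geom (c t : ℕ) : ∑ s ∈ Finset.range t, (if c ≤ s then (1 / 2 : ℝ) ^ s else 0) ≤ 2 * (1 / 2) ^ c := by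
  have h : ∀ s, (if c ≤ s then (1 / 2 : ℝ) ^ s else 0)
      = 2 * (1 / 2) ^ (max s c) - 2 * (1 / 2) ^ (max (s + 1) c) := by
    intro s
    split_ifs with h
    · rw [max_eq_left h, max_eq_left (by omega), pow_succ]
      ring
    · push Not at h
      rw [max_eq_right h.le, max_eq_right (by omega)]
      ring
  rw [Finset.sum_congr rfl (fun s _ => h s), Finset.sum_range_sub']
  have : (0 : ℝ) ≤ 2 * (1 / 2) ^ (max t c) := by positivity
  simp only [Nat.zero_le, sup_of_le_right]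
  linarith

section cards

variable {ι : Type} [Fintype ι] [DecidableEq ι]

/-- the factor of layer `s` -/
noncomputable def kbG (m a ti s2 r : ℕ) (ζ : ℝ) (s : ℕ) (A O : ι → Fin (2 * m)) : ℝ :=
  if s2 ≤ s then (1 + 4 * (2 * (m : ℝ)) / 2 ^ s) ^ (Fintype.card ι)
  else if s + 1 ≤ ti ∧ ¬ (a ≤ s ∧ s < a + r) then
    (1 + et a ζ s) ^ (Fintype.card ι) *
        ((cc Finset.univ (fun k => pix m (A k)) (fun k => pix m (O k)) : ℕ) : ℝ)
  else (2 : ℝ) ^ (full Finset.univ (fun k => pix m (A k)) + full Finset.univ (fun k => pix m (O k)))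

/-- exponent of the error of layer `s` -/
noncomputable def kbu (m a s2 r : ℕ) (ζ : ℝ) (s : ℕ) : ℝ :=
  (if s2 ≤ s then 4 * (2 * (m : ℝ)) / 2 ^ s else 0) + (if a + r ≤ s then et a ζ s else 0)

theorem kb_et_nonneg (a : ℕ) (ζ : ℝ) (hζ : 0 < ζ) (s : ℕ) : 0 ≤ et a ζ s := by
  unfold et
  split_ifs
  · exact le_rfl
  · positivity

theorem kbu_nonneg (m a s2 r : ℕ) (ζ : ℝ) (hζ : 0 < ζ) (s : ℕ) : 0 ≤ kbu m a s2 r ζ s := by
  unfold kbu
  have h1 : (0 : ℝ) ≤ (if s2 ≤ s then 4 * (2 * (m : ℝ)) / 2 ^ s else 0) := by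
    split_ifs
    · positivity
    · exact le_rfl
  have h2 : (0 : ℝ) ≤ (if a + r ≤ s then et a ζ s else 0) := by
    split_ifs
    · exact kb_et_nonneg a ζ hζ s
    · exact le_rfl
  linarith

theorem kb_one_le_cc {β : Type} [Fintype β] [DecidableEq β] (I : Finset ι) (x y : ι → β) :
    (1 : ℝ) ≤ ((cc I x y : ℕ) : ℝ) := by
  exact_mod_cast one_le_cc I x y

theorem kbG_nonneg (m a ti s2 r : ℕ) (ζ : ℝ) (hζ : 0 < ζ) (s : ℕ) (A O : ι → Fin (2 * m)) :
    0 ≤ kbG m a ti s2 r ζ s A O := by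
  unfold kbG
  have := kb_et_nonneg a ζ hζ s
  split_ifs <;> positivity

theorem kb_pow_le (x y ε : ℝ) (J : ℕ) (hx : 0 ≤ x) (hxy : x ≤ y) (hε : 0 ≤ ε) :
    ((1 + x) ^ J) ^ ε ≤ Real.exp (ε * J * y) := by
  have h1 : (1 + x) ^ J ≤ Real.exp (J * y) := by
    rw [Real.exp_nat_mul]
    have h2 := Real.add_one_le_exp y
    exact pow_le_pow_left₀ (by linarith) (by linarith) J
  calc ((1 + x) ^ J) ^ ε ≤ (Real.exp (J * y)) ^ ε :=
        Real.rpow_le_rpow (by positivity) h1 hε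
    _ = Real.exp (ε * J * y) := by
        rw [← Real.exp_mul]
        congr 1
        ring

theorem kb_two_pow (N N' : ℕ) (ε : ℝ) : ((2 : ℝ) ^ (N + N')) ^ ε = (2 : ℝ) ^ (ε * ((N : ℝ) + (N' : ℝ))) := by
  rw [← Real.rpow_natCast, ← Real.rpow_mul (by norm_num)]
  congr 1
  push_cast
  ring

theorem kbG_le (m a ti s2 r : ℕ) (ζ ε : ℝ) (hζ : 0 < ζ) (hε : 0 ≤ ε) (hts : ti ≤ s2) (s : ℕ)
    (A O : ι → Fin (2 * m)) :
    kbG m a ti s2 r ζ s A O ^ ε ≤ Real.exp (ε * (Fintype.card ι) * kbu m a s2 r ζ s) *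
      ((if s < ti then ((cc Finset.univ (fun k => pix m (A k)) (fun k => pix m (O k)) : ℕ) : ℝ) ^ ε else 1) *
       (if s < s2 ∧ ¬ (s + 1 ≤ ti ∧ ¬ (a ≤ s ∧ s < a + r)) then (2 : ℝ) ^ (ε *
        ((full Finset.univ (fun k => pix m (A k)) : ℝ) + (full Finset.univ (fun k => pix m (O k)) : ℝ))) else 1)) := by
  have hu := kbu_nonneg m a s2 r ζ hζ s
  have het := kb_et_nonneg a ζ hζ s
  have hcc : (1 : ℝ) ≤ ((cc Finset.univ (fun k => pix m (A k)) (fun k => pix m (O k)) : ℕ) : ℝ) :=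
    kb_one_le_cc _ _ _
  have hexp : (1 : ℝ) ≤ Real.exp (ε * (Fintype.card ι) * kbu m a s2 r ζ s) :=
    Real.one_le_exp (by positivity)
  unfold kbG
  split_ifs with h1 h2 h3 h4 h5 h6 h7
  all_goals try omega
  · rw [mul_one, mul_one]
    apply kb_pow_le _ _ _ _ (by positivity) _ hε
    unfold kbu
    rw [if_pos h1]
    split_ifs
    · linarith
    · linarith
  · rw [mul_one, Real.mul_rpow (by positivity) (by positivity)]
    apply mul_le_mul_of_nonneg_right _ (by positivity)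
    by_cases hs : a + r ≤ s
    · apply kb_pow_le _ _ _ _ het _ hε
      unfold kbu
      rw [if_neg h1, if_pos hs, zero_add]
    · have hz : et a ζ s = 0 := by
        unfold et
        rw [if_pos (by omega)]
      rw [hz, add_zero, one_pow, Real.one_rpow]
      exact hexp
  · rw [kb_two_pow]
    have h1' : (1 : ℝ) ≤ ((cc Finset.univ (fun k => pix m (A k)) (fun k => pix m (O k)) : ℕ) : ℝ) ^ ε :=
      Real.one_le_rpow hcc hε
    have h2' : (0 : ℝ) < (2 : ℝ) ^ (ε * ((full Finset.univ (fun k => pix m (A k)) : ℝ) +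
        (full Finset.univ (fun k => pix m (O k)) : ℝ))) := by positivity
    have h3' := one_le_mul_of_one_le_of_one_le hexp h1'
    nlinarith
  · rw [kb_two_pow, one_mul]
    have h2' : (0 : ℝ) < (2 : ℝ) ^ (ε * ((full Finset.univ (fun k => pix m (A k)) : ℝ) +
        (full Finset.univ (fun k => pix m (O k)) : ℝ))) := by positivity
    nlinarith

theorem kb_prod (m a ti s2 r t : ℕ) (ζ ε : ℝ) (hζ : 0 < ζ) (hε : 0 ≤ ε) (hts : ti ≤ s2) (htt : ti ≤ t)
    (μ : ι → Fin (2 * m)) (w' w : ℕ → Fin m → Bool) :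
    ∏ s ∈ Finset.range t, kbG m a ti s2 r ζ s (fun k => (RR m (s + 1) w')⁻¹ (μ k))
        (fun k => (RR m (s + 1) w)⁻¹ (μ k)) ^ ε
      ≤ Real.exp (ε * (Fintype.card ι) * ∑ s ∈ Finset.range t, kbu m a s2 r ζ s) *
        ((∏ s ∈ Finset.range ti, ccf m s μ w' w ^ ε) *
         ∏ s ∈ (Finset.range t).filter (fun s => s < s2 ∧ ¬ (s + 1 ≤ ti ∧ ¬ (a ≤ s ∧ s < a + r))), (2 : ℝ) ^ (ε *
          ((full Finset.univ (fun k => pim m ((RR m s w')⁻¹ (μ k))) : ℝ) +
           (full Finset.univ (fun k => pim m ((RR m s w)⁻¹ (μ k))) : ℝ)))) := by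
  have h1 : ∏ s ∈ Finset.range t, kbG m a ti s2 r ζ s (fun k => (RR m (s + 1) w')⁻¹ (μ k))
        (fun k => (RR m (s + 1) w)⁻¹ (μ k)) ^ ε
      ≤ ∏ s ∈ Finset.range t, (Real.exp (ε * (Fintype.card ι) * kbu m a s2 r ζ s) *
      ((if s < ti then ((cc Finset.univ (fun k => pim m ((RR m s w')⁻¹ (μ k)))
        (fun k => pim m ((RR m s w)⁻¹ (μ k))) : ℕ) : ℝ) ^ ε else 1) *
       (if s < s2 ∧ ¬ (s + 1 ≤ ti ∧ ¬ (a ≤ s ∧ s < a + r)) then (2 : ℝ) ^ (ε *
        ((full Finset.univ (fun k => pim m ((RR m s w')⁻¹ (μ k))) : ℝ) +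
         (full Finset.univ (fun k => pim m ((RR m s w)⁻¹ (μ k))) : ℝ))) else 1))) := by
    apply Finset.prod_le_prod
    · intro s _
      exact Real.rpow_nonneg (kbG_nonneg m a ti s2 r ζ hζ s _ _) ε
    · intro s _
      have := kbG_le m a ti s2 r ζ ε hζ hε hts s (fun k => (RR m (s + 1) w')⁻¹ (μ k))
        (fun k => (RR m (s + 1) w)⁻¹ (μ k))
      simp only [pix_RR_succ_inv] at this
      exact this
  refine h1.trans (le_of_eq ?_)
  rw [Finset.prod_mul_distrib, Finset.prod_mul_distrib, ← Real.exp_sum, ← Finset.mul_sum]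
  congr 2
  · rw [← Finset.prod_filter]
    have : (Finset.range t).filter (fun s => s < ti) = Finset.range ti := by
      ext s
      simp only [Finset.mem_filter, Finset.mem_range]
      omega
    rw [this]
    rfl
  · rw [← Finset.prod_filter]

theorem kb_sum (m a s2 r t : ℕ) (ζ : ℝ) (hζ : 0 < ζ) :
    ∑ s ∈ Finset.range t, kbu m a s2 r ζ s ≤ 8 * (2 * m) * (1 / 2) ^ s2 + (1 / ζ) * (1 / 2) ^ r := by
  unfold kbu
  rw [Finset.sum_add_distrib]
  apply add_le_add
  · have h : ∀ s ∈ Finset.range t, (if s2 ≤ s then 4 * (2 * (m : ℝ)) / 2 ^ s else 0)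
        = 4 * (2 * (m : ℝ)) * (if s2 ≤ s then (1 / 2 : ℝ) ^ s else 0) := by
      intro s _
      split_ifs
      · rw [one_div, inv_pow]
        rfl
      · rw [mul_zero]
    rw [Finset.sum_congr rfl h, ← Finset.mul_sum]
    have := kb_geom s2 t
    have hm : (0 : ℝ) ≤ 4 * (2 * (m : ℝ)) := by positivity
    have := mul_le_mul_of_nonneg_left this hm
    linarith
  · have h : ∀ s ∈ Finset.range t, (if a + r ≤ s then et a ζ s else 0)
        ≤ (2 ^ a / (2 * ζ)) * (if a + r ≤ s then (1 / 2 : ℝ) ^ s else 0) := by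
      intro s _
      split_ifs
      · unfold et
        split_ifs
        · positivity
        · apply le_of_eq
          rw [one_div, inv_pow, pow_succ]
          field_simp
      · rw [mul_zero]
    refine (Finset.sum_le_sum h).trans ?_
    rw [← Finset.mul_sum]
    have h1 := kb_geom (a + r) t
    have h2 : (0 : ℝ) ≤ 2 ^ a / (2 * ζ) := by positivity
    refine (mul_le_mul_of_nonneg_left h1 h2).trans (le_of_eq ?_)
    rw [pow_add, one_div, inv_pow, inv_pow]
    field_simp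

theorem kb_card (a ti s2 r t : ℕ) :
    ((Finset.range t).filter (fun s => s < s2 ∧ ¬ (s + 1 ≤ ti ∧ ¬ (a ≤ s ∧ s < a + r)))).card ≤ (s2 - ti) + r := by
  have h : (Finset.range t).filter (fun s => s < s2 ∧ ¬ (s + 1 ≤ ti ∧ ¬ (a ≤ s ∧ s < a + r)))
      ⊆ Finset.Ico ti s2 ∪ Finset.Ico a (a + r) := by
    intro s
    simp only [Finset.mem_filter, Finset.mem_range, Finset.mem_union, Finset.mem_Ico]
    intro h
    by_cases h1 : s < ti
    · right
      by_contra h2
      exact h.2.2 ⟨h1, h2⟩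
    · left
      omega
  calc _ ≤ (Finset.Ico ti s2 ∪ Finset.Ico a (a + r)).card := Finset.card_le_card h
    _ ≤ (Finset.Ico ti s2).card + (Finset.Ico a (a + r)).card := Finset.card_union_le _ _
    _ = (s2 - ti) + r := by
        rw [Nat.card_Ico, Nat.card_Ico]
        omega

/-- the double average of the product of the layer factors -/
theorem kb_double (m v l0 L : ℕ) (hm : 0 < m) (hl0 : 1 ≤ l0) (hL1 : 2 ^ L ≤ 2 * m) (hL2 : 2 * m < 2 ^ (L + 1))
    (hL : 9 * l0 ≤ L) (a : ι → Fin (2 * m)) (ha : Function.Injective a) :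
    EE m (3 * L) (fun w' => EE m (3 * L) (fun w => ∏ s ∈ Finset.range (3 * L),
        kbG m v (L - 2 * l0) (L + 2 * l0 + 2) (6 * l0) ((1 / 2 : ℝ) ^ (4 * l0)) s
          (fun k => (RR m (s + 1) w')⁻¹ (RR m (3 * L) w' (a k)))
          (fun k => (RR m (s + 1) w)⁻¹ (RR m (3 * L) w' (a k))) ^ (1 / 15 : ℝ)))
      ≤ Real.exp ((1 / 15) * Fintype.card ι * (5 * (1 / 4) ^ l0)) *
        Real.exp ((Fintype.card ι * ((2 : ℝ) ^ (4 * l0 + 2) * Fintype.card ι / (2 * m) + 4 * (27 / 50) ^ l0) +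
          4 * (2 : ℝ) ^ (9 * l0 - 2 : ℝ) * (Fintype.card ι : ℝ) ^ 2 / (2 * m)) / 2) := by
  have hmR : (0 : ℝ) < 2 * (m : ℝ) := by
    have : (0 : ℝ) < m := by exact_mod_cast hm
    positivity
  have hL2R : 2 * (m : ℝ) ≤ 2 ^ (L + 1) := by exact_mod_cast hL2.le
  have hζ : (0 : ℝ) < (1 / 2 : ℝ) ^ (4 * l0) := by positivity
  have hJ0 : (0 : ℝ) ≤ (Fintype.card ι : ℝ) := Nat.cast_nonneg _
  have hl0R : (1 : ℝ) ≤ (l0 : ℝ) := by exact_mod_cast hl0
  -- the error exponents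
  have hsum : ∑ s ∈ Finset.range (3 * L), kbu m v (L + 2 * l0 + 2) (6 * l0) ((1 / 2 : ℝ) ^ (4 * l0)) s
      ≤ 5 * (1 / 4) ^ l0 := by
    refine (kb_sum m v (L + 2 * l0 + 2) (6 * l0) (3 * L) _ hζ).trans ?_
    have h1 : 8 * (2 * (m : ℝ)) * (1 / 2) ^ (L + 2 * l0 + 2) ≤ 4 * (1 / 4) ^ l0 := by
      calc 8 * (2 * (m : ℝ)) * (1 / 2) ^ (L + 2 * l0 + 2)
          ≤ 8 * 2 ^ (L + 1) * (1 / 2) ^ (L + 2 * l0 + 2) := by
            apply mul_le_mul_of_nonneg_right _ (by positivity)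
            linarith
        _ = 4 * (1 / 4) ^ l0 := by
            have h2 : (2 : ℝ) ^ L * (1 / 2) ^ L = 1 := by
              rw [← mul_pow]
              norm_num
            have h3 : (1 / 2 : ℝ) ^ (2 * l0) = (1 / 4) ^ l0 := by
              rw [pow_mul]
              norm_num
            rw [pow_succ, pow_add, pow_add, h3]
            linear_combination (4 * (1 / 4 : ℝ) ^ l0) * h2
    have h4 : 1 / (1 / 2 : ℝ) ^ (4 * l0) * (1 / 2) ^ (6 * l0) = (1 / 4) ^ l0 := by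
      rw [show 6 * l0 = 4 * l0 + 2 * l0 by ring, pow_add, pow_mul (1 / 2 : ℝ) 2 l0]
      field_simp
      norm_num
    linarith
  -- notation
  set S : Finset ℕ := (Finset.range (3 * L)).filter (fun s => s < L + 2 * l0 + 2 ∧
    ¬ (s + 1 ≤ L - 2 * l0 ∧ ¬ (v ≤ s ∧ s < v + 6 * l0))) with hSdef
  have hScard : S.card ≤ 12 * l0 := by
    have h := kb_card v (L - 2 * l0) (L + 2 * l0 + 2) (6 * l0) (3 * L)
    rw [← hSdef] at h
    omega
  have hS : ∀ i ∈ S, i ≤ 3 * L ∧ 2 * m ≤ 2 ^ (3 * L - i) := by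
    intro i hi
    rw [hSdef, Finset.mem_filter, Finset.mem_range] at hi
    refine ⟨by omega, hL2.le.trans (Nat.pow_le_pow_right (by norm_num) (by omega))⟩
  have hbad := bad_main m (3 * L) (12 * l0) hm (by omega) S hS hScard (2 / 15) (by norm_num) a ha
  have hcc := cc_main m l0 (3 * L) (L - 2 * l0) hm hl0 (by
      calc 2 ^ (L - 2 * l0) * 4 ^ l0 = 2 ^ (L - 2 * l0) * 2 ^ (2 * l0) := by
            rw [pow_mul]
            norm_num
        _ = 2 ^ L := by
            rw [← pow_add]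
            congr 1
            omega
        _ ≤ 2 * m := hL1)
    (by
      calc 2 * m * 2 ^ (7 * l0) ≤ 2 ^ (L + 1) * 2 ^ (7 * l0) := Nat.mul_le_mul_right _ hL2.le
        _ = 2 ^ (L + 1 + 7 * l0) := by rw [← pow_add]
        _ ≤ 2 ^ (3 * L) := Nat.pow_le_pow_right (by norm_num) (by omega))
    (by omega) a ha
  have hq : EE m (3 * L) (fun w' => EE m (3 * L) (fun w => (∏ i ∈ S, (2 : ℝ) ^ ((1 / 15 : ℝ) *
        ((full Finset.univ (fun k => pim m ((RR m i w')⁻¹ (RR m (3 * L) w' (a k)))) : ℝ) +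
         (full Finset.univ (fun k => pim m ((RR m i w)⁻¹ (RR m (3 * L) w' (a k)))) : ℝ)))) ^ 2))
      ≤ Real.exp (4 * (2 : ℝ) ^ (9 * l0 - 2 : ℝ) * (Fintype.card ι : ℝ) ^ 2 / (2 * m)) := by
    refine le_trans (le_of_eq ?_) (hbad.trans ?_)
    · congr 1
      funext w'
      congr 1
      funext w
      rw [← Finset.prod_pow]
      apply Finset.prod_congr rfl
      intro i _
      rw [← Real.rpow_natCast, ← Real.rpow_mul (by norm_num)]
      congr 1
      push_cast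
      ring
    · apply Real.exp_le_exp.mpr
      apply div_le_div_of_nonneg_right _ hmR.le
      apply mul_le_mul_of_nonneg_right _ (by positivity)
      apply mul_le_mul_of_nonneg_left _ (by norm_num)
      apply Real.rpow_le_rpow_of_exponent_le (by norm_num)
      push_cast
      linarith
  have hp : EE m (3 * L) (fun w' => EE m (3 * L) (fun w => (∏ s ∈ Finset.range (L - 2 * l0),
        ccf m s (fun k => RR m (3 * L) w' (a k)) w' w ^ (1 / 15 : ℝ)) ^ 2))
      ≤ Real.exp (Fintype.card ι * ((2 : ℝ) ^ (4 * l0 + 2) * Fintype.card ι / (2 * m) + 4 * (27 / 50) ^ l0)) := by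
    refine le_trans ?_ hcc
    apply EE_mono
    intro w'
    apply EE_mono
    intro w
    rw [← Finset.prod_pow]
    apply Finset.prod_le_prod
    · intro i _
      unfold ccf
      positivity
    · intro i _
      have h1 : (1 : ℝ) ≤ ccf m i (fun k => RR m (3 * L) w' (a k)) w' w := kb_one_le_cc _ _ _
      rw [← Real.rpow_natCast, ← Real.rpow_mul (by linarith)]
      apply Real.rpow_le_rpow_of_exponent_le h1
      norm_num
  have hcs := kb_cs _ _ _ _ hp hq
  have hE : Real.exp ((1 / 15 : ℝ) * (Fintype.card ι) * ∑ s ∈ Finset.range (3 * L),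
      kbu m v (L + 2 * l0 + 2) (6 * l0) ((1 / 2 : ℝ) ^ (4 * l0)) s)
      ≤ Real.exp ((1 / 15) * Fintype.card ι * (5 * (1 / 4) ^ l0)) := by
    apply Real.exp_le_exp.mpr
    exact mul_le_mul_of_nonneg_left hsum (by positivity)
  refine le_trans ?_ (mul_le_mul hE hcs ?_ (by positivity))
  · rw [← EE_const_mul]
    apply EE_mono
    intro w'
    rw [← EE_const_mul]
    apply EE_mono
    intro w
    exact kb_prod m v (L - 2 * l0) (L + 2 * l0 + 2) (6 * l0) (3 * L) _ (1 / 15) hζ (by norm_num) (by omega)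
      (by omega) (fun k => RR m (3 * L) w' (a k)) w' w
  · apply EE_nonneg
    intro w'
    apply EE_nonneg
    intro w
    unfold ccf
    positivity

end cards

/-- Paper proof in `NOTES1.md` (M16). -/
theorem kbound : ∃ A : ℕ, 0 < A ∧ ∃ B : ℝ, 0 < B ∧ ∀ m l0 : ℕ, 0 < m → 1 ≤ l0 → 2 ^ (A * l0) ≤ 2 * m →
    ∀ (ι : Type) [Fintype ι] [DecidableEq ι] (a : ι → Fin (2 * m)), Function.Injective a →
    ∑ o : ι → Fin (2 * m), KG m (3 * Nat.log 2 (2 * m)) a o ^ (16 / 15 : ℝ)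
      ≤ ((2 * m : ℕ) : ℝ) ^ (-(Fintype.card ι : ℝ) / 15) *
        Real.exp (Fintype.card ι * ((2 : ℝ) ^ (A * l0) * Fintype.card ι / (2 * m) + B * (27 / 50) ^ l0)) := by
  refine ⟨9, by norm_num, 3, by norm_num, ?_⟩
  intro m l0 hm hl0 hA ι _ _ a ha
  have hL1 : 2 ^ (Nat.log 2 (2 * m)) ≤ 2 * m := Nat.pow_log_le_self 2 (by omega)
  have hL2 : 2 * m < 2 ^ (Nat.log 2 (2 * m) + 1) := Nat.lt_pow_succ_log_self (by norm_num) _
  set L := Nat.log 2 (2 * m) with hLdef
  have hL : 9 * l0 ≤ L := by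
    by_contra h
    have h1 : 2 ^ (L + 1) ≤ 2 ^ (9 * l0) := Nat.pow_le_pow_right (by norm_num) (by omega)
    omega
  obtain ⟨v, q, hq, hvq⟩ := Nat.exists_eq_two_pow_mul_odd (n := 2 * m) (by omega)
  set ζ : ℝ := (1 / 2 : ℝ) ^ (4 * l0) with hζdef
  have hζ : 0 < ζ := by positivity
  have hti : 2 ^ (L - 2 * l0 + 1) ≤ 2 * m :=
    (Nat.pow_le_pow_right (by norm_num) (by omega)).trans hL1
  have hmR : (0 : ℝ) < 2 * (m : ℝ) := by
    have : (0 : ℝ) < m := by exact_mod_cast hm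
    positivity
  have hL2R : 2 * (m : ℝ) ≤ 2 ^ (L + 1) := by exact_mod_cast hL2.le
  have hJ := jensen_w m (3 * L) (1 / 15) (by norm_num) (tau m (L - 2 * l0) ζ)
    (fun s x y => tau_nonneg m _ ζ hζ.le s x y) (fun x => tau_zero_self m _ ζ hζ.le x)
    (fun s x y h ω ω' => tau_zero_imp m _ ζ hζ s x y h ω ω')
    (kbG m v (L - 2 * l0) (L + 2 * l0 + 2) (6 * l0) ζ) (fun s A O => kbG_nonneg m _ _ _ _ ζ hζ s A O)
    (by
      intro s hs A O hA hO
      unfold kbG
      split_ifs with h1 h2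
      · apply g_outer m _ hm ζ hζ s _ (by omega) A O
        calc 2 * (2 * m) ≤ 2 * 2 ^ (L + 1) := by omega
          _ = 2 ^ (L + 2) := by ring
          _ ≤ 2 ^ s := Nat.pow_le_pow_right (by norm_num) (by omega)
      · exact g_nice m v q _ ζ hζ hvq hq hti s h2.1 A O
      · exact g_bad m _ ζ hζ hti s A O hA hO)
    ((1 / (2 * m)) * Real.exp (4 * (1 / 4) ^ l0))
    (by
      intro x y
      refine (tau_final m (L - 2 * l0) hm ζ hζ (3 * L) ?_ x y).trans ?_
      · exact hL2.le.trans (Nat.pow_le_pow_right (by norm_num) (by omega))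
      · apply mul_le_mul_of_nonneg_left _ (by positivity)
        rw [min_eq_right (by omega)]
        have h1 : 2 * (m : ℝ) / 2 ^ (3 * L) ≤ 2 * (1 / 4) ^ l0 := by
          rw [div_le_iff₀ (by positivity)]
          have h2 : (2 : ℝ) ^ (3 * L) * (1 / 4) ^ l0 = 2 ^ (3 * L - 2 * l0) := by
            have h20 : (2 : ℝ) ^ (3 * L) = 2 ^ (3 * L - 2 * l0) * 4 ^ l0 := by
              rw [show (4 : ℝ) = 2 ^ 2 by norm_num, ← pow_mul, ← pow_add]
              congr 1
              omega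
            rw [h20, mul_assoc, ← mul_pow]
            norm_num
          calc 2 * (m : ℝ) ≤ 2 ^ (L + 1) := hL2R
            _ ≤ 2 ^ (3 * L - 2 * l0 + 1) := pow_le_pow_right₀ (by norm_num) (by omega)
            _ = 2 * (1 / 4) ^ l0 * 2 ^ (3 * L) := by
                rw [pow_succ, ← h2]
                ring
        have h3 : ζ * (2 * (m : ℝ)) / 2 ^ (L - 2 * l0) ≤ 2 * (1 / 4) ^ l0 := by
          rw [div_le_iff₀ (by positivity)]
          have h4 : (2 : ℝ) ^ L = 2 ^ (L - 2 * l0) * 2 ^ (2 * l0) := by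
            rw [← pow_add]
            congr 1
            omega
          have h5 : ζ * 2 ^ (2 * l0) = (1 / 4) ^ l0 := by
            rw [hζdef, pow_mul, pow_mul, ← mul_pow]
            norm_num
          calc ζ * (2 * (m : ℝ)) ≤ ζ * 2 ^ (L + 1) := mul_le_mul_of_nonneg_left hL2R hζ.le
            _ = 2 * (ζ * 2 ^ (2 * l0)) * 2 ^ (L - 2 * l0) := by
                rw [pow_succ, h4]
                ring
            _ = 2 * (1 / 4) ^ l0 * 2 ^ (L - 2 * l0) := by rw [h5]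
        have h6 := Real.add_one_le_exp (4 * (1 / 4 : ℝ) ^ l0)
        linarith)
    a ha
  have hD := kb_double m v l0 L hm hl0 hL1 hL2 hL a ha
  rw [show (16 / 15 : ℝ) = 1 + 1 / 15 by norm_num]
  refine hJ.trans ?_
  have hJ0 : (0 : ℝ) ≤ (Fintype.card ι : ℝ) := Nat.cast_nonneg _
  have hl0R : (1 : ℝ) ≤ (l0 : ℝ) := by exact_mod_cast hl0
  have h1 : (((1 / (2 * (m : ℝ))) * Real.exp (4 * (1 / 4) ^ l0)) ^ (Fintype.card ι)) ^ (1 / 15 : ℝ)
      = ((2 * m : ℕ) : ℝ) ^ (-(Fintype.card ι : ℝ) / 15) *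
        Real.exp ((1 / 15) * Fintype.card ι * (4 * (1 / 4) ^ l0)) := by
    rw [mul_pow, Real.mul_rpow (by positivity) (by positivity)]
    congr 1
    · rw [one_div, inv_pow, Real.inv_rpow (by positivity), ← Real.rpow_natCast, ← Real.rpow_mul (by positivity),
        ← Real.rpow_neg (by positivity)]
      push_cast
      congr 1
      ring
    · rw [← Real.exp_nat_mul, ← Real.exp_mul]
      congr 1
      ring
  rw [h1, mul_assoc]
  apply mul_le_mul_of_nonneg_left _ (by positivity)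
  refine (mul_le_mul_of_nonneg_left hD (by positivity)).trans ?_
  rw [← Real.exp_add, ← Real.exp_add]
  apply Real.exp_le_exp.mpr
  have h2 : (1 / 4 : ℝ) ^ l0 ≤ (27 / 50) ^ l0 := pow_le_pow_left₀ (by norm_num) (by norm_num) _
  have h3 : (2 : ℝ) ^ (4 * l0 + 2) ≤ 2 ^ (9 * l0) := pow_le_pow_right₀ (by norm_num) (by omega)
  have h4 : 4 * (2 : ℝ) ^ (9 * l0 - 2 : ℝ) = 2 ^ (9 * l0) := by
    rw [Real.rpow_sub (by norm_num), show (9 * l0 : ℝ) = ((9 * l0 : ℕ) : ℝ) by push_cast; ring,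
      Real.rpow_natCast]
    norm_num
    ring
  have h5 : (2 : ℝ) ^ (4 * l0 + 2) * Fintype.card ι / (2 * m) ≤ 2 ^ (9 * l0) * Fintype.card ι / (2 * m) := by
    apply div_le_div_of_nonneg_right _ hmR.le
    exact mul_le_mul_of_nonneg_right h3 hJ0
  rw [h4]
  have h6 : (2 : ℝ) ^ (9 * l0) * (Fintype.card ι : ℝ) ^ 2 / (2 * m)
      = Fintype.card ι * (2 ^ (9 * l0) * Fintype.card ι / (2 * m)) := by ring
  rw [h6]
  have h7 := mul_le_mul_of_nonneg_left h5 hJ0
  have h8 := mul_le_mul_of_nonneg_left h2 hJ0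
  have h9 : 0 ≤ (Fintype.card ι : ℝ) * (1 / 4 : ℝ) ^ l0 := by positivity
  nlinarith

end Vale.Agent.P162
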