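import Vale.Agent.P162G.Fin1
import Vale.Agent.P162G.Abs2
import Vale.Agent.P162G.KBound

/-! P162G F2: the mixing time of the Thorp shuffle is of order `log n` for every even `n`. -/

open Equiv

set_option linter.unusedSectionVars false
set_option linter.unusedSimpArgs false

namespace Vale.Agent.P162

/-- the law of the reversed walk -/
noncomputable def revLaw (m t : ℕ) : Perm (Fin (2 * m)) → ℝ := fun g => thorpPow m t g⁻¹

theorem f2_law (m t : ℕ) (f : Perm (Fin (2 * m)) → ℝ) :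
    ∑ g, revLaw m t g * f g = EE m t (fun ω => f (RR m t ω)) := by
  induction t generalizing f with
  | zero =>
    rw [EE_zero]
    simp [revLaw, thorpPow, RR]
  | succ t ih =>
    rw [EE_succ]
    have h1 : ∀ c : Fin m → Bool, EE m t (fun ω => f (RR m (t + 1) (Function.update ω t c)))
        = ∑ g, revLaw m t g * f (g * St m c) := by
      intro c
      rw [ih (fun g => f (g * St m c))]
      congr 1
      funext ω
      rw [RR_update]
    have h2 : av (fun c : Fin m → Bool => EE m t (fun ω => f (RR m (t + 1) (Function.update ω t c))))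
        = av (fun c : Fin m → Bool => ∑ g, revLaw m t g * f (g * St m c)) := by
      congr 1
      funext c
      exact h1 c
    rw [h2]
    have h3 : ∀ g : Perm (Fin (2 * m)), revLaw m (t + 1) g
        = ∑ h : Perm (Fin (2 * m)), thorpLaw m h * revLaw m t (g * h) := by
      intro g
      unfold revLaw
      change conv (thorpLaw m) (thorpPow m t) g⁻¹ = _
      unfold conv
      refine Finset.sum_congr rfl fun h _ => ?_
      rw [mul_inv_rev]
    simp only [h3, Finset.sum_mul]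
    rw [Finset.sum_comm]
    have h4 : ∀ h : Perm (Fin (2 * m)), ∑ g : Perm (Fin (2 * m)), thorpLaw m h * revLaw m t (g * h) * f g
        = thorpLaw m h * ∑ g : Perm (Fin (2 * m)), revLaw m t g * f (g * h⁻¹) := by
      intro h
      rw [Finset.mul_sum, ← Equiv.sum_comp (Equiv.mulRight h⁻¹)]
      refine Finset.sum_congr rfl fun g _ => ?_
      simp only [Equiv.coe_mulRight, inv_mul_cancel_right]
      ring
    rw [Finset.sum_congr rfl fun h _ => h4 h]
    unfold av
    rw [Finset.sum_div]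
    simp only [thorpLaw_eq, Finset.sum_div, Finset.sum_mul]
    rw [Finset.sum_comm]
    refine Finset.sum_congr rfl fun c _ => ?_
    have h5 : ∀ h : Perm (Fin (2 * m)), (if h = thorpPerm m c then (1 : ℝ) else 0) / 2 ^ m *
        ∑ g : Perm (Fin (2 * m)), revLaw m t g * f (g * h⁻¹) =
        if h = thorpPerm m c then (∑ g : Perm (Fin (2 * m)), revLaw m t g * f (g * h⁻¹)) / 2 ^ m else 0 := by
      intro h
      split_ifs
      · ring
      · ring
    rw [Finset.sum_congr rfl fun h _ => h5 h, Finset.sum_ite_eq' Finset.univ, if_pos (Finset.mem_univ _),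
      Fintype.card_fun, Fintype.card_bool, Fintype.card_fin, ← Finset.sum_div]
    push_cast
    rfl

section

variable (ι : Type) [Fintype ι] [DecidableEq ι]

theorem f2_gram_gen {V : Type} [Fintype V] [DecidableEq V] (μ : Perm V → ℝ) (x y : ι ↪ V) :
    ((PM ι μ).transpose * PM ι μ) x y
      = ∑ g : Perm V, μ g * ∑ h : Perm V, μ h * (if ∀ k, g (x k) = h (y k) then (1 : ℝ) else 0) := by
  rw [Matrix.mul_apply]
  simp only [Matrix.transpose_apply]
  unfold PM
  simp only [Finset.sum_mul_sum]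
  rw [Finset.sum_comm]
  refine Finset.sum_congr rfl fun g _ => ?_
  rw [Finset.sum_comm, Finset.mul_sum]
  refine Finset.sum_congr rfl fun h _ => ?_
  rw [Finset.sum_eq_single (x.trans g.toEmbedding)]
  · have h1 : ∀ k, (x.trans g.toEmbedding) k = g (x k) := fun k => rfl
    rw [if_pos h1]
    by_cases hc : ∀ k, g (x k) = h (y k)
    · rw [if_pos hc, if_pos (fun k => (h1 k).trans (hc k)), mul_one]
    · rw [if_neg hc, if_neg (fun hh => hc (fun k => (h1 k).symm.trans (hh k))), mul_zero, mul_zero, mul_zero]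
  · intro z _ hz
    rw [if_neg, zero_mul]
    intro hk
    apply hz
    ext k
    simpa using congrArg (fun v => v) (hk k)
  · intro hh
    exact absurd (Finset.mem_univ _) hh

theorem f2_gram (m t : ℕ) (x y : ι ↪ Fin (2 * m)) :
    ((PM ι (revLaw m t)).transpose * PM ι (revLaw m t)) x y = KG m t (fun k => x k) (fun k => y k) := by
  rw [f2_gram_gen]
  unfold KG
  rw [f2_law m t (fun g => ∑ h : Perm (Fin (2 * m)), revLaw m t h *
    (if ∀ k, g (x k) = h (y k) then (1 : ℝ) else 0))]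
  congr 1
  funext ω'
  rw [f2_law m t (fun h => if ∀ k, RR m t ω' (x k) = h (y k) then (1 : ℝ) else 0)]

end

/-- the trace hypothesis from the kernel bound -/
theorem f2_tr : ∃ A : ℕ, 0 < A ∧ ∃ B : ℝ, 0 < B ∧ ∀ m : ℕ, 0 < m →
    AbTr (2 * m) (revLaw m (3 * Nat.log 2 (2 * m))) A B := by
  obtain ⟨A, hA, B, hB, hk⟩ := kbound
  refine ⟨A, hA, B, hB, fun m hm => ?_⟩
  intro ι _ _ l0 hl0 hAl
  set t := 3 * Nat.log 2 (2 * m) with ht
  set G := (PM ι (revLaw m t)).transpose * PM ι (revLaw m t) with hG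
  set J := Fintype.card ι with hJ
  set Λ : ℝ := ((2 * m : ℕ) : ℝ) ^ (-(J : ℝ) / 15) *
        Real.exp (J * ((2 : ℝ) ^ (A * l0) * J / (2 * m) + B * (27 / 50) ^ l0)) with hΛ
  have hnpos : (0 : ℝ) < ((2 * m : ℕ) : ℝ) := by
    have : 0 < 2 * m := by omega
    exact_mod_cast this
  have h1 : ∀ x : ι ↪ Fin (2 * m), ∑ y : ι ↪ Fin (2 * m), G x y ^ (16 / 15 : ℝ) ≤ Λ := by
    intro x
    have h2 := hk m l0 hm hl0 hAl ι (fun i => x i) x.injective
    refine le_trans ?_ h2
    have h3 : ∑ y : ι ↪ Fin (2 * m), G x y ^ (16 / 15 : ℝ)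
        = ∑ o ∈ (Finset.univ : Finset (ι ↪ Fin (2 * m))).map ⟨fun y => (fun i => y i : ι → Fin (2 * m)), by
            intro y y' hyy
            apply DFunLike.ext
            intro i
            exact congrFun hyy i⟩,
          KG m t (fun i => x i) o ^ (16 / 15 : ℝ) := by
      rw [Finset.sum_map]
      apply Finset.sum_congr rfl
      intro y _
      rw [hG, f2_gram ι m t x y]
      rfl
    rw [h3]
    apply Finset.sum_le_sum_of_subset_of_nonneg (Finset.subset_univ _)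
    intro o _ _
    exact Real.rpow_nonneg (KG_nonneg m t _ _) _
  have h4 := trace_pow16_le G (fun x y => by rw [hG, f2_gram ι m t x y]; exact KG_nonneg m t _ _) Λ h1
  refine le_trans h4 (le_of_eq ?_)
  rw [Fintype.card_embedding_eq, Fintype.card_fin, ← hJ, hΛ, mul_pow, ← Real.exp_nat_mul]
  have h5 : (((2 * m : ℕ) : ℝ) ^ (-(J : ℝ) / 15)) ^ 15 = 1 / ((2 * m : ℕ) : ℝ) ^ J := by
    rw [← Real.rpow_natCast, ← Real.rpow_mul hnpos.le]
    have : -(J : ℝ) / 15 * ((15 : ℕ) : ℝ) = -(J : ℝ) := by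
      push_cast
      ring
    rw [this, Real.rpow_neg hnpos.le, Real.rpow_natCast, one_div]
  rw [h5]
  have h6 : ((15 : ℕ) : ℝ) * (J * ((2 : ℝ) ^ (A * l0) * J / (2 * m) + B * (27 / 50) ^ l0))
      = 15 * J * ((2 : ℝ) ^ (A * l0) * J / ((2 * m : ℕ) : ℝ) + B * (27 / 50) ^ l0) := by
    push_cast
    ring
  rw [h6]
  ring

section ops

variable {E : Type} [NormedAddCommGroup E] [InnerProductSpace ℝ E] [FiniteDimensional ℝ E]

theorem f2_op {m : ℕ} (ρ : Perm (Fin (2 * m)) →* (E ≃ₗᵢ[ℝ] E)) (t : ℕ) :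
    opOf ρ (revLaw m t) = (Rev ρ) ^ t := by
  ext v
  apply ext_inner_left ℝ
  intro u
  have h1 := inner_opOf_inv ρ (thorpPow m t) u v
  rw [opOf_thorpPow, ← ta_adj_pow, LinearMap.adjoint_inner_left] at h1
  exact h1.symm

end ops

/-- the contraction hypothesis -/
theorem f2_co : ∃ c : ℝ, 0 < c ∧ ∀ m : ℕ, 1 ≤ m → AbCo (2 * m) (revLaw m (3 * Nat.log 2 (2 * m))) c := by
  obtain ⟨c, hc, h⟩ := thmA_gen
  refine ⟨c, hc, fun m hm j hj u hu => ?_⟩
  rw [f2_op]
  exact h m hm _ _ j hj u hu _ (by omega)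

/-- the total variation bound from the `ℓ²` bound of the reversed walk -/
theorem f2_tv (m T : ℕ)
    (h : ((2 * m).factorial : ℝ) * ‖((Rev (regRep (Fin (2 * m)))) ^ T)
      (EuclideanSpace.single (1 : Perm (Fin (2 * m))) (1 : ℝ))‖ ^ 2 ≤ 1 + 1 / 4) :
    tvUnif m (thorpPow m T) ≤ 1 / 4 := by
  set μ := thorpPow m T with hμ
  have hsum : ∑ g, μ g = 1 := sum_thorpPow _ _
  have h1 := sq_tv_le μ hsum
  have hcard : (Fintype.card (Perm (Fin (2 * m))) : ℝ) = ((2 * m).factorial : ℝ) := by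
    rw [Fintype.card_perm, Fintype.card_fin]
  rw [hcard] at h1
  have h2 : ∑ g, μ g ^ 2 = ‖((Rev (regRep (Fin (2 * m)))) ^ T)
      (EuclideanSpace.single (1 : Perm (Fin (2 * m))) (1 : ℝ))‖ ^ 2 := by
    rw [← f2_op, norm_sq_T_delta (opOf (regRep (Fin (2 * m))) (revLaw m T)) (revLaw m T) rfl,
      ← Equiv.sum_comp (Equiv.inv (Perm (Fin (2 * m))))]
    rfl
  rw [← h2] at h
  have h4 : (∑ g : Perm (Fin (2 * m)), |μ g - 1 / ((2 * m).factorial : ℝ)|) ^ 2 ≤ 1 / 4 := by linarith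
  have h5 : ∑ g : Perm (Fin (2 * m)), |μ g - 1 / ((2 * m).factorial : ℝ)| ≤ 1 / 2 := by
    apply abs_le_of_sq_le_sq' (a := _) (b := (1 / 2 : ℝ)) _ (by norm_num) |>.2
    refine h4.trans (by norm_num)
  unfold tvUnif
  linarith

/-- linear mixing time for every even deck size -/
theorem gen_linear_nat : ∃ K : ℕ, 0 < K ∧ ∀ m : ℕ, 1 ≤ m →
    tvUnif m (thorpPow m (K * Nat.log 2 (2 * m))) ≤ 1 / 4 := by
  obtain ⟨A, hA, B, hB, htr⟩ := f2_tr
  obtain ⟨c, hc, hco⟩ := f2_co
  obtain ⟨R, hR, hsmall⟩ := gen_tv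
  obtain ⟨C, hC⟩ := exists_nat_ge (abC A B)
  obtain ⟨r0, hr0⟩ := exists_nat_ge ((15 * (2 ^ A + B) + 4 * C) / c)
  obtain ⟨r, hr⟩ : ∃ r : ℕ, r = r0 + 32 * (2 * A + 2) := ⟨_, rfl⟩
  have hr1 : 15 * ((2 : ℝ) ^ A + B) + 4 * C ≤ c * r := by
    rw [div_le_iff₀ hc] at hr0
    have h1 : (r0 : ℝ) ≤ r := by
      rw [hr]
      push_cast
      have : (0 : ℝ) ≤ (A : ℝ) := Nat.cast_nonneg _
      linarith
    nlinarith
  refine ⟨3 * (r + 16) + R * (32 * C), by omega, fun m hm => ?_⟩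
  set L := Nat.log 2 (2 * m) with hL
  by_cases h : 32 * C ≤ 2 * m
  · have hn : 0 < 2 * m := by omega
    have h1 := ab_final hn (revLaw m (3 * L)) A B hB.le (htr m (by omega)) c hc.le (hco m hm) r C hC hr1
      (by omega) (by exact_mod_cast h)
    rw [f2_op, ← pow_mul] at h1
    refine (tvUnif_antitone m ?_).trans (f2_tv m (3 * L * (r + 16)) h1)
    calc 3 * L * (r + 16) = 3 * (r + 16) * L := by ring
      _ ≤ (3 * (r + 16) + R * (32 * C)) * L := Nat.mul_le_mul_right _ (Nat.le_add_right _ _)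
  · push Not at h
    refine (tvUnif_antitone m ?_).trans (hsmall m hm)
    have h1 : L ≤ 32 * C := by
      have h2 : L ≤ 2 * m := Nat.log_le_self 2 _
      omega
    calc R * L ^ 2 = R * L * L := by ring
      _ ≤ R * (32 * C) * L := Nat.mul_le_mul_right _ (Nat.mul_le_mul_left _ h1)
      _ ≤ (3 * (r + 16) + R * (32 * C)) * L := Nat.mul_le_mul_right _ (Nat.le_add_left _ _)

/-- the mixing time of the Thorp shuffle of `n` cards, `n` even, is of order `log n` -/
theorem gen_linear : ∃ C : ℝ, 0 < C ∧ ∀ m : ℕ, 1 ≤ m →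
    1 / 4 * Real.log (2 * m : ℕ) ≤ (tmix m : ℝ) ∧ (tmix m : ℝ) ≤ C * Real.log (2 * m : ℕ) ∧
    ∀ t : ℕ, C * Real.log (2 * m : ℕ) ≤ (t : ℝ) → tvUnif m (thorpPow m t) ≤ 1 / 4 := by
  obtain ⟨K, hK, h⟩ := gen_linear_nat
  refine ⟨2 * K, by positivity, fun m hm => ?_⟩
  have h1 := h m hm
  have h2 := natlog_le_log hm
  have h3 : ((K * Nat.log 2 (2 * m) : ℕ) : ℝ) ≤ 2 * K * Real.log (2 * m : ℕ) := by
    push_cast
    push_cast at h2
    have h5 : (0 : ℝ) ≤ K := Nat.cast_nonneg _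
    nlinarith
  refine ⟨gen_lower m hm _ (gen_tmix_spec m _ h1), ?_, fun t ht => ?_⟩
  · refine le_trans ?_ h3
    exact_mod_cast Nat.sInf_le h1
  · refine (tvUnif_antitone m ?_).trans h1
    exact_mod_cast h3.trans ht

end Vale.Agent.P162
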