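import Vale.Agent.P162G.NetG

/-! P162G module M2: weighted Jensen recursion. -/

open Equiv

set_option linter.unusedSectionVars false

namespace Vale.Agent.P162

section jw_av

variable {α β : Type} [Fintype α] [Fintype β]

theorem jw_av_comm (f : α → β → ℝ) :
    av (fun x => av (fun y => f x y)) = av (fun y => av (fun x => f x y)) := by
  have h1 := Avg.prod (fun p : α × β => f p.1 p.2)
  have h2 := Avg.prod_swap (fun p : α × β => f p.1 p.2)
  exact h1.symm.trans h2

/-- weighted Hölder: if `X^(1+ε) ≤ W^ε B` pointwise then `(E X)^(1+ε) ≤ (E W)^ε E B` -/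
theorem jw_holder (X W B : α → ℝ) (hX : ∀ a, 0 ≤ X a) (hW : ∀ a, 0 ≤ W a) (hB : ∀ a, 0 ≤ B a) (ε : ℝ)
    (hε : 0 ≤ ε) (h : ∀ a, X a ^ (1 + ε) ≤ W a ^ ε * B a) :
    av X ^ (1 + ε) ≤ av W ^ ε * av B := by
  rcases hε.eq_or_lt with h0 | h0
  · subst h0
    simp only [add_zero, Real.rpow_one, Real.rpow_zero, one_mul] at h ⊢
    exact Avg.mono h
  have hp1 : (1 : ℝ) + ε ≠ 0 := by positivity
  have hpq : (((1 + ε) / ε : ℝ)).HolderConjugate (1 + ε) := by
    rw [Real.holderConjugate_iff]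
    constructor
    · rw [lt_div_iff₀ h0]
      linarith
    · rw [inv_div]
      field_simp
      ring
  have hX' : ∀ a, X a ≤ W a ^ (ε / (1 + ε)) * B a ^ (1 / (1 + ε)) := by
    intro a
    have h1 := Real.rpow_le_rpow (Real.rpow_nonneg (hX a) _) (h a) (by positivity : (0 : ℝ) ≤ 1 / (1 + ε))
    rw [← Real.rpow_mul (hX a), mul_one_div_cancel hp1, Real.rpow_one,
      Real.mul_rpow (Real.rpow_nonneg (hW a) _) (hB a), ← Real.rpow_mul (hW a)] at h1
    rwa [mul_one_div] at h1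
  have hsum : ∑ a, X a ≤ (∑ a, W a) ^ (ε / (1 + ε)) * (∑ a, B a) ^ (1 / (1 + ε)) := by
    refine (Finset.sum_le_sum fun a _ => hX' a).trans ?_
    have h2 := Real.inner_le_Lp_mul_Lq_of_nonneg Finset.univ (f := fun a => W a ^ (ε / (1 + ε)))
      (g := fun a => B a ^ (1 / (1 + ε))) hpq (fun a _ => Real.rpow_nonneg (hW a) _)
      (fun a _ => Real.rpow_nonneg (hB a) _)
    refine h2.trans (le_of_eq ?_)
    have e1 : ∀ a, (W a ^ (ε / (1 + ε))) ^ ((1 + ε) / ε) = W a := by
      intro a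
      rw [← Real.rpow_mul (hW a)]
      have : ε / (1 + ε) * ((1 + ε) / ε) = 1 := by field_simp
      rw [this, Real.rpow_one]
    have e2 : ∀ a, (B a ^ (1 / (1 + ε))) ^ (1 + ε) = B a := by
      intro a
      rw [← Real.rpow_mul (hB a)]
      have : 1 / (1 + ε) * (1 + ε) = 1 := by field_simp
      rw [this, Real.rpow_one]
    simp only [e1, e2, one_div_div]
  have hWs : 0 ≤ ∑ a, W a := Finset.sum_nonneg fun a _ => hW a
  have hBs : 0 ≤ ∑ a, B a := Finset.sum_nonneg fun a _ => hB a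
  have hXs : 0 ≤ ∑ a, X a := Finset.sum_nonneg fun a _ => hX a
  have h3 := Real.rpow_le_rpow hXs hsum (by positivity : (0 : ℝ) ≤ 1 + ε)
  rw [Real.mul_rpow (Real.rpow_nonneg hWs _) (Real.rpow_nonneg hBs _), ← Real.rpow_mul hWs,
    ← Real.rpow_mul hBs] at h3
  rw [show ε / (1 + ε) * (1 + ε) = ε by field_simp, show 1 / (1 + ε) * (1 + ε) = 1 by field_simp,
    Real.rpow_one] at h3
  unfold av
  set N : ℝ := (Fintype.card α : ℝ) with hN
  have hN0 : 0 ≤ N := Nat.cast_nonneg _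
  rcases hN0.eq_or_lt with hz | hz
  · rw [← hz]
    simp only [div_zero]
    rw [Real.zero_rpow hp1]
    simp
  · rw [Real.div_rpow hXs hN0, Real.div_rpow hWs hN0, Real.rpow_add hz, Real.rpow_one,
      div_mul_div_comm, mul_comm N (N ^ ε)]
    exact div_le_div_of_nonneg_right h3 (by positivity)

end jw_av

variable {ι : Type} [Fintype ι] [DecidableEq ι]

/-- the right hand side of the pointwise recursion -/
noncomputable def jw_A (m t : ℕ) (ε : ℝ) (g : ℕ → (ι → Fin (2 * m)) → (ι → Fin (2 * m)) → ℝ)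
    (a o : ι → Fin (2 * m)) : ℝ :=
  EE m t (fun w' => EE m t (fun w => (if ∀ k, RR m t w' (a k) = RR m t w (o k) then (1 : ℝ) else 0) *
    ∏ s ∈ Finset.range t,
      g s (fun k => (RR m (s + 1) w')⁻¹ (RR m t w' (a k))) (fun k => (RR m (s + 1) w)⁻¹ (RR m t w' (a k))) ^ ε))

theorem jw_A_nonneg (m t : ℕ) (ε : ℝ) (g : ℕ → (ι → Fin (2 * m)) → (ι → Fin (2 * m)) → ℝ)
    (hg : ∀ s a o, 0 ≤ g s a o) (a o : ι → Fin (2 * m)) : 0 ≤ jw_A m t ε g a o := by
  unfold jw_A
  refine EE_nonneg fun w' => EE_nonneg fun w => mul_nonneg ?_ ?_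
  · split_ifs <;> norm_num
  · exact Finset.prod_nonneg fun s _ => Real.rpow_nonneg (hg _ _ _) _

theorem jw_RR_update (m t : ℕ) (ω : ℕ → Fin m → Bool) (c : Fin m → Bool) (s : ℕ) (hs : s ≤ t) :
    RR m s (Function.update ω t c) = RR m s ω := by
  apply RR_congr
  intro i hi
  rw [Function.update_of_ne (by omega)]

theorem jw_RR_succ (m t : ℕ) (ω : ℕ → Fin m → Bool) (c : Fin m → Bool) (x : Fin (2 * m)) :
    RR m (t + 1) (Function.update ω t c) x = RR m t ω (St m c x) := by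
  change (RR m t (Function.update ω t c) * St m (Function.update ω t c t)) x = _
  rw [jw_RR_update m t ω c t le_rfl, Function.update_self]
  rfl

theorem jw_A_succ (m t : ℕ) (ε : ℝ) (g : ℕ → (ι → Fin (2 * m)) → (ι → Fin (2 * m)) → ℝ)
    (a o : ι → Fin (2 * m)) :
    jw_A m (t + 1) ε g a o = g t a o ^ ε * av (fun c : (Fin m → Bool) × (Fin m → Bool) =>
      jw_A m t ε g (fun k => St m c.1 (a k)) (fun k => St m c.2 (o k))) := by
  unfold jw_A
  rw [EE_succ, Avg.prod, ← Avg.const_mul]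
  congr 1
  funext c1
  have e1 : ∀ w' : ℕ → Fin m → Bool, EE m (t + 1) (fun w =>
      (if ∀ k, RR m (t + 1) (Function.update w' t c1) (a k) = RR m (t + 1) w (o k) then (1 : ℝ) else 0) *
      ∏ s ∈ Finset.range (t + 1),
        g s (fun k => (RR m (s + 1) (Function.update w' t c1))⁻¹ (RR m (t + 1) (Function.update w' t c1) (a k)))
          (fun k => (RR m (s + 1) w)⁻¹ (RR m (t + 1) (Function.update w' t c1) (a k))) ^ ε)
      = av (fun c2 : Fin m → Bool => EE m t (fun w => g t a o ^ ε *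
        ((if ∀ k, RR m t w' (St m c1 (a k)) = RR m t w (St m c2 (o k)) then (1 : ℝ) else 0) *
          ∏ s ∈ Finset.range t,
            g s (fun k => (RR m (s + 1) w')⁻¹ (RR m t w' (St m c1 (a k))))
              (fun k => (RR m (s + 1) w)⁻¹ (RR m t w' (St m c1 (a k)))) ^ ε))) := by
    intro w'
    rw [EE_succ]
    congr 1
    funext c2
    congr 1
    funext w
    simp only [jw_RR_succ]
    by_cases hm : ∀ k, RR m t w' (St m c1 (a k)) = RR m t w (St m c2 (o k))
    · rw [if_pos hm, one_mul, one_mul, Finset.prod_range_succ, mul_comm]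
      congr 1
      · congr 2
        · funext k
          rw [Perm.inv_eq_iff_eq, jw_RR_succ]
        · funext k
          rw [Perm.inv_eq_iff_eq, jw_RR_succ]
          exact hm k
      · apply Finset.prod_congr rfl
        intro s hs
        have hs' := Finset.mem_range.mp hs
        rw [jw_RR_update m t w' c1 (s + 1) (by omega), jw_RR_update m t w c2 (s + 1) (by omega)]
    · rw [if_neg hm]
      simp
  simp only [e1]
  unfold EE
  rw [← Avg.const_mul]
  rw [jw_av_comm]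
  congr 1
  funext c2
  rw [← Avg.const_mul]
  congr 1
  funext w'
  rw [← Avg.const_mul]

/-- pointwise weighted Jensen recursion -/
theorem jw_point (m t : ℕ) (ε : ℝ) (hε : 0 ≤ ε) (τ : ℕ → Fin (2 * m) → Fin (2 * m) → ℝ)
    (hτ : ∀ s x y, 0 ≤ τ s x y) (hτ0 : ∀ x, 1 ≤ τ 0 x x)
    (g : ℕ → (ι → Fin (2 * m)) → (ι → Fin (2 * m)) → ℝ) (hg : ∀ s a o, 0 ≤ g s a o)
    (h : ∀ s < t, ∀ a o : ι → Fin (2 * m), Function.Injective a → Function.Injective o →
      av (fun c : (Fin m → Bool) × (Fin m → Bool) => ∏ k, τ s (St m c.1 (a k)) (St m c.2 (o k)))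
        ≤ (∏ k, τ (s + 1) (a k) (o k)) * g s a o)
    (a o : ι → Fin (2 * m)) (ha : Function.Injective a) (ho : Function.Injective o) :
    KG m t a o ^ (1 + ε) ≤ (∏ k, τ t (a k) (o k)) ^ ε * jw_A m t ε g a o := by
  induction t generalizing a o with
  | zero =>
    unfold KG jw_A
    simp only [EE_zero, Finset.range_zero, Finset.prod_empty, mul_one]
    by_cases hm : ∀ k, RR m 0 (fun _ _ => false) (a k) = RR m 0 (fun _ _ => false) (o k)
    · rw [if_pos hm, Real.one_rpow, mul_one]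
      apply Real.one_le_rpow _ hε
      have h1 : ∏ k : ι, (1 : ℝ) ≤ ∏ k, τ 0 (a k) (o k) := by
        apply Finset.prod_le_prod
        · intro k _
          norm_num
        · intro k _
          have h2 : a k = o k := hm k
          rw [← h2]
          exact hτ0 _
      simpa using h1
    · rw [if_neg hm, Real.zero_rpow (by positivity)]
      simp
  | succ t ih =>
    rw [KG_succ]
    have h1 := jw_holder (fun c : (Fin m → Bool) × (Fin m → Bool) =>
        KG m t (fun k => St m c.1 (a k)) (fun k => St m c.2 (o k)))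
      (fun c => ∏ k, τ t (St m c.1 (a k)) (St m c.2 (o k)))
      (fun c => jw_A m t ε g (fun k => St m c.1 (a k)) (fun k => St m c.2 (o k)))
      (fun c => KG_nonneg _ _ _ _) (fun c => Finset.prod_nonneg fun k _ => hτ _ _ _)
      (fun c => jw_A_nonneg _ _ _ _ hg _ _) ε hε
      (fun c => ih (fun s hs => h s (by omega)) _ _ ((St m c.1).injective.comp ha)
        ((St m c.2).injective.comp ho))
    refine h1.trans ?_
    rw [jw_A_succ]
    have h2 := h t (by omega) a o ha ho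
    have h3 := Real.rpow_le_rpow (Avg.nonneg fun c => Finset.prod_nonneg fun k _ => hτ _ _ _) h2 hε
    rw [Real.mul_rpow (Finset.prod_nonneg fun k _ => hτ _ _ _) (hg _ _ _)] at h3
    have h4 : 0 ≤ av (fun c : (Fin m → Bool) × (Fin m → Bool) =>
      jw_A m t ε g (fun k => St m c.1 (a k)) (fun k => St m c.2 (o k))) :=
      Avg.nonneg fun c => jw_A_nonneg _ _ _ _ hg _ _
    refine (mul_le_mul_of_nonneg_right h3 h4).trans (le_of_eq ?_)
    ring

/-- Paper proof in `NOTES1.md` (M2). -/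
theorem jensen_w (m t : ℕ) (ε : ℝ) (hε : 0 ≤ ε) (τ : ℕ → Fin (2 * m) → Fin (2 * m) → ℝ)
    (hτ : ∀ s x y, 0 ≤ τ s x y) (hτ0 : ∀ x, 1 ≤ τ 0 x x)
    (hz : ∀ s x y, τ s x y = 0 → ∀ ω ω' : ℕ → Fin m → Bool, RR m s ω x ≠ RR m s ω' y)
    (g : ℕ → (ι → Fin (2 * m)) → (ι → Fin (2 * m)) → ℝ) (hg : ∀ s a o, 0 ≤ g s a o)
    (h : ∀ s < t, ∀ a o : ι → Fin (2 * m), Function.Injective a → Function.Injective o →
      av (fun c : (Fin m → Bool) × (Fin m → Bool) => ∏ k, τ s (St m c.1 (a k)) (St m c.2 (o k)))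
        ≤ (∏ k, τ (s + 1) (a k) (o k)) * g s a o)
    (Λ : ℝ) (hΛ : ∀ x y, τ t x y ≤ Λ) (a : ι → Fin (2 * m)) (ha : Function.Injective a) :
    ∑ o : ι → Fin (2 * m), KG m t a o ^ (1 + ε) ≤ (Λ ^ (Fintype.card ι)) ^ ε *
      EE m t (fun w' => EE m t (fun w => ∏ s ∈ Finset.range t,
        g s (fun k => (RR m (s + 1) w')⁻¹ (RR m t w' (a k))) (fun k => (RR m (s + 1) w)⁻¹ (RR m t w' (a k))) ^ ε)) := by
  have hterm : ∀ o : ι → Fin (2 * m), KG m t a o ^ (1 + ε) ≤ (Λ ^ (Fintype.card ι)) ^ ε * jw_A m t ε g a o := by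
    intro o
    have hΛ0 : 0 ≤ (Λ ^ (Fintype.card ι)) := by
      rcases isEmpty_or_nonempty ι with hι | ⟨⟨k⟩⟩
      · simp
      · exact pow_nonneg ((hτ t (a k) (a k)).trans (hΛ _ _)) _
    by_cases ho : Function.Injective o
    · refine (jw_point m t ε hε τ hτ hτ0 g hg h a o ha ho).trans ?_
      apply mul_le_mul_of_nonneg_right _ (jw_A_nonneg _ _ _ _ hg _ _)
      apply Real.rpow_le_rpow (Finset.prod_nonneg fun k _ => hτ _ _ _) _ hε
      have h1 : ∏ k, τ t (a k) (o k) ≤ ∏ k : ι, Λ :=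
        Finset.prod_le_prod (fun k _ => hτ _ _ _) (fun k _ => hΛ _ _)
      simpa using h1
    · rw [KG_inj m t a o ha ho, Real.zero_rpow (by positivity)]
      exact mul_nonneg (Real.rpow_nonneg hΛ0 _) (jw_A_nonneg _ _ _ _ hg _ _)
  refine (Finset.sum_le_sum fun o _ => hterm o).trans (le_of_eq ?_)
  rw [← Finset.mul_sum]
  congr 1
  unfold jw_A
  rw [← EE_sum]
  congr 1
  funext w'
  rw [← EE_sum]
  congr 1
  funext w
  rw [← Finset.sum_mul]
  have h1 : ∀ o : ι → Fin (2 * m), (∀ k, RR m t w' (a k) = RR m t w (o k)) ↔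
      (fun k => (RR m t w)⁻¹ (RR m t w' (a k))) = o := by
    intro o
    rw [funext_iff]
    constructor
    · intro h k
      rw [Perm.inv_eq_iff_eq]
      exact h k
    · intro h k
      exact Perm.inv_eq_iff_eq.mp (h k)
  have h2 : ∑ o : ι → Fin (2 * m), (if ∀ k, RR m t w' (a k) = RR m t w (o k) then (1 : ℝ) else 0) = 1 := by
    simp only [h1]
    rw [Finset.sum_ite_eq Finset.univ]
    simp
  rw [h2, one_mul]

end Vale.Agent.P162
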