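import Mathlib

/-! P162G module M3, part A: counting modulo powers of two. -/

set_option linter.unusedSectionVars false

namespace Vale.Agent.P162.K1A

open Finset

theorem sum_range_two_mul (g : ℕ → ℝ) (K : ℕ) :
    ∑ i ∈ range (2 * K), g i = ∑ i ∈ range K, (g (2 * i) + g (2 * i + 1)) := by
  induction K with
  | zero => simp
  | succ K ih =>
    rw [show 2 * (K + 1) = 2 * K + 1 + 1 by ring, sum_range_succ, sum_range_succ, ih, sum_range_succ]
    ring

theorem sum_range_mul_mod (g : ℕ → ℝ) (M : ℕ) (hM : 0 < M) (K : ℕ) :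
    ∑ i ∈ range (K * M), g (i % M) = K * ∑ i ∈ range M, g i := by
  induction K with
  | zero => simp
  | succ K ih =>
    rw [Nat.succ_mul, sum_range_add, ih]
    have h1 : ∑ t ∈ range M, g ((K * M + t) % M) = ∑ t ∈ range M, g t := by
      refine sum_congr rfl fun t ht => ?_
      have h2 : (K * M + t) % M = t := by
        rw [Nat.mul_add_mod', Nat.mod_eq_of_lt (mem_range.mp ht)]
      rw [h2]
    rw [h1]
    push_cast
    ring

theorem sum_range_affine (g : ℕ → ℝ) (M : ℕ) (hM : 0 < M) (q x : ℕ) (hq : Nat.Coprime q M) :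
    ∑ i ∈ range M, g ((x + q * i) % M) = ∑ i ∈ range M, g i := by
  have hinj : Set.InjOn (fun i => (x + q * i) % M) (range M : Finset ℕ) := by
    intro i hi j hj h
    have hi' : i < M := by simpa using hi
    have hj' : j < M := by simpa using hj
    have h1 : (x + q * i) ≡ (x + q * j) [MOD M] := h
    have h2 : q * i ≡ q * j [MOD M] := Nat.ModEq.add_left_cancel' x h1
    have h3 : i ≡ j [MOD M] := Nat.ModEq.cancel_left_of_coprime hq.symm h2
    exact Nat.ModEq.eq_of_lt_of_lt h3 hi' hj'
  have himg : (range M).image (fun i => (x + q * i) % M) = range M := by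
    apply eq_of_subset_of_card_le
    · intro y hy
      obtain ⟨i, _, rfl⟩ := mem_image.mp hy
      exact mem_range.mpr (Nat.mod_lt _ hM)
    · rw [card_image_of_injOn hinj]
  conv_rhs => rw [← himg]
  rw [sum_image hinj]

theorem abs_alt_sum_le (t : ℕ) : |∑ i ∈ range t, (-1 : ℝ) ^ i| ≤ 1 := by
  rw [neg_one_geom_sum]
  split_ifs <;> simp

theorem alt_sum_even (t : ℕ) : ∑ i ∈ range (2 * t), (-1 : ℝ) ^ i = 0 := by
  rw [neg_one_geom_sum]
  simp

theorem lt_iff_lt_ceil (c u j : ℕ) (hc : 0 < c) : c * j < u ↔ j < (u + (c - 1)) / c := by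
  rw [Nat.lt_iff_add_one_le, Nat.lt_iff_add_one_le, Nat.le_div_iff_mul_le hc]
  have : (j + 1) * c = c * j + c := by ring
  omega

/-- alternating sum of the indicator of `(x + n A) mod 2^S < T` -/
theorem alt_indicator (n a q S x T : ℕ) (hn : n = 2 ^ a * q) (hq : Odd q) (hS : 1 ≤ S) :
    |∑ A ∈ range (2 ^ S), (-1 : ℝ) ^ A * (if (x + n * A) % 2 ^ S < T then 1 else 0)|
      ≤ if S ≤ a then 0 else (2 : ℝ) ^ a := by
  have h2S : 2 ^ S = 2 * 2 ^ (S - 1) := by
    rw [← pow_succ']
    congr 1
    omega
  by_cases hSa : S ≤ a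
  · rw [if_pos hSa]
    have h1 : ∀ A, (x + n * A) % 2 ^ S = x % 2 ^ S := by
      intro A
      have h2 : n * A = 2 ^ S * (2 ^ (a - S) * q * A) := by
        rw [hn, ← mul_assoc, ← mul_assoc, ← pow_add]
        congr 3
        omega
      rw [h2, Nat.add_mul_mod_self_left]
    simp_rw [h1]
    rw [← sum_mul, h2S, alt_sum_even, zero_mul, abs_zero]
  · rw [if_neg hSa]
    push Not at hSa
    set M := 2 ^ (S - a) with hM
    have hMpos : 0 < M := by positivity
    have hSM : 2 ^ S = 2 ^ a * M := by
      rw [hM, ← pow_add]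
      congr 1
      omega
    have hMeven : 2 ∣ M := by
      rw [hM]
      exact dvd_pow_self 2 (by omega)
    obtain ⟨M', hM'⟩ := hMeven
    set x1 := x % 2 ^ a with hx1
    set x2 := x / 2 ^ a with hx2
    have h1 : ∀ A, (x + n * A) % 2 ^ S = x1 + 2 ^ a * ((x2 + q * A) % M) := by
      intro A
      rw [hSM, Nat.mod_mul]
      congr 1
      · rw [hn, mul_assoc, Nat.add_mul_mod_self_left]
      · congr 2
        rw [hn, mul_assoc, Nat.add_mul_div_left _ _ (by positivity)]
    set T' := (T - x1 + (2 ^ a - 1)) / 2 ^ a with hT'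
    have h2 : ∀ j, (x1 + 2 ^ a * j < T ↔ j < T') := by
      intro j
      rw [hT', ← lt_iff_lt_ceil (2 ^ a) (T - x1) j (by positivity)]
      omega
    have h3 : ∀ A, (if (x + n * A) % 2 ^ S < T then (1 : ℝ) else 0) = if (x2 + q * A) % M < T' then 1 else 0 := by
      intro A
      rw [h1]
      by_cases h : (x2 + q * A) % M < T'
      · rw [if_pos h, if_pos ((h2 _).mpr h)]
      · rw [if_neg h, if_neg (fun h' => h ((h2 _).mp h'))]
    simp_rw [h3]
    -- periodicity
    have hpar : ∀ A : ℕ, (-1 : ℝ) ^ A = (-1 : ℝ) ^ (A % M) := by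
      intro A
      conv_lhs => rw [← Nat.div_add_mod A M]
      rw [pow_add, hM', mul_assoc, pow_mul]
      simp
    have hmod : ∀ A : ℕ, (x2 + q * A) % M = (x2 + q * (A % M)) % M := by
      intro A
      rw [Nat.add_mod, Nat.mul_mod, ← Nat.mod_mod A M]
      conv_rhs => rw [Nat.add_mod, Nat.mul_mod]
      simp
    have h4 : ∑ A ∈ range (2 ^ S), (-1 : ℝ) ^ A * (if (x2 + q * A) % M < T' then 1 else 0)
        = 2 ^ a * ∑ A ∈ range M, (-1 : ℝ) ^ A * (if (x2 + q * A) % M < T' then 1 else 0) := by
      rw [hSM]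
      have h5 := sum_range_mul_mod (fun A => (-1 : ℝ) ^ A * (if (x2 + q * A) % M < T' then 1 else 0)) M hMpos (2 ^ a)
      rw [show ((2 ^ a : ℕ) : ℝ) = 2 ^ a by push_cast; rfl] at h5
      rw [← h5]
      refine sum_congr rfl fun A _ => ?_
      rw [← hpar, ← hmod]
    rw [h4, abs_mul, abs_of_pos (by positivity : (0 : ℝ) < 2 ^ a)]
    have h6 : ∀ A : ℕ, (-1 : ℝ) ^ A = (-1 : ℝ) ^ x2 * (-1 : ℝ) ^ ((x2 + q * A) % M) := by
      intro A
      rw [← hpar, ← pow_add]
      obtain ⟨r, hr⟩ := hq
      have h7 : x2 + (x2 + q * A) = A + 2 * (x2 + r * A) := by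
        rw [hr]
        ring
      rw [h7, pow_add, pow_mul]
      simp
    have h8 : ∑ A ∈ range M, (-1 : ℝ) ^ A * (if (x2 + q * A) % M < T' then 1 else 0)
        = (-1 : ℝ) ^ x2 * ∑ j ∈ range M, (-1 : ℝ) ^ j * (if j < T' then 1 else 0) := by
      rw [← sum_range_affine (fun j => (-1 : ℝ) ^ j * (if j < T' then 1 else 0)) M hMpos q x2 ?_, mul_sum]
      · refine sum_congr rfl fun A _ => ?_
        conv_lhs => rw [h6 A]
        ring
      · rw [hM]
        exact Nat.Coprime.pow_right _ (Nat.Coprime.symm (Nat.coprime_two_left.mpr hq))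
    rw [h8, abs_mul, abs_pow, abs_neg, abs_one, one_pow, one_mul]
    have h9 : ∑ j ∈ range M, (-1 : ℝ) ^ j * (if j < T' then 1 else 0) = ∑ j ∈ range (min M T'), (-1 : ℝ) ^ j := by
      simp only [mul_ite, mul_one, mul_zero]
      rw [← sum_filter]
      congr 1
      ext j
      simp only [mem_filter, mem_range, lt_min_iff]
    rw [h9]
    calc (2 : ℝ) ^ a * |∑ j ∈ range (min M T'), (-1 : ℝ) ^ j| ≤ 2 ^ a * 1 :=
          mul_le_mul_of_nonneg_left (abs_alt_sum_le _) (by positivity)
      _ = 2 ^ a := mul_one _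

/-- number of `B < 2^s` with `(y + n B) / 2^s = z` -/
def cnt (n s y z : ℕ) : ℝ := ∑ B ∈ range (2 ^ s), if (y + n * B) / 2 ^ s = z then (1 : ℝ) else 0

theorem cnt_eq_card (n s y z : ℕ) :
    cnt n s y z = (((range (2 ^ s)).filter (fun B => (y + n * B) / 2 ^ s = z)).card : ℝ) := by
  unfold cnt
  rw [← sum_filter, sum_const, nsmul_eq_mul, mul_one]

theorem cnt_nonneg (n s y z : ℕ) : 0 ≤ cnt n s y z := by
  rw [cnt_eq_card]
  positivity

theorem div_eq_iff_window (v z L : ℕ) (hL : 0 < L) : v / L = z ↔ z * L ≤ v ∧ v < z * L + L := by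
  constructor
  · rintro rfl
    have h1 := Nat.div_mul_le_self v L
    have h2 := Nat.lt_div_mul_add (a := v) hL
    exact ⟨h1, h2⟩
  · rintro ⟨h1, h2⟩
    apply Nat.div_eq_of_lt_le
    · exact h1
    · rw [Nat.succ_mul]
      exact h2

theorem cnt_le (n s y z : ℕ) (hn : 0 < n) : cnt n s y z ≤ 2 ^ s / n + 1 := by
  rw [cnt_eq_card]
  set F := (range (2 ^ s)).filter (fun B => (y + n * B) / 2 ^ s = z) with hF
  have hn' : (0 : ℝ) < n := by exact_mod_cast hn
  rcases F.eq_empty_or_nonempty with h | h
  · rw [h, card_empty]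
    push_cast
    positivity
  · set B0 := F.min' h with hB0
    have hB0F : B0 ∈ F := F.min'_mem h
    have hL : 0 < 2 ^ s := by positivity
    have h0 := (div_eq_iff_window _ _ _ hL).mp (mem_filter.mp hB0F).2
    have hsub : F ⊆ Icc B0 (B0 + 2 ^ s / n) := by
      intro B hB
      have h1 := (div_eq_iff_window _ _ _ hL).mp (mem_filter.mp hB).2
      have h2 : B0 ≤ B := F.min'_le B hB
      rw [mem_Icc]
      refine ⟨h2, ?_⟩
      have h3 : (B - B0) * n ≤ 2 ^ s := by
        obtain ⟨d, rfl⟩ := Nat.exists_eq_add_of_le h2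
        have h4 : n * (B0 + d) = n * B0 + d * n := by ring
        rw [h4] at h1
        have h5 : B0 + d - B0 = d := by omega
        rw [h5]
        omega
      have h4 := (Nat.le_div_iff_mul_le hn).mpr h3
      omega
    have h1 := card_le_card hsub
    rw [Nat.card_Icc] at h1
    have h2 : F.card ≤ 2 ^ s / n + 1 := by
      generalize 2 ^ s / n = K at h1 ⊢
      omega
    calc (F.card : ℝ) ≤ ((2 ^ s / n + 1 : ℕ) : ℝ) := by exact_mod_cast h2
      _ = ((2 ^ s / n : ℕ) : ℝ) + 1 := by push_cast; rfl
      _ ≤ 2 ^ s / n + 1 := by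
          have := @Nat.cast_div_le ℝ _ _ _ (2 ^ s) n
          push_cast at this
          linarith

theorem cnt_ge (n s y z : ℕ) (hn : 0 < n) (hy : y < n) (hz : z < n) : 2 ^ s / (n : ℝ) - 1 ≤ cnt n s y z := by
  rw [cnt_eq_card]
  set F := (range (2 ^ s)).filter (fun B => (y + n * B) / 2 ^ s = z) with hF
  have hn' : (0 : ℝ) < n := by exact_mod_cast hn
  have hL : 0 < 2 ^ s := by positivity
  set w := z * 2 ^ s with hw
  set B0 := (w - y + (n - 1)) / n with hB0
  have h1 : w ≤ y + n * B0 := by
    have h2 : w - y ≤ n * B0 := by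
      by_contra hlt
      push Not at hlt
      have h3 := (lt_iff_lt_ceil n (w - y) B0 hn).mp hlt
      rw [← hB0] at h3
      exact lt_irrefl _ h3
    omega
  have h2 : y + n * B0 ≤ w + (n - 1) := by
    have h3 : B0 * n ≤ w - y + (n - 1) := Nat.div_mul_le_self _ _
    have h4 : n * B0 = B0 * n := mul_comm _ _
    rcases Nat.lt_or_ge w y with h5 | h5
    · have h6 : B0 = 0 := by
        rw [hB0]
        apply Nat.div_eq_of_lt
        omega
      rw [h6]
      omega
    · omega
  set K := 2 ^ s / n with hK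
  have hKn : K * n ≤ 2 ^ s := Nat.div_mul_le_self _ _
  have hsub : Ico B0 (B0 + K) ⊆ F := by
    intro B hB
    rw [mem_Ico] at hB
    obtain ⟨i, rfl⟩ := Nat.exists_eq_add_of_le hB.1
    have hi : i < K := by omega
    have h3 : n * (B0 + i) = n * B0 + n * i := by ring
    have h4 : n * i + n ≤ 2 ^ s := by
      calc n * i + n = (i + 1) * n := by ring
        _ ≤ K * n := Nat.mul_le_mul_right _ hi
        _ ≤ 2 ^ s := hKn
    have h5 : y + n * (B0 + i) < w + 2 ^ s := by omega
    rw [hF, mem_filter, mem_range]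
    constructor
    · have h6 : w + 2 ^ s ≤ n * 2 ^ s := by
        rw [hw]
        calc z * 2 ^ s + 2 ^ s = (z + 1) * 2 ^ s := by ring
          _ ≤ n * 2 ^ s := Nat.mul_le_mul_right _ hz
      have h7 : n * (B0 + i) < n * 2 ^ s := by omega
      exact Nat.lt_of_mul_lt_mul_left h7
    · rw [div_eq_iff_window _ _ _ hL]
      constructor
      · rw [h3]
        omega
      · exact h5
  have h3 := card_le_card hsub
  rw [Nat.card_Ico] at h3
  have h4 : K ≤ F.card := by omega
  have h5 : (2 : ℝ) ^ s < (K + 1) * n := by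
    have := Nat.lt_div_mul_add (a := 2 ^ s) hn
    rw [← hK] at this
    have h6 : ((2 ^ s : ℕ) : ℝ) < ((K * n + n : ℕ) : ℝ) := by exact_mod_cast this
    push_cast at h6
    linarith
  have h6 : (2 : ℝ) ^ s / n < K + 1 := by
    rw [div_lt_iff₀ hn']
    exact h5
  have h7 : (K : ℝ) ≤ F.card := by exact_mod_cast h4
  linarith

/-- for `2 ^ (S+1) ≤ n` the condition on `A` is a threshold condition on `(x + n A) mod 2^S` -/
theorem cnt_threshold (n S x y : ℕ) (hS : 2 ^ (S + 1) ≤ n) (hx : x < n) (hy : y < n) :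
    ∃ (κ σ : ℝ) (T : ℕ), |σ| = 1 ∧ ∀ A < 2 ^ S,
      cnt n S y ((x + n * A) / 2 ^ S) = κ + σ * (if (x + n * A) % 2 ^ S < T then 1 else 0) := by
  have hn : 0 < n := lt_of_lt_of_le (by positivity) hS
  have hL : 0 < 2 ^ S := by positivity
  have hS' : 2 ^ S * 2 ≤ n := by
    rw [← pow_succ]
    exact hS
  -- `D = (y - x) mod n`
  set D := (y + n - x) % n with hD
  have hDlt : D < n := Nat.mod_lt _ hn
  have hDval : (y + n - x = D ∨ y + n - x = D + n) := by
    rcases Nat.lt_or_ge (y + n - x) n with h | h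
    · left
      rw [hD, Nat.mod_eq_of_lt h]
    · right
      rw [hD, Nat.mod_eq_sub_mod h, Nat.mod_eq_of_lt (by omega)]
      omega
  -- the key: card is 1 iff D + ρ < 2^S or n ≤ D + ρ
  have hkey : ∀ A < 2 ^ S, cnt n S y ((x + n * A) / 2 ^ S) =
      if (D + (x + n * A) % 2 ^ S < 2 ^ S ∨ n ≤ D + (x + n * A) % 2 ^ S) then 1 else 0 := by
    intro A hA
    set ρ := (x + n * A) % 2 ^ S with hρ
    set z := (x + n * A) / 2 ^ S with hz
    have hzρ : z * 2 ^ S + ρ = x + n * A := by
      rw [hz, hρ, mul_comm]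
      exact Nat.div_add_mod _ _
    have hρlt : ρ < 2 ^ S := Nat.mod_lt _ hL
    have hzn : z < n := by
      rw [hz]
      apply Nat.div_lt_of_lt_mul
      calc x + n * A < n + n * A := by omega
        _ = n * (A + 1) := by ring
        _ ≤ n * 2 ^ S := Nat.mul_le_mul_left _ hA
        _ = 2 ^ S * n := mul_comm _ _
    rw [cnt_eq_card]
    have huniq : ∀ B ∈ (range (2 ^ S)).filter (fun B => (y + n * B) / 2 ^ S = z),
        ∀ B' ∈ (range (2 ^ S)).filter (fun B => (y + n * B) / 2 ^ S = z), B = B' := by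
      have haux : ∀ B B' : ℕ, z * 2 ^ S ≤ y + n * B → y + n * B' < z * 2 ^ S + 2 ^ S → B' ≤ B := by
        intro B B' h1 h2
        by_contra hlt
        push Not at hlt
        have h3 : n * (B + 1) ≤ n * B' := Nat.mul_le_mul_left _ hlt
        have h4 : n * (B + 1) = n * B + n := by ring
        omega
      intro B hB B' hB'
      have h1 := (div_eq_iff_window _ _ _ hL).mp (mem_filter.mp hB).2
      have h2 := (div_eq_iff_window _ _ _ hL).mp (mem_filter.mp hB').2
      exact le_antisymm (haux B' B h2.1 h1.2) (haux B B' h1.1 h2.2)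
    have hmem : (∃ B, B ∈ (range (2 ^ S)).filter (fun B => (y + n * B) / 2 ^ S = z)) ↔
        (D + ρ < 2 ^ S ∨ n ≤ D + ρ) := by
      constructor
      · rintro ⟨B, hB⟩
        have h1 := (div_eq_iff_window _ _ _ hL).mp (mem_filter.mp hB).2
        -- y + nB = z 2^S + r
        have h2 : x + n * A ≤ y + n * B + ρ := by omega
        have h3 : y + n * B + ρ < x + n * A + 2 ^ S := by omega
        by_contra hcon
        push Not at hcon
        -- 2^S ≤ D + ρ < n
        rcases hDval with h4 | h4
        · -- y + n = x + D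
          rcases lt_trichotomy (B + 1) (A + 2) with h5 | h5 | h5
          · have h6 : n * (B + 1) ≤ n * (A + 1) := Nat.mul_le_mul_left _ (by omega)
            rcases Nat.lt_or_ge B A with h7 | h7
            · have h8 : n * (B + 1) ≤ n * A := Nat.mul_le_mul_left _ h7
              have h9 : n * (B + 1) = n * B + n := by ring
              omega
            · have h8 : B = A := by omega
              subst h8
              omega
          · have h6 : B = A + 1 := by omega
            subst h6
            have h7 : n * (A + 1) = n * A + n := by ring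
            omega
          · have h6 : n * (A + 2) ≤ n * B := Nat.mul_le_mul_left _ (by omega)
            have h7 : n * (A + 2) = n * A + n + n := by ring
            omega
        · -- y = x + D
          rcases lt_trichotomy B A with h5 | h5 | h5
          · have h8 : n * (B + 1) ≤ n * A := Nat.mul_le_mul_left _ h5
            have h9 : n * (B + 1) = n * B + n := by ring
            omega
          · subst h5
            omega
          · have h6 : n * (A + 1) ≤ n * B := Nat.mul_le_mul_left _ h5
            have h7 : n * (A + 1) = n * A + n := by ring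
            omega
      · intro h
        rcases h with h | h
        · -- D + ρ < 2^S
          rcases hDval with h4 | h4
          · -- y + n = x + D : B = A + 1
            have h6 : n * (A + 1) = n * A + n := by ring
            have h7 : y + n * (A + 1) = z * 2 ^ S + (D + ρ) := by omega
            refine ⟨A + 1, mem_filter.mpr ⟨mem_range.mpr ?_, ?_⟩⟩
            · have h8 : z * 2 ^ S + 2 ^ S ≤ n * 2 ^ S := by
                calc z * 2 ^ S + 2 ^ S = (z + 1) * 2 ^ S := by ring
                  _ ≤ n * 2 ^ S := Nat.mul_le_mul_right _ hzn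
              have h9 : n * (A + 1) < n * 2 ^ S := by omega
              exact Nat.lt_of_mul_lt_mul_left h9
            · rw [div_eq_iff_window _ _ _ hL]
              omega
          · -- y = x + D : B = A
            refine ⟨A, mem_filter.mpr ⟨mem_range.mpr hA, ?_⟩⟩
            rw [div_eq_iff_window _ _ _ hL]
            omega
        · -- n ≤ D + ρ
          rcases hDval with h4 | h4
          · -- y + n = x + D : B = A
            refine ⟨A, mem_filter.mpr ⟨mem_range.mpr hA, ?_⟩⟩
            rw [div_eq_iff_window _ _ _ hL]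
            omega
          · -- y = x + D : B = A - 1
            have hA1 : 1 ≤ A := by
              by_contra hA0
              have : A = 0 := by omega
              subst this
              have h9 : ρ ≤ x := by
                rw [hρ]
                simp only [mul_zero, add_zero]
                exact Nat.mod_le _ _
              omega
            obtain ⟨A', rfl⟩ := Nat.exists_eq_add_of_le' hA1
            have h6 : n * (A' + 1) = n * A' + n := by ring
            refine ⟨A', mem_filter.mpr ⟨mem_range.mpr (by omega), ?_⟩⟩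
            rw [div_eq_iff_window _ _ _ hL]
            omega
    by_cases hc : D + ρ < 2 ^ S ∨ n ≤ D + ρ
    · rw [if_pos hc]
      obtain ⟨B, hB⟩ := hmem.mpr hc
      have : ((range (2 ^ S)).filter (fun B => (y + n * B) / 2 ^ S = z)).card = 1 :=
        card_eq_one.mpr ⟨B, eq_singleton_iff_unique_mem.mpr ⟨hB, fun B' hB' => huniq B' hB' B hB⟩⟩
      rw [this]
      simp
    · rw [if_neg hc]
      have : ((range (2 ^ S)).filter (fun B => (y + n * B) / 2 ^ S = z)) = ∅ := by
        rw [eq_empty_iff_forall_notMem]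
        intro B hB
        exact hc (hmem.mp ⟨B, hB⟩)
      rw [this]
      simp
  rcases Nat.lt_or_ge D (2 ^ S) with h | h
  · refine ⟨0, 1, 2 ^ S - D, abs_one, fun A hA => ?_⟩
    rw [hkey A hA, zero_add, one_mul]
    have hρlt : (x + n * A) % 2 ^ S < 2 ^ S := Nat.mod_lt _ hL
    by_cases hc : (x + n * A) % 2 ^ S < 2 ^ S - D
    · rw [if_pos hc, if_pos (by omega)]
    · rw [if_neg hc, if_neg (by omega)]
  · refine ⟨1, -1, n - D, by simp, fun A hA => ?_⟩
    rw [hkey A hA]
    have hρlt : (x + n * A) % 2 ^ S < 2 ^ S := Nat.mod_lt _ hL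
    by_cases hc : (x + n * A) % 2 ^ S < n - D
    · rw [if_pos hc, if_neg (by omega)]
      norm_num
    · rw [if_neg hc, if_pos (by omega)]
      norm_num

end Vale.Agent.P162.K1A
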