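import Vale.Agent.P162G.NetG
import Vale.Agent.P162G.K1A

/-! P162G module M3: the single-card kernel. -/

open Equiv

set_option linter.unusedSectionVars false

namespace Vale.Agent.P162

/-- single card kernel: probability that independent copies of the card, started at `x` and `y`, coincide after
`s` reversed steps -/
noncomputable def k1 (m : ℕ) : ℕ → Fin (2 * m) → Fin (2 * m) → ℝ
  | 0, x, y => if x = y then 1 else 0
  | (s + 1), x, y => (1 / 4) * ∑ b : Bool, ∑ b' : Bool, k1 m s (ch m x b) (ch m y b')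

/-- cyclic distance less than `2 ^ s` -/
def near (m s : ℕ) (x y : Fin (2 * m)) : Prop :=
  ∃ d z : ℤ, |d| < 2 ^ s ∧ (x.val : ℤ) - (y.val : ℤ) = d + z * (2 * m)

theorem k1_nonneg (m s : ℕ) (x y : Fin (2 * m)) : 0 ≤ k1 m s x y := by
  induction s generalizing x y with
  | zero =>
    unfold k1
    split_ifs <;> norm_num
  | succ s ih =>
    unfold k1
    have : 0 ≤ ∑ b : Bool, ∑ b' : Bool, k1 m s (ch m x b) (ch m y b') :=
      Finset.sum_nonneg fun b _ => Finset.sum_nonneg fun b' _ => ih _ _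
    positivity

theorem near_of_ch (m s : ℕ) (x y : Fin (2 * m)) (b b' : Bool) (h : near m s (ch m x b) (ch m y b')) :
    near m (s + 1) x y := by
  obtain ⟨d, z, hd, hz⟩ := h
  unfold ch at hz
  simp only at hz
  have hx := Nat.div_add_mod x.val 2
  have hy := Nat.div_add_mod y.val 2
  have hx2 := Nat.mod_lt x.val (by norm_num : 2 > 0)
  have hy2 := Nat.mod_lt y.val (by norm_num : 2 > 0)
  rw [abs_lt] at hd
  have hpow : (2 : ℤ) ^ (s + 1) = 2 * 2 ^ s := by
    rw [pow_succ]
    ring
  refine ⟨2 * d + ((x.val % 2 : ℕ) : ℤ) - ((y.val % 2 : ℕ) : ℤ),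
    2 * z - (if b then 1 else 0) + (if b' then 1 else 0), ?_, ?_⟩
  · rw [abs_lt, hpow]
    constructor <;> omega
  · have e1 : ((x.val : ℕ) : ℤ) = 2 * ((x.val / 2 : ℕ) : ℤ) + ((x.val % 2 : ℕ) : ℤ) := by
      exact_mod_cast hx.symm
    have e2 : ((y.val : ℕ) : ℤ) = 2 * ((y.val / 2 : ℕ) : ℤ) + ((y.val % 2 : ℕ) : ℤ) := by
      exact_mod_cast hy.symm
    rw [e1, e2]
    cases b <;> cases b' <;> simp only [Bool.false_eq_true, if_true, if_false] at hz ⊢ <;> push_cast at hz ⊢ <;>
      linarith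

theorem k1_eq_zero (m s : ℕ) (x y : Fin (2 * m)) (h : ¬ near m s x y) : k1 m s x y = 0 := by
  induction s generalizing x y with
  | zero =>
    unfold k1
    rw [if_neg]
    rintro rfl
    exact h ⟨0, 0, by norm_num, by ring⟩
  | succ s ih =>
    unfold k1
    have : ∑ b : Bool, ∑ b' : Bool, k1 m s (ch m x b) (ch m y b') = 0 :=
      Finset.sum_eq_zero fun b _ => Finset.sum_eq_zero fun b' _ => ih _ _ fun h' => h (near_of_ch m s x y b b' h')
    rw [this, mul_zero]

/-- if the kernel vanishes the cards cannot meet -/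
theorem k1_zero_imp (m s : ℕ) (x y : Fin (2 * m)) (h : k1 m s x y = 0) (ω ω' : ℕ → Fin m → Bool) :
    RR m s ω x ≠ RR m s ω' y := by
  induction s generalizing x y with
  | zero =>
    intro h1
    have h2 : x = y := h1
    unfold k1 at h
    rw [if_pos h2] at h
    exact one_ne_zero h
  | succ s ih =>
    unfold k1 at h
    have h1 : ∑ b : Bool, ∑ b' : Bool, k1 m s (ch m x b) (ch m y b') = 0 := by
      rcases mul_eq_zero.mp h with h2 | h2
      · norm_num at h2
      · exact h2
    rw [Finset.sum_eq_zero_iff_of_nonneg (fun b _ => Finset.sum_nonneg fun b' _ => k1_nonneg m s _ _)] at h1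
    have h2 : ∀ b b', k1 m s (ch m x b) (ch m y b') = 0 := by
      intro b b'
      have h3 := h1 b (Finset.mem_univ _)
      rw [Finset.sum_eq_zero_iff_of_nonneg (fun b' _ => k1_nonneg m s _ _)] at h3
      exact h3 b' (Finset.mem_univ _)
    have e1 : RR m (s + 1) ω x = RR m s ω (St m (ω s) x) := rfl
    have e2 : RR m (s + 1) ω' y = RR m s ω' (St m (ω' s) y) := rfl
    rw [e1, e2, St_apply, St_apply]
    exact ih _ _ (h2 _ _)

/-- given the bit of `x`, at most one bit of `y` keeps the cards near; the rule is an xor -/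
theorem near_bit (m s : ℕ) (hs : 2 ^ (s + 1) ≤ m) (x y : Fin (2 * m)) :
    ∃ δ : Bool, ∀ b b' : Bool, near m s (ch m x b) (ch m y b') → b' = xor b δ := by
  have key : ∀ b c c' : Bool, near m s (ch m x b) (ch m y b) → ¬ near m s (ch m x c) (ch m y (!c)) := by
    rintro b c - ⟨d, z, hd, hz⟩ ⟨d', z', hd', hz'⟩
    unfold ch at hz hz'
    simp only at hz hz'
    have hs' : (2 : ℤ) * 2 ^ s ≤ m := by
      have : 2 * 2 ^ s ≤ m := by
        rw [← pow_succ']
        exact hs
      exact_mod_cast this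
    rw [abs_lt] at hd hd'
    have hm0 : (0 : ℤ) < m := by
      have : (0 : ℤ) < 2 ^ s := by positivity
      linarith
    -- `d - d' ≡ m mod 2m`
    have h1 : ∃ w : ℤ, d - d' = m * (2 * w + 1) := by
      cases b <;> cases c <;> simp only [Bool.false_eq_true, Bool.not_true, Bool.not_false, if_true, if_false] at hz hz' <;>
        push_cast at hz hz'
      · exact ⟨z' - z, by linarith⟩
      · exact ⟨z' - z - 1, by linarith⟩
      · exact ⟨z' - z, by linarith⟩
      · exact ⟨z' - z - 1, by linarith⟩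
    obtain ⟨w, hw⟩ := h1
    have h2 : |d - d'| < m := by
      rw [abs_lt]
      constructor <;> linarith
    rw [hw, abs_mul, abs_of_pos hm0] at h2
    have h3 : 1 ≤ |2 * w + 1| := Int.one_le_abs (by omega)
    nlinarith
  by_cases H : ∃ b, near m s (ch m x b) (ch m y b)
  · obtain ⟨b0, hb0⟩ := H
    refine ⟨false, fun b b' h => ?_⟩
    by_contra hne
    have h1 : b' = !b := by
      cases b <;> cases b' <;> simp_all
    rw [h1] at h
    exact key b0 b b hb0 h
  · refine ⟨true, fun b b' h => ?_⟩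
    by_contra hne
    have h1 : b' = b := by
      cases b <;> cases b' <;> simp_all
    rw [h1] at h
    exact H ⟨b, h⟩

section formula

open K1A

theorem ch_div (m s : ℕ) (x : Fin (2 * m)) (b : Bool) (A : ℕ) :
    ((ch m x b).val + 2 * m * A) / 2 ^ s = (x.val + 2 * m * (2 * A + (if b then 1 else 0))) / 2 ^ (s + 1) := by
  have h1 : (x.val + 2 * m * (2 * A + (if b then 1 else 0))) / 2 ^ (s + 1)
      = ((x.val + 2 * m * (2 * A + (if b then 1 else 0))) / 2) / 2 ^ s := by
    rw [Nat.div_div_eq_div_mul, pow_succ']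
  rw [h1]
  congr 1
  unfold ch
  simp only
  have h2 : x.val + 2 * m * (2 * A + (if b then 1 else 0)) = x.val + 2 * (2 * m * A + (if b then m else 0)) := by
    cases b <;> simp <;> ring
  rw [h2, Nat.add_mul_div_left _ _ (by norm_num)]
  ring

theorem cnt_child (m s : ℕ) (y : Fin (2 * m)) (z : ℕ) :
    ∑ b : Bool, cnt (2 * m) s (ch m y b).val z = cnt (2 * m) (s + 1) y.val z := by
  unfold cnt
  rw [show 2 ^ (s + 1) = 2 * 2 ^ s by rw [pow_succ']]
  rw [sum_range_two_mul, Finset.sum_add_distrib, Fintype.sum_bool, add_comm]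
  have e : 2 * 2 ^ s = 2 ^ (s + 1) := by rw [pow_succ']
  congr 1
  · refine Finset.sum_congr rfl fun B _ => ?_
    rw [ch_div, e]
    simp
  · refine Finset.sum_congr rfl fun B _ => ?_
    rw [ch_div, e]
    simp

theorem k1_formula (m s : ℕ) (x y : Fin (2 * m)) :
    k1 m s x y = 1 / 4 ^ s * ∑ A ∈ Finset.range (2 ^ s), cnt (2 * m) s y.val ((x.val + 2 * m * A) / 2 ^ s) := by
  induction s generalizing x y with
  | zero =>
    unfold k1 cnt
    simp only [pow_zero, Finset.range_one, Finset.sum_singleton, mul_zero, add_zero, Nat.div_one]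
    by_cases h : x = y
    · subst h
      simp
    · rw [if_neg h, if_neg (fun h' => h (Fin.ext h'.symm))]
      simp
  | succ s ih =>
    unfold k1
    simp_rw [ih]
    have h1 : ∀ b : Bool, ∑ b' : Bool, (1 / 4 ^ s * ∑ A ∈ Finset.range (2 ^ s),
        cnt (2 * m) s (ch m y b').val (((ch m x b).val + 2 * m * A) / 2 ^ s))
        = 1 / 4 ^ s * ∑ A ∈ Finset.range (2 ^ s),
          cnt (2 * m) (s + 1) y.val ((x.val + 2 * m * (2 * A + (if b then 1 else 0))) / 2 ^ (s + 1)) := by
      intro b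
      rw [← Finset.mul_sum, Finset.sum_comm]
      congr 1
      refine Finset.sum_congr rfl fun A _ => ?_
      rw [cnt_child, ch_div]
    simp_rw [h1]
    set G : ℕ → ℝ := fun A => cnt (2 * m) (s + 1) y.val ((x.val + 2 * m * A) / 2 ^ (s + 1)) with hG
    have e : (2 : ℕ) ^ (s + 1) = 2 * 2 ^ s := by rw [pow_succ']
    have hR : ∑ A ∈ Finset.range (2 ^ (s + 1)), G A = ∑ A ∈ Finset.range (2 ^ s), (G (2 * A) + G (2 * A + 1)) := by
      rw [e, sum_range_two_mul]
    have hL : ∑ b : Bool, (1 / 4 ^ s * ∑ A ∈ Finset.range (2 ^ s), G (2 * A + (if b then 1 else 0)))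
        = 1 / 4 ^ s * ∑ A ∈ Finset.range (2 ^ s), (G (2 * A) + G (2 * A + 1)) := by
      rw [← Finset.mul_sum, Fintype.sum_bool, ← Finset.sum_add_distrib]
      congr 1
      refine Finset.sum_congr rfl fun A _ => ?_
      simp only [if_true, Bool.false_eq_true, if_false, add_zero]
      ring
    have hgoal : 1 / 4 * (∑ b : Bool, (1 / 4 ^ s * ∑ A ∈ Finset.range (2 ^ s), G (2 * A + (if b then 1 else 0))))
        = 1 / 4 ^ (s + 1) * ∑ A ∈ Finset.range (2 ^ (s + 1)), G A := by
      rw [hL, hR]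
      have h5 : (4 : ℝ) ^ (s + 1) = 4 * 4 ^ s := by
        rw [pow_succ]
        ring
      rw [h5]
      field_simp
    exact hgoal

theorem row_formula (m s : ℕ) (x y : Fin (2 * m)) (b : Bool) :
    ∑ b' : Bool, k1 m s (ch m x b) (ch m y b') = 1 / 4 ^ s * ∑ A ∈ Finset.range (2 ^ s),
      cnt (2 * m) (s + 1) y.val ((x.val + 2 * m * (2 * A + (if b then 1 else 0))) / 2 ^ (s + 1)) := by
  simp_rw [k1_formula m s]
  rw [← Finset.mul_sum, Finset.sum_comm]
  congr 1
  refine Finset.sum_congr rfl fun A _ => ?_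
  rw [cnt_child, ch_div]

end formula

/-- the rows of the kernel are almost balanced.  Paper proof in `NOTES1.md` (M3). -/
theorem k1_row (m a q s : ℕ) (hm : 2 * m = 2 ^ a * q) (hq : Odd q) (hs : 2 ^ (s + 1) ≤ m) (x y : Fin (2 * m)) (b : Bool) :
    |(1 / 2) * ∑ b' : Bool, k1 m s (ch m x b) (ch m y b') - k1 m (s + 1) x y|
      ≤ if s + 1 ≤ a then 0 else (2 : ℝ) ^ a / 4 ^ (s + 1) := by
  obtain ⟨κ, σ, T, hσ, hc⟩ := K1A.cnt_threshold (2 * m) (s + 1) x.val y.val (by
    rw [pow_succ]
    omega) x.isLt y.isLt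
  set c : ℕ → ℝ := fun A => K1A.cnt (2 * m) (s + 1) y.val ((x.val + 2 * m * A) / 2 ^ (s + 1)) with hcdef
  set N0 : ℝ := ∑ A ∈ Finset.range (2 ^ s), c (2 * A) with hN0
  set N1 : ℝ := ∑ A ∈ Finset.range (2 ^ s), c (2 * A + 1) with hN1
  have e : (2 : ℕ) ^ (s + 1) = 2 * 2 ^ s := by rw [pow_succ']
  have hk : k1 m (s + 1) x y = 1 / 4 ^ (s + 1) * (N0 + N1) := by
    rw [k1_formula]
    congr 1
    have : ∑ A ∈ Finset.range (2 ^ (s + 1)), c A = N0 + N1 := by
      rw [e, K1A.sum_range_two_mul, Finset.sum_add_distrib]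
    exact this
  have hrow : ∑ b' : Bool, k1 m s (ch m x b) (ch m y b') = 1 / 4 ^ s * (if b then N1 else N0) := by
    rw [row_formula]
    cases b
    · simp only [Bool.false_eq_true, if_false, add_zero]
      rfl
    · simp only [if_true]
      rfl
  have hdiff : |N0 - N1| ≤ if s + 1 ≤ a then 0 else (2 : ℝ) ^ a := by
    have h1 : N0 - N1 = ∑ A ∈ Finset.range (2 ^ (s + 1)), (-1 : ℝ) ^ A * c A := by
      rw [e, K1A.sum_range_two_mul, hN0, hN1, ← Finset.sum_sub_distrib]
      refine Finset.sum_congr rfl fun A _ => ?_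
      rw [pow_succ, pow_mul]
      simp
      ring
    have h2 : ∑ A ∈ Finset.range (2 ^ (s + 1)), (-1 : ℝ) ^ A * c A
        = κ * ∑ A ∈ Finset.range (2 ^ (s + 1)), (-1 : ℝ) ^ A
          + σ * ∑ A ∈ Finset.range (2 ^ (s + 1)), (-1 : ℝ) ^ A *
            (if (x.val + 2 * m * A) % 2 ^ (s + 1) < T then 1 else 0) := by
      rw [Finset.mul_sum, Finset.mul_sum, ← Finset.sum_add_distrib]
      refine Finset.sum_congr rfl fun A hA => ?_
      have h3 : c A = κ + σ * (if (x.val + 2 * m * A) % 2 ^ (s + 1) < T then 1 else 0) :=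
        hc A (Finset.mem_range.mp hA)
      rw [h3]
      ring
    have h4 : ∑ A ∈ Finset.range (2 ^ (s + 1)), (-1 : ℝ) ^ A = 0 := by
      rw [e]
      exact K1A.alt_sum_even _
    rw [h1, h2, h4, mul_zero, zero_add, abs_mul, hσ, one_mul]
    exact K1A.alt_indicator (2 * m) a q (s + 1) x.val T hm hq (by omega)
  rw [hk, hrow]
  have h4 : (0 : ℝ) < 4 ^ s := by positivity
  have h5 : (4 : ℝ) ^ (s + 1) = 4 * 4 ^ s := by
    rw [pow_succ]
    ring
  have h6 : |(1 / 2) * (1 / 4 ^ s * (if b then N1 else N0)) - 1 / 4 ^ (s + 1) * (N0 + N1)|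
      = |N0 - N1| / 4 ^ (s + 1) := by
    cases b
    · simp only [Bool.false_eq_true, if_false]
      have : (1 / 2) * (1 / 4 ^ s * N0) - 1 / 4 ^ (s + 1) * (N0 + N1) = (N0 - N1) / 4 ^ (s + 1) := by
        rw [h5]
        field_simp
        ring
      rw [this, abs_div, abs_of_pos (by positivity : (0 : ℝ) < 4 ^ (s + 1))]
    · simp only [if_true]
      have : (1 / 2) * (1 / 4 ^ s * N1) - 1 / 4 ^ (s + 1) * (N0 + N1) = (N1 - N0) / 4 ^ (s + 1) := by
        rw [h5]
        field_simp
        ring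
      rw [this, abs_div, abs_of_pos (by positivity : (0 : ℝ) < 4 ^ (s + 1)), abs_sub_comm]
  rw [h6]
  split_ifs at hdiff ⊢ with h7
  · have : |N0 - N1| = 0 := le_antisymm hdiff (abs_nonneg _)
    rw [this, zero_div]
  · exact div_le_div_of_nonneg_right hdiff (by positivity)

/-- number of layers beyond `log₂ n` -/
theorem k1_le (m s : ℕ) (hs : 2 * m ≤ 2 ^ s) (x y : Fin (2 * m)) :
    k1 m s x y ≤ (1 / (2 * m)) * (1 + (2 * m) / 2 ^ s) := by
  have hn : 0 < 2 * m := by
    have := x.isLt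
    omega
  have hn' : (0 : ℝ) < 2 * m := by exact_mod_cast hn
  have h2 : (0 : ℝ) < 2 ^ s := by positivity
  have hm0 : (m : ℝ) ≠ 0 := by
    intro h
    rw [h, mul_zero] at hn'
    exact lt_irrefl _ hn'
  have e4 : (4 : ℝ) ^ s = 2 ^ s * 2 ^ s := by
    rw [← mul_pow]
    norm_num
  rw [k1_formula]
  have h1 : ∀ A ∈ Finset.range (2 ^ s), K1A.cnt (2 * m) s y.val ((x.val + 2 * m * A) / 2 ^ s) ≤
      2 ^ s / (2 * (m : ℝ)) + 1 := by
    intro A _
    have := K1A.cnt_le (2 * m) s y.val ((x.val + 2 * m * A) / 2 ^ s) hn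
    push_cast at this
    exact this
  have h3 := Finset.sum_le_sum h1
  rw [Finset.sum_const, Finset.card_range, nsmul_eq_mul] at h3
  push_cast at h3
  calc 1 / 4 ^ s * ∑ A ∈ Finset.range (2 ^ s), K1A.cnt (2 * m) s y.val ((x.val + 2 * m * A) / 2 ^ s)
      ≤ 1 / 4 ^ s * (2 ^ s * (2 ^ s / (2 * (m : ℝ)) + 1)) := mul_le_mul_of_nonneg_left h3 (by positivity)
    _ = (1 / (2 * m)) * (1 + (2 * m) / 2 ^ s) := by
        rw [e4]
        field_simp

theorem k1_ge (m s : ℕ) (hs : 2 * m ≤ 2 ^ s) (x y : Fin (2 * m)) :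
    (1 / (2 * m)) * (1 - (2 * m) / 2 ^ s) ≤ k1 m s x y := by
  have hn : 0 < 2 * m := by
    have := x.isLt
    omega
  have hn' : (0 : ℝ) < 2 * m := by exact_mod_cast hn
  have h2 : (0 : ℝ) < 2 ^ s := by positivity
  have hm0 : (m : ℝ) ≠ 0 := by
    intro h
    rw [h, mul_zero] at hn'
    exact lt_irrefl _ hn'
  have e4 : (4 : ℝ) ^ s = 2 ^ s * 2 ^ s := by
    rw [← mul_pow]
    norm_num
  rw [k1_formula]
  have h1 : ∀ A ∈ Finset.range (2 ^ s), 2 ^ s / (2 * (m : ℝ)) - 1 ≤
      K1A.cnt (2 * m) s y.val ((x.val + 2 * m * A) / 2 ^ s) := by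
    intro A hA
    have hz : (x.val + 2 * m * A) / 2 ^ s < 2 * m := by
      apply Nat.div_lt_of_lt_mul
      have hA' := Finset.mem_range.mp hA
      have hx := x.isLt
      calc x.val + 2 * m * A < 2 * m + 2 * m * A := by omega
        _ = 2 * m * (A + 1) := by ring
        _ ≤ 2 * m * 2 ^ s := Nat.mul_le_mul_left _ hA'
        _ = 2 ^ s * (2 * m) := mul_comm _ _
    have := K1A.cnt_ge (2 * m) s y.val ((x.val + 2 * m * A) / 2 ^ s) hn y.isLt hz
    push_cast at this
    exact this
  have h3 := Finset.sum_le_sum h1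
  rw [Finset.sum_const, Finset.card_range, nsmul_eq_mul] at h3
  push_cast at h3
  calc (1 / (2 * m)) * (1 - (2 * m) / 2 ^ s) = 1 / 4 ^ s * (2 ^ s * (2 ^ s / (2 * (m : ℝ)) - 1)) := by
        rw [e4]
        field_simp
    _ ≤ 1 / 4 ^ s * ∑ A ∈ Finset.range (2 ^ s), K1A.cnt (2 * m) s y.val ((x.val + 2 * m * A) / 2 ^ s) :=
        mul_le_mul_of_nonneg_left h3 (by positivity)

/-- average over one layer of coins of a function of one coin -/
theorem av_coin (m : ℕ) (i : Fin m) (p : Bool) (g : Bool → ℝ) :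
    av (fun c : Fin m → Bool => g (xor (c i) p)) = (1 / 2) * ∑ b : Bool, g b := by
  let e : (Fin m → Bool) ≃ (Fin m → Bool) :=
    { toFun := fun c => Function.update c i (!(c i))
      invFun := fun c => Function.update c i (!(c i))
      left_inv := by
        intro c
        funext j
        by_cases h : j = i
        · subst h
          simp
        · simp [h]
      right_inv := by
        intro c
        funext j
        by_cases h : j = i
        · subst h
          simp
        · simp [h] }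
  have h1 := jn_av_equiv e (fun c : Fin m → Bool => g (xor (c i) p))
  have h2 : ∀ c : Fin m → Bool, g (xor ((e c) i) p) = g (xor (!(c i)) p) := by
    intro c
    simp [e]
  have h3 : av (fun c : Fin m → Bool => g (xor (c i) p)) = (1 / 2) * av (fun c : Fin m → Bool =>
      g (xor (c i) p) + g (xor (!(c i)) p)) := by
    rw [Avg.add]
    simp_rw [h2] at h1
    rw [h1]
    ring
  have h4 : (fun c : Fin m → Bool => g (xor (c i) p) + g (xor (!(c i)) p)) = fun _ => ∑ b : Bool, g b := by
    funext c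
    rw [Fintype.sum_bool]
    cases c i <;> cases p <;> simp [add_comm]
  rw [h3, h4, Avg.const]

theorem p1_formula (m s : ℕ) (x v : Fin (2 * m)) :
    EE m s (fun ω => if RR m s ω x = v then (1 : ℝ) else 0) = 1 / 2 ^ s * K1A.cnt (2 * m) s x.val v.val := by
  induction s generalizing x with
  | zero =>
    rw [EE_zero]
    unfold K1A.cnt
    simp only [pow_zero, Finset.range_one, Finset.sum_singleton, mul_zero, add_zero, Nat.div_one]
    by_cases h : x = v
    · subst h
      simp [RR]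
    · have h1 : RR m 0 (fun _ _ => false) x = x := rfl
      rw [h1, if_neg h, if_neg (fun h' => h (Fin.ext h'))]
      simp
  | succ s ih =>
    rw [EE_succ]
    have h1 : ∀ c : Fin m → Bool, EE m s (fun ω => if RR m (s + 1) (Function.update ω s c) x = v then (1 : ℝ) else 0)
        = 1 / 2 ^ s * K1A.cnt (2 * m) s (ch m x (xor (c (pix m x)) (par m x))).val v.val := by
      intro c
      rw [← ih]
      congr 1
      funext ω
      have e1 : RR m (s + 1) (Function.update ω s c) x = RR m s (Function.update ω s c) (St m (Function.update ω s c s) x) :=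
        rfl
      have e2 : RR m s (Function.update ω s c) = RR m s ω :=
        RR_congr fun i hi => Function.update_of_ne (by omega) _ _
      rw [e1, e2, Function.update_self, St_apply]
    simp_rw [h1]
    rw [av_coin m (pix m x) (par m x) (fun b => 1 / 2 ^ s * K1A.cnt (2 * m) s (ch m x b).val v.val),
      ← Finset.mul_sum, cnt_child, pow_succ]
    field_simp

/-- one-card transition probability after `s` steps -/
theorem p1_le (m s : ℕ) (hs : 2 * m ≤ 2 ^ s) (x v : Fin (2 * m)) :
    EE m s (fun ω => if RR m s ω x = v then (1 : ℝ) else 0) ≤ 2 / (2 * m) := by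
  have hn : 0 < 2 * m := by
    have := x.isLt
    omega
  have hn' : (0 : ℝ) < 2 * m := by exact_mod_cast hn
  have h2 : (0 : ℝ) < 2 ^ s := by positivity
  have hs' : (2 : ℝ) * m ≤ 2 ^ s := by exact_mod_cast hs
  rw [p1_formula]
  have h1 := K1A.cnt_le (2 * m) s x.val v.val hn
  push_cast at h1
  calc 1 / 2 ^ s * K1A.cnt (2 * m) s x.val v.val ≤ 1 / 2 ^ s * (2 ^ s / (2 * (m : ℝ)) + 1) :=
        mul_le_mul_of_nonneg_left h1 (by positivity)
    _ = 1 / (2 * m) + 1 / 2 ^ s := by field_simp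
    _ ≤ 1 / (2 * m) + 1 / (2 * m) := by
        have : (1 : ℝ) / 2 ^ s ≤ 1 / (2 * m) := one_div_le_one_div_of_le hn' hs'
        linarith
    _ = 2 / (2 * m) := by ring

end Vale.Agent.P162
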