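import Vale.Agent.P162G.ExpOp
import Vale.Agent.P162.B
import Vale.Agent.P162.A4

/-! P162G module N2: normalized block Laplacians. -/

open Equiv

set_option linter.unusedSectionVars false

namespace Vale.Agent.P162

variable {α : Type} [Fintype α] [DecidableEq α]
variable {E : Type} [NormedAddCommGroup E] [InnerProductSpace ℝ E]

/-- normalized Laplacian of the block `X` (`0` for the empty block) -/
noncomputable def LX (ρ : Perm α →* (E ≃ₗᵢ[ℝ] E)) (X : Finset α) : E →ₗ[ℝ] E :=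
  (1 / (2 * (X.card : ℝ))) • lapOn ρ X

theorem LX_apply (ρ : Perm α →* (E ≃ₗᵢ[ℝ] E)) (X : Finset α) (v : E) :
    LX ρ X v = (1 / (2 * (X.card : ℝ))) • lapOn ρ X v := rfl

theorem LX_symm (ρ : Perm α →* (E ≃ₗᵢ[ℝ] E)) (X : Finset α) : (LX ρ X).IsSymmetric := by
  intro u v
  rw [LX_apply, LX_apply, real_inner_smul_left, real_inner_smul_right, lapOn_symm ρ X u v]

theorem LX_nonneg (ρ : Perm α →* (E ≃ₗᵢ[ℝ] E)) (X : Finset α) (v : E) : 0 ≤ inner ℝ v (LX ρ X v) := by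
  rw [LX_apply, real_inner_smul_right]
  exact mul_nonneg (by positivity) (lapOn_nonneg ρ X v)

/-- a block of one point -/
theorem LX_singleton (ρ : Perm α →* (E ≃ₗᵢ[ℝ] E)) (X : Finset α) (hX : X.card ≤ 1) (v : E) : LX ρ X v = 0 := by
  rw [LX_apply, lapOn_apply]
  have h : ∑ p ∈ X, ∑ q ∈ X, (v - ρ (swap p q) v) = 0 := by
    refine Finset.sum_eq_zero fun p hp => Finset.sum_eq_zero fun q hq => ?_
    rw [Finset.card_le_one.1 hX p hp q hq, swap_self]
    exact sub_eq_zero.2 (rho_one ρ v).symm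
  rw [h, smul_zero]

theorem LX_conj (ρ : Perm α →* (E ≃ₗᵢ[ℝ] E)) (X : Finset α) (σ : Perm α) (v : E) :
    LX ρ (X.map σ.toEmbedding) (ρ σ v) = ρ σ (LX ρ X v) := by
  rw [LX_apply, LX_apply, Finset.card_map, map_smul, lapOn_apply, lapOn_apply, Finset.sum_map,
    map_sum]
  congr 1
  refine Finset.sum_congr rfl fun p _ => ?_
  rw [Finset.sum_map, map_sum]
  refine Finset.sum_congr rfl fun q _ => ?_
  rw [map_sub, ← rho_mul, ← rho_mul, Equiv.mul_swap_eq_swap_mul]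
  rfl

/-- permutations preserving `X` as a set commute with `LX ρ X` -/
theorem LX_comm_rho (ρ : Perm α →* (E ≃ₗᵢ[ℝ] E)) (X : Finset α) (σ : Perm α) (hσ : ∀ x, x ∈ X ↔ σ x ∈ X) (v : E) :
    LX ρ X (ρ σ v) = ρ σ (LX ρ X v) := by
  have h : X.map σ.toEmbedding = X := by
    ext x
    rw [Finset.mem_map]
    constructor
    · rintro ⟨y, hy, rfl⟩
      exact (hσ y).1 hy
    · intro hx
      refine ⟨σ⁻¹ x, ?_, ?_⟩
      · rw [hσ]
        simpa using hx
      · simp
  have h2 := LX_conj ρ X σ v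
  rwa [h] at h2

theorem LX_comm (ρ : Perm α →* (E ≃ₗᵢ[ℝ] E)) (X Y : Finset α) (h : Disjoint X Y ∨ X ⊆ Y ∨ Y ⊆ X) (v : E) :
    LX ρ X (LX ρ Y v) = LX ρ Y (LX ρ X v) := by
  have key : ∀ A B : Finset α, (Disjoint A B ∨ A ⊆ B) → ∀ w : E,
      LX ρ A (LX ρ B w) = LX ρ B (LX ρ A w) := by
    intro A B hAB w
    have h1 : ∀ p ∈ A, ∀ q ∈ A, LX ρ B (ρ (swap p q) w) = ρ (swap p q) (LX ρ B w) := by
      intro p hp q hq
      refine LX_comm_rho ρ B _ (fun x => ?_) w
      rcases hAB with hd | hs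
      · have hpB := Finset.disjoint_left.1 hd hp
        have hqB := Finset.disjoint_left.1 hd hq
        constructor
        · intro hx
          rw [swap_apply_of_ne_of_ne]
          · exact hx
          · rintro rfl
            exact hpB hx
          · rintro rfl
            exact hqB hx
        · intro hx
          by_cases hxp : x = p
          · subst hxp
            rw [swap_apply_left] at hx
            exact absurd hx hqB
          by_cases hxq : x = q
          · subst hxq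
            rw [swap_apply_right] at hx
            exact absurd hx hpB
          rwa [swap_apply_of_ne_of_ne hxp hxq] at hx
      · have hpB := hs hp
        have hqB := hs hq
        by_cases hxp : x = p
        · subst hxp
          rw [swap_apply_left]
          exact iff_of_true hpB hqB
        by_cases hxq : x = q
        · subst hxq
          rw [swap_apply_right]
          exact iff_of_true hqB hpB
        rw [swap_apply_of_ne_of_ne hxp hxq]
    rw [LX_apply ρ A, LX_apply ρ A, map_smul, lapOn_apply, lapOn_apply, map_sum]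
    congr 1
    refine Finset.sum_congr rfl fun p hp => ?_
    rw [map_sum]
    refine Finset.sum_congr rfl fun q hq => ?_
    rw [map_sub, h1 p hp q hq]
  rcases h with h | h | h
  · exact key X Y (Or.inl h) v
  · exact key X Y (Or.inr h) v
  · exact (key Y X (Or.inr h) v).symm

theorem lapOn_inner (ρ : Perm α →* (E ≃ₗᵢ[ℝ] E)) (X : Finset α) (v : E) :
    inner ℝ v (lapOn ρ X v) = ∑ p ∈ X, ∑ q ∈ X, inner ℝ v (v - ρ (swap p q) v) := by
  rw [lapOn_apply, inner_sum]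
  exact Finset.sum_congr rfl fun p _ => inner_sum _ _ _

theorem lapOn_mono (ρ : Perm α →* (E ≃ₗᵢ[ℝ] E)) (X Y : Finset α) (h : X ⊆ Y) (v : E) :
    inner ℝ v (lapOn ρ X v) ≤ inner ℝ v (lapOn ρ Y v) := by
  rw [lapOn_inner, lapOn_inner]
  refine (Finset.sum_le_sum fun p _ => Finset.sum_le_sum_of_subset_of_nonneg h fun q _ _ =>
    inner_sub_rho_nonneg ρ _ v).trans ?_
  exact Finset.sum_le_sum_of_subset_of_nonneg h fun p _ _ => Finset.sum_nonneg fun q _ =>
    inner_sub_rho_nonneg ρ _ v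

theorem LX_mono (ρ : Perm α →* (E ≃ₗᵢ[ℝ] E)) (X Y : Finset α) (h : X ⊆ Y) (v : E) :
    ((X.card : ℝ) / (Y.card : ℝ)) * inner ℝ v (LX ρ X v) ≤ inner ℝ v (LX ρ Y v) := by
  rw [LX_apply, LX_apply, real_inner_smul_right, real_inner_smul_right, ← mul_assoc]
  have h1 := lapOn_mono ρ X Y h v
  have h2 := lapOn_nonneg ρ X v
  have h3 : (X.card : ℝ) / (Y.card : ℝ) * (1 / (2 * (X.card : ℝ))) ≤ 1 / (2 * (Y.card : ℝ)) := by
    rcases Nat.eq_zero_or_pos X.card with h0 | h0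
    · rw [h0]
      simp
    · have h4 : (0 : ℝ) < X.card := by exact_mod_cast h0
      have h5 : (0 : ℝ) < Y.card := by exact_mod_cast h0.trans_le (Finset.card_le_card h)
      apply le_of_eq
      field_simp
  exact mul_le_mul h3 h1 h2 (by positivity)

/-- the representation of `Perm γ` obtained by embedding `γ` in `α` -/
noncomputable def bRep {γ : Type} (ρ : Perm α →* (E ≃ₗᵢ[ℝ] E)) (f : γ ↪ α) : Perm γ →* (E ≃ₗᵢ[ℝ] E) :=
  ρ.comp (Perm.viaEmbeddingHom f)

theorem bRep_swap {γ : Type} [DecidableEq γ] (ρ : Perm α →* (E ≃ₗᵢ[ℝ] E)) (f : γ ↪ α) (p q : γ) (v : E) :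
    bRep ρ f (swap p q) v = ρ (swap (f p) (f q)) v := by
  have h : Perm.viaEmbeddingHom f (swap p q) = swap (f p) (f q) := by
    rw [Perm.viaEmbeddingHom_apply]
    ext x
    by_cases hx : x ∈ Set.range f
    · obtain ⟨y, rfl⟩ := hx
      rw [Perm.viaEmbedding_apply, f.injective.map_swap]
    · rw [Perm.viaEmbedding_apply_of_notMem _ _ _ hx, swap_apply_of_ne_of_ne]
      · rintro rfl
        exact hx ⟨p, rfl⟩
      · rintro rfl
        exact hx ⟨q, rfl⟩
  change ρ (Perm.viaEmbeddingHom f (swap p q)) v = _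
  rw [h]

theorem LX_map {γ : Type} [Fintype γ] [DecidableEq γ] (ρ : Perm α →* (E ≃ₗᵢ[ℝ] E)) (f : γ ↪ α) (v : E) :
    LX ρ ((Finset.univ : Finset γ).map f) v = (1 / (2 * (Fintype.card γ : ℝ))) • lap (bRep ρ f) v := by
  rw [LX_apply, Finset.card_map, Finset.card_univ, lap, lapOn_apply, lapOn_apply, Finset.sum_map]
  congr 1
  refine Finset.sum_congr rfl fun p _ => ?_
  rw [Finset.sum_map]
  refine Finset.sum_congr rfl fun q _ => ?_
  rw [bRep_swap]

/-- the embedding of one half -/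
def halfEmb {β : Type} (b : Bool) (f : Bool × β ↪ α) : β ↪ α :=
  ⟨fun i => f (b, i), fun _ _ h => (Prod.mk.inj (f.injective h)).2⟩

theorem LX_half {β : Type} [Fintype β] [DecidableEq β] (ρ : Perm α →* (E ≃ₗᵢ[ℝ] E)) (f : Bool × β ↪ α) (b : Bool) (v : E) :
    LX ρ ((Finset.univ : Finset β).map (halfEmb b f)) v
      = (1 / (2 * (Fintype.card β : ℝ))) • lap ((bRep ρ f).comp (iota b)) v := by
  rw [LX_apply, Finset.card_map, Finset.card_univ, lap, lapOn_apply, lapOn_apply, Finset.sum_map]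
  congr 1
  refine Finset.sum_congr rfl fun p _ => ?_
  rw [Finset.sum_map]
  refine Finset.sum_congr rfl fun q _ => ?_
  have h : ((bRep ρ f).comp (iota b)) (swap p q) v = ρ (swap (f (b, p)) (f (b, q))) v := by
    rw [← bRep_swap, ← iota_swap]
    rfl
  rw [h]
  rfl

theorem defect_eq (ρ : Perm α →* (E ≃ₗᵢ[ℝ] E)) (g : Perm α) (v : E) :
    ‖v - ρ g v‖ ^ 2 = 2 * inner ℝ v (v - ρ g v) := by
  rw [norm_sub_sq_real, norm_rho, inner_sub_right, real_inner_self_eq_norm_sq]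
  ring

theorem defect_le (ρ : Perm α →* (E ≃ₗᵢ[ℝ] E)) (v : E) (p q z : α) :
    inner ℝ v (v - ρ (swap p q) v) ≤
      5 * (inner ℝ v (v - ρ (swap p z) v) + inner ℝ v (v - ρ (swap z q) v)) := by
  have hn := fun g => inner_sub_rho_nonneg ρ g v
  by_cases hzp : z = p
  · subst hzp
    linarith [hn (swap z q), hn (swap z z)]
  by_cases hzq : z = q
  · subst hzq
    linarith [hn (swap p z), hn (swap z z)]
  by_cases hpq : p = q
  · subst hpq
    rw [swap_self]
    have h1 : ρ (Equiv.refl α) v = v := rho_one ρ v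
    rw [h1, sub_self, inner_zero_right]
    linarith [hn (swap p z), hn (swap z p)]
  have hs : swap p q = swap p z * swap z q * swap p z := by
    have h := Equiv.mul_swap_eq_swap_mul (swap p z) z q
    rw [swap_apply_right, swap_apply_of_ne_of_ne (Ne.symm hpq) (Ne.symm hzq)] at h
    rw [h, mul_assoc, swap_mul_self, mul_one]
  have h1 : ‖v - ρ (swap p q) v‖ ≤ 2 * ‖v - ρ (swap p z) v‖ + ‖v - ρ (swap z q) v‖ := by
    rw [hs, rho_mul, rho_mul]
    set a := swap p z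
    set b := swap z q
    have e : v - ρ a (ρ b (ρ a v)) = (v - ρ a v) + ρ a (v - ρ b v) + ρ a (ρ b (v - ρ a v)) := by
      simp only [map_sub]
      abel
    rw [e]
    refine (norm_add₃_le).trans ?_
    rw [norm_rho, norm_rho, norm_rho]
    linarith
  have h2 : ‖v - ρ (swap p q) v‖ ^ 2 ≤
      5 * (‖v - ρ (swap p z) v‖ ^ 2 + ‖v - ρ (swap z q) v‖ ^ 2) := by
    have h3 := pow_le_pow_left₀ (norm_nonneg _) h1 2
    nlinarith [sq_nonneg (‖v - ρ (swap p z) v‖ - 2 * ‖v - ρ (swap z q) v‖)]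
  rw [defect_eq, defect_eq, defect_eq] at h2
  linarith

/-- overlapping blocks: the Laplacian of the union is controlled -/
theorem lapOn_union_le (ρ : Perm α →* (E ≃ₗᵢ[ℝ] E)) (X Y : Finset α) (h : 0 < (X ∩ Y).card) (v : E) :
    inner ℝ v (lapOn ρ (X ∪ Y) v) ≤ 11 * (((X ∪ Y).card : ℝ) / ((X ∩ Y).card : ℝ)) *
      (inner ℝ v (lapOn ρ X v) + inner ℝ v (lapOn ρ Y v)) := by
  set d : α → α → ℝ := fun p q => inner ℝ v (v - ρ (swap p q) v) with hd
  have hn : ∀ p q, 0 ≤ d p q := fun p q => inner_sub_rho_nonneg ρ _ v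
  have hle : ∀ p q z, d p q ≤ 5 * (d p z + d z q) := fun p q z => defect_le ρ v p q z
  have hsymm : ∀ p q, d p q = d q p := fun p q => by simp only [hd, swap_comm]
  have hX : inner ℝ v (lapOn ρ X v) = ∑ p ∈ X, ∑ q ∈ X, d p q := lapOn_inner ρ X v
  have hY : inner ℝ v (lapOn ρ Y v) = ∑ p ∈ Y, ∑ q ∈ Y, d p q := lapOn_inner ρ Y v
  have hU : inner ℝ v (lapOn ρ (X ∪ Y) v) = ∑ p ∈ X ∪ Y, ∑ q ∈ X ∪ Y, d p q :=
    lapOn_inner ρ (X ∪ Y) v
  have hDX : 0 ≤ inner ℝ v (lapOn ρ X v) := lapOn_nonneg ρ X v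
  have hDY : 0 ≤ inner ℝ v (lapOn ρ Y v) := lapOn_nonneg ρ Y v
  have hu : ∀ g : α → ℝ, (∀ x, 0 ≤ g x) → ∑ x ∈ X ∪ Y, g x ≤ ∑ x ∈ X, g x + ∑ x ∈ Y, g x := by
    intro g hg
    rw [← Finset.sum_union_inter]
    exact le_add_of_nonneg_right (Finset.sum_nonneg fun x _ => hg x)
  have h1 : ∑ p ∈ X ∪ Y, ∑ q ∈ X ∪ Y, d p q ≤
      ∑ p ∈ X, ∑ q ∈ X, d p q + ∑ p ∈ Y, ∑ q ∈ Y, d p q + 2 * ∑ p ∈ X, ∑ q ∈ Y, d p q := by
    have h2 : ∑ p ∈ X ∪ Y, ∑ q ∈ X ∪ Y, d p q ≤
        ∑ p ∈ X ∪ Y, (∑ q ∈ X, d p q + ∑ q ∈ Y, d p q) :=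
      Finset.sum_le_sum fun p _ => hu _ fun q => hn p q
    refine h2.trans ?_
    refine (hu _ fun p => add_nonneg (Finset.sum_nonneg fun q _ => hn p q)
      (Finset.sum_nonneg fun q _ => hn p q)).trans ?_
    rw [Finset.sum_add_distrib, Finset.sum_add_distrib]
    have h3 : ∑ p ∈ Y, ∑ q ∈ X, d p q = ∑ p ∈ X, ∑ q ∈ Y, d p q := by
      rw [Finset.sum_comm]
      exact Finset.sum_congr rfl fun p _ => Finset.sum_congr rfl fun q _ => hsymm q p
    rw [h3]
    linarith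
  set w : ℝ := ((X ∩ Y).card : ℝ) with hw
  have hw0 : 0 < w := by
    rw [hw]
    exact_mod_cast h
  have hUc : (w : ℝ) ≤ ((X ∪ Y).card : ℝ) := by
    rw [hw]
    exact_mod_cast Finset.card_le_card (Finset.inter_subset_left.trans Finset.subset_union_left)
  have hXc : (X.card : ℝ) ≤ ((X ∪ Y).card : ℝ) := by
    exact_mod_cast Finset.card_le_card Finset.subset_union_left
  have hYc : (Y.card : ℝ) ≤ ((X ∪ Y).card : ℝ) := by
    exact_mod_cast Finset.card_le_card Finset.subset_union_right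
  have h4 : w * ∑ p ∈ X, ∑ q ∈ Y, d p q ≤
      5 * (Y.card * inner ℝ v (lapOn ρ X v) + X.card * inner ℝ v (lapOn ρ Y v)) := by
    have e1 : w * ∑ p ∈ X, ∑ q ∈ Y, d p q = ∑ p ∈ X, ∑ q ∈ Y, ∑ _z ∈ X ∩ Y, d p q := by
      rw [Finset.mul_sum]
      refine Finset.sum_congr rfl fun p _ => ?_
      rw [Finset.mul_sum]
      refine Finset.sum_congr rfl fun q _ => ?_
      rw [Finset.sum_const, nsmul_eq_mul]
    rw [e1]
    have e2 : ∑ p ∈ X, ∑ q ∈ Y, ∑ _z ∈ X ∩ Y, d p q ≤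
        ∑ p ∈ X, ∑ q ∈ Y, ∑ z ∈ X ∩ Y, 5 * (d p z + d z q) :=
      Finset.sum_le_sum fun p _ => Finset.sum_le_sum fun q _ => Finset.sum_le_sum fun z _ =>
        hle p q z
    refine e2.trans ?_
    simp only [← Finset.mul_sum, Finset.sum_add_distrib, Finset.sum_const, nsmul_eq_mul]
    have e3 : ∑ p ∈ X, ∑ z ∈ X ∩ Y, d p z ≤ inner ℝ v (lapOn ρ X v) := by
      rw [hX]
      exact Finset.sum_le_sum fun p _ => Finset.sum_le_sum_of_subset_of_nonneg
        Finset.inter_subset_left fun q _ _ => hn p q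
    have e4 : ∑ q ∈ Y, ∑ z ∈ X ∩ Y, d z q ≤ inner ℝ v (lapOn ρ Y v) := by
      rw [hY]
      refine Finset.sum_le_sum fun p _ => ?_
      refine (Finset.sum_le_sum_of_subset_of_nonneg Finset.inter_subset_right
        fun q _ _ => hn q p).trans (le_of_eq ?_)
      exact Finset.sum_congr rfl fun q _ => hsymm q p
    have e5 := mul_le_mul_of_nonneg_left e3 (Nat.cast_nonneg (α := ℝ) Y.card)
    have e6 := mul_le_mul_of_nonneg_left e4 (Nat.cast_nonneg (α := ℝ) X.card)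
    linarith
  have h5 : ∑ p ∈ X, ∑ q ∈ Y, d p q ≤ 5 * (((X ∪ Y).card : ℝ) / w) *
      (inner ℝ v (lapOn ρ X v) + inner ℝ v (lapOn ρ Y v)) := by
    have h6 : ∑ p ∈ X, ∑ q ∈ Y, d p q ≤
        5 * (Y.card * inner ℝ v (lapOn ρ X v) + X.card * inner ℝ v (lapOn ρ Y v)) / w := by
      rw [le_div_iff₀ hw0, mul_comm]
      exact h4
    refine h6.trans ?_
    rw [show 5 * (((X ∪ Y).card : ℝ) / w) *
      (inner ℝ v (lapOn ρ X v) + inner ℝ v (lapOn ρ Y v)) =
      5 * (((X ∪ Y).card : ℝ) * inner ℝ v (lapOn ρ X v) +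
        ((X ∪ Y).card : ℝ) * inner ℝ v (lapOn ρ Y v)) / w by ring]
    have h7 := mul_le_mul_of_nonneg_right hYc hDX
    have h8 := mul_le_mul_of_nonneg_right hXc hDY
    gcongr
  have h9 : 1 ≤ ((X ∪ Y).card : ℝ) / w := by
    rw [le_div_iff₀ hw0, one_mul]
    exact hUc
  rw [hU]
  refine h1.trans ?_
  rw [← hX, ← hY]
  have h10 := mul_le_mul_of_nonneg_right h9 (add_nonneg hDX hDY)
  linarith

end Vale.Agent.P162
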