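import Vale.Agent.P162.A6
import Vale.Agent.P162.B

/-! P162G module N4: the odd operator `dd = lap₁ - lap₀` on the flip grading. -/

open Equiv

set_option linter.unusedSectionVars false

namespace Vale.Agent.P162

variable {β : Type} [Fintype β] [DecidableEq β]
variable {E : Type} [NormedAddCommGroup E] [InnerProductSpace ℝ E]
variable (ρ : Perm (Bool × β) →* (E ≃ₗᵢ[ℝ] E))

/-- the difference of the two half Laplacians -/
noncomputable def dd : E →ₗ[ℝ] E := lap (ρ.comp (iota true)) - lap (ρ.comp (iota false))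

/-- star sum at the point `x` -/
noncomputable def os1_S (x : Bool × β) : E →ₗ[ℝ] E := ∑ p : Bool × β, R ρ (swap p x)

theorem os1_S_apply (x : Bool × β) (v : E) : os1_S ρ x v = ∑ p : Bool × β, ρ (swap p x) v := by
  simp [os1_S]

/-- star Laplacian at the point `x` -/
noncomputable def os1_L (x : Bool × β) : E →ₗ[ℝ] E := ∑ p : Bool × β, (LinearMap.id - R ρ (swap p x))

theorem os1_L_apply (x : Bool × β) (v : E) : os1_L ρ x v = ∑ p : Bool × β, (v - ρ (swap p x) v) := by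
  rw [os1_L, LinearMap.sum_apply]
  exact Finset.sum_congr rfl fun p _ => by rw [LinearMap.sub_apply, LinearMap.id_apply, R_apply]

/-- the operator `C_j` -/
noncomputable def os1_C (j : β) : E →ₗ[ℝ] E := os1_S ρ (false, j) - os1_S ρ (true, j)

theorem os1_C_apply (j : β) (v : E) :
    os1_C ρ j v = os1_S ρ (false, j) v - os1_S ρ (true, j) v := by
  simp [os1_C]

theorem os1_C_eq_L (j : β) (v : E) :
    os1_C ρ j v = os1_L ρ (true, j) v - os1_L ρ (false, j) v := by
  rw [os1_C_apply, os1_S_apply, os1_S_apply, os1_L_apply, os1_L_apply]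
  rw [← Finset.sum_sub_distrib, ← Finset.sum_sub_distrib]
  refine Finset.sum_congr rfl fun p _ => ?_
  abel

theorem os1_S_rho (σ : Perm (Bool × β)) (x : Bool × β) (v : E) :
    ρ σ (os1_S ρ x v) = os1_S ρ (σ x) (ρ σ v) := by
  rw [os1_S_apply, os1_S_apply, map_sum]
  rw [← Equiv.sum_comp σ (fun p => ρ (swap p (σ x)) (ρ σ v))]
  refine Finset.sum_congr rfl fun p _ => ?_
  rw [← rho_mul, ← rho_mul, mul_swap_eq_swap_mul]

theorem os1_L_rho (σ : Perm (Bool × β)) (x : Bool × β) (v : E) :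
    ρ σ (os1_L ρ x v) = os1_L ρ (σ x) (ρ σ v) := by
  rw [os1_L_apply, os1_L_apply, map_sum]
  rw [← Equiv.sum_comp σ (fun p => (ρ σ v - ρ (swap p (σ x)) (ρ σ v)))]
  refine Finset.sum_congr rfl fun p _ => ?_
  rw [map_sub, ← rho_mul, ← rho_mul, mul_swap_eq_swap_mul]

theorem os1_C_hflip (c : β → Bool) (j : β) (v : E) :
    ρ (hflip c) (os1_C ρ j v) = eps (c j) • os1_C ρ j (ρ (hflip c) v) := by
  rw [os1_C_apply, os1_C_apply, map_sub, os1_S_rho, os1_S_rho, hflip_apply', hflip_apply']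
  cases hc : c j <;> simp

theorem os1_PT_C (T : Finset β) (j : β) (v : E) :
    PT ρ T (os1_C ρ j v) = os1_C ρ j (PT ρ (symmDiff T {j}) v) := by
  rw [PT_apply, PT_apply, map_smul, map_sum]
  congr 1
  refine Finset.sum_congr rfl fun c _ => ?_
  rw [os1_C_hflip, chi_symmDiff_singleton, map_smul, smul_smul]

theorem os1_dd_eq (v : E) : dd ρ v = ∑ j : β, os1_C ρ j v := by
  have h1 : dd ρ v = ∑ x : β, ∑ y : β,
      (ρ (swap (false, x) (false, y)) v - ρ (swap (true, x) (true, y)) v) := by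
    rw [dd, LinearMap.sub_apply, lap_comp_iota, lap_comp_iota, ← Finset.sum_sub_distrib]
    refine Finset.sum_congr rfl fun x _ => ?_
    rw [← Finset.sum_sub_distrib]
    refine Finset.sum_congr rfl fun y _ => ?_
    abel
  have h2 : ∑ j : β, os1_C ρ j v = ∑ j : β, ∑ i : β,
      ((ρ (swap (false, i) (false, j)) v - ρ (swap (true, i) (true, j)) v)
        + (ρ (swap (true, i) (false, j)) v - ρ (swap (false, i) (true, j)) v)) := by
    refine Finset.sum_congr rfl fun j _ => ?_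
    rw [os1_C_apply, os1_S_apply, os1_S_apply, Fintype.sum_prod_type, Fintype.sum_prod_type]
    simp only [Fintype.sum_bool]
    rw [← Finset.sum_add_distrib, ← Finset.sum_add_distrib, ← Finset.sum_sub_distrib]
    refine Finset.sum_congr rfl fun i _ => ?_
    abel
  have h3 : ∑ j : β, ∑ i : β, (ρ (swap (true, i) (false, j)) v - ρ (swap (false, i) (true, j)) v)
      = 0 := by
    simp_rw [Finset.sum_sub_distrib]
    rw [sub_eq_zero, Finset.sum_comm]
    refine Finset.sum_congr rfl fun x _ => Finset.sum_congr rfl fun y _ => ?_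
    rw [swap_comm]
  rw [h1, h2]
  simp_rw [Finset.sum_add_distrib]
  rw [h3, add_zero, Finset.sum_comm]

theorem os1_inner_S (x : Bool × β) (u v : E) :
    inner ℝ (os1_S ρ x u) v = inner ℝ u (os1_S ρ x v) := by
  rw [os1_S_apply, os1_S_apply, sum_inner, inner_sum]
  refine Finset.sum_congr rfl fun p _ => ?_
  rw [inner_rho_left, swap_inv]

theorem os1_inner_C (j : β) (u v : E) :
    inner ℝ (os1_C ρ j u) v = inner ℝ u (os1_C ρ j v) := by
  rw [os1_C_apply, os1_C_apply, inner_sub_left, inner_sub_right, os1_inner_S, os1_inner_S]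

theorem os1_pp_C (j : β) (v : E) :
    pp ρ j (os1_C ρ j v) = os1_C ρ j (v - pp ρ j v) := by
  rw [pp_apply, os1_C_hflip, pp_apply]
  have h : eps (single j j) = -1 := by simp [single]
  rw [h, map_sub, map_smul, map_sub]
  module

theorem os1_C_pp (j : β) (v : E) :
    os1_C ρ j (pp ρ j v) = os1_C ρ j v - pp ρ j (os1_C ρ j v) := by
  rw [os1_pp_C, map_sub]
  abel

/-- creation part -/
noncomputable def os1_up (v : E) : E := ∑ j : β, os1_C ρ j (v - pp ρ j v)

/-- annihilation part -/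
noncomputable def os1_dn (v : E) : E := ∑ j : β, os1_C ρ j (pp ρ j v)

theorem os1_split (v : E) : dd ρ v = os1_up ρ v + os1_dn ρ v := by
  rw [os1_dd_eq, os1_up, os1_dn, ← Finset.sum_add_distrib]
  refine Finset.sum_congr rfl fun j _ => ?_
  rw [← map_add, sub_add_cancel]

theorem os1_adj (v w : E) : inner ℝ (os1_dn ρ v) w = inner ℝ v (os1_up ρ w) := by
  rw [os1_up, os1_dn, sum_inner, inner_sum]
  refine Finset.sum_congr rfl fun j _ => ?_
  rw [os1_inner_C, inner_pp, os1_pp_C]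

theorem os1_sum_L (v : E) : ∑ x : Bool × β, os1_L ρ x v = lap ρ v := by
  rw [lap_apply, Finset.sum_comm' (t' := Finset.univ) (s' := fun _ => Finset.univ) (by simp)]
  refine Finset.sum_congr rfl fun x _ => ?_
  rw [os1_L_apply]

/-- the square of a star Laplacian -/
theorem os1_L_sq (x : Bool × β) (u : E) :
    ‖os1_L ρ x u‖ ^ 2 ≤ 4 * (Fintype.card β : ℝ) * inner ℝ u (os1_L ρ x u) := by
  have h1 : ‖os1_L ρ x u‖ ≤ ∑ p : Bool × β, ‖u - ρ (swap p x) u‖ := by
    rw [os1_L_apply]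
    exact norm_sum_le _ _
  have h2 : (∑ p : Bool × β, ‖u - ρ (swap p x) u‖) ^ 2
      ≤ (2 * (Fintype.card β : ℝ)) * ∑ p : Bool × β, ‖u - ρ (swap p x) u‖ ^ 2 := by
    have h := sq_sum_le_card_mul_sum_sq (s := (Finset.univ : Finset (Bool × β)))
      (f := fun p => ‖u - ρ (swap p x) u‖)
    rw [Finset.card_univ, Fintype.card_prod, Fintype.card_bool] at h
    push_cast at h
    exact h
  have h3 : ∀ p : Bool × β, ‖u - ρ (swap p x) u‖ ^ 2 = 2 * inner ℝ u (u - ρ (swap p x) u) := by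
    intro p
    rw [@norm_sub_sq_real, norm_rho, inner_sub_right, real_inner_self_eq_norm_sq]
    ring
  have h4 : ∑ p : Bool × β, ‖u - ρ (swap p x) u‖ ^ 2 = 2 * inner ℝ u (os1_L ρ x u) := by
    rw [os1_L_apply, inner_sum, Finset.mul_sum]
    exact Finset.sum_congr rfl fun p _ => h3 p
  calc ‖os1_L ρ x u‖ ^ 2 ≤ (∑ p : Bool × β, ‖u - ρ (swap p x) u‖) ^ 2 :=
        pow_le_pow_left₀ (norm_nonneg _) h1 2
    _ ≤ _ := h2
    _ = _ := by rw [h4]; ring

theorem os1_L_nonneg (x : Bool × β) (u : E) : 0 ≤ inner ℝ u (os1_L ρ x u) := by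
  rw [os1_L_apply, inner_sum]
  exact Finset.sum_nonneg fun p _ => inner_sub_rho_nonneg ρ _ u

/-- norm of `C_j` on a `flip_j`-invariant vector -/
theorem os1_C_sq (j : β) (u : E) (hu : ρ (hflip (single j)) u = u) :
    ‖os1_C ρ j u‖ ^ 2
      ≤ 8 * (Fintype.card β : ℝ) * (inner ℝ u (os1_L ρ (false, j) u) + inner ℝ u (os1_L ρ (true, j) u)) := by
  have hs : single j j = true := by simp [single]
  have h1 : os1_L ρ (true, j) u = ρ (hflip (single j)) (os1_L ρ (false, j) u) := by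
    rw [os1_L_rho, hu, hflip_apply', hs]
    rfl
  have h2 : ‖os1_L ρ (true, j) u‖ = ‖os1_L ρ (false, j) u‖ := by
    rw [h1, norm_rho]
  have h3 : ‖os1_C ρ j u‖ ≤ ‖os1_L ρ (true, j) u‖ + ‖os1_L ρ (false, j) u‖ := by
    rw [os1_C_eq_L]
    exact norm_sub_le _ _
  have h4 := os1_L_sq ρ (false, j) u
  have h5 := os1_L_sq ρ (true, j) u
  have h6 : ‖os1_C ρ j u‖ ^ 2 ≤ (‖os1_L ρ (true, j) u‖ + ‖os1_L ρ (false, j) u‖) ^ 2 :=
    pow_le_pow_left₀ (norm_nonneg _) h3 2
  nlinarith [sq_nonneg (‖os1_L ρ (true, j) u‖ - ‖os1_L ρ (false, j) u‖)]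

theorem os1_hflip_sub_pp (j : β) (v : E) :
    ρ (hflip (single j)) (v - pp ρ j v) = v - pp ρ j v := by
  have h : ρ (hflip (single j)) (ρ (hflip (single j)) v) = v := by
    rw [← rho_mul]
    have : hflip (single j) * hflip (single j) = 1 := by
      have h := hflip_inv (single j)
      calc hflip (single j) * hflip (single j) = (hflip (single j))⁻¹ * hflip (single j) := by rw [h]
        _ = 1 := inv_mul_cancel _
    rw [this, rho_one]
  rw [pp_apply, map_sub, map_smul, map_sub, h]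
  module

/-- the pair Laplacian -/
theorem os1_pair (j : β) (v : E) :
    inner ℝ (v - pp ρ j v) (os1_L ρ (false, j) (v - pp ρ j v))
        + inner ℝ (v - pp ρ j v) (os1_L ρ (true, j) (v - pp ρ j v))
      ≤ inner ℝ v (os1_L ρ (false, j) v) + inner ℝ v (os1_L ρ (true, j) v) := by
  set u := v - pp ρ j v with hu
  set w := pp ρ j v with hw
  have hv : v = u + w := by rw [hu]; abel
  have hs : single j j = true := by simp [single]
  have hfu : ρ (hflip (single j)) u = u := os1_hflip_sub_pp ρ j v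
  have hfw : ρ (hflip (single j)) w = - w := by
    have h : ρ (hflip (single j)) v = u - w := by
      rw [hu, hw, pp_apply]
      module
    have h2 : ρ (hflip (single j)) v = ρ (hflip (single j)) u + ρ (hflip (single j)) w := by
      conv_lhs => rw [hv]
      rw [map_add]
    rw [hfu, h] at h2
    have : ρ (hflip (single j)) w = (u - w) - u := by rw [h2]; abel
    rw [this]; abel
  have cross : ∀ a b : E, ρ (hflip (single j)) a = a → ρ (hflip (single j)) b = - b →
      inner ℝ a (os1_L ρ (false, j) b) + inner ℝ a (os1_L ρ (true, j) b) = 0 := by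
    intro a b ha hb
    have e1 : os1_L ρ (true, j) b = - ρ (hflip (single j)) (os1_L ρ (false, j) b) := by
      rw [os1_L_rho, hb, hflip_apply', hs, map_neg, neg_neg]
      rfl
    rw [e1, inner_neg_right, inner_rho_right, hflip_inv, ha]
    ring
  have cross' : ∀ a b : E, ρ (hflip (single j)) a = - a → ρ (hflip (single j)) b = b →
      inner ℝ a (os1_L ρ (false, j) b) + inner ℝ a (os1_L ρ (true, j) b) = 0 := by
    intro a b ha hb
    have e1 : os1_L ρ (true, j) b = ρ (hflip (single j)) (os1_L ρ (false, j) b) := by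
      rw [os1_L_rho, hb, hflip_apply', hs]
      rfl
    rw [e1, inner_rho_right, hflip_inv, ha, inner_neg_left]
    ring
  have c1 := cross u w hfu hfw
  have c2 := cross' w u hfw hfu
  have n1 := os1_L_nonneg ρ (false, j) w
  have n2 := os1_L_nonneg ρ (true, j) w
  have e : inner ℝ v (os1_L ρ (false, j) v) + inner ℝ v (os1_L ρ (true, j) v)
      = (inner ℝ u (os1_L ρ (false, j) u) + inner ℝ u (os1_L ρ (true, j) u))
        + (inner ℝ u (os1_L ρ (false, j) w) + inner ℝ u (os1_L ρ (true, j) w))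
        + (inner ℝ w (os1_L ρ (false, j) u) + inner ℝ w (os1_L ρ (true, j) u))
        + (inner ℝ w (os1_L ρ (false, j) w) + inner ℝ w (os1_L ρ (true, j) w)) := by
    have : ∀ L : E →ₗ[ℝ] E, inner ℝ v (L v) = inner ℝ u (L u) + inner ℝ u (L w)
        + inner ℝ w (L u) + inner ℝ w (L w) := by
      intro L
      rw [hv, map_add, inner_add_left, inner_add_right, inner_add_right]
      ring
    rw [this, this]
    ring
  rw [e, c1, c2]
  linarith

theorem os1_sum_sq (v : E) :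
    ∑ j : β, ‖os1_C ρ j (v - pp ρ j v)‖ ^ 2 ≤ 8 * (Fintype.card β : ℝ) * inner ℝ v (lap ρ v) := by
  have h1 : inner ℝ v (lap ρ v)
      = ∑ j : β, (inner ℝ v (os1_L ρ (false, j) v) + inner ℝ v (os1_L ρ (true, j) v)) := by
    rw [← os1_sum_L, inner_sum, Fintype.sum_prod_type, Fintype.sum_bool, ← Finset.sum_add_distrib]
    exact Finset.sum_congr rfl fun j _ => add_comm _ _
  rw [h1, Finset.mul_sum]
  refine Finset.sum_le_sum fun j _ => ?_
  refine (os1_C_sq ρ j _ (os1_hflip_sub_pp ρ j v)).trans ?_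
  exact mul_le_mul_of_nonneg_left (os1_pair ρ j v) (by positivity)

variable {ρ}

theorem low_dd {N : ℕ} {v : E} (hv : low ρ N v) : low ρ (N + 1) (dd ρ v) := by
  intro T hT
  rw [os1_dd_eq, map_sum]
  refine Finset.sum_eq_zero fun j _ => ?_
  rw [os1_PT_C, hv, map_zero]
  have h1 := card_symmDiff_ge T j
  omega

theorem inner_dd_inv {w : E} (hw : ∀ c : β → Bool, ρ (hflip c) w = w) : inner ℝ w (dd ρ w) = 0 := by
  rw [os1_dd_eq, inner_sum]
  refine Finset.sum_eq_zero fun j _ => ?_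
  have b1 : ρ (hflip (single j)) (os1_C ρ j w) = - os1_C ρ j w := by
    rw [os1_C_hflip, hw]
    simp [single]
  have b3 : inner ℝ (ρ (hflip (single j)) w) (ρ (hflip (single j)) (os1_C ρ j w))
      = inner ℝ w (os1_C ρ j w) := (ρ (hflip (single j))).inner_map_map _ _
  rw [b1, hw, inner_neg_right] at b3
  linarith

theorem os1_low_sub_pp {N : ℕ} {v : E} (hv : low ρ N v) (j : β) : low ρ N (v - pp ρ j v) := by
  intro T hT
  rw [map_sub, PT_pp, hv T hT, smul_zero, sub_zero]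

/-- the creation bound -/
theorem os1_up_sq {N : ℕ} {v : E} (hv : low ρ N v) :
    ‖os1_up ρ v‖ ^ 2 ≤ ((N : ℝ) + 1) * (8 * (Fintype.card β : ℝ) * inner ℝ v (lap ρ v)) := by
  have h0 : ∀ (T : Finset β) (j : β), j ∉ T → PT ρ T (os1_C ρ j (v - pp ρ j v)) = 0 := by
    intro T j hj
    have h := PT_pp ρ T j (os1_C ρ j (v - pp ρ j v))
    rw [if_neg hj, zero_smul, os1_pp_C] at h
    have h2 : (v - pp ρ j v) - pp ρ j (v - pp ρ j v) = v - pp ρ j v := by
      rw [map_sub, pp_pp_self, sub_self, sub_zero]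
    rwa [h2] at h
  have h1 : ∀ T : Finset β, ‖PT ρ T (os1_up ρ v)‖ ^ 2
      ≤ ((N : ℝ) + 1) * ∑ j : β, ‖PT ρ T (os1_C ρ j (v - pp ρ j v))‖ ^ 2 := by
    intro T
    by_cases hT : N + 1 < T.card
    · have h2 : PT ρ T (os1_up ρ v) = 0 := by
        rw [os1_up, map_sum]
        refine Finset.sum_eq_zero fun j _ => ?_
        rw [os1_PT_C, os1_low_sub_pp hv j, map_zero]
        have h1 := card_symmDiff_ge T j
        omega
      rw [h2, norm_zero]
      have h3 : 0 ≤ ∑ j : β, ‖PT ρ T (os1_C ρ j (v - pp ρ j v))‖ ^ 2 :=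
        Finset.sum_nonneg fun _ _ => sq_nonneg _
      have h4 := mul_nonneg (by positivity : (0 : ℝ) ≤ (N : ℝ) + 1) h3
      simpa using h4
    · have h2 : PT ρ T (os1_up ρ v) = ∑ j ∈ T, PT ρ T (os1_C ρ j (v - pp ρ j v)) := by
        rw [os1_up, map_sum]
        symm
        apply Finset.sum_subset (Finset.subset_univ _)
        intro j _ hj
        exact h0 T j hj
      have h3 : (T.card : ℝ) ≤ (N : ℝ) + 1 := by exact_mod_cast not_lt.mp hT
      have h4 : ‖PT ρ T (os1_up ρ v)‖ ≤ ∑ j ∈ T, ‖PT ρ T (os1_C ρ j (v - pp ρ j v))‖ := by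
        rw [h2]
        exact norm_sum_le _ _
      have h5 : (∑ j ∈ T, ‖PT ρ T (os1_C ρ j (v - pp ρ j v))‖) ^ 2
          ≤ T.card * ∑ j ∈ T, ‖PT ρ T (os1_C ρ j (v - pp ρ j v))‖ ^ 2 :=
        sq_sum_le_card_mul_sum_sq
      have h6 : ∑ j ∈ T, ‖PT ρ T (os1_C ρ j (v - pp ρ j v))‖ ^ 2
          ≤ ∑ j : β, ‖PT ρ T (os1_C ρ j (v - pp ρ j v))‖ ^ 2 :=
        Finset.sum_le_sum_of_subset_of_nonneg (Finset.subset_univ _) fun _ _ _ => sq_nonneg _
      calc ‖PT ρ T (os1_up ρ v)‖ ^ 2 ≤ (∑ j ∈ T, ‖PT ρ T (os1_C ρ j (v - pp ρ j v))‖) ^ 2 :=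
            pow_le_pow_left₀ (norm_nonneg _) h4 2
        _ ≤ _ := h5
        _ ≤ ((N : ℝ) + 1) * ∑ j : β, ‖PT ρ T (os1_C ρ j (v - pp ρ j v))‖ ^ 2 :=
            mul_le_mul h3 h6 (Finset.sum_nonneg fun _ _ => sq_nonneg _) (by positivity)
  rw [norm_sq_eq_sum_PT ρ (os1_up ρ v)]
  calc ∑ T : Finset β, ‖PT ρ T (os1_up ρ v)‖ ^ 2
      ≤ ∑ T : Finset β, ((N : ℝ) + 1) * ∑ j : β, ‖PT ρ T (os1_C ρ j (v - pp ρ j v))‖ ^ 2 :=
        Finset.sum_le_sum fun T _ => h1 T
    _ = ((N : ℝ) + 1) * ∑ j : β, ‖os1_C ρ j (v - pp ρ j v)‖ ^ 2 := by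
        rw [← Finset.mul_sum, Finset.sum_comm]
        congr 1
        exact Finset.sum_congr rfl fun j _ => (norm_sq_eq_sum_PT ρ _).symm
    _ ≤ _ := mul_le_mul_of_nonneg_left (os1_sum_sq ρ v) (by positivity)

theorem os1_low_dn {N : ℕ} {v : E} (hv : low ρ N v) : low ρ N (os1_dn ρ v) := by
  intro T hT
  rw [os1_dn, map_sum]
  refine Finset.sum_eq_zero fun j _ => ?_
  rw [os1_PT_C, PT_pp]
  by_cases hj : j ∈ symmDiff T {j}
  · have hjT : j ∉ T := by
      rw [Finset.mem_symmDiff] at hj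
      rcases hj with ⟨_, h⟩ | ⟨_, h⟩
      · exact absurd (Finset.mem_singleton_self j) h
      · exact h
    have hcard : N < (symmDiff T {j}).card := by
      have : T ⊆ symmDiff T {j} := by
        intro y hy
        rw [Finset.mem_symmDiff]
        refine Or.inl ⟨hy, ?_⟩
        rw [Finset.mem_singleton]
        rintro rfl
        exact hjT hy
      exact lt_of_lt_of_le hT (Finset.card_le_card this)
    rw [hv _ hcard, smul_zero, map_zero]
  · rw [if_neg hj, zero_smul, map_zero]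

theorem os1_lap_S (x : Bool × β) (v : E) : lap ρ (os1_S ρ x v) = os1_S ρ x (lap ρ v) := by
  rw [os1_S_apply, os1_S_apply, map_sum]
  exact Finset.sum_congr rfl fun p _ => lap_comm ρ _ v

theorem os1_lap_C (j : β) (v : E) : lap ρ (os1_C ρ j v) = os1_C ρ j (lap ρ v) := by
  rw [os1_C_apply, os1_C_apply, map_sub, os1_lap_S, os1_lap_S]

theorem os1_lap_pp (j : β) (v : E) : lap ρ (pp ρ j v) = pp ρ j (lap ρ v) := by
  rw [pp_apply, pp_apply, map_smul, map_sub, lap_comm]

theorem os1_lap_dn (v : E) : lap ρ (os1_dn ρ v) = os1_dn ρ (lap ρ v) := by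
  rw [os1_dn, os1_dn, map_sum]
  exact Finset.sum_congr rfl fun j _ => by rw [os1_lap_C, os1_lap_pp]

theorem os1_dn_smul (c : ℝ) (v : E) : os1_dn ρ (c • v) = c • os1_dn ρ v := by
  rw [os1_dn, os1_dn, Finset.smul_sum]
  exact Finset.sum_congr rfl fun j _ => by rw [map_smul, map_smul]

theorem os1_up_le {N : ℕ} {v : E} (hv : low ρ N v) (l : ℝ) (hl0 : 0 ≤ l)
    (hl : lap ρ v = (4 * (Fintype.card β : ℝ) * l) • v) :
    ‖os1_up ρ v‖ ≤ 4 * (Fintype.card β : ℝ) * Real.sqrt (2 * l * ((N : ℝ) + 1)) * ‖v‖ := by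
  have h := os1_up_sq hv
  rw [hl, inner_smul_right, real_inner_self_eq_norm_sq] at h
  have h2 : ‖os1_up ρ v‖ ^ 2
      ≤ (4 * (Fintype.card β : ℝ) * Real.sqrt (2 * l * ((N : ℝ) + 1)) * ‖v‖) ^ 2 := by
    rw [mul_pow, mul_pow, Real.sq_sqrt (by positivity)]
    refine h.trans (le_of_eq ?_)
    ring
  exact (abs_le_of_sq_le_sq' h2 (by positivity)).2

/-- Paper proof in `NOTES.md` (OS1). -/
theorem norm_dd_le {N : ℕ} {v : E} (hv : low ρ N v) (l : ℝ) (hl0 : 0 ≤ l)
    (hl : lap ρ v = (4 * (Fintype.card β : ℝ) * l) • v) :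
    ‖dd ρ v‖ ≤ 8 * (Fintype.card β : ℝ) * Real.sqrt (2 * l * ((N : ℝ) + 1)) * ‖v‖ := by
  have h1 := os1_up_le hv l hl0 hl
  have h2 : ‖os1_dn ρ v‖ ≤ 4 * (Fintype.card β : ℝ) * Real.sqrt (2 * l * ((N : ℝ) + 1)) * ‖v‖ := by
    set w := os1_dn ρ v with hw
    have hlw : low ρ N w := os1_low_dn hv
    have hlapw : lap ρ w = (4 * (Fintype.card β : ℝ) * l) • w := by
      rw [hw, os1_lap_dn, hl, os1_dn_smul]
    have h3 := os1_up_le hlw l hl0 hlapw
    have h4 : ‖w‖ ^ 2 ≤ ‖v‖ * ‖os1_up ρ w‖ := by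
      rw [← real_inner_self_eq_norm_sq]
      conv_lhs => arg 2; rw [hw]
      rw [os1_adj]
      exact real_inner_le_norm _ _
    by_cases hw0 : ‖w‖ = 0
    · rw [hw0]; positivity
    · have hpos : 0 < ‖w‖ := lt_of_le_of_ne (norm_nonneg _) (Ne.symm hw0)
      have h5 : ‖w‖ * ‖w‖
          ≤ (4 * (Fintype.card β : ℝ) * Real.sqrt (2 * l * ((N : ℝ) + 1)) * ‖v‖) * ‖w‖ := by
        rw [← sq]
        refine h4.trans ?_
        calc ‖v‖ * ‖os1_up ρ w‖
            ≤ ‖v‖ * (4 * (Fintype.card β : ℝ) * Real.sqrt (2 * l * ((N : ℝ) + 1)) * ‖w‖) :=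
              mul_le_mul_of_nonneg_left h3 (norm_nonneg _)
          _ = _ := by ring
      exact le_of_mul_le_mul_right h5 hpos
  rw [os1_split]
  refine (norm_add_le _ _).trans ?_
  linarith

end Vale.Agent.P162
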