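import Vale.Agent.P162.A5

/-! P162G module N5: real analysis for the one-sided merge. -/

namespace Vale.Agent.P162

open scoped Nat
open Filter Topology

/-- growth of the even terms -/
private theorem os2_step (l s : ℝ) (hl : 1 / 2 ≤ l) (b : ℕ → ℝ) (hb : ∀ i, 0 ≤ b i)
    (hbs : ∀ i : ℕ, b (i + 1) ≤ 2 * ((2 * (i : ℝ) + 1) + Real.sqrt (2 * l * (2 * (i : ℝ) + 1))) * b i)
    (p : ℕ) :
    s ^ (2 * (p + 1)) * b (p + 1) ^ 2 / ((2 * (p + 1))! : ℝ) ≤
      8 * s ^ 2 * ((p + (l + 1 / 2)) / (p + 1)) * (s ^ (2 * p) * b p ^ 2 / ((2 * p)! : ℝ)) := by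
  set q : ℝ := Real.sqrt (2 * l * (2 * (p : ℝ) + 1)) with hq
  have hp : (0 : ℝ) ≤ p := Nat.cast_nonneg p
  have hq0 : 0 ≤ q := Real.sqrt_nonneg _
  have hq2 : q ^ 2 = 2 * l * (2 * (p : ℝ) + 1) := Real.sq_sqrt (by positivity)
  have h1 : b (p + 1) ^ 2 ≤ 8 * (2 * p + 1) * (2 * p + 1 + 2 * l) * b p ^ 2 := by
    have h2 : b (p + 1) ^ 2 ≤ (2 * ((2 * (p : ℝ) + 1) + q) * b p) ^ 2 :=
      pow_le_pow_left₀ (hb _) (hbs p) 2
    have h3 : (2 * ((2 * (p : ℝ) + 1) + q) * b p) ^ 2 = 4 * ((2 * (p : ℝ) + 1) + q) ^ 2 * b p ^ 2 := by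
      ring
    have h4 : ((2 * (p : ℝ) + 1) + q) ^ 2 ≤ 2 * (2 * p + 1) * (2 * p + 1 + 2 * l) := by
      nlinarith [sq_nonneg ((2 * (p : ℝ) + 1) - q)]
    calc b (p + 1) ^ 2 ≤ 4 * ((2 * (p : ℝ) + 1) + q) ^ 2 * b p ^ 2 := by rw [← h3]; exact h2
      _ ≤ 4 * (2 * (2 * p + 1) * (2 * p + 1 + 2 * l)) * b p ^ 2 := by gcongr
      _ = _ := by ring
  have hf : ((2 * (p + 1))! : ℝ) = (2 * p + 2) * (2 * p + 1) * ((2 * p)! : ℝ) := by
    have : 2 * (p + 1) = 2 * p + 1 + 1 := by ring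
    rw [this, Nat.factorial_succ, Nat.factorial_succ]
    push_cast
    ring
  have hfpos : (0 : ℝ) < ((2 * p)! : ℝ) := by exact_mod_cast Nat.factorial_pos _
  rw [hf]
  have h5 : s ^ (2 * (p + 1)) = s ^ (2 * p) * s ^ 2 := by ring
  have h6 : 0 ≤ s ^ (2 * p) := by
    rw [pow_mul]
    positivity
  rw [h5, div_le_iff₀ (by positivity)]
  have h7 : 8 * s ^ 2 * ((p + (l + 1 / 2)) / (p + 1)) * (s ^ (2 * p) * b p ^ 2 / ((2 * p)! : ℝ)) *
      ((2 * p + 2) * (2 * p + 1) * ((2 * p)! : ℝ)) =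
      s ^ (2 * p) * s ^ 2 * (8 * (2 * p + 1) * (2 * p + 1 + 2 * l) * b p ^ 2) := by
    field_simp
    ring
  rw [h7]
  exact mul_le_mul_of_nonneg_left h1 (by positivity)

/-- the odd terms -/
private theorem os2_odd (s : ℝ) (hs : 0 ≤ s) (b : ℕ → ℝ) (hb : ∀ i, 0 ≤ b i) (p : ℕ) (hp : 1 ≤ p) :
    s ^ (2 * p + 1) * (b p * b (p + 1)) / ((2 * p + 1)! : ℝ) ≤
      3 / 5 * (s ^ (2 * p) * b p ^ 2 / ((2 * p)! : ℝ) +
        s ^ (2 * (p + 1)) * b (p + 1) ^ 2 / ((2 * (p + 1))! : ℝ)) := by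
  have hp' : (1 : ℝ) ≤ p := by exact_mod_cast hp
  have hfpos : (0 : ℝ) < ((2 * p)! : ℝ) := by exact_mod_cast Nat.factorial_pos _
  have hf1 : ((2 * p + 1)! : ℝ) = (2 * p + 1) * ((2 * p)! : ℝ) := by
    rw [Nat.factorial_succ]
    push_cast
    ring
  have hf : ((2 * (p + 1))! : ℝ) = (2 * p + 2) * (2 * p + 1) * ((2 * p)! : ℝ) := by
    have : 2 * (p + 1) = 2 * p + 1 + 1 := by ring
    rw [this, Nat.factorial_succ, Nat.factorial_succ]
    push_cast
    ring
  rw [hf, hf1]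
  have hb1 := hb p
  have hb2 := hb (p + 1)
  have h5 : s ^ (2 * (p + 1)) = s ^ (2 * p) * s ^ 2 := by ring
  have h8 : s ^ (2 * p + 1) = s ^ (2 * p) * s := by ring
  rw [h5, h8]
  have h6 : 0 ≤ s ^ (2 * p) := by positivity
  have key : s * (b p * b (p + 1)) / (2 * p + 1) ≤
      3 / 5 * (b p ^ 2 + s ^ 2 * b (p + 1) ^ 2 / ((2 * p + 2) * (2 * p + 1))) := by
    have h9 : s * (b p * b (p + 1)) ≤ 3 / 5 * ((2 * p + 1) * b p ^ 2 + s ^ 2 * b (p + 1) ^ 2 / (2 * p + 2)) := by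
      have h10 : s ^ 2 * b (p + 1) ^ 2 / (2 * p + 2) = (s * b (p + 1)) ^ 2 / (2 * p + 2) := by ring
      rw [h10]
      have h11 : (2 * (p : ℝ) + 2) ≤ 4 / 3 * (2 * p + 1) := by linarith
      have h12 : s * (b p * b (p + 1)) * (2 * p + 2) ≤
          3 / 5 * ((2 * p + 1) * b p ^ 2 * (2 * p + 2) + (s * b (p + 1)) ^ 2) := by
        nlinarith [sq_nonneg ((2 * p + 2) * b p * (5 / 6) - s * b (p + 1)), sq_nonneg (b p),
          sq_nonneg ((2 * (p : ℝ) + 2) * b p), mul_nonneg (by linarith : (0 : ℝ) ≤ p) (sq_nonneg (b p)),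
          mul_nonneg (mul_nonneg (by linarith : (0 : ℝ) ≤ p) (by linarith : (0 : ℝ) ≤ p)) (sq_nonneg (b p)),
          mul_nonneg (mul_nonneg (by linarith : (0 : ℝ) ≤ p - 1) (by linarith : (0 : ℝ) ≤ p)) (sq_nonneg (b p))]
      have h13 : (0 : ℝ) < 2 * p + 2 := by linarith
      have h14 : 3 / 5 * ((2 * p + 1) * b p ^ 2 + (s * b (p + 1)) ^ 2 / (2 * p + 2)) =
          3 / 5 * ((2 * p + 1) * b p ^ 2 * (2 * p + 2) + (s * b (p + 1)) ^ 2) / (2 * p + 2) := by
        field_simp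
      rw [h14, le_div_iff₀ h13]
      exact h12
    have h15 : (0 : ℝ) < 2 * p + 1 := by linarith
    rw [div_le_iff₀ h15]
    have h16 : 3 / 5 * (b p ^ 2 + s ^ 2 * b (p + 1) ^ 2 / ((2 * p + 2) * (2 * p + 1))) * (2 * p + 1) =
        3 / 5 * ((2 * p + 1) * b p ^ 2 + s ^ 2 * b (p + 1) ^ 2 / (2 * p + 2)) := by
      have : (2 * (p : ℝ) + 2) ≠ 0 := by positivity
      field_simp
    rw [h16]
    exact h9
  have h17 : s ^ (2 * p) * s * (b p * b (p + 1)) / ((2 * p + 1) * ((2 * p)! : ℝ)) =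
      s ^ (2 * p) / ((2 * p)! : ℝ) * (s * (b p * b (p + 1)) / (2 * p + 1)) := by
    have : (2 * (p : ℝ) + 1) ≠ 0 := by positivity
    field_simp
  have h18 : 3 / 5 * (s ^ (2 * p) * b p ^ 2 / ((2 * p)! : ℝ) +
        s ^ (2 * p) * s ^ 2 * b (p + 1) ^ 2 / ((2 * p + 2) * (2 * p + 1) * ((2 * p)! : ℝ))) =
      s ^ (2 * p) / ((2 * p)! : ℝ) *
        (3 / 5 * (b p ^ 2 + s ^ 2 * b (p + 1) ^ 2 / ((2 * p + 2) * (2 * p + 1)))) := by
    have h19 : (2 * (p : ℝ) + 1) ≠ 0 := by positivity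
    have h20 : (2 * (p : ℝ) + 2) ≠ 0 := by positivity
    field_simp
  rw [h17, h18]
  exact mul_le_mul_of_nonneg_left key (by positivity)

/-- the sum of the even terms from `p = 1` on -/
private theorem os2_even_sum (e : ℕ → ℝ) (A l x : ℝ) (hl : 1 / 2 ≤ l) (hx0 : 0 ≤ x)
    (hx : x ≤ 1 / 4608) (hA : 0 ≤ A) (he0 : e 0 = A) (hepos : ∀ p, 0 ≤ e p)
    (hstep : ∀ p : ℕ, e (p + 1) ≤ x * ((p + (l + 1 / 2)) / (p + 1)) * e p) (N : ℕ) :
    A + 11 / 5 * ∑ p ∈ Finset.range N, e (p + 1) ≤ Real.exp (9 / 2 * (x * l)) * A := by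
  by_cases hl4 : l < 4
  · -- geometric regime
    set ρ : ℝ := x * (l + 1 / 2) with hρ
    have hρ0 : 0 ≤ ρ := by positivity
    have hρ1 : ρ ≤ 1 / 1000 := by
      rw [hρ]
      nlinarith
    have hst : ∀ p : ℕ, e (p + 1) ≤ ρ * e p := by
      intro p
      refine (hstep p).trans (mul_le_mul_of_nonneg_right ?_ (hepos p))
      rw [hρ]
      refine mul_le_mul_of_nonneg_left ?_ hx0
      rw [div_le_iff₀ (by positivity)]
      have : (0 : ℝ) ≤ p := Nat.cast_nonneg p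
      nlinarith
    have hpow : ∀ p : ℕ, e p ≤ A * ρ ^ p := by
      intro p
      induction p with
      | zero => simp [he0]
      | succ p ih =>
        calc e (p + 1) ≤ ρ * e p := hst p
          _ ≤ ρ * (A * ρ ^ p) := mul_le_mul_of_nonneg_left ih hρ0
          _ = A * ρ ^ (p + 1) := by ring
    have hsum : ∑ p ∈ Finset.range N, e (p + 1) ≤ A * (ρ * (1 - ρ)⁻¹) := by
      calc ∑ p ∈ Finset.range N, e (p + 1) ≤ ∑ p ∈ Finset.range N, A * (ρ * ρ ^ p) := by
            refine Finset.sum_le_sum fun p _ => ?_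
            calc e (p + 1) ≤ A * ρ ^ (p + 1) := hpow (p + 1)
              _ = A * (ρ * ρ ^ p) := by ring
        _ = A * (ρ * ∑ p ∈ Finset.range N, ρ ^ p) := by rw [← Finset.mul_sum, ← Finset.mul_sum]
        _ ≤ A * (ρ * (1 - ρ)⁻¹) := by
            have h1 := sum_le_hasSum (Finset.range N) (fun i _ => pow_nonneg hρ0 i)
              (hasSum_geometric_of_lt_one hρ0 (by linarith))
            gcongr
    have h2 : (1 - ρ)⁻¹ ≤ 1001 / 1000 * (1 + 1 / 100000) := by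
      rw [inv_le_comm₀ (by linarith) (by norm_num)]
      norm_num
      linarith
    have h3 : 1 + 11 / 5 * (ρ * (1 - ρ)⁻¹) ≤ Real.exp (9 / 2 * (x * l)) := by
      have h4 : ρ ≤ 2 * (x * l) := by
        rw [hρ]
        nlinarith
      have h5 : 11 / 5 * (ρ * (1 - ρ)⁻¹) ≤ 9 / 2 * (x * l) := by
        have h6 : ρ * (1 - ρ)⁻¹ ≤ ρ * (1001 / 1000 * (1 + 1 / 100000)) :=
          mul_le_mul_of_nonneg_left h2 hρ0
        have h7 : 0 ≤ x * l := by positivity
        nlinarith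
      linarith [Real.add_one_le_exp (9 / 2 * (x * l))]
    calc A + 11 / 5 * ∑ p ∈ Finset.range N, e (p + 1) ≤ A + 11 / 5 * (A * (ρ * (1 - ρ)⁻¹)) := by
          linarith
      _ = (1 + 11 / 5 * (ρ * (1 - ρ)⁻¹)) * A := by ring
      _ ≤ _ := mul_le_mul_of_nonneg_right h3 hA
  · -- negative binomial regime
    rw [not_lt] at hl4
    obtain ⟨k, hk1, hk2⟩ : ∃ k : ℕ, l + 1 / 2 ≤ k + 1 ∧ (k : ℝ) + 1 ≤ l + 3 / 2 := by
      refine ⟨⌈l - 1 / 2⌉₊, ?_, ?_⟩
      · have := Nat.le_ceil (l - 1 / 2)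
        linarith
      · have := Nat.ceil_lt_add_one (show 0 ≤ l - 1 / 2 by linarith)
        linarith
    have hbin : ∀ p : ℕ, e p ≤ A * (((p + k).choose k : ℝ) * x ^ p) := by
      intro p
      induction p with
      | zero => simp [he0]
      | succ p ih =>
        have hch : (((p + 1 + k).choose k : ℕ) : ℝ) = ((p + k).choose k : ℝ) * ((p + (k + 1)) / (p + 1)) := by
          have h1 : (p + 1 + k).choose k * (p + 1) = (p + k).choose k * (p + k + 1) := by
            have h2 := Nat.choose_mul_succ_eq (p + k) k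
            have h3 : p + k + 1 - k = p + 1 := by omega
            have h4 : p + 1 + k = p + k + 1 := by ring
            rw [h3] at h2
            rw [h4]
            linarith
          have h5 : (((p + 1 + k).choose k : ℕ) : ℝ) * (p + 1) = ((p + k).choose k : ℝ) * (p + k + 1) := by
            exact_mod_cast h1
          rw [← mul_div_assoc, eq_div_iff (by positivity), h5]
          ring
        have h6 : (p + (l + 1 / 2)) / ((p : ℝ) + 1) ≤ (p + ((k : ℝ) + 1)) / (p + 1) :=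
          div_le_div_of_nonneg_right (by linarith) (by positivity)
        have h7 : 0 ≤ (p + (l + 1 / 2)) / ((p : ℝ) + 1) := by positivity
        calc e (p + 1) ≤ x * ((p + (l + 1 / 2)) / (p + 1)) * e p := hstep p
          _ ≤ x * ((p + ((k : ℝ) + 1)) / (p + 1)) * (A * (((p + k).choose k : ℝ) * x ^ p)) := by
              refine mul_le_mul (mul_le_mul_of_nonneg_left h6 hx0) ih (hepos p) (by positivity)
          _ = A * ((((p + 1 + k).choose k : ℕ) : ℝ) * x ^ (p + 1)) := by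
              rw [hch]
              ring
    have hxn : ‖x‖ < 1 := by
      rw [Real.norm_eq_abs, abs_of_nonneg hx0]
      linarith
    have hS := hasSum_choose_mul_geometric_of_norm_lt_one k hxn
    set G : ℝ := 1 / (1 - x) ^ (k + 1) with hG
    have hsum : A + ∑ p ∈ Finset.range N, e (p + 1) ≤ A * G := by
      have h1 : A + ∑ p ∈ Finset.range N, e (p + 1) = ∑ p ∈ Finset.range (N + 1), e p := by
        rw [Finset.sum_range_succ', he0, add_comm]
      rw [h1]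
      calc ∑ p ∈ Finset.range (N + 1), e p
          ≤ ∑ p ∈ Finset.range (N + 1), A * (((p + k).choose k : ℝ) * x ^ p) :=
            Finset.sum_le_sum fun p _ => hbin p
        _ = A * ∑ p ∈ Finset.range (N + 1), ((p + k).choose k : ℝ) * x ^ p := by rw [Finset.mul_sum]
        _ ≤ A * G := mul_le_mul_of_nonneg_left
            (sum_le_hasSum (Finset.range (N + 1)) (fun i _ => by positivity) hS) hA
    have hG1 : 1 ≤ G := by
      rw [hG, le_div_iff₀ (by apply pow_pos; linarith), one_mul]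
      exact pow_le_one₀ (by linarith) (by linarith)
    have hG3 : G ^ 3 ≤ Real.exp (9 / 2 * (x * l)) := by
      have h1 : G = (1 / (1 - x)) ^ (k + 1) := by rw [hG, one_div_pow]
      have h2 : 1 / (1 - x) ≤ Real.exp (x / (1 - x)) := by
        have h3 : 1 / (1 - x) = x / (1 - x) + 1 := by
          have : (1 - x) ≠ 0 := by
            have : 0 < 1 - x := by linarith
            exact this.ne'
          field_simp
          ring
        rw [h3]
        exact Real.add_one_le_exp _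
      have h4 : 0 ≤ 1 / (1 - x) := by
        apply div_nonneg zero_le_one
        linarith
      calc G ^ 3 = (1 / (1 - x)) ^ ((k + 1) * 3) := by rw [h1, ← pow_mul]
        _ ≤ Real.exp (x / (1 - x)) ^ ((k + 1) * 3) := pow_le_pow_left₀ h4 h2 _
        _ = Real.exp (((k + 1) * 3 : ℕ) * (x / (1 - x))) := by rw [← Real.exp_nat_mul]
        _ ≤ Real.exp (9 / 2 * (x * l)) := by
            apply Real.exp_le_exp.2
            push_cast
            rw [← mul_div_assoc, div_le_iff₀ (by linarith)]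
            have h5 : ((k : ℝ) + 1) * 3 ≤ 9 / 2 * l * (1 - x) := by
              nlinarith
            calc ((k : ℝ) + 1) * 3 * x ≤ 9 / 2 * l * (1 - x) * x := mul_le_mul_of_nonneg_right h5 hx0
              _ = 9 / 2 * (x * l) * (1 - x) := by ring
    have hE0 : 0 ≤ ∑ p ∈ Finset.range N, e (p + 1) := Finset.sum_nonneg fun p _ => hepos _
    have h5 : 1 + 3 * (G - 1) ≤ G ^ 3 := by nlinarith [sq_nonneg (G - 1)]
    calc A + 11 / 5 * ∑ p ∈ Finset.range N, e (p + 1)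
        ≤ A + 3 * ∑ p ∈ Finset.range N, e (p + 1) := by linarith
      _ ≤ A + 3 * (A * G - A) := by linarith
      _ = (1 + 3 * (G - 1)) * A := by ring
      _ ≤ Real.exp (9 / 2 * (x * l)) * A := mul_le_mul_of_nonneg_right (h5.trans hG3) hA

private theorem os2_pairs (f : ℕ → ℝ) (N : ℕ) :
    ∑ n ∈ Finset.range (2 * N), f n = ∑ p ∈ Finset.range N, (f (2 * p) + f (2 * p + 1)) := by
  induction N with
  | zero => simp
  | succ N ih =>
    have : 2 * (N + 1) = 2 * N + 1 + 1 := by ring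
    rw [this, Finset.sum_range_succ, Finset.sum_range_succ, ih, Finset.sum_range_succ]
    ring

/-- Paper proof in `NOTES.md` (OS2). -/
theorem os_series {ι : Type*} (S : Finset ι) (a z : ι → ℝ) (ha : ∀ i ∈ S, 0 ≤ a i) (A l s : ℝ)
    (hl : 1 / 2 ≤ l) (hs : 0 ≤ s) (hs' : s ≤ 1 / 192) (b : ℕ → ℝ) (hb0 : b 0 ^ 2 = A) (hb : ∀ i, 0 ≤ b i)
    (hbs : ∀ i : ℕ, b (i + 1) ≤ 2 * ((2 * (i : ℝ) + 1) + Real.sqrt (2 * l * (2 * (i : ℝ) + 1))) * b i)
    (h0 : ∑ i ∈ S, a i = A) (h1 : ∑ i ∈ S, z i * a i = 0)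
    (heven : ∀ p : ℕ, |∑ i ∈ S, z i ^ (2 * p) * a i| ≤ b p ^ 2)
    (hodd : ∀ p : ℕ, |∑ i ∈ S, z i ^ (2 * p + 1) * a i| ≤ b p * b (p + 1)) :
    ∑ i ∈ S, Real.exp (s * z i) * a i ≤ Real.exp (36 * s ^ 2 * l) * A := by
  set e : ℕ → ℝ := fun p => s ^ (2 * p) * b p ^ 2 / ((2 * p)! : ℝ) with he
  set f : ℕ → ℝ := fun n => s ^ n / (n ! : ℝ) * ∑ i ∈ S, z i ^ n * a i with hf
  have hA : 0 ≤ A := by
    rw [← hb0]
    positivity
  have he0 : e 0 = A := by
    simp [he, hb0]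
  have hepos : ∀ p, 0 ≤ e p := fun p => by
    simp only [he]
    positivity
  have hsum : HasSum f (∑ i ∈ S, Real.exp (s * z i) * a i) := by
    have h2 : ∀ i ∈ S, HasSum (fun n : ℕ => (s * z i) ^ n / (n ! : ℝ) * a i) (Real.exp (s * z i) * a i) := by
      intro i _
      have h3 := NormedSpace.expSeries_div_hasSum_exp (s * z i)
      rw [← Real.exp_eq_exp_ℝ] at h3
      exact h3.mul_right (a i)
    have h4 := hasSum_sum h2
    convert h4 using 1
    funext n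
    simp only [hf]
    rw [Finset.mul_sum]
    refine Finset.sum_congr rfl fun i _ => ?_
    rw [mul_pow]
    ring
  have hfe : ∀ p, f (2 * p) ≤ e p := by
    intro p
    simp only [hf, he]
    calc s ^ (2 * p) / ((2 * p)! : ℝ) * ∑ i ∈ S, z i ^ (2 * p) * a i
        ≤ s ^ (2 * p) / ((2 * p)! : ℝ) * b p ^ 2 :=
          mul_le_mul_of_nonneg_left ((le_abs_self _).trans (heven p)) (by positivity)
      _ = _ := by ring
  have hfo : ∀ p, 1 ≤ p → f (2 * p + 1) ≤ 3 / 5 * (e p + e (p + 1)) := by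
    intro p hp
    simp only [hf]
    calc s ^ (2 * p + 1) / ((2 * p + 1)! : ℝ) * ∑ i ∈ S, z i ^ (2 * p + 1) * a i
        ≤ s ^ (2 * p + 1) / ((2 * p + 1)! : ℝ) * (b p * b (p + 1)) :=
          mul_le_mul_of_nonneg_left ((le_abs_self _).trans (hodd p)) (by positivity)
      _ = s ^ (2 * p + 1) * (b p * b (p + 1)) / ((2 * p + 1)! : ℝ) := by ring
      _ ≤ 3 / 5 * (e p + e (p + 1)) := os2_odd s hs b hb p hp
  have hf1 : f 1 = 0 := by
    simp [hf, h1]
  have hx : 8 * s ^ 2 ≤ 1 / 4608 := by nlinarith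
  have hmain := os2_even_sum e A l (8 * s ^ 2) hl (by positivity) hx hA he0 hepos
    (fun p => os2_step l s hl b hb hbs p)
  have hexp : Real.exp (9 / 2 * (8 * s ^ 2 * l)) = Real.exp (36 * s ^ 2 * l) := by
    congr 1
    ring
  rw [hexp] at hmain
  have hpart : ∀ N : ℕ, ∑ n ∈ Finset.range (2 * (N + 1)), f n ≤ Real.exp (36 * s ^ 2 * l) * A := by
    intro N
    rw [os2_pairs, Finset.sum_range_succ']
    have h2 : ∑ p ∈ Finset.range N, (f (2 * (p + 1)) + f (2 * (p + 1) + 1)) ≤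
        ∑ p ∈ Finset.range N, (8 / 5 * e (p + 1) + 3 / 5 * e (p + 1 + 1)) := by
      refine Finset.sum_le_sum fun p _ => ?_
      have h3 := hfe (p + 1)
      have h4 := hfo (p + 1) (by omega)
      linarith
    have h5 : ∑ p ∈ Finset.range N, e (p + 1 + 1) ≤ ∑ p ∈ Finset.range (N + 1), e (p + 1) := by
      rw [Finset.sum_range_succ' (fun p => e (p + 1)) N]
      linarith [hepos (0 + 1)]
    have h6 : ∑ p ∈ Finset.range N, e (p + 1) ≤ ∑ p ∈ Finset.range (N + 1), e (p + 1) := by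
      rw [Finset.sum_range_succ]
      linarith [hepos (N + 1)]
    have h7 : f (2 * 0) + f (2 * 0 + 1) ≤ A := by
      have h8 := hfe 0
      rw [he0] at h8
      have h9 : f (2 * 0 + 1) = 0 := hf1
      linarith
    have h11 : ∑ p ∈ Finset.range N, (8 / 5 * e (p + 1) + 3 / 5 * e (p + 1 + 1)) =
        8 / 5 * ∑ p ∈ Finset.range N, e (p + 1) + 3 / 5 * ∑ p ∈ Finset.range N, e (p + 1 + 1) := by
      rw [Finset.sum_add_distrib, ← Finset.mul_sum, ← Finset.mul_sum]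
    rw [h11] at h2
    have h10 := hmain (N + 1)
    linarith
  have hlim : Tendsto (fun N : ℕ => ∑ n ∈ Finset.range (2 * (N + 1)), f n) atTop
      (𝓝 (∑ i ∈ S, Real.exp (s * z i) * a i)) := by
    refine hsum.tendsto_sum_nat.comp ?_
    refine tendsto_atTop_mono (fun N => ?_) tendsto_id
    show N ≤ 2 * (N + 1)
    omega
  exact le_of_tendsto' hlim hpart

end Vale.Agent.P162
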