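import Vale.Agent.P162G.LX
import Vale.Agent.P162G.OS1
import Vale.Agent.P162G.OS2

/-! P162G module N6: one-sided merge. -/

open Equiv

set_option linter.unusedSectionVars false

namespace Vale.Agent.P162

variable {α : Type} [Fintype α] [DecidableEq α]
variable {E : Type} [NormedAddCommGroup E] [InnerProductSpace ℝ E] [FiniteDimensional ℝ E]

namespace M1

section

variable {β : Type} [Fintype β] [DecidableEq β] (ρ : Perm (Bool × β) →* (E ≃ₗᵢ[ℝ] E))

/-- the operator `(lap - 4 lap₀) / (8 M)` -/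
noncomputable def K1 : E →ₗ[ℝ] E :=
  (1 / (8 * (Fintype.card β : ℝ))) • (lap ρ - (4 : ℝ) • lap (ρ.comp (iota false)))

theorem K1_apply (v : E) :
    K1 ρ v = (1 / (8 * (Fintype.card β : ℝ))) • (lap ρ v - (4 : ℝ) • lap (ρ.comp (iota false)) v) := rfl

theorem K1_eq (v : E) :
    K1 ρ v = (1 / (8 * (Fintype.card β : ℝ))) • (kap ρ v + (2 : ℝ) • dd ρ v) := by
  rw [K1_apply, lap_eq]
  congr 1
  simp only [dd, LinearMap.sub_apply]
  module

variable {ρ}

theorem low_mono {N N' : ℕ} (h : N ≤ N') {v : E} (hv : low ρ N v) : low ρ N' v :=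
  fun T hT => hv T (lt_of_le_of_lt h hT)

theorem low_add {N : ℕ} {v w : E} (hv : low ρ N v) (hw : low ρ N w) : low ρ N (v + w) := by
  intro T hT
  rw [map_add, hv T hT, hw T hT, add_zero]

theorem low_smul {N : ℕ} {v : E} (c : ℝ) (hv : low ρ N v) : low ρ N (c • v) := by
  intro T hT
  rw [map_smul, hv T hT, smul_zero]

theorem low_K1 {N : ℕ} {v : E} (hv : low ρ N v) : low ρ (N + 2) (K1 ρ v) := by
  rw [K1_eq]
  exact low_smul _ (low_add (low_kap ρ hv) (low_smul _ (low_mono (by omega) (low_dd hv))))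

theorem lap_lap0 (v : E) :
    lap ρ (lap (ρ.comp (iota false)) v) = lap (ρ.comp (iota false)) (lap ρ v) :=
  lap_comm_of_comm (ρ.comp (iota false)) (lap ρ) (fun _ v => lap_comm ρ _ v) v

theorem lap_K1 (v : E) : lap ρ (K1 ρ v) = K1 ρ (lap ρ v) := by
  rw [K1_apply, K1_apply, map_smul, map_sub, map_smul, lap_lap0]

theorem K1_symm (u v : E) : inner ℝ (K1 ρ u) v = inner ℝ u (K1 ρ v) := by
  have h1 := lap_symm ρ u v
  have h2 := lap_symm (ρ.comp (iota false)) u v
  simp only [K1_apply, inner_smul_left, inner_smul_right, inner_sub_left, inner_sub_right]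
  rw [h1, h2]
  simp

theorem inner_K1_inv {w : E} (hw : ∀ c : β → Bool, ρ (hflip c) w = w) : inner ℝ w (K1 ρ w) = 0 := by
  rw [K1_eq, inner_smul_right, inner_add_right, inner_smul_right, inner_kap_inv hw, inner_dd_inv hw]
  simp

theorem norm_K1_le (hβ : 0 < Fintype.card β) {N : ℕ} {v : E} (hv : low ρ N v) (l : ℝ) (hl0 : 0 ≤ l)
    (hl : lap ρ v = (4 * (Fintype.card β : ℝ) * l) • v) :
    ‖K1 ρ v‖ ≤ 2 * (((N : ℝ) + 1) + Real.sqrt (2 * l * ((N : ℝ) + 1))) * ‖v‖ := by
  have hm : (0 : ℝ) < (Fintype.card β : ℝ) := by exact_mod_cast hβ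
  have h1 := norm_kap_le hv
  have h2 := norm_dd_le hv l hl0 hl
  rw [K1_eq, norm_smul, Real.norm_of_nonneg (by positivity)]
  have h3 : ‖kap ρ v + (2 : ℝ) • dd ρ v‖ ≤ ‖kap ρ v‖ + 2 * ‖dd ρ v‖ := by
    refine (norm_add_le _ _).trans ?_
    rw [norm_smul, Real.norm_of_nonneg (by norm_num : (0 : ℝ) ≤ 2)]
  have h4 : ‖kap ρ v + (2 : ℝ) • dd ρ v‖
      ≤ (8 * (Fintype.card β : ℝ)) * (2 * (((N : ℝ) + 1) + Real.sqrt (2 * l * ((N : ℝ) + 1))) * ‖v‖) := by
    linarith
  calc 1 / (8 * (Fintype.card β : ℝ)) * ‖kap ρ v + (2 : ℝ) • dd ρ v‖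
      ≤ 1 / (8 * (Fintype.card β : ℝ)) *
        ((8 * (Fintype.card β : ℝ)) * (2 * (((N : ℝ) + 1) + Real.sqrt (2 * l * ((N : ℝ) + 1))) * ‖v‖)) :=
        mul_le_mul_of_nonneg_left h4 (by positivity)
    _ = _ := by field_simp

/-- powers of `K1` on a vector: membership in the grading and in the eigenspace -/
theorem pow_low {w : E} (hw : low ρ 0 w) (i : ℕ) : low ρ (2 * i) (((K1 ρ) ^ i) w) := by
  induction i with
  | zero => simpa using hw
  | succ i ih =>
    rw [pow_succ', Module.End.mul_apply]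
    have := low_K1 ih
    have e : 2 * (i + 1) = 2 * i + 2 := by ring
    rw [e]
    exact this

theorem pow_eig {w : E} {μ : ℝ} (hw : lap ρ w = μ • w) (i : ℕ) :
    lap ρ (((K1 ρ) ^ i) w) = μ • ((K1 ρ) ^ i) w := by
  induction i with
  | zero => simpa using hw
  | succ i ih => rw [pow_succ', Module.End.mul_apply, lap_K1, ih, map_smul]

theorem pow_apply_eig {g : E} {z : ℝ} (h : K1 ρ g = z • g) (i : ℕ) : ((K1 ρ) ^ i) g = z ^ i • g := by
  induction i with
  | zero => simp
  | succ i ih => rw [pow_succ', Module.End.mul_apply, ih, map_smul, h, smul_smul, pow_succ]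

/-- below the spectral gap a `lap` eigenvector is invariant -/
theorem inv_of_small (hβ : 0 < Fintype.card β) {w : E} {l : ℝ} (hl : l < 1 / 2)
    (hw : lap ρ w = (4 * (Fintype.card β : ℝ) * l) • w) : w ∈ Inv ρ (Finset.univ : Finset (Bool × β)) := by
  have hm : (0 : ℝ) < (Fintype.card β : ℝ) := by exact_mod_cast hβ
  set U := Inv ρ (Finset.univ : Finset (Bool × β)) with hU
  set a : E := U.starProjection w with ha
  have haU : a ∈ U := U.starProjection_apply_mem w
  set b : E := w - a with hb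
  have horth : ∀ x ∈ U, inner ℝ x b = 0 := by
    intro x hx
    have h := U.starProjection_inner_eq_zero w x hx
    rw [real_inner_comm]
    exact h
  have hinv : ∀ x ∈ U, ∀ σ : Perm (Bool × β), ρ σ x = x := fun x hx σ => hx σ (fun y hy => absurd (Finset.mem_univ y) hy)
  have hlapa : lap ρ a = 0 := by
    rw [lap_apply]
    refine Finset.sum_eq_zero fun p _ => Finset.sum_eq_zero fun q _ => ?_
    rw [hinv a haU, sub_self]
  have hbK : b ∈ Kj ρ (Finset.univ : Finset (Bool × β)) 1 := by
    intro D _ hc v hv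
    have hD : D = Finset.univ := by
      apply Finset.eq_univ_of_card
      rw [Finset.card_univ] at hc
      omega
    rw [hD] at hv
    exact horth v hv
  have hcard : 1 ≤ (Finset.univ : Finset (Bool × β)).card := by
    rw [Finset.card_univ, Fintype.card_prod, Fintype.card_bool]
    omega
  have hg := gap ρ (Finset.univ : Finset (Bool × β)) 1 hcard b hbK
  have hlapb : lap ρ b = (4 * (Fintype.card β : ℝ) * l) • w := by
    rw [hb, map_sub, hlapa, sub_zero, hw]
  have e1 : inner ℝ b (lapOn ρ (Finset.univ : Finset (Bool × β)) b) = 4 * (Fintype.card β : ℝ) * l * ‖b‖ ^ 2 := by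
    have e2 : lapOn ρ (Finset.univ : Finset (Bool × β)) b = (4 * (Fintype.card β : ℝ) * l) • w := hlapb
    rw [e2, inner_smul_right]
    have e3 : w = a + b := by rw [hb]; abel
    have e4 : inner ℝ b w = ‖b‖ ^ 2 := by
      rw [e3, inner_add_right, real_inner_self_eq_norm_sq]
      have := horth a haU
      rw [real_inner_comm] at this
      rw [this, zero_add]
    rw [e4]
  rw [e1, Finset.card_univ, Fintype.card_prod, Fintype.card_bool] at hg
  push_cast at hg
  have h5 : ‖b‖ ^ 2 = 0 := by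
    by_contra hne
    have hpos : 0 < ‖b‖ ^ 2 := lt_of_le_of_ne (sq_nonneg _) (Ne.symm hne)
    have h6 : 0 < (Fintype.card β : ℝ) * (1 - 2 * l) * ‖b‖ ^ 2 :=
      mul_pos (mul_pos hm (by linarith)) hpos
    nlinarith
  have h7 : b = 0 := by simpa using h5
  have h8 : w = a := by
    have : w - a = 0 := h7
    exact sub_eq_zero.mp this
  rw [h8]
  exact haU

/-- the estimate on one eigencomponent of `lap` -/
theorem os_comp (hβ : 0 < Fintype.card β) (s : ℝ) (hs : 0 ≤ s) (hs' : s ≤ 1 / 192) {w : E} {l : ℝ}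
    (hw : ∀ c : β → Bool, ρ (hflip c) w = w) (hl : lap ρ w = (4 * (Fintype.card β : ℝ) * l) • w) :
    inner ℝ w (ex (-((s / (2 * (Fintype.card β : ℝ))) • lap (ρ.comp (iota false)))) w)
      ≤ Real.exp (-(s * l / 4)) * ‖w‖ ^ 2 := by
  have hm : (0 : ℝ) < (Fintype.card β : ℝ) := by exact_mod_cast hβ
  set m : ℝ := (Fintype.card β : ℝ) with hmdef
  set A0 : E →ₗ[ℝ] E := lap (ρ.comp (iota false)) with hA0
  by_cases hl2 : l < 1 / 2
  · -- invariant vector
    have hinv := inv_of_small hβ hl2 hl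
    have hinv' : ∀ σ : Perm (Bool × β), ρ σ w = w := fun σ => hinv σ (fun y hy => absurd (Finset.mem_univ y) hy)
    have h0 : A0 w = 0 := by
      rw [hA0, lap_comp_iota]
      refine Finset.sum_eq_zero fun p _ => Finset.sum_eq_zero fun q _ => ?_
      rw [hinv', sub_self]
    have h1 : lap ρ w = 0 := by
      rw [lap_apply]
      refine Finset.sum_eq_zero fun p _ => Finset.sum_eq_zero fun q _ => ?_
      rw [hinv', sub_self]
    have h2 : ex (-((s / (2 * m)) • A0)) w = w := by
      have := ex_eig (-((s / (2 * m)) • A0)) (v := w) (μ := 0) (by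
        simp [h0])
      rw [this, Real.exp_zero, one_smul]
    rw [h2, real_inner_self_eq_norm_sq]
    rw [h1] at hl
    rcases smul_eq_zero.mp hl.symm with h3 | h3
    · have h4 : l = 0 := by
        rcases mul_eq_zero.mp h3 with h5 | h5
        · exact absurd h5 (by positivity)
        · exact h5
      rw [h4]
      simp
    · rw [h3]
      simp
  · push Not at hl2
    have hl0 : 0 ≤ l := by linarith
    have hs0 : A0.IsSymmetric := lap_symm _
    obtain ⟨S, g, hg, hwg⟩ := eig_decomp A0 hs0 (Module.End.eigenspace (lap ρ) (4 * m * l))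
      (fun v hv => by
        have h3 := Module.End.mem_eigenspace_iff.mp hv
        apply Module.End.mem_eigenspace_iff.mpr
        rw [hA0, lap_lap0, h3, map_smul]) w (Module.End.mem_eigenspace_iff.mpr hl)
    have horth : ∀ p ∈ S, ∀ q ∈ S, p ≠ q → inner ℝ (g p) (g q) = 0 := fun p _ q _ hpq =>
      inner_eig_zero A0 hs0 hpq (hg p).2 (hg q).2
    set z : ℝ → ℝ := fun ν => l / 2 - ν / (2 * m) with hz
    have hKz : ∀ p, K1 ρ (g p) = z p • g p := by
      intro p
      have h2 : lap ρ (g p) = (4 * m * l) • g p := Module.End.mem_eigenspace_iff.mp (hg p).1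
      have h3 : lap (ρ.comp (iota false)) (g p) = p • g p := (hg p).2
      rw [K1_apply, h2, h3, ← hmdef, smul_smul, ← sub_smul, smul_smul]
      congr 1
      rw [hz]
      field_simp
      ring
    have hform : inner ℝ w (ex (-((s / (2 * m)) • A0)) w)
        = ∑ p ∈ S, Real.exp (-(s / (2 * m) * p)) * ‖g p‖ ^ 2 := by
      have := ex_form_sum (-((s / (2 * m)) • A0)) S g (fun p => -(s / (2 * m) * p))
        (fun p _ => by
          rw [LinearMap.neg_apply, LinearMap.smul_apply, (hg p).2, smul_smul, neg_smul]) horth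
      rw [← hwg] at this
      exact this
    have hpowsum : ∀ i : ℕ, ((K1 ρ) ^ i) w = ∑ p ∈ S, z p ^ i • g p := by
      intro i
      conv_lhs => rw [hwg]
      rw [map_sum]
      exact Finset.sum_congr rfl fun p _ => pow_apply_eig (hKz p) i
    have hmom : ∀ i j : ℕ, inner ℝ (((K1 ρ) ^ i) w) (((K1 ρ) ^ j) w) = ∑ p ∈ S, z p ^ (i + j) * ‖g p‖ ^ 2 := by
      intro i j
      rw [hpowsum, hpowsum, sum_inner]
      refine Finset.sum_congr rfl fun p hp => ?_
      rw [inner_sum, Finset.sum_eq_single p]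
      · rw [inner_smul_left, inner_smul_right, real_inner_self_eq_norm_sq, pow_add]
        simp only [RCLike.conj_to_real]
        ring
      · intro q hq hqp
        rw [inner_smul_left, inner_smul_right, horth p hp q hq (Ne.symm hqp), mul_zero, mul_zero]
      · intro h
        exact absurd hp h
    have hlow : low ρ 0 w := low_zero_of_inv hw
    have hser := os_series S (fun p => ‖g p‖ ^ 2) z (fun p _ => sq_nonneg _) (‖w‖ ^ 2) l s hl2 hs hs'
      (fun i => ‖((K1 ρ) ^ i) w‖) (by simp) (fun i => norm_nonneg _)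
      (by
        intro i
        have h1 := norm_K1_le hβ (pow_low hlow i) l hl0 (pow_eig hl i)
        rw [pow_succ', Module.End.mul_apply]
        have e : ((2 * i : ℕ) : ℝ) = 2 * (i : ℝ) := by push_cast; ring
        rw [e] at h1
        exact h1)
      (by
        have := hmom 0 0
        simp only [pow_zero, Module.End.one_apply, add_zero, one_mul] at this
        rw [← this, real_inner_self_eq_norm_sq])
      (by
        have := hmom 0 1
        simp only [pow_zero, Module.End.one_apply, pow_one, zero_add] at this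
        rw [← this]
        exact inner_K1_inv hw)
      (by
        intro p
        have := hmom p p
        rw [← two_mul] at this
        rw [← this, real_inner_self_eq_norm_sq, abs_of_nonneg (sq_nonneg _)])
      (by
        intro p
        have := hmom p (p + 1)
        have e : p + (p + 1) = 2 * p + 1 := by ring
        rw [e] at this
        rw [← this]
        exact abs_real_inner_le_norm _ _)
    rw [hform]
    have h1 : ∀ p, Real.exp (-(s / (2 * m) * p)) * ‖g p‖ ^ 2
        = Real.exp (-(s * l / 2)) * (Real.exp (s * z p) * ‖g p‖ ^ 2) := by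
      intro p
      rw [← mul_assoc, ← Real.exp_add]
      congr 2
      rw [hz]
      field_simp
      ring
    simp_rw [h1]
    rw [← Finset.mul_sum]
    refine (mul_le_mul_of_nonneg_left hser (Real.exp_pos _).le).trans ?_
    rw [← mul_assoc, ← Real.exp_add]
    refine mul_le_mul_of_nonneg_right ?_ (sq_nonneg _)
    apply Real.exp_le_exp.mpr
    have h2 : 0 ≤ s * l * (1 / 192 - s) := mul_nonneg (mul_nonneg hs hl0) (by linarith)
    have h3 : 0 ≤ s * l := mul_nonneg hs hl0
    nlinarith

end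

/-- the flip invariant vectors -/
def flipFix {β : Type} (ρ : Perm (Bool × β) →* (E ≃ₗᵢ[ℝ] E)) : Submodule ℝ E where
  carrier := {v | ∀ c : β → Bool, ρ (hflip c) v = v}
  add_mem' := by
    intro a b ha hb c
    rw [map_add, ha c, hb c]
  zero_mem' := by
    intro c
    simp
  smul_mem' := by
    intro r x hx c
    rw [map_smul, hx c]

end M1

open M1

/-- one-sided merge, for a representation of `Perm (Bool × β)` -/
theorem merge1_rep {β : Type} [Fintype β] [DecidableEq β] (hβ : 0 < Fintype.card β)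
    (ρ : Perm (Bool × β) →* (E ≃ₗᵢ[ℝ] E)) (s : ℝ) (hs : 0 ≤ s) (hs' : s ≤ 1 / 192)
    (v : E) (hv : ∀ c : β → Bool, ρ (hflip c) v = v) :
    inner ℝ v (ex (-((s / (2 * (Fintype.card β : ℝ))) • lap (ρ.comp (iota false)))) v)
      ≤ inner ℝ v (ex (-((s / (16 * (Fintype.card β : ℝ))) • lap ρ)) v) := by
  have hm : (0 : ℝ) < (Fintype.card β : ℝ) := by exact_mod_cast hβ
  obtain ⟨S, f, hf, hvf⟩ := eig_decomp (lap ρ) (lap_symm ρ) (flipFix ρ)
    (fun x hx c => by rw [← lap_comm, hx c]) v hv
  have horth : ∀ p ∈ S, ∀ q ∈ S, p ≠ q → inner ℝ (f p) (f q) = 0 := fun p _ q _ hpq =>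
    inner_eig_zero (lap ρ) (lap_symm ρ) hpq (hf p).2 (hf q).2
  have hR : inner ℝ v (ex (-((s / (16 * (Fintype.card β : ℝ))) • lap ρ)) v)
      = ∑ p ∈ S, Real.exp (-(s / (16 * (Fintype.card β : ℝ)) * p)) * ‖f p‖ ^ 2 := by
    have := ex_form_sum (-((s / (16 * (Fintype.card β : ℝ))) • lap ρ)) S f
      (fun p => -(s / (16 * (Fintype.card β : ℝ)) * p))
      (fun p _ => by
        rw [LinearMap.neg_apply, LinearMap.smul_apply, (hf p).2, smul_smul, neg_smul]) horth
    rw [← hvf] at this
    exact this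
  set X : E →ₗ[ℝ] E := -((s / (2 * (Fintype.card β : ℝ))) • lap (ρ.comp (iota false))) with hX
  have hXlap : ∀ x, X (lap ρ x) = lap ρ (X x) := by
    intro x
    rw [hX, LinearMap.neg_apply, LinearMap.neg_apply, LinearMap.smul_apply, LinearMap.smul_apply,
      map_neg, map_smul, lap_lap0]
  have hcross : ∀ p ∈ S, ∀ q ∈ S, p ≠ q → inner ℝ (f p) (ex X (f q)) = 0 := by
    intro p _ q _ hpq
    refine inner_eig_zero (lap ρ) (lap_symm ρ) hpq (hf p).2 (b := q) ?_
    rw [← ex_comm X (lap ρ) hXlap, (hf q).2, map_smul]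
  have hL : inner ℝ v (ex X v) = ∑ p ∈ S, inner ℝ (f p) (ex X (f p)) := by
    conv_lhs => rw [hvf]
    rw [map_sum, sum_inner]
    refine Finset.sum_congr rfl fun p hp => ?_
    rw [inner_sum, Finset.sum_eq_single p]
    · intro q hq hqp
      exact hcross p hp q hq (Ne.symm hqp)
    · intro h
      exact absurd hp h
  rw [hL, hR]
  refine Finset.sum_le_sum fun p _ => ?_
  have h1 : lap ρ (f p) = (4 * (Fintype.card β : ℝ) * (p / (4 * (Fintype.card β : ℝ)))) • f p := by
    rw [(hf p).2]
    congr 1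
    field_simp
  have h2 := os_comp hβ s hs hs' (hf p).1 h1
  refine h2.trans (le_of_eq ?_)
  congr 2
  field_simp
  ring

/-- one-sided merge in presence of a commuting operator `C` -/
theorem merge1 {β : Type} [Fintype β] [DecidableEq β] (hβ : 0 < Fintype.card β)
    (ρ : Perm α →* (E ≃ₗᵢ[ℝ] E)) (f : Bool × β ↪ α) (s : ℝ) (hs : 0 ≤ s) (hs' : s ≤ 1 / 192)
    (C : E →ₗ[ℝ] E) (hC : C.IsSymmetric) (hCρ : ∀ (g : Perm (Bool × β)) (v : E), C (bRep ρ f g v) = bRep ρ f g (C v))
    (v : E) (hv : ∀ c : β → Bool, bRep ρ f (hflip c) v = v) :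
    inner ℝ v (ex (-(s • LX ρ ((Finset.univ : Finset β).map (halfEmb false f))) + C) v)
      ≤ inner ℝ v (ex (-((s / 4) • LX ρ ((Finset.univ : Finset (Bool × β)).map f)) + C) v) := by
  have hm : (0 : ℝ) < (Fintype.card β : ℝ) := by exact_mod_cast hβ
  have e0 : s • LX ρ ((Finset.univ : Finset β).map (halfEmb false f))
      = (s / (2 * (Fintype.card β : ℝ))) • lap ((bRep ρ f).comp (iota false)) := by
    ext x
    rw [LinearMap.smul_apply, LinearMap.smul_apply, LX_half, smul_smul]
    congr 1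
    ring
  have e1 : (s / 4) • LX ρ ((Finset.univ : Finset (Bool × β)).map f)
      = (s / (16 * (Fintype.card β : ℝ))) • lap (bRep ρ f) := by
    ext x
    rw [LinearMap.smul_apply, LinearMap.smul_apply, LX_map, smul_smul, Fintype.card_prod, Fintype.card_bool]
    congr 1
    push_cast
    field_simp
    ring
  rw [e0, e1]
  have symm_neg_smul : ∀ (r : ℝ) (T : E →ₗ[ℝ] E), T.IsSymmetric → (-(r • T)).IsSymmetric := by
    intro r T hT x y
    have := hT x y
    rw [LinearMap.neg_apply, LinearMap.neg_apply, LinearMap.smul_apply, LinearMap.smul_apply,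
      inner_neg_left, inner_neg_right, inner_smul_left, inner_smul_right, this]
    simp
  refine ex_add_le _ _ C (symm_neg_smul _ _ (lap_symm _)) (symm_neg_smul _ _ (lap_symm _)) hC ?_ ?_
    (flipFix (bRep ρ f)) ?_ ?_ v hv
  · intro x
    have h := lap_comm_of_comm ((bRep ρ f).comp (iota false)) C (fun g y => hCρ _ y) x
    rw [LinearMap.neg_apply, LinearMap.neg_apply, LinearMap.smul_apply, LinearMap.smul_apply,
      map_neg, map_smul, h]
  · intro x
    have h := lap_comm_of_comm (bRep ρ f) C hCρ x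
    rw [LinearMap.neg_apply, LinearMap.neg_apply, LinearMap.smul_apply, LinearMap.smul_apply,
      map_neg, map_smul, h]
  · intro x hx c
    rw [← hCρ, hx c]
  · intro x hx
    exact merge1_rep hβ (bRep ρ f) s hs hs' x hx

end Vale.Agent.P162
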