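import Vale.Agent.P162G.LX
import Vale.Agent.P162.A7

/-! P162G module N3: two-sided merge (from `key_estimate`). -/

open Equiv

set_option linter.unusedSectionVars false

namespace Vale.Agent.P162

variable {α : Type} [Fintype α] [DecidableEq α]
variable {E : Type} [NormedAddCommGroup E] [InnerProductSpace ℝ E] [FiniteDimensional ℝ E]

/-- the submodule of flip invariant vectors -/
def flipK {β : Type} [Fintype β] [DecidableEq β] (ρ : Perm (Bool × β) →* (E ≃ₗᵢ[ℝ] E)) : Submodule ℝ E where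
  carrier := {v | ∀ c : β → Bool, ρ (hflip c) v = v}
  add_mem' := by
    intro a b ha hb c
    rw [map_add, ha c, hb c]
  zero_mem' := by
    intro c
    rw [map_zero]
  smul_mem' := by
    intro r a ha c
    rw [map_smul, ha c]

theorem mem_flipK {β : Type} [Fintype β] [DecidableEq β] (ρ : Perm (Bool × β) →* (E ≃ₗᵢ[ℝ] E)) (v : E) :
    v ∈ flipK ρ ↔ ∀ c : β → Bool, ρ (hflip c) v = v := Iff.rfl

/-- one eigenspace of `lap ρ` -/
theorem merge2_comp {β : Type} [Fintype β] [DecidableEq β] (hβ : 0 < Fintype.card β)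
    (ρ : Perm (Bool × β) →* (E ≃ₗᵢ[ℝ] E)) (s : ℝ) (hs : 0 ≤ s) (hs' : s ≤ 1 / 24) (lam : ℝ)
    (w : E) (hw : w ∈ flipK ρ) (hl : lap ρ w = lam • w) :
    ∃ (S : Finset (Σ _ : ℝ, ℝ)) (g : (Σ _ : ℝ, ℝ) → E),
      (∀ p, lap ρ (g p) = lam • g p ∧ lap (ρ.comp (iota false)) (g p) = p.1 • g p ∧
        lap (ρ.comp (iota true)) (g p) = p.2 • g p) ∧ w = ∑ p ∈ S, g p ∧
      ∑ p ∈ S, Real.exp (-((s / (2 * (Fintype.card β : ℝ))) * (p.1 + p.2))) * ‖g p‖ ^ 2
        ≤ Real.exp (-(((s - s ^ 2 / (Fintype.card β : ℝ)) / (4 * (Fintype.card β : ℝ))) * lam)) * ‖w‖ ^ 2 := by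
  set m : ℝ := (Fintype.card β : ℝ) with hm
  have hm0 : 0 < m := by
    rw [hm]
    exact_mod_cast hβ
  set A0 : E →ₗ[ℝ] E := lap (ρ.comp (iota false)) with hA0
  set A1 : E →ₗ[ℝ] E := lap (ρ.comp (iota true)) with hA1
  have hs0 : A0.IsSymmetric := lap_symm _
  have hs1 : A1.IsSymmetric := lap_symm _
  have c01 : ∀ (τ : Perm β) (v : E), A0 ((ρ.comp (iota true)) τ v) = (ρ.comp (iota true)) τ (A0 v) := fun τ v =>
    lap_iota_comm ρ (by simp) τ v
  have cAA : ∀ v, A0 (A1 v) = A1 (A0 v) := fun v => lap_comm_of_comm (ρ.comp (iota true)) A0 c01 v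
  have cL0 : ∀ v, lap ρ (A0 v) = A0 (lap ρ v) := fun v =>
    lap_comm_of_comm (ρ.comp (iota false)) (lap ρ) (fun σ v => lap_comm ρ _ v) v
  have cL1 : ∀ v, lap ρ (A1 v) = A1 (lap ρ v) := fun v =>
    lap_comm_of_comm (ρ.comp (iota true)) (lap ρ) (fun σ v => lap_comm ρ _ v) v
  obtain ⟨S, g, hg, hwg⟩ := joint_decomp A0 A1 hs0 hs1 cAA
    (Module.End.eigenspace (lap ρ) lam)
    (fun v hv => by
      have h3 := Module.End.mem_eigenspace_iff.mp hv
      apply Module.End.mem_eigenspace_iff.mpr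
      rw [cL0, h3, map_smul])
    (fun v hv => by
      have h3 := Module.End.mem_eigenspace_iff.mp hv
      apply Module.End.mem_eigenspace_iff.mpr
      rw [cL1, h3, map_smul]) w (Module.End.mem_eigenspace_iff.mpr hl)
  have hgl : ∀ p, lap ρ (g p) = lam • g p := fun p => Module.End.mem_eigenspace_iff.mp (hg p).1
  have horth : ∀ p ∈ S, ∀ q ∈ S, p ≠ q → inner ℝ (g p) (g q) = 0 := fun p _ q _ hpq =>
    joint_orth A0 A1 hs0 hs1 hpq (hg p).2.1 (hg p).2.2 (hg q).2.1 (hg q).2.2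
  set l : ℝ := lam / (4 * m) with hldef
  have hlam : lam = 4 * m * l := by
    rw [hldef]
    field_simp
  let z : (Σ _ : ℝ, ℝ) → ℝ := fun p => l - p.1 / (2 * m) - p.2 / (2 * m)
  have hk : ∀ p ∈ S, kap ρ (g p) = (4 * m * z p) • g p := by
    intro p _
    have h1 := lap_eq ρ (g p)
    have h3 : lap (ρ.comp (iota false)) (g p) = p.1 • g p := (hg p).2.1
    have h4 : lap (ρ.comp (iota true)) (g p) = p.2 • g p := (hg p).2.2
    rw [hgl p, h3, h4] at h1
    have h5 : kap ρ (g p) = lam • g p - (2 : ℝ) • (p.1 • g p + p.2 • g p) := by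
      rw [h1]
      abel
    rw [h5]
    have h6 : 4 * m * z p = lam - 2 * (p.1 + p.2) := by
      simp only [z]
      rw [hlam]
      field_simp
      ring
    rw [h6]
    module
  have hkey := key_estimate ρ m hm hm0 l s hs hs' w ((mem_flipK ρ w).mp hw) (by rw [hl, hlam]) S g z hwg horth hk
  refine ⟨S, g, fun p => ⟨hgl p, (hg p).2.1, (hg p).2.2⟩, hwg, ?_⟩
  have e1 : ∀ p : (Σ _ : ℝ, ℝ), Real.exp (-((s / (2 * m)) * (p.1 + p.2))) * ‖g p‖ ^ 2
      = Real.exp (-(s * l)) * (Real.exp (s * z p) * ‖g p‖ ^ 2) := by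
    intro p
    rw [← mul_assoc, ← Real.exp_add]
    congr 2
    simp only [z]
    ring
  have e2 : Real.exp (-(((s - s ^ 2 / m) / (4 * m)) * lam)) * ‖w‖ ^ 2
      = Real.exp (-(s * l)) * (Real.exp (s ^ 2 * l / m) * ‖w‖ ^ 2) := by
    rw [← mul_assoc, ← Real.exp_add]
    congr 2
    rw [hlam]
    field_simp
    ring
  rw [e2, Finset.sum_congr rfl (fun p _ => e1 p), ← Finset.mul_sum]
  exact mul_le_mul_of_nonneg_left hkey (Real.exp_pos _).le

/-- two-sided merge, for a representation of `Perm (Bool × β)` -/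
theorem merge2_rep {β : Type} [Fintype β] [DecidableEq β] (hβ : 0 < Fintype.card β)
    (ρ : Perm (Bool × β) →* (E ≃ₗᵢ[ℝ] E)) (s : ℝ) (hs : 0 ≤ s) (hs' : s ≤ 1 / 24)
    (v : E) (hv : ∀ c : β → Bool, ρ (hflip c) v = v) :
    inner ℝ v (ex (-((s / (2 * (Fintype.card β : ℝ))) • (lap (ρ.comp (iota false)) + lap (ρ.comp (iota true))))) v)
      ≤ inner ℝ v (ex (-(((s - s ^ 2 / (Fintype.card β : ℝ)) / (4 * (Fintype.card β : ℝ))) • lap ρ)) v) := by
  obtain ⟨sL, f, hf, hvf⟩ := eig_decomp (lap ρ) (lap_symm ρ) (flipK ρ)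
    (fun u hu => by
      intro c
      rw [← lap_comm ρ, hu c]) v hv
  have h2 := fun lam : ℝ => merge2_comp hβ ρ s hs hs' lam (f lam) (hf lam).1 (hf lam).2
  choose S g hg hfg hle using h2
  have horthf : ∀ a ∈ sL, ∀ b ∈ sL, a ≠ b → inner ℝ (f a) (f b) = 0 := fun a _ b _ hab =>
    inner_eig_zero (lap ρ) (lap_symm ρ) hab (hf a).2 (hf b).2
  have hR : inner ℝ v (ex (-(((s - s ^ 2 / (Fintype.card β : ℝ)) / (4 * (Fintype.card β : ℝ))) • lap ρ)) v)
      = ∑ lam ∈ sL, Real.exp (-(((s - s ^ 2 / (Fintype.card β : ℝ)) / (4 * (Fintype.card β : ℝ))) * lam)) * ‖f lam‖ ^ 2 := by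
    rw [hvf]
    apply ex_form_sum _ sL f _ _ horthf
    intro lam _
    rw [LinearMap.neg_apply, LinearMap.smul_apply, (hf lam).2, smul_smul, neg_smul]
  let G : (Σ _ : ℝ, (Σ _ : ℝ, ℝ)) → E := fun x => g x.1 x.2
  have hvG : v = ∑ x ∈ sL.sigma S, G x := by
    rw [Finset.sum_sigma, hvf]
    exact Finset.sum_congr rfl fun lam _ => hfg lam
  have horthG : ∀ x ∈ sL.sigma S, ∀ y ∈ sL.sigma S, x ≠ y → inner ℝ (G x) (G y) = 0 := by
    intro x _ y _ hxy
    obtain ⟨a, p⟩ := x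
    obtain ⟨b, q⟩ := y
    by_cases hab : a = b
    · subst hab
      have hpq : p ≠ q := fun h => hxy (by rw [h])
      exact joint_orth (lap (ρ.comp (iota false))) (lap (ρ.comp (iota true))) (lap_symm _) (lap_symm _) hpq
        (hg a p).2.1 (hg a p).2.2 (hg a q).2.1 (hg a q).2.2
    · exact inner_eig_zero (lap ρ) (lap_symm ρ) hab (hg a p).1 (hg b q).1
  have hL : inner ℝ v (ex (-((s / (2 * (Fintype.card β : ℝ))) • (lap (ρ.comp (iota false)) + lap (ρ.comp (iota true))))) v)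
      = ∑ x ∈ sL.sigma S, Real.exp (-((s / (2 * (Fintype.card β : ℝ))) * (x.2.1 + x.2.2))) * ‖G x‖ ^ 2 := by
    conv_lhs => rw [hvG]
    apply ex_form_sum _ (sL.sigma S) G _ _ horthG
    intro x _
    obtain ⟨a, p⟩ := x
    rw [LinearMap.neg_apply, LinearMap.smul_apply, LinearMap.add_apply]
    have h3 : lap (ρ.comp (iota false)) (G ⟨a, p⟩) = p.1 • G ⟨a, p⟩ := (hg a p).2.1
    have h4 : lap (ρ.comp (iota true)) (G ⟨a, p⟩) = p.2 • G ⟨a, p⟩ := (hg a p).2.2
    rw [h3, h4, ← add_smul, smul_smul, neg_smul]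
  rw [hL, hR, Finset.sum_sigma]
  exact Finset.sum_le_sum fun lam _ => hle lam

/-- two-sided merge of the blocks `f (false, ·)`, `f (true, ·)` in presence of a commuting operator `C` -/
theorem merge2 {β : Type} [Fintype β] [DecidableEq β] (hβ : 0 < Fintype.card β)
    (ρ : Perm α →* (E ≃ₗᵢ[ℝ] E)) (f : Bool × β ↪ α) (s : ℝ) (hs : 0 ≤ s) (hs' : s ≤ 1 / 24)
    (C : E →ₗ[ℝ] E) (hC : C.IsSymmetric) (hCρ : ∀ (g : Perm (Bool × β)) (v : E), C (bRep ρ f g v) = bRep ρ f g (C v))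
    (v : E) (hv : ∀ c : β → Bool, bRep ρ f (hflip c) v = v) :
    inner ℝ v (ex (-(s • (LX ρ ((Finset.univ : Finset β).map (halfEmb false f)) +
        LX ρ ((Finset.univ : Finset β).map (halfEmb true f)))) + C) v)
      ≤ inner ℝ v (ex (-((s - s ^ 2 / (Fintype.card β : ℝ)) • LX ρ ((Finset.univ : Finset (Bool × β)).map f)) + C) v) := by
  have hm0 : (0 : ℝ) < (Fintype.card β : ℝ) := by exact_mod_cast hβ
  have eA : -(s • (LX ρ ((Finset.univ : Finset β).map (halfEmb false f)) +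
        LX ρ ((Finset.univ : Finset β).map (halfEmb true f))))
      = -((s / (2 * (Fintype.card β : ℝ))) • (lap ((bRep ρ f).comp (iota false)) + lap ((bRep ρ f).comp (iota true)))) := by
    ext v
    rw [LinearMap.neg_apply, LinearMap.neg_apply, LinearMap.smul_apply, LinearMap.smul_apply,
      LinearMap.add_apply, LinearMap.add_apply, LX_half, LX_half, ← smul_add, smul_smul]
    congr 2
    ring
  have eB : -((s - s ^ 2 / (Fintype.card β : ℝ)) • LX ρ ((Finset.univ : Finset (Bool × β)).map f))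
      = -(((s - s ^ 2 / (Fintype.card β : ℝ)) / (4 * (Fintype.card β : ℝ))) • lap (bRep ρ f)) := by
    ext v
    rw [LinearMap.neg_apply, LinearMap.neg_apply, LinearMap.smul_apply, LinearMap.smul_apply, LX_map, smul_smul]
    congr 2
    rw [Fintype.card_prod, Fintype.card_bool]
    push_cast
    field_simp
    ring
  rw [eA, eB]
  have hcl : ∀ v, C (lap (bRep ρ f) v) = lap (bRep ρ f) (C v) := fun v =>
    lap_comm_of_comm (bRep ρ f) C hCρ v
  have hc0 : ∀ (b : Bool) v, C (lap ((bRep ρ f).comp (iota b)) v) = lap ((bRep ρ f).comp (iota b)) (C v) := fun b v =>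
    lap_comm_of_comm ((bRep ρ f).comp (iota b)) C (fun σ v => hCρ _ v) v
  refine ex_add_le _ _ C ?_ ?_ hC ?_ ?_ (flipK (bRep ρ f)) ?_ ?_ v hv
  · intro x y
    simp only [LinearMap.neg_apply, LinearMap.smul_apply, LinearMap.add_apply, inner_neg_left, inner_neg_right,
      inner_smul_left, inner_smul_right, inner_add_left, inner_add_right]
    rw [lap_symm ((bRep ρ f).comp (iota false)) x y, lap_symm ((bRep ρ f).comp (iota true)) x y]
    rfl
  · intro x y
    simp only [LinearMap.neg_apply, LinearMap.smul_apply, inner_neg_left, inner_neg_right,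
      inner_smul_left, inner_smul_right]
    rw [lap_symm (bRep ρ f) x y]
    rfl
  · intro x
    simp only [LinearMap.neg_apply, LinearMap.smul_apply, LinearMap.add_apply, map_neg, map_smul, map_add, hc0]
  · intro x
    simp only [LinearMap.neg_apply, LinearMap.smul_apply, map_neg, map_smul, hcl]
  · intro x hx c
    rw [← hCρ, hx c]
  · intro x hx
    exact merge2_rep hβ (bRep ρ f) s hs hs' x hx

end Vale.Agent.P162
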