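import Vale.Agent.P162G.Defs
import Vale.Agent.P162.JensenNet

/-! P162G module M1: networks of reversed steps, averages over layers of coins. -/

open Equiv

set_option linter.unusedSectionVars false

namespace Vale.Agent.P162

/-- composition of the last `s` reversed steps: layer `s - 1` is applied first, layer `0` last -/
noncomputable def RR (m : ℕ) : ℕ → (ℕ → Fin m → Bool) → Perm (Fin (2 * m))
  | 0, _ => 1
  | (s + 1), ω => RR m s ω * St m (ω s)

/-- extension of finitely many layers of coins by `false` -/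
def extc (m t : ℕ) (w : Fin t → Fin m → Bool) : ℕ → Fin m → Bool :=
  fun i => if h : i < t then w ⟨i, h⟩ else fun _ => false

/-- average over `t` layers of coins -/
noncomputable def EE (m t : ℕ) (f : (ℕ → Fin m → Bool) → ℝ) : ℝ :=
  av (fun w : Fin t → Fin m → Bool => f (extc m t w))

theorem EE_mono {m t : ℕ} {f g : (ℕ → Fin m → Bool) → ℝ} (h : ∀ ω, f ω ≤ g ω) : EE m t f ≤ EE m t g :=
  Avg.mono fun _ => h _

theorem EE_nonneg {m t : ℕ} {f : (ℕ → Fin m → Bool) → ℝ} (h : ∀ ω, 0 ≤ f ω) : 0 ≤ EE m t f :=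
  Avg.nonneg fun _ => h _

theorem EE_const {m t : ℕ} (c : ℝ) : EE m t (fun _ => c) = c := Avg.const c

theorem EE_const_mul {m t : ℕ} (c : ℝ) (f : (ℕ → Fin m → Bool) → ℝ) : EE m t (fun ω => c * f ω) = c * EE m t f :=
  Avg.const_mul c _

theorem EE_mul_const {m t : ℕ} (c : ℝ) (f : (ℕ → Fin m → Bool) → ℝ) : EE m t (fun ω => f ω * c) = EE m t f * c :=
  Avg.mul_const c _

theorem EE_sum {m t : ℕ} {γ : Type} (s : Finset γ) (f : γ → (ℕ → Fin m → Bool) → ℝ) :
    EE m t (fun ω => ∑ c ∈ s, f c ω) = ∑ c ∈ s, EE m t (f c) := Avg.sum s _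

theorem EE_zero {m : ℕ} (f : (ℕ → Fin m → Bool) → ℝ) : EE m 0 f = f (fun _ _ => false) := by
  have h : ∀ w : Fin 0 → Fin m → Bool, extc m 0 w = fun _ _ => false := by
    intro w
    funext i j
    simp [extc]
  unfold EE
  simp only [h]
  exact Avg.const _

theorem ng_av_comm {α β : Type} [Fintype α] [Fintype β] (f : α → β → ℝ) :
    av (fun x => av (fun y => f x y)) = av (fun y => av (fun x => f x y)) := by
  rw [← Avg.prod (fun p : α × β => f p.1 p.2), Avg.prod_swap (fun p : α × β => f p.1 p.2)]

/-- exchanging two averages -/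
theorem EE_comm {m t t' : ℕ} (f : (ℕ → Fin m → Bool) → (ℕ → Fin m → Bool) → ℝ) :
    EE m t (fun ω => EE m t' (fun ω' => f ω ω')) = EE m t' (fun ω' => EE m t (fun ω => f ω ω')) := by
  unfold EE
  exact ng_av_comm (fun (w : Fin t → Fin m → Bool) (w' : Fin t' → Fin m → Bool) =>
    f (extc m t w) (extc m t' w'))

/-- Cauchy-Schwarz -/
theorem EE_cs {m t : ℕ} (f g : (ℕ → Fin m → Bool) → ℝ) :
    EE m t (fun ω => f ω * g ω) ^ 2 ≤ EE m t (fun ω => f ω ^ 2) * EE m t (fun ω => g ω ^ 2) := by
  unfold EE av
  rw [div_pow, div_mul_div_comm, ← sq]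
  exact div_le_div_of_nonneg_right (Finset.sum_mul_sq_le_sq_mul_sq _ _ _) (sq_nonneg _)

/-- peeling off the first applied layer -/
theorem EE_succ {m t : ℕ} (f : (ℕ → Fin m → Bool) → ℝ) :
    EE m (t + 1) f = av (fun c : Fin m → Bool => EE m t (fun ω => f (Function.update ω t c))) := by
  unfold EE
  rw [← Avg.prod (fun p : (Fin m → Bool) × (Fin t → Fin m → Bool) =>
    f (Function.update (extc m t p.2) t p.1)),
    ← jn_av_equiv (Fin.snocEquiv (fun _ : Fin (t + 1) => Fin m → Bool))]
  congr 1
  funext p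
  congr 1
  funext i
  by_cases h : i < t
  · have h1 : i < t + 1 := by omega
    have h2 : i ≠ t := by omega
    simp only [extc, h1, dif_pos, Function.update_of_ne h2, h]
    change Fin.snoc (α := fun _ : Fin (t + 1) => Fin m → Bool) p.2 p.1 ⟨i, h1⟩ = p.2 ⟨i, h⟩
    simp [Fin.snoc, h]
  · by_cases h2 : i = t
    · subst h2
      simp only [extc, Function.update_self, lt_add_one, dif_pos]
      change Fin.snoc (α := fun _ : Fin (i + 1) => Fin m → Bool) p.2 p.1 ⟨i, _⟩ = p.1
      simp [Fin.snoc]
    · have h1 : ¬ i < t + 1 := by omega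
      simp only [extc, h1, h, dif_neg, not_false_iff, Function.update_of_ne h2]

/-- re-randomizing a set of coins -/
theorem EE_mix {m t : ℕ} (Q : ℕ → Fin m → Prop) [∀ i j, Decidable (Q i j)] (f : (ℕ → Fin m → Bool) → ℝ) :
    EE m t f = EE m t (fun ω => EE m t (fun ω' => f (fun i j => if Q i j then ω' i j else ω i j))) := by
  let e : ((Fin t → Fin m → Bool) × (Fin t → Fin m → Bool)) ≃
      ((Fin t → Fin m → Bool) × (Fin t → Fin m → Bool)) :=
    { toFun := fun p => (fun i j => if Q i j then p.2 i j else p.1 i j,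
        fun i j => if Q i j then p.1 i j else p.2 i j)
      invFun := fun p => (fun i j => if Q i j then p.2 i j else p.1 i j,
        fun i j => if Q i j then p.1 i j else p.2 i j)
      left_inv := by
        intro p
        refine Prod.ext ?_ ?_ <;> funext i j <;> by_cases h : Q i j <;> simp [h]
      right_inv := by
        intro p
        refine Prod.ext ?_ ?_ <;> funext i j <;> by_cases h : Q i j <;> simp [h] }
  have h1 : EE m t f = av (fun p : (Fin t → Fin m → Bool) × (Fin t → Fin m → Bool) =>
      f (extc m t p.1)) := by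
    rw [Avg.prod (fun p : (Fin t → Fin m → Bool) × (Fin t → Fin m → Bool) => f (extc m t p.1))]
    unfold EE
    congr 1
    funext w
    exact (Avg.const _).symm
  rw [h1, ← jn_av_equiv e, Avg.prod]
  unfold EE
  congr 1
  funext w
  congr 1
  funext w'
  congr 1
  funext i j
  change extc m t (fun i j => if Q i j then w' i j else w i j) i j = _
  by_cases h : i < t
  · simp [extc, h]
  · simp [extc, h]

/-- splitting into the layers `< s` and the layers `s ≤ i < s + r` -/
theorem EE_split {m s r : ℕ} (f : (ℕ → Fin m → Bool) → ℝ) :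
    EE m (s + r) f = EE m s (fun ω => EE m r (fun ω' => f (fun i => if i < s then ω i else ω' (i - s)))) := by
  unfold EE
  rw [← Avg.prod (fun p : (Fin s → Fin m → Bool) × (Fin r → Fin m → Bool) =>
    f (fun i => if i < s then extc m s p.1 i else extc m r p.2 (i - s))),
    ← jn_av_equiv (Fin.appendEquiv (α := Fin m → Bool) s r)]
  congr 1
  funext p
  congr 1
  funext i
  change extc m (s + r) (Fin.append p.1 p.2) i = _
  by_cases h : i < s
  · have h1 : i < s + r := by omega
    simp only [extc, h1, h, dif_pos, if_true]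
    exact Fin.append_left p.1 p.2 ⟨i, h⟩
  · by_cases h2 : i - s < r
    · have h1 : i < s + r := by omega
      simp only [extc, h1, h, h2, dif_pos, if_false]
      have h3 : (⟨i, h1⟩ : Fin (s + r)) = Fin.natAdd s ⟨i - s, h2⟩ := by
        ext; simp; omega
      rw [h3]
      exact Fin.append_right p.1 p.2 ⟨i - s, h2⟩
    · have h1 : ¬ i < s + r := by omega
      simp only [extc, h1, h, h2, dif_neg, not_false_iff, if_false]

theorem RR_congr {m s : ℕ} {ω ω' : ℕ → Fin m → Bool} (h : ∀ i < s, ω i = ω' i) : RR m s ω = RR m s ω' := by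
  induction s with
  | zero => rfl
  | succ s ih =>
    unfold RR
    rw [ih fun i hi => h i (by omega), h s (by omega)]

theorem RR_add (m s w : ℕ) (ω : ℕ → Fin m → Bool) : RR m (s + w) ω = RR m s ω * RR m w (fun i => ω (s + i)) := by
  induction w with
  | zero => simp [RR]
  | succ w ih =>
    change RR m (s + w) ω * St m (ω (s + w)) = RR m s ω * (RR m w (fun i => ω (s + i)) * St m (ω (s + w)))
    rw [ih, mul_assoc]

/-- the pair index before a step is read off after the step -/
theorem pix_St_inv (m : ℕ) (c : Fin m → Bool) (y : Fin (2 * m)) : pix m ((St m c)⁻¹ y) = pim m y := by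
  obtain ⟨x, rfl⟩ : ∃ x, St m c x = y := ⟨(St m c)⁻¹ y, by simp⟩
  have h : (St m c)⁻¹ (St m c x) = x := by simp
  rw [h, St_apply]
  unfold pix pim ch
  have hx := x.isLt
  have h2 : x.val / 2 < m := by omega
  ext
  simp only
  split_ifs
  · rw [Nat.add_mod_right, Nat.mod_eq_of_lt h2]
  · rw [Nat.add_zero, Nat.mod_eq_of_lt h2]

theorem pix_RR_succ_inv (m i : ℕ) (ω : ℕ → Fin m → Bool) (y : Fin (2 * m)) :
    pix m ((RR m (i + 1) ω)⁻¹ y) = pim m ((RR m i ω)⁻¹ y) := by
  have h : (RR m (i + 1) ω)⁻¹ y = (St m (ω i))⁻¹ ((RR m i ω)⁻¹ y) := by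
    change (RR m i ω * St m (ω i))⁻¹ y = _
    rw [mul_inv_rev, Perm.mul_apply]
  rw [h, pix_St_inv]

section cards

variable {ι : Type} [Fintype ι] [DecidableEq ι]

/-- probability that two independent `t`-layer networks send `a` and `o` to the same places -/
noncomputable def KG (m t : ℕ) (a o : ι → Fin (2 * m)) : ℝ :=
  EE m t (fun w' => EE m t (fun w => if ∀ k, RR m t w' (a k) = RR m t w (o k) then (1 : ℝ) else 0))

theorem KG_nonneg (m t : ℕ) (a o : ι → Fin (2 * m)) : 0 ≤ KG m t a o := by
  unfold KG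
  refine EE_nonneg fun w' => EE_nonneg fun w => ?_
  split_ifs <;> norm_num

theorem RR_update (m t : ℕ) (ω : ℕ → Fin m → Bool) (c : Fin m → Bool) :
    RR m (t + 1) (Function.update ω t c) = RR m t ω * St m c := by
  change RR m t (Function.update ω t c) * St m (Function.update ω t c t) = _
  rw [Function.update_self, RR_congr (ω' := ω)]
  intro i hi
  exact Function.update_of_ne (by omega) _ _

theorem KG_succ (m t : ℕ) (a o : ι → Fin (2 * m)) :
    KG m (t + 1) a o = av (fun c : (Fin m → Bool) × (Fin m → Bool) =>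
      KG m t (fun k => St m c.1 (a k)) (fun k => St m c.2 (o k))) := by
  unfold KG
  rw [EE_succ, Avg.prod]
  congr 1
  funext c'
  simp only [EE_succ]
  unfold EE
  rw [ng_av_comm (fun (w' : Fin t → Fin m → Bool) (c : Fin m → Bool) =>
    av (fun w : Fin t → Fin m → Bool =>
      if ∀ k, RR m (t + 1) (Function.update (extc m t w') t c') (a k) =
        RR m (t + 1) (Function.update (extc m t w) t c) (o k) then (1 : ℝ) else 0))]
  congr 1
  funext c
  congr 1
  funext w'
  congr 1
  funext w
  rw [RR_update, RR_update]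
  rfl

/-- non-injective targets have probability zero -/
theorem KG_inj (m t : ℕ) (a o : ι → Fin (2 * m)) (ha : Function.Injective a) (ho : ¬ Function.Injective o) :
    KG m t a o = 0 := by
  have h : ∀ w' w : ℕ → Fin m → Bool,
      (if ∀ k, RR m t w' (a k) = RR m t w (o k) then (1 : ℝ) else 0) = 0 := by
    intro w' w
    rw [if_neg]
    intro h
    apply ho
    intro k l hkl
    apply ha
    have h1 := h k
    rw [hkl, ← h l] at h1
    exact (RR m t w').injective h1
  unfold KG
  simp only [h]
  rw [EE_const, EE_const]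

end cards

end Vale.Agent.P162
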