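import Vale.Agent.P162G.Cone
import Vale.Agent.P162G.StepG2

/-! P162G module M8: Lemma Q* on the circle. -/

open Equiv

set_option linter.unusedSectionVars false

namespace Vale.Agent.P162

/-- the antipode -/
def antip (m : ℕ) : Perm (Fin (2 * m)) where
  toFun x := ⟨(x.val + m) % (2 * m), Nat.mod_lt _ (by have := x.isLt; omega)⟩
  invFun x := ⟨(x.val + m) % (2 * m), Nat.mod_lt _ (by have := x.isLt; omega)⟩
  left_inv := by
    intro x
    have hx := x.isLt
    ext
    simp only [Nat.mod_add_mod]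
    have : x.val + m + m = x.val + 2 * m := by ring
    rw [this, Nat.add_mod_right, Nat.mod_eq_of_lt hx]
  right_inv := by
    intro x
    have hx := x.isLt
    ext
    simp only [Nat.mod_add_mod]
    have : x.val + m + m = x.val + 2 * m := by ring
    rw [this, Nat.add_mod_right, Nat.mod_eq_of_lt hx]

/-- recursive splitting condition on the set `D` of outputs of a `w`-layer network -/
def TL (m : ℕ) : ℕ → Finset (Fin (2 * m)) → Prop
  | 0, _ => True
  | (w + 1), D => ∃ D0 D1 : Finset (Fin (2 * m)), D0 ∪ D1 = D ∧ Disjoint D0 D1 ∧ TL m w D0 ∧ TL m w D1 ∧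
      Disjoint (coneS m w D0) (coneS m w D1) ∧
      (∀ y ∈ coneS m w D0, antip m y ∉ coneS m w D0) ∧ (∀ y ∈ coneS m w D1, antip m y ∉ coneS m w D1)

/-- the `w`-layer networks -/
noncomputable def Pw (m w : ℕ) (o : Fin w → Fin m → Bool) : Perm (Fin (2 * m)) := RR m w (extc m w o)

namespace QC

/-- position of the pair `i` with bit `b` -/
def pos (m : ℕ) (i : Fin m) (b : Bool) : Fin (2 * m) := ⟨i.val + (if b then m else 0), by split_ifs <;> omega⟩

theorem St_pos (m : ℕ) (c : Fin m → Bool) (x : Fin (2 * m)) :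
    St m c x = pos m (pix m x) (xor (c (pix m x)) (par m x)) := St_apply m c x

theorem antip_pos (m : ℕ) (i : Fin m) (b : Bool) : antip m (pos m i b) = pos m i (!b) := by
  have hi := i.isLt
  ext
  cases b
  · change (i.val + 0 + m) % (2 * m) = i.val + m
    rw [Nat.mod_eq_of_lt (by omega)]
    omega
  · change (i.val + m + m) % (2 * m) = i.val + 0
    have : i.val + m + m = i.val + 2 * m := by ring
    rw [this, Nat.add_mod_right, Nat.mod_eq_of_lt (by omega)]
    omega

theorem pim_pos (m : ℕ) (i : Fin m) (b : Bool) : pim m (pos m i b) = i := by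
  have hi := i.isLt
  ext
  cases b
  · change (i.val + 0) % m = i.val
    rw [Nat.add_zero, Nat.mod_eq_of_lt hi]
  · change (i.val + m) % m = i.val
    rw [Nat.add_mod_right, Nat.mod_eq_of_lt hi]

theorem bit_pos (m : ℕ) (i : Fin m) (b : Bool) : decide (m ≤ (pos m i b).val) = b := by
  have hi := i.isLt
  cases b
  · rw [decide_eq_false_iff_not]
    change ¬ m ≤ i.val + 0
    omega
  · rw [decide_eq_true_iff]
    change m ≤ i.val + m
    omega

theorem pos_eta (m : ℕ) (y : Fin (2 * m)) : pos m (pim m y) (decide (m ≤ y.val)) = y := by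
  have hy := y.isLt
  ext
  by_cases h : m ≤ y.val
  · have h2 : y.val % m = y.val - m := by
      rw [Nat.mod_eq_sub_mod h, Nat.mod_eq_of_lt (by omega)]
    change y.val % m + (if decide (m ≤ y.val) then m else 0) = y.val
    rw [h2, if_pos (by simpa using h)]
    omega
  · change y.val % m + (if decide (m ≤ y.val) then m else 0) = y.val
    rw [Nat.mod_eq_of_lt (by omega), if_neg (by simpa using h)]
    omega

theorem pix_two (m : ℕ) (i : Fin m) (p : Bool) :
    pix m (⟨2 * i.val + (if p then 1 else 0), by split_ifs <;> omega⟩ : Fin (2 * m)) = i := by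
  ext
  cases p
  · change (2 * i.val + 0) / 2 = i.val
    omega
  · change (2 * i.val + 1) / 2 = i.val
    omega

theorem par_two (m : ℕ) (i : Fin m) (p : Bool) :
    par m (⟨2 * i.val + (if p then 1 else 0), by split_ifs <;> omega⟩ : Fin (2 * m)) = p := by
  unfold par
  cases p
  · rw [decide_eq_false_iff_not]
    change ¬ (2 * i.val + 0) % 2 = 1
    omega
  · rw [decide_eq_true_iff]
    change (2 * i.val + 1) % 2 = 1
    omega

section agree

variable {K : Type} [DecidableEq K]

theorem agree_iff (m : ℕ) (h h' : Fin m → Bool) (F F' : Fin (2 * m) → K) :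
    (∀ x, F (St m h x) = F' (St m h' x)) ↔
      ∀ i p, F (pos m i (xor (h i) p)) = F' (pos m i (xor (h' i) p)) := by
  constructor
  · intro H i p
    have := H ⟨2 * i.val + (if p then 1 else 0), by split_ifs <;> omega⟩
    rw [St_pos, St_pos, pix_two, par_two] at this
    exact this
  · intro H x
    rw [St_pos, St_pos]
    exact H _ _

/-- joint agreement event, `s` selects the position that matters for the colouring `F0` -/
def GJ (m : ℕ) (s h h' : Fin m → Bool) (F0 F1 F0' F1' : Fin (2 * m) → K) : Prop :=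
  ∀ i, (h i = h' i → F0 (pos m i (s i)) = F0' (pos m i (s i)) ∧ F1 (pos m i (!s i)) = F1' (pos m i (!s i))) ∧
    (h i ≠ h' i → F0 (pos m i (s i)) = F1' (pos m i (!s i)) ∧ F1 (pos m i (!s i)) = F0' (pos m i (s i)))

instance (m : ℕ) (s h h' : Fin m → Bool) (F0 F1 F0' F1' : Fin (2 * m) → K) :
    Decidable (GJ m s h h' F0 F1 F0' F1') := by
  unfold GJ
  infer_instance

theorem agree_GJ (m : ℕ) (s h h' : Fin m → Bool) (F F' F0 F1 F0' F1' : Fin (2 * m) → K)
    (e0 : ∀ i, F (pos m i (s i)) = F0 (pos m i (s i))) (e1 : ∀ i, F (pos m i (!s i)) = F1 (pos m i (!s i)))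
    (e0' : ∀ i, F' (pos m i (s i)) = F0' (pos m i (s i))) (e1' : ∀ i, F' (pos m i (!s i)) = F1' (pos m i (!s i))) :
    (∀ x, F (St m h x) = F' (St m h' x)) ↔ GJ m s h h' F0 F1 F0' F1' := by
  rw [agree_iff]
  unfold GJ
  apply forall_congr'
  intro i
  rw [← e0, ← e1, ← e0', ← e1', Bool.forall_bool]
  cases h i <;> cases h' i <;> cases s i <;> simp <;> tauto

end agree

/-- the average over `2 m` coins of a function of `m` of them -/
theorem av_sel (m : ℕ) (s : Fin m → Bool) (g : (Fin m → Bool) → ℝ) :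
    av (fun q : Fin (2 * m) → Bool => g (fun i => q (pos m i (s i)))) = av g := by
  let e : ((Fin m → Bool) × (Fin m → Bool)) ≃ (Fin (2 * m) → Bool) :=
    { toFun := fun p y => if decide (m ≤ y.val) = s (pim m y) then p.1 (pim m y) else p.2 (pim m y)
      invFun := fun q => (fun i => q (pos m i (s i)), fun i => q (pos m i (!s i)))
      left_inv := by
        intro p
        ext i
        · simp only [bit_pos, pim_pos, if_true]
        · simp only [bit_pos, pim_pos]
          rw [if_neg (by simp)]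
      right_inv := by
        intro q
        funext y
        by_cases h : decide (m ≤ y.val) = s (pim m y)
        · simp only [if_pos h]
          rw [← h, pos_eta]
        · simp only [if_neg h]
          have h2 : (!s (pim m y)) = decide (m ≤ y.val) := by
            revert h
            cases s (pim m y) <;> cases decide (m ≤ y.val) <;> simp
          rw [h2, pos_eta] }
  rw [← QS.av_equiv e, Avg.prod]
  congr 1
  funext a
  have : (fun b : Fin m → Bool => g (fun i => e (a, b) (pos m i (s i)))) = fun _ => g a := by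
    funext b
    congr 1
    funext i
    change (if decide (m ≤ (pos m i (s i)).val) = s (pim m (pos m i (s i))) then
      a (pim m (pos m i (s i))) else b (pim m (pos m i (s i)))) = a i
    rw [bit_pos, pim_pos, if_pos rfl]
  rw [this, Avg.const]

theorem av_sel2 (m : ℕ) (s : Fin m → Bool) (g : (Fin m → Bool) → (Fin m → Bool) → ℝ) :
    av (fun q : (Fin (2 * m) → Bool) × (Fin (2 * m) → Bool) =>
      g (fun i => q.1 (pos m i (s i))) (fun i => q.2 (pos m i (s i)))) = av (fun h => av (fun h' => g h h')) := by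
  rw [Avg.prod]
  have : ∀ q1 : Fin (2 * m) → Bool, av (fun q2 : Fin (2 * m) → Bool =>
      g (fun i => q1 (pos m i (s i))) (fun i => q2 (pos m i (s i))))
      = (fun h => av (fun h' => g h h')) (fun i => q1 (pos m i (s i))) := by
    intro q1
    exact av_sel m s (g (fun i => q1 (pos m i (s i))))
  simp only [this]
  exact av_sel m s (fun h => av (fun h' => g h h'))

section link2

variable {K : Type} [Fintype K] [DecidableEq K] [Zero K]

/-- gluing two colourings -/
def comb {m : ℕ} (D0 : Finset (Fin (2 * m))) (c0 c1 : Fin (2 * m) → K) : Fin (2 * m) → K :=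
  fun y => if y ∈ D0 then c0 y else c1 y

/-- the position of each pair that matters for `D0` -/
theorem sel_exists (m w : ℕ) (D0 D1 : Finset (Fin (2 * m)))
    (hc : Disjoint (coneS m w D0) (coneS m w D1))
    (ha0 : ∀ y ∈ coneS m w D0, antip m y ∉ coneS m w D0) (ha1 : ∀ y ∈ coneS m w D1, antip m y ∉ coneS m w D1) :
    ∃ s : Fin m → Bool, (∀ i, pos m i (!s i) ∉ coneS m w D0) ∧ (∀ i, pos m i (s i) ∉ coneS m w D1) := by
  classical
  refine ⟨fun i => decide (pos m i true ∈ coneS m w D0 ∨ pos m i false ∈ coneS m w D1), ?_, ?_⟩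
  · intro i
    by_cases h : pos m i true ∈ coneS m w D0 ∨ pos m i false ∈ coneS m w D1
    · have h1 : (!decide (pos m i true ∈ coneS m w D0 ∨ pos m i false ∈ coneS m w D1)) = false := by
        rw [decide_eq_true h]; rfl
      rw [h1]
      rcases h with h | h
      · have := ha0 _ h
        rw [antip_pos] at this
        exact this
      · intro h2
        exact (Finset.disjoint_left.1 hc h2) h
    · have h1 : (!decide (pos m i true ∈ coneS m w D0 ∨ pos m i false ∈ coneS m w D1)) = true := by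
        rw [decide_eq_false h]; rfl
      rw [h1]
      exact fun h2 => h (Or.inl h2)
  · intro i
    beta_reduce
    by_cases h : pos m i true ∈ coneS m w D0 ∨ pos m i false ∈ coneS m w D1
    · rw [decide_eq_true h]
      rcases h with h | h
      · exact Finset.disjoint_left.1 hc h
      · have := ha1 _ h
        rw [antip_pos] at this
        exact this
    · rw [decide_eq_false h]
      exact fun h2 => h (Or.inr h2)

theorem not_mem_of_cone {m w : ℕ} {D : Finset (Fin (2 * m))} {x : Fin (2 * m)} (hx : x ∉ coneS m w D)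
    (ω : ℕ → Fin m → Bool) : RR m w ω x ∉ D := by
  intro h
  exact hx ((mem_coneS m w D x).2 ⟨ω, h⟩)

theorem RR_update (m w : ℕ) (ω : ℕ → Fin m → Bool) (h : Fin m → Bool) (z : Fin (2 * m)) :
    RR m (w + 1) (Function.update ω w h) z = RR m w ω (St m h z) := by
  change (RR m w (Function.update ω w h) * St m (Function.update ω w h w)) z = _
  rw [Function.update_self, Perm.mul_apply]
  rw [RR_congr (ω := Function.update ω w h) (ω' := ω)]
  intro i hi
  rw [Function.update_of_ne (by omega)]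

/-- the indicator of the joint agreement event -/
noncomputable def IG (m : ℕ) (s h h' : Fin m → Bool) (F0 F1 F0' F1' : Fin (2 * m) → K) : ℝ :=
  if GJ m s h h' F0 F1 F0' F1' then (1 : ℝ) else 0

theorem core_lhs (m w : ℕ) (D0 D1 : Finset (Fin (2 * m)))
    (hc : Disjoint (coneS m w D0) (coneS m w D1)) (s : Fin m → Bool)
    (hs0 : ∀ i, pos m i (!s i) ∉ coneS m w D0) (hs1 : ∀ i, pos m i (s i) ∉ coneS m w D1)
    (c0 c1 : Fin (2 * m) → K) (h0 : ∀ z, z ∉ D0 → c0 z = 0) (h1 : ∀ z, z ∉ D1 → c1 z = 0) :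
    av (fun p : (Fin (w + 1) → Fin m → Bool) × (Fin (w + 1) → Fin m → Bool) =>
      if ∀ z, comb D0 c0 c1 (Pw m (w + 1) p.1 z) = comb D0 c0 c1 (Pw m (w + 1) p.2 z) then (1 : ℝ) else 0)
    = av (fun h => av (fun h' => EE m w (fun ω0 => EE m w (fun ω1 => EE m w (fun ω0' => EE m w (fun ω1' =>
        IG m s h h' (fun y => c0 (RR m w ω0 y)) (fun y => c1 (RR m w ω1 y))
          (fun y => c0 (RR m w ω0' y)) (fun y => c1 (RR m w ω1' y)))))))) := by
  set c := comb D0 c0 c1 with hcdef
  have s1 : av (fun p : (Fin (w + 1) → Fin m → Bool) × (Fin (w + 1) → Fin m → Bool) =>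
      if ∀ z, c (Pw m (w + 1) p.1 z) = c (Pw m (w + 1) p.2 z) then (1 : ℝ) else 0)
      = EE m (w + 1) (fun ω => EE m (w + 1) (fun ω' =>
        if ∀ z, c (RR m (w + 1) ω z) = c (RR m (w + 1) ω' z) then (1 : ℝ) else 0)) := by
    rw [Avg.prod]
    rfl
  have s2 : EE m (w + 1) (fun ω => EE m (w + 1) (fun ω' =>
        if ∀ z, c (RR m (w + 1) ω z) = c (RR m (w + 1) ω' z) then (1 : ℝ) else 0))
      = av (fun h => EE m w (fun ω => av (fun h' => EE m w (fun ω' =>
        if ∀ z, c (RR m w ω (St m h z)) = c (RR m w ω' (St m h' z)) then (1 : ℝ) else 0)))) := by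
    rw [EE_succ]
    congr 1
    funext h
    congr 1
    funext ω
    rw [EE_succ]
    simp only [RR_update]
  have s3 : ∀ h : Fin m → Bool, EE m w (fun ω => av (fun h' => EE m w (fun ω' =>
        if ∀ z, c (RR m w ω (St m h z)) = c (RR m w ω' (St m h' z)) then (1 : ℝ) else 0)))
      = av (fun h' => EE m w (fun ω => EE m w (fun ω' =>
        if ∀ z, c (RR m w ω (St m h z)) = c (RR m w ω' (St m h' z)) then (1 : ℝ) else 0))) := by
    intro h
    unfold EE
    exact QS.av_comm _
  rw [s1, s2]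
  congr 1
  funext h
  rw [s3]
  congr 1
  funext h'
  have e0 : ∀ (ω : ℕ → Fin m → Bool) (i : Fin m), c (RR m w ω (pos m i (s i))) = c0 (RR m w ω (pos m i (s i))) := by
    intro ω i
    rw [hcdef]
    unfold comb
    by_cases hm : RR m w ω (pos m i (s i)) ∈ D0
    · rw [if_pos hm]
    · rw [if_neg hm, h0 _ hm, h1 _ (not_mem_of_cone (hs1 i) ω)]
  have e1 : ∀ (ω : ℕ → Fin m → Bool) (i : Fin m), c (RR m w ω (pos m i (!s i))) = c1 (RR m w ω (pos m i (!s i))) := by
    intro ω i
    rw [hcdef]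
    unfold comb
    rw [if_neg (not_mem_of_cone (hs0 i) ω)]
  have s4 : ∀ ω ω' : ℕ → Fin m → Bool,
      (if ∀ z, c (RR m w ω (St m h z)) = c (RR m w ω' (St m h' z)) then (1 : ℝ) else 0)
      = IG m s h h' (fun y => c0 (RR m w ω y)) (fun y => c1 (RR m w ω y))
          (fun y => c0 (RR m w ω' y)) (fun y => c1 (RR m w ω' y)) := by
    intro ω ω'
    unfold IG
    apply if_congr _ rfl rfl
    exact agree_GJ m s h h' (fun y => c (RR m w ω y)) (fun y => c (RR m w ω' y)) _ _ _ _
      (e0 ω) (e1 ω) (e0 ω') (e1 ω')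
  simp only [s4]
  have s5 : ∀ ω : ℕ → Fin m → Bool, EE m w (fun ω' => IG m s h h' (fun y => c0 (RR m w ω y))
      (fun y => c1 (RR m w ω y)) (fun y => c0 (RR m w ω' y)) (fun y => c1 (RR m w ω' y)))
      = EE m w (fun ω0' => EE m w (fun ω1' => IG m s h h' (fun y => c0 (RR m w ω y))
      (fun y => c1 (RR m w ω y)) (fun y => c0 (RR m w ω0' y)) (fun y => c1 (RR m w ω1' y)))) := by
    intro ω
    exact decouple m w D0 D1 hc c0 c1 h0 h1 (fun G0 G1 => IG m s h h' (fun y => c0 (RR m w ω y))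
      (fun y => c1 (RR m w ω y)) G0 G1)
  simp only [s5]
  exact decouple m w D0 D1 hc c0 c1 h0 h1 (fun G0 G1 => EE m w (fun ω0' => EE m w (fun ω1' =>
    IG m s h h' G0 G1 (fun y => c0 (RR m w ω0' y)) (fun y => c1 (RR m w ω1' y)))))

theorem Ev2_iff (m w : ℕ) (D0 D1 : Finset (Fin (2 * m))) (s : Fin m → Bool)
    (hs0 : ∀ i, pos m i (!s i) ∉ coneS m w D0) (hs1 : ∀ i, pos m i (s i) ∉ coneS m w D1)
    (c0 c1 : Fin (2 * m) → K) (h0 : ∀ z, z ∉ D0 → c0 z = 0) (h1 : ∀ z, z ∉ D1 → c1 z = 0)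
    (q : (Fin (2 * m) → Bool) × (Fin (2 * m) → Bool))
    (p0 p1 : (Fin w → Fin m → Bool) × (Fin w → Fin m → Bool)) :
    QS.Ev2 (Pw m w) (fun o => Pw m w o * antip m) c0 c1 q p0 p1 ↔
      GJ m s (fun i => q.1 (pos m i (s i))) (fun i => q.2 (pos m i (s i)))
        (fun y => c0 (Pw m w p0.1 y)) (fun y => c1 (Pw m w p1.1 y))
        (fun y => c0 (Pw m w p0.2 y)) (fun y => c1 (Pw m w p1.2 y)) := by
  have z0 : ∀ (o : Fin w → Fin m → Bool) (i : Fin m), c0 (Pw m w o (pos m i (!s i))) = 0 := by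
    intro o i
    exact h0 _ (not_mem_of_cone (hs0 i) _)
  have z1 : ∀ (o : Fin w → Fin m → Bool) (i : Fin m), c1 (Pw m w o (pos m i (s i))) = 0 := by
    intro o i
    exact h1 _ (not_mem_of_cone (hs1 i) _)
  unfold QS.Ev2 GJ
  simp only [Perm.mul_apply]
  constructor
  · intro H i
    have := H (pos m i (s i))
    rw [antip_pos] at this
    exact this
  · intro H z
    obtain ⟨i, b, rfl⟩ : ∃ i b, z = pos m i b := ⟨_, _, (pos_eta m z).symm⟩
    by_cases hb : b = s i
    · subst hb
      have := H i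
      rw [antip_pos]
      exact this
    · have hb' : b = !s i := by
        revert hb
        cases b <;> cases s i <;> simp
      subst hb'
      rw [antip_pos, Bool.not_not]
      simp only [z0, z1, and_self, implies_true]

theorem core_rhs (m w : ℕ) (D0 D1 : Finset (Fin (2 * m))) (s : Fin m → Bool)
    (hs0 : ∀ i, pos m i (!s i) ∉ coneS m w D0) (hs1 : ∀ i, pos m i (s i) ∉ coneS m w D1)
    (c0 c1 : Fin (2 * m) → K) (h0 : ∀ z, z ∉ D0 → c0 z = 0) (h1 : ∀ z, z ∉ D1 → c1 z = 0) :
    av (fun q : (Fin (2 * m) → Bool) × (Fin (2 * m) → Bool) =>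
      av (fun p0 : (Fin w → Fin m → Bool) × (Fin w → Fin m → Bool) =>
      av (fun p1 : (Fin w → Fin m → Bool) × (Fin w → Fin m → Bool) =>
        if QS.Ev2 (Pw m w) (fun o => Pw m w o * antip m) c0 c1 q p0 p1 then (1 : ℝ) else 0)))
    = av (fun h => av (fun h' => EE m w (fun ω0 => EE m w (fun ω1 => EE m w (fun ω0' => EE m w (fun ω1' =>
        IG m s h h' (fun y => c0 (RR m w ω0 y)) (fun y => c1 (RR m w ω1 y))
          (fun y => c0 (RR m w ω0' y)) (fun y => c1 (RR m w ω1' y)))))))) := by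
  have s1 : ∀ q p0 p1,
      (if QS.Ev2 (Pw m w) (fun o => Pw m w o * antip m) c0 c1 q p0 p1 then (1 : ℝ) else 0)
      = IG m s (fun i => q.1 (pos m i (s i))) (fun i => q.2 (pos m i (s i)))
        (fun y => c0 (Pw m w p0.1 y)) (fun y => c1 (Pw m w p1.1 y))
        (fun y => c0 (Pw m w p0.2 y)) (fun y => c1 (Pw m w p1.2 y)) := by
    intro q p0 p1
    unfold IG
    exact if_congr (Ev2_iff m w D0 D1 s hs0 hs1 c0 c1 h0 h1 q p0 p1) rfl rfl
  simp only [s1]
  rw [av_sel2 m s (fun h h' => av (fun p0 : (Fin w → Fin m → Bool) × (Fin w → Fin m → Bool) =>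
      av (fun p1 : (Fin w → Fin m → Bool) × (Fin w → Fin m → Bool) =>
      IG m s h h' (fun y => c0 (Pw m w p0.1 y)) (fun y => c1 (Pw m w p1.1 y))
        (fun y => c0 (Pw m w p0.2 y)) (fun y => c1 (Pw m w p1.2 y)))))]
  congr 1
  funext h
  congr 1
  funext h'
  have s2 : av (fun p0 : (Fin w → Fin m → Bool) × (Fin w → Fin m → Bool) =>
      av (fun p1 : (Fin w → Fin m → Bool) × (Fin w → Fin m → Bool) =>
      IG m s h h' (fun y => c0 (Pw m w p0.1 y)) (fun y => c1 (Pw m w p1.1 y))
        (fun y => c0 (Pw m w p0.2 y)) (fun y => c1 (Pw m w p1.2 y))))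
      = av (fun o0 : Fin w → Fin m → Bool => av (fun o0' : Fin w → Fin m → Bool =>
        av (fun o1 : Fin w → Fin m → Bool => av (fun o1' : Fin w → Fin m → Bool =>
        IG m s h h' (fun y => c0 (Pw m w o0 y)) (fun y => c1 (Pw m w o1 y))
        (fun y => c0 (Pw m w o0' y)) (fun y => c1 (Pw m w o1' y)))))) := by
    rw [Avg.prod]
    congr 1
    funext o0
    congr 1
    funext o0'
    rw [Avg.prod]
  rw [s2]
  change _ = av (fun o0 : Fin w → Fin m → Bool => av (fun o1 : Fin w → Fin m → Bool =>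
        av (fun o0' : Fin w → Fin m → Bool => av (fun o1' : Fin w → Fin m → Bool =>
        IG m s h h' (fun y => c0 (Pw m w o0 y)) (fun y => c1 (Pw m w o1 y))
        (fun y => c0 (Pw m w o0' y)) (fun y => c1 (Pw m w o1' y))))))
  congr 1
  funext o0
  exact QS.av_comm _

theorem wt_comb (r : ℝ) {m : ℕ} (D0 D1 : Finset (Fin (2 * m))) (hD : Disjoint D0 D1) (c0 c1 : Fin (2 * m) → K)
    (h0 : ∀ z, z ∉ D0 → c0 z = 0) (h1 : ∀ z, z ∉ D1 → c1 z = 0) :
    QS.wt r (comb D0 c0 c1) = QS.wt r c0 * QS.wt r c1 := by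
  unfold QS.wt
  rw [← Finset.prod_mul_distrib]
  apply Finset.prod_congr rfl
  intro z _
  unfold comb
  by_cases hz : z ∈ D0
  · rw [if_pos hz, h1 z (Finset.disjoint_left.1 hD hz)]
    simp
  · rw [if_neg hz, h0 z hz]
    simp

end link2

end QC

/-- one more layer: the link with `GG2`.  Paper proof in `NOTES1.md` (M8). -/
theorem link2 {K : Type} [Fintype K] [DecidableEq K] [Zero K] (m w : ℕ) (D0 D1 : Finset (Fin (2 * m)))
    (hD : Disjoint D0 D1) (hc : Disjoint (coneS m w D0) (coneS m w D1))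
    (ha0 : ∀ y ∈ coneS m w D0, antip m y ∉ coneS m w D0) (ha1 : ∀ y ∈ coneS m w D1, antip m y ∉ coneS m w D1)
    (r : ℝ) :
    QS.Phi K (Pw m (w + 1)) r (D0 ∪ D1)
      = QS.GG2 K (Pw m w) (fun o => Pw m w o * antip m) r D0 D1 := by
  obtain ⟨s, hs0, hs1⟩ := QC.sel_exists m w D0 D1 hc ha0 ha1
  have core : ∀ c0 ∈ (QS.FS D0 : Finset (Fin (2 * m) → K)), ∀ c1 ∈ (QS.FS D1 : Finset (Fin (2 * m) → K)),
      av (fun p : (Fin (w + 1) → Fin m → Bool) × (Fin (w + 1) → Fin m → Bool) =>
        if ∀ z, QC.comb D0 c0 c1 (Pw m (w + 1) p.1 z) = QC.comb D0 c0 c1 (Pw m (w + 1) p.2 z) then (1 : ℝ) else 0)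
      = av (fun q : (Fin (2 * m) → Bool) × (Fin (2 * m) → Bool) =>
        av (fun p0 : (Fin w → Fin m → Bool) × (Fin w → Fin m → Bool) =>
        av (fun p1 : (Fin w → Fin m → Bool) × (Fin w → Fin m → Bool) =>
        if QS.Ev2 (Pw m w) (fun o => Pw m w o * antip m) c0 c1 q p0 p1 then (1 : ℝ) else 0))) := by
    intro c0 hc0 c1 hc1
    rw [QC.core_lhs m w D0 D1 hc s hs0 hs1 c0 c1 (QS.mem_FS.1 hc0) (QS.mem_FS.1 hc1),
      QC.core_rhs m w D0 D1 s hs0 hs1 c0 c1 (QS.mem_FS.1 hc0) (QS.mem_FS.1 hc1)]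
  have rhs : QS.GG2 K (Pw m w) (fun o => Pw m w o * antip m) r D0 D1
      = ∑ c0 ∈ (QS.FS D0 : Finset (Fin (2 * m) → K)), ∑ c1 ∈ (QS.FS D1 : Finset (Fin (2 * m) → K)),
        QS.wt r c0 * QS.wt r c1 * av (fun q : (Fin (2 * m) → Bool) × (Fin (2 * m) → Bool) =>
        av (fun p0 : (Fin w → Fin m → Bool) × (Fin w → Fin m → Bool) =>
        av (fun p1 : (Fin w → Fin m → Bool) × (Fin w → Fin m → Bool) =>
        if QS.Ev2 (Pw m w) (fun o => Pw m w o * antip m) c0 c1 q p0 p1 then (1 : ℝ) else 0))) := by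
    unfold QS.GG2
    simp only [Avg.sum, Avg.const_mul]
  rw [rhs]
  unfold QS.Phi
  rw [← Finset.sum_product']
  symm
  refine Finset.sum_bij' (fun p _ => QC.comb D0 p.1 p.2)
    (fun c _ => ((fun y => if y ∈ D0 then c y else 0), (fun y => if y ∈ D0 then 0 else c y))) ?_ ?_ ?_ ?_ ?_
  · rintro ⟨c0, c1⟩ hp
    rw [Finset.mem_product, QS.mem_FS, QS.mem_FS] at hp
    rw [QS.mem_FS]
    intro z hz
    rw [Finset.mem_union, not_or] at hz
    change QC.comb D0 c0 c1 z = 0
    unfold QC.comb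
    rw [if_neg hz.1]
    exact hp.2 z hz.2
  · intro c hc'
    rw [QS.mem_FS] at hc'
    rw [Finset.mem_product, QS.mem_FS, QS.mem_FS]
    constructor
    · intro z hz
      change (if z ∈ D0 then c z else 0) = 0
      rw [if_neg hz]
    · intro z hz
      change (if z ∈ D0 then 0 else c z) = 0
      by_cases h : z ∈ D0
      · rw [if_pos h]
      · rw [if_neg h]
        exact hc' z (by rw [Finset.mem_union, not_or]; exact ⟨h, hz⟩)
  · rintro ⟨c0, c1⟩ hp
    rw [Finset.mem_product, QS.mem_FS, QS.mem_FS] at hp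
    have h0 := hp.1
    have h1 := hp.2
    simp only at h0 h1
    ext z
    · change (if z ∈ D0 then (if z ∈ D0 then c0 z else c1 z) else 0) = c0 z
      by_cases h : z ∈ D0
      · rw [if_pos h, if_pos h]
      · rw [if_neg h, h0 z h]
    · change (if z ∈ D0 then 0 else (if z ∈ D0 then c0 z else c1 z)) = c1 z
      by_cases h : z ∈ D0
      · rw [if_pos h, h1 z (Finset.disjoint_left.1 hD h)]
      · rw [if_neg h, if_neg h]
  · intro c _
    funext z
    change (if z ∈ D0 then (if z ∈ D0 then c z else 0) else (if z ∈ D0 then 0 else c z)) = c z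
    by_cases h : z ∈ D0
    · rw [if_pos h, if_pos h]
    · rw [if_neg h, if_neg h]
  · rintro ⟨c0, c1⟩ hp
    rw [Finset.mem_product] at hp
    have hp0 := hp.1
    have hp1 := hp.2
    simp only at hp0 hp1 ⊢
    rw [← core c0 hp0 c1 hp1, QC.wt_comb r D0 D1 hD c0 c1 (QS.mem_FS.1 hp0) (QS.mem_FS.1 hp1)]
    congr 1
    apply congrArg av
    funext p
    by_cases hcc : ∀ z, QC.comb D0 c0 c1 (Pw m (w + 1) p.1 z) = QC.comb D0 c0 c1 (Pw m (w + 1) p.2 z)
    · rw [if_pos hcc, if_pos hcc]
    · rw [if_neg hcc, if_neg hcc]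

/-- Lemma Q* on the circle -/
theorem qc {K : Type} [Fintype K] [DecidableEq K] [Zero K] (m w : ℕ) (D : Finset (Fin (2 * m))) (hTL : TL m w D)
    (r : ℝ) (hr0 : 0 ≤ r) (hr1 : r ≤ 1) :
    QS.Phi K (Pw m w) r D ≤ (1 + ((Fintype.card K : ℝ) - 1) * (3 / 4) ^ w * r) ^ D.card := by
  have hK : (0 : ℝ) ≤ (Fintype.card K : ℝ) - 1 := by
    have : 1 ≤ Fintype.card K := Fintype.card_pos_iff.2 ⟨0⟩
    have : (1 : ℝ) ≤ (Fintype.card K : ℝ) := by exact_mod_cast this
    linarith
  induction w generalizing D r with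
  | zero =>
    have h1 : ∀ o, Pw m 0 o = 1 := by
      intro o
      rfl
    rw [QS.Phi_one (Pw m 0) h1, pow_zero, mul_one]
  | succ w ih =>
    obtain ⟨D0, D1, hU, hD, hT0, hT1, hc, ha0, ha1⟩ := hTL
    have hl := link2 (K := K) m w D0 D1 hD hc ha0 ha1 r
    rw [hU] at hl
    have h1 := QS.stepG2 (K := K) (Pw m w) (fun o => Pw m w o * antip m) r hr0 hr1 D0 D1
    have h2 := QS.stepG2' (K := K) (Pw m w) (fun o => Pw m w o * antip m) r hr0 hr1 D0 D1
    rw [← hl, QS.Phi_mul_right] at h1 h2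
    set a : ℝ := ((Fintype.card K : ℝ) - 1) * (3 / 4) ^ w with ha
    have ha0' : 0 ≤ a := mul_nonneg hK (by positivity)
    have hr2 : 0 ≤ r / 2 := by linarith
    have hr2' : r / 2 ≤ 1 := by linarith
    have nA := QS.Phi_nonneg (K := K) (Pw m w) hr0 D1
    have nB := QS.Phi_nonneg (K := K) (Pw m w) hr2 D0
    have nA' := QS.Phi_nonneg (K := K) (Pw m w) hr0 D0
    have nB' := QS.Phi_nonneg (K := K) (Pw m w) hr2 D1
    have nX := QS.Phi_nonneg (K := K) (Pw m (w + 1)) hr0 D
    have bA := ih D1 hT1 r hr0 hr1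
    have bB := ih D0 hT0 (r / 2) hr2 hr2'
    have bA' := ih D0 hT0 r hr0 hr1
    have bB' := ih D1 hT1 (r / 2) hr2 hr2'
    have har : 0 ≤ a * r := mul_nonneg ha0' hr0
    have p1 : 0 ≤ 1 + a * r := by linarith
    have p2 : 0 ≤ 1 + a * (r / 2) := by
      have : a * (r / 2) = a * r / 2 := by ring
      rw [this]; linarith
    have p3 : 0 ≤ 1 + a * (3 / 4) * r := by
      have : a * (3 / 4) * r = a * r * (3 / 4) := by ring
      rw [this]; linarith
    have hcard : D0.card + D1.card = D.card := by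
      rw [← hU, Finset.card_union_of_disjoint hD]
    have hsq : QS.Phi K (Pw m (w + 1)) r D ^ 2 ≤ ((1 + a * (3 / 4) * r) ^ D.card) ^ 2 := by
      calc QS.Phi K (Pw m (w + 1)) r D ^ 2 = QS.Phi K (Pw m (w + 1)) r D * QS.Phi K (Pw m (w + 1)) r D := by ring
        _ ≤ (QS.Phi K (Pw m w) r D1 * QS.Phi K (Pw m w) (r / 2) D0) *
            (QS.Phi K (Pw m w) r D0 * QS.Phi K (Pw m w) (r / 2) D1) :=
            mul_le_mul h1 h2 nX (mul_nonneg nA nB)
        _ ≤ ((1 + a * r) ^ D1.card * (1 + a * (r / 2)) ^ D0.card) *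
            ((1 + a * r) ^ D0.card * (1 + a * (r / 2)) ^ D1.card) := by
            apply mul_le_mul
            · exact mul_le_mul bA bB nB (pow_nonneg p1 _)
            · exact mul_le_mul bA' bB' nB' (pow_nonneg p1 _)
            · exact mul_nonneg nA' nB'
            · exact mul_nonneg (pow_nonneg p1 _) (pow_nonneg p2 _)
        _ = ((1 + a * r) * (1 + a * (r / 2))) ^ D.card := by
            rw [← hcard, mul_pow, pow_add, pow_add]
            ring
        _ ≤ ((1 + a * (3 / 4) * r) ^ 2) ^ D.card := by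
            apply pow_le_pow_left₀ (mul_nonneg p1 p2)
            nlinarith [sq_nonneg (a * r)]
        _ = ((1 + a * (3 / 4) * r) ^ D.card) ^ 2 := pow_right_comm _ _ _
    have h3 := (pow_le_pow_iff_left₀ nX (pow_nonneg p3 _) (by norm_num)).1 hsq
    have h4 : a * (3 / 4) * r = ((Fintype.card K : ℝ) - 1) * (3 / 4) ^ (w + 1) * r := by
      rw [ha, pow_succ]; ring
    rw [h4] at h3
    exact h3

end Vale.Agent.P162
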