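import Vale.Agent.P162G.Arcs

/-! P162G module N9: the family of blocks below one root arc. -/

open Equiv

set_option linter.unusedSectionVars false

namespace Vale.Agent.P162

/-- the constants -/
noncomputable def tk (k : ℕ) : ℝ := (1 + (1 / 2) ^ k) ^ 2 / 3072

theorem tk_eq (k : ℕ) : tk k = (1 + 2 ^ k) ^ 2 / (3072 * (2 ^ k) ^ 2) := by
  unfold tk
  have h : (0 : ℝ) < 2 ^ k := by positivity
  rw [one_div, inv_pow]
  field_simp
  ring

/-- `tk (k+1) ≤ r s - (r s)^2 / M` with `r = (1 + 2^(k+1)) / (2 + 2^(k+1))`, `M = 2^b (1 + 2^(k+1))` -/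
theorem tk_step (b k : ℕ) :
    tk (k + 1) ≤ ((1 + (2 : ℝ) ^ (k + 1)) / (2 + 2 ^ (k + 1))) * tk k
      - (((1 + (2 : ℝ) ^ (k + 1)) / (2 + 2 ^ (k + 1))) * tk k) ^ 2 / (2 ^ b * (1 + 2 ^ (k + 1))) := by
  have hb : (1 : ℝ) ≤ 2 ^ b := one_le_pow₀ (by norm_num)
  have hP : (2 : ℝ) ≤ 2 ^ (k + 1) := by
    calc (2 : ℝ) = 2 ^ 1 := by norm_num
      _ ≤ 2 ^ (k + 1) := pow_le_pow_right₀ (by norm_num) (by omega)
  have hk : (2 : ℝ) ^ k = 2 ^ (k + 1) / 2 := by rw [pow_succ]; ring
  rw [tk_eq, tk_eq, hk]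
  set P : ℝ := 2 ^ (k + 1) with hPdef
  set B : ℝ := 2 ^ b with hB
  have hP0 : 0 < P := by linarith
  have hB0 : 0 < B := by linarith
  have e1 : ((1 + P) / (2 + P)) * ((1 + P / 2) ^ 2 / (3072 * (P / 2) ^ 2)) =
      (1 + P) * (2 + P) / (3072 * P ^ 2) := by
    field_simp
  rw [e1]
  have e2 : (1 + P) * (2 + P) / (3072 * P ^ 2) - ((1 + P) * (2 + P) / (3072 * P ^ 2)) ^ 2 /
      (B * (1 + P)) - (1 + P) ^ 2 / (3072 * P ^ 2) =
      (1 + P) * (3072 * P ^ 2 * B - (2 + P) ^ 2) / (3072 ^ 2 * P ^ 4 * B) := by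
    field_simp
    ring
  have h1 : (2 + P) ^ 2 ≤ 3072 * P ^ 2 * B := by nlinarith [mul_pos hP0 hP0]
  have h2 : 0 ≤ (1 + P) * (3072 * P ^ 2 * B - (2 + P) ^ 2) / (3072 ^ 2 * P ^ 4 * B) := by
    apply div_nonneg
    · exact mul_nonneg (by linarith) (by linarith)
    · positivity
  linarith

theorem tk_le (k : ℕ) : tk k ≤ 1 / 768 := by
  unfold tk
  have h : ((1 : ℝ) / 2) ^ k ≤ 1 := pow_le_one₀ (by norm_num) (by norm_num)
  have h0 : 0 ≤ ((1 : ℝ) / 2) ^ k := by positivity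
  nlinarith

theorem tk_ge (k : ℕ) : 1 / 3072 ≤ tk k := by
  unfold tk
  have h0 : 0 ≤ ((1 : ℝ) / 2) ^ k := by positivity
  nlinarith

/-- start and length of the blocks -/
theorem rt_arith (q K x i c c' : ℕ) (hK : 2 ^ (K + 1) ≤ q) (hi : i ≤ K) (hcc : c < c')
    (hc' : c' < 2 ^ i) :
    (x + q * c) / 2 ^ i + (1 + 2 ^ (K - i)) ≤ (x + q * c') / 2 ^ i ∧
      (x + q * c') / 2 ^ i + (1 + 2 ^ (K - i)) ≤ (x + q * c) / 2 ^ i + q := by
  have h2 : 0 < 2 ^ i := by positivity
  have hpow : 2 ^ (K - i + 1) * 2 ^ i ≤ q := by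
    rw [← pow_add]
    have : K - i + 1 + i = K + 1 := by omega
    rw [this]
    exact hK
  have hone : 1 + 2 ^ (K - i) ≤ 2 ^ (K - i + 1) := by
    have : 1 ≤ 2 ^ (K - i) := Nat.one_le_two_pow
    rw [pow_succ]
    omega
  have key : ∀ y z : ℕ, y + q ≤ z → y / 2 ^ i + (1 + 2 ^ (K - i)) ≤ z / 2 ^ i := by
    intro y z hyz
    calc y / 2 ^ i + (1 + 2 ^ (K - i)) ≤ y / 2 ^ i + 2 ^ (K - i + 1) := by omega
      _ = (y + 2 ^ (K - i + 1) * 2 ^ i) / 2 ^ i := by rw [Nat.add_mul_div_right _ _ h2]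
      _ ≤ z / 2 ^ i := Nat.div_le_div_right (by omega)
  constructor
  · apply key
    have : q * (c + 1) ≤ q * c' := Nat.mul_le_mul_left q hcc
    rw [Nat.mul_add, Nat.mul_one] at this
    omega
  · have h3 : (x + q * c) / 2 ^ i + q = (x + q * c + q * 2 ^ i) / 2 ^ i := by
      rw [Nat.add_mul_div_right _ _ h2]
    rw [h3]
    apply key
    have h4 : c' + 1 ≤ c + 2 ^ i := by omega
    have : q * (c' + 1) ≤ q * (c + 2 ^ i) := Nat.mul_le_mul_left q h4
    rw [Nat.mul_add, Nat.mul_one, Nat.mul_add] at this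
    omega

/-- the blocks of the family -/
def rtB (b q K x i c : ℕ) : Finset (Fin (2 * (2 ^ b * q))) :=
  arc (2 ^ b * q) (2 ^ (b + 1) * ((x + q * c) / 2 ^ i)) (2 ^ b * (2 + 2 ^ (K - i + 1)))

theorem rt_disj (b q K x i c c' : ℕ) (hK : 2 ^ (K + 1) ≤ q) (hi : i ≤ K) (hcc : c ≠ c')
    (hc : c < 2 ^ i) (hc' : c' < 2 ^ i) : Disjoint (rtB b q K x i c) (rtB b q K x i c') := by
  wlog h : c < c' generalizing c c'
  · exact (this c' c hcc.symm hc' hc (by omega)).symm
  obtain ⟨h1, h2⟩ := rt_arith q K x i c c' hK hi h hc'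
  unfold rtB
  set X := (x + q * c) / 2 ^ i
  set X' := (x + q * c') / 2 ^ i
  have h3 : 2 ^ b * (2 + 2 ^ (K - i + 1)) = 2 ^ (b + 1) * (1 + 2 ^ (K - i)) := by
    rw [pow_succ, pow_succ]; ring
  apply arc_disj
  · rw [h3, ← Nat.mul_add]
    exact Nat.mul_le_mul_left _ h1
  · rw [h3, ← Nat.mul_add]
    calc 2 ^ (b + 1) * (X' + (1 + 2 ^ (K - i))) ≤ 2 ^ (b + 1) * (X + q) := Nat.mul_le_mul_left _ h2
      _ = 2 ^ (b + 1) * X + 2 * (2 ^ b * q) := by rw [pow_succ]; ring

theorem rt_prI_disj (m : ℕ) (I J : Finset (Fin m)) (h : Disjoint (prI m I) (prI m J)) :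
    Disjoint I J := by
  rw [Finset.disjoint_left] at h ⊢
  intro i hI hJ
  have hx : 2 * i.val < 2 * m := by have := i.isLt; omega
  have hp : pix m ⟨2 * i.val, hx⟩ = i := by
    unfold pix
    ext
    simp
  apply h (a := ⟨2 * i.val, hx⟩)
  · unfold prI; simp [hp, hI]
  · unfold prI; simp [hp, hJ]

variable {E : Type} [NormedAddCommGroup E] [InnerProductSpace ℝ E] [FiniteDimensional ℝ E]

theorem rt_family (b q K x : ℕ) (hq : Odd q) (hK : 2 ^ (K + 1) ≤ q)
    (ρ : Perm (Fin (2 * (2 ^ b * q))) →* (E ≃ₗᵢ[ℝ] E)) (n : ℕ) :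
    ∀ i : ℕ, i + n = K →
    DomB ρ (b + 2 + n) (tk n) (fun c : Fin (2 ^ i) => rtB b q K x i c.val) := by
  have hq2 : 2 ≤ q := le_trans (by
    calc 2 = 2 ^ 1 := by norm_num
      _ ≤ 2 ^ (K + 1) := Nat.pow_le_pow_right (by norm_num) (by omega)) hK
  have hq3 : 3 ≤ q := by
    obtain ⟨r, hr⟩ := hq
    omega
  induction n with
  | zero =>
    intro i hi
    have hiK : i = K := by omega
    subst hiK
    have h0 : tk 0 = 1 / 768 := by unfold tk; norm_num
    rw [h0]
    have e : ∀ c : ℕ, rtB b q i x i c =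
        arc (2 ^ b * q) (2 ^ (b + 1) * ((x + q * c) / 2 ^ i)) (2 ^ (b + 2)) := by
      intro c
      unfold rtB
      congr 1
      rw [Nat.sub_self, pow_add 2 b 2]
      norm_num
    have h := dom_base b q hq hq3 ρ (κ := Fin (2 ^ i)) (fun c => (x + q * c.val) / 2 ^ i) (by
      intro c c' hcc
      rw [← e, ← e]
      exact rt_disj b q i x i c.val c'.val hK le_rfl (fun h => hcc (Fin.ext h)) c.isLt c'.isLt)
    simp_rw [e]
    exact h
  | succ k ih =>
    intro i hi
    have hfam := ih (i + 1) (by omega)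
    have hKi : K - i = k + 1 := by omega
    have hKi1 : K - (i + 1) = k := by omega
    set X : ℕ → ℕ := fun c => (x + q * c) / 2 ^ i with hX
    set M : ℕ := 2 ^ b * (1 + 2 ^ (k + 1)) with hM
    have hMpos : 0 < M := by positivity
    have hpk : 1 + 2 ^ (k + 1) ≤ q := by
      have h1 : 2 ^ (k + 1) ≤ 2 ^ K := Nat.pow_le_pow_right (by norm_num) (by omega)
      have h2 : 1 ≤ 2 ^ K := Nat.one_le_two_pow
      rw [pow_succ] at hK
      omega
    have hMm : M ≤ 2 ^ b * q := Nat.mul_le_mul_left _ hpk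
    -- the parents
    have hpar : ∀ c : ℕ, rtB b q K x i c = prI (2 ^ b * q) (iarc (2 ^ b * q) (2 ^ b * X c) M) := by
      intro c
      rw [prI_iarc]
      unfold rtB
      rw [hKi, hM, hX]
      congr 1
      · rw [pow_succ]; ring
      · rw [pow_succ 2 (k + 1)]; ring
    have hsel := fun c : ℕ => arc_sel (2 ^ b * q) (2 ^ b * X c) M hMm
    choose sel hsel0 hsel1 using hsel
    have hlen : 2 ^ b * (2 + 2 ^ (K - (i + 1) + 1)) = 2 ^ b * (2 + 2 ^ (k + 1)) := by rw [hKi1]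
    have hsub0 : ∀ c : ℕ, arc (2 ^ b * q) (2 ^ b * X c) M ⊆ rtB b q K x (i + 1) c := by
      intro c
      unfold rtB
      rw [hlen, pow_succ 2 i, ← Nat.div_div_eq_div_mul]
      apply arc_sub
      · rw [pow_succ, mul_assoc]
        exact Nat.mul_le_mul_left _ (Nat.mul_div_le _ _)
      · rw [hM, pow_succ 2 b, mul_assoc, ← Nat.mul_add, ← Nat.mul_add]
        apply Nat.mul_le_mul_left
        have := Nat.div_add_mod (X c) 2
        have := Nat.mod_lt (X c) (by norm_num : 0 < 2)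
        simp only [hX] at *
        omega
    have hsub1 : ∀ c : ℕ, arc (2 ^ b * q) (2 ^ b * X c + 2 ^ b * q) M ⊆
        rtB b q K x (i + 1) (c + 2 ^ i) := by
      intro c
      unfold rtB
      rw [hlen, pow_succ 2 i, ← Nat.div_div_eq_div_mul]
      have h1 : (x + q * (c + 2 ^ i)) / 2 ^ i = X c + q := by
        rw [Nat.mul_add, ← Nat.add_assoc, Nat.add_mul_div_right _ _ (by positivity)]
      rw [h1, ← Nat.mul_add]
      apply arc_sub
      · rw [pow_succ, mul_assoc]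
        exact Nat.mul_le_mul_left _ (Nat.mul_div_le _ _)
      · rw [hM, pow_succ 2 b, mul_assoc, ← Nat.mul_add, ← Nat.mul_add]
        apply Nat.mul_le_mul_left
        have := Nat.div_add_mod (X c + q) 2
        have := Nat.mod_lt (X c + q) (by norm_num : 0 < 2)
        omega
    -- the embedding of the children
    set e : Fin (2 ^ i) ⊕ Fin (2 ^ i) → Fin (2 ^ (i + 1)) := Sum.elim
      (fun c => ⟨c.val, by have := c.isLt; rw [pow_succ]; omega⟩)
      (fun c => ⟨c.val + 2 ^ i, by have := c.isLt; rw [pow_succ]; omega⟩) with he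
    have heinj : Function.Injective e := by
      rintro (c | c) (c' | c') h
      · simp only [he, Sum.elim_inl, Fin.mk.injEq] at h
        rw [Fin.ext h]
      · simp only [he, Sum.elim_inl, Sum.elim_inr, Fin.mk.injEq] at h
        have := c.isLt; omega
      · simp only [he, Sum.elim_inl, Sum.elim_inr, Fin.mk.injEq] at h
        have := c'.isLt; omega
      · simp only [he, Sum.elim_inr, Fin.mk.injEq] at h
        have h' : c.val = c'.val := by omega
        rw [Fin.ext h']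
    have hpw : Pairwise fun c c' : Fin (2 ^ (i + 1)) =>
        Disjoint (rtB b q K x (i + 1) c.val) (rtB b q K x (i + 1) c'.val) := by
      intro c c' hcc
      exact rt_disj b q K x (i + 1) c.val c'.val hK (by omega) (fun h => hcc (Fin.ext h))
        c.isLt c'.isLt
    have helim : (Sum.elim (fun c : Fin (2 ^ i) => rtB b q K x (i + 1) c.val)
        (fun c : Fin (2 ^ i) => rtB b q K x (i + 1) (c.val + 2 ^ i))) =
        fun y => rtB b q K x (i + 1) (e y).val := by
      funext y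
      rcases y with c | c <;> rfl
    have htk0 : 0 ≤ tk k := le_trans (by norm_num) (tk_ge k)
    have hD : DomB ρ (b + 2 + k) (tk k) (Sum.elim
        (fun c : Fin (2 ^ i) => rtB b q K x (i + 1) c.val)
        (fun c : Fin (2 ^ i) => rtB b q K x (i + 1) (c.val + 2 ^ i))) := by
      rw [helim]
      exact DomB_sub ρ (b + 2 + k) (tk k) (tk k) htk0 le_rfl _ hpw e heinj hfam
    set r : ℝ := (1 + (2 : ℝ) ^ (k + 1)) / (2 + 2 ^ (k + 1)) with hr
    have hr0 : 0 ≤ r := by positivity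
    have hr1 : r ≤ 1 := by
      rw [hr, div_le_one (by positivity)]
      linarith
    have hcardI : ∀ c : ℕ, (iarc (2 ^ b * q) (2 ^ b * X c) M).card = M := fun c =>
      card_iarc _ _ _ hMm
    have hcardB : ∀ c : ℕ, r * ((rtB b q K x (i + 1) c).card : ℝ) ≤ (M : ℝ) := by
      intro c
      have h1 : (rtB b q K x (i + 1) c).card = 2 ^ b * (2 + 2 ^ (k + 1)) := by
        unfold rtB
        rw [hlen]
        apply card_arc
        calc 2 ^ b * (2 + 2 ^ (k + 1)) ≤ 2 ^ b * (2 * q) := Nat.mul_le_mul_left _ (by omega)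
          _ = 2 * (2 ^ b * q) := by ring
      rw [h1, hM, hr]
      push_cast
      have h2 : (0 : ℝ) < 2 + 2 ^ (k + 1) := by positivity
      rw [div_mul_eq_mul_div, div_le_iff₀ h2]
      exact le_of_eq (by ring)
    have hres := step2 ρ (b + 2 + k) (tk k) r M hMpos
      (fun c : Fin (2 ^ i) => iarc (2 ^ b * q) (2 ^ b * X c.val) M)
      (by
        intro c c' hcc
        apply rt_prI_disj
        rw [← hpar, ← hpar]
        exact rt_disj b q K x i c.val c'.val hK (by omega) (fun h => hcc (Fin.ext h))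
          c.isLt c'.isLt)
      (fun c => (hcardI c.val).ge)
      (fun c => sel c.val)
      (fun c : Fin (2 ^ i) => rtB b q K x (i + 1) c.val)
      (fun c : Fin (2 ^ i) => rtB b q K x (i + 1) (c.val + 2 ^ i))
      (by
        intro c j hj
        apply hsub0
        rw [← hsel0]
        exact Finset.mem_image_of_mem _ hj)
      (by
        intro c j hj
        apply hsub1
        rw [← hsel1]
        exact Finset.mem_image_of_mem _ hj)
      (by
        rw [helim]
        intro y y' hyy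
        exact hpw (heinj.ne hyy))
      hr0
      (fun c => by rw [hcardI]; exact hcardB c.val)
      (fun c => by rw [hcardI]; exact hcardB (c.val + 2 ^ i))
      htk0
      (by
        have := tk_le k
        nlinarith)
      hD
    have hMr : (M : ℝ) = 2 ^ b * (1 + 2 ^ (k + 1)) := by rw [hM]; push_cast; ring
    rw [hMr] at hres
    have hpw2 : Pairwise fun c c' : Fin (2 ^ i) =>
        Disjoint (prI (2 ^ b * q) (iarc (2 ^ b * q) (2 ^ b * X c.val) M))
          (prI (2 ^ b * q) (iarc (2 ^ b * q) (2 ^ b * X c'.val) M)) := by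
      intro c c' hcc
      rw [← hpar, ← hpar]
      exact rt_disj b q K x i c.val c'.val hK (by omega) (fun h => hcc (Fin.ext h))
        c.isLt c'.isLt
    have hfin := DomB_sub ρ (b + 2 + k + 1) _ (tk (k + 1)) (le_trans (by norm_num) (tk_ge (k + 1)))
      (tk_step b k) _ hpw2 id Function.injective_id hres
    have hfun : (fun c : Fin (2 ^ i) => rtB b q K x i c.val) =
        fun c => prI (2 ^ b * q) (iarc (2 ^ b * q) (2 ^ b * X c.val) M) := by
      funext c
      exact hpar c.val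
    rw [hfun]
    exact hfin

/-- Paper proof in `NOTES.md` (N9). -/
theorem dom_family (b q K x : ℕ) (hq : Odd q) (hK : 2 ^ (K + 1) ≤ q) (ρ : Perm (Fin (2 * (2 ^ b * q))) →* (E ≃ₗᵢ[ℝ] E))
    (i : ℕ) (hi : i ≤ K) :
    DomB ρ (b + 2 + (K - i)) (tk (K - i)) (fun c : Fin (2 ^ i) =>
      arc (2 ^ b * q) (2 ^ (b + 1) * ((x + q * c.val) / 2 ^ i)) (2 ^ b * (2 + 2 ^ (K - i + 1)))) :=
  rt_family b q K x hq hK ρ (K - i) i (by omega)

theorem dom_root (b q K x : ℕ) (hq : Odd q) (hK : 2 ^ (K + 1) ≤ q) (ρ : Perm (Fin (2 * (2 ^ b * q))) →* (E ≃ₗᵢ[ℝ] E)) :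
    DomB ρ (b + 2 + K) (1 / 3072) (fun _ : Unit => arc (2 ^ b * q) (2 ^ (b + 1) * x) (2 ^ b * (2 + 2 ^ (K + 1)))) := by
  have h := dom_family b q K x hq hK ρ 0 (Nat.zero_le _)
  have h2 := DomB_sub ρ _ (tk (K - 0)) (1 / 3072) (by norm_num) (tk_ge _) _ (by
    intro c c' hcc
    exact absurd (Subsingleton.elim (α := Fin 1) c c') hcc) (fun _ : Unit => (⟨0, by norm_num⟩ : Fin (2 ^ 0)))
    (fun _ _ _ => rfl) h
  simpa using h2

end Vale.Agent.P162
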