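import Vale.Agent.P162G.Defs
import Vale.Agent.P162G.Merge1
import Vale.Agent.P162G.Merge2

/-! P162G module N7: the network steps for families of disjoint blocks. -/

open Equiv

set_option linter.unusedSectionVars false

namespace Vale.Agent.P162

variable {E : Type} [NormedAddCommGroup E] [InnerProductSpace ℝ E] [FiniteDimensional ℝ E]

/-- average over one reversed shuffle -/
noncomputable def Rev {m : ℕ} (ρ : Perm (Fin (2 * m)) →* (E ≃ₗᵢ[ℝ] E)) : E →ₗ[ℝ] E :=
  ((2 : ℝ) ^ m)⁻¹ • ∑ c : Fin m → Bool, R ρ (St m c)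

/-- `Rev ^ k` is dominated by the exponential of `-s` times the sum of the block Laplacians -/
def DomB {m : ℕ} (ρ : Perm (Fin (2 * m)) →* (E ≃ₗᵢ[ℝ] E)) (k : ℕ) (s : ℝ) {κ : Type} [Fintype κ]
    (B : κ → Finset (Fin (2 * m))) : Prop :=
  ∀ u : E, ‖((Rev ρ) ^ k) u‖ ^ 2 ≤ inner ℝ u (ex (-(s • ∑ i, LX ρ (B i))) u)

/-- position with pair index `i` and bit `b` after a reversed step -/
def up (m : ℕ) (i : Fin m) (b : Bool) : Fin (2 * m) := ⟨i.val + (if b then m else 0), by split_ifs <;> omega⟩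

/-- the positions before a reversed step whose pair index is in `I` -/
def prI (m : ℕ) (I : Finset (Fin m)) : Finset (Fin (2 * m)) := Finset.univ.filter (fun x => pix m x ∈ I)

/-! ### auxiliary facts -/

section aux

variable {m : ℕ}

/-- position with pair index `i` and parity `b` before a reversed step -/
def dn (m : ℕ) (i : Fin m) (b : Bool) : Fin (2 * m) := ⟨2 * i.val + (if b then 1 else 0), by split_ifs <;> omega⟩

theorem pix_dn (i : Fin m) (b : Bool) : pix m (dn m i b) = i := by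
  unfold pix dn
  ext
  simp only
  split_ifs <;> omega

theorem par_dn (i : Fin m) (b : Bool) : par m (dn m i b) = b := by
  unfold par dn
  cases b <;> simp

theorem dn_pix (x : Fin (2 * m)) : dn m (pix m x) (par m x) = x := by
  unfold pix dn par
  ext
  rcases Nat.mod_two_eq_zero_or_one x.val with h | h
  · simp [h]
    omega
  · simp [h]
    omega

theorem St_dn (c : Fin m → Bool) (i : Fin m) (b : Bool) :
    St m c (dn m i b) = up m i (xor (c i) b) := by
  rw [St_apply, pix_dn, par_dn]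
  unfold ch up
  ext
  have h := congrArg Fin.val (pix_dn i b)
  have h2 : (dn m i b).val / 2 = i.val := h
  simp only [h2]

theorem flp_dn (c : Fin m → Bool) (i : Fin m) (b : Bool) :
    flp m c (dn m i b) = dn m i (xor (c i) b) := by
  have h0 : flp m c (dn m i b) = if c (pix m (dn m i b)) then
      ⟨2 * ((dn m i b).val / 2) + (1 - (dn m i b).val % 2), by omega⟩ else dn m i b := rfl
  rw [h0, pix_dn]
  cases hc : c i
  · simp
  · simp only [if_true, Bool.true_xor]
    ext
    unfold dn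
    cases b
    · simp
    · simp
      omega

theorem St_eq (c : Fin m → Bool) : St m c = St m (fun _ => false) * flp m c := by
  ext x
  rw [← dn_pix x, Perm.mul_apply, flp_dn, St_dn, St_dn, Bool.false_xor]

theorem flp_mul (c c' : Fin m → Bool) : flp m c * flp m c' = flp m (fun i => xor (c i) (c' i)) := by
  ext x
  rw [← dn_pix x, Perm.mul_apply, flp_dn, flp_dn, flp_dn, Bool.xor_assoc]

theorem flp_inv (c : Fin m → Bool) : (flp m c)⁻¹ = flp m c := by
  rw [inv_eq_iff_mul_eq_one, flp_mul]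
  ext x
  conv_lhs => rw [← dn_pix x, flp_dn]
  simp [dn_pix]

/-- average over the flips -/
noncomputable def AvF (ρ : Perm (Fin (2 * m)) →* (E ≃ₗᵢ[ℝ] E)) : E →ₗ[ℝ] E :=
  ((2 : ℝ) ^ m)⁻¹ • ∑ c : Fin m → Bool, R ρ (flp m c)

theorem AvF_apply (ρ : Perm (Fin (2 * m)) →* (E ≃ₗᵢ[ℝ] E)) (v : E) :
    AvF ρ v = ((2 : ℝ) ^ m)⁻¹ • ∑ c : Fin m → Bool, ρ (flp m c) v := by
  simp [AvF]

theorem Rev_eq (ρ : Perm (Fin (2 * m)) →* (E ≃ₗᵢ[ℝ] E)) (v : E) :
    Rev ρ v = ρ (St m (fun _ => false)) (AvF ρ v) := by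
  rw [AvF_apply, map_smul, map_sum]
  unfold Rev
  rw [LinearMap.smul_apply, LinearMap.sum_apply]
  congr 1
  refine Finset.sum_congr rfl fun c _ => ?_
  rw [R_apply, St_eq c, rho_mul]

theorem rho_flp_AvF (ρ : Perm (Fin (2 * m)) →* (E ≃ₗᵢ[ℝ] E)) (c : Fin m → Bool) (v : E) :
    ρ (flp m c) (AvF ρ v) = AvF ρ v := by
  rw [AvF_apply, map_smul, map_sum]
  congr 1
  have h1 : ∀ c' : Fin m → Bool, ρ (flp m c) (ρ (flp m c') v) =
      ρ (flp m (fun i => xor (c i) (c' i))) v := by
    intro c'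
    rw [← rho_mul, flp_mul]
  simp_rw [h1]
  refine Finset.sum_nbij' (fun c' i => xor (c i) (c' i)) (fun c' i => xor (c i) (c' i)) ?_ ?_ ?_ ?_ ?_
  · intro a _; exact Finset.mem_univ _
  · intro a _; exact Finset.mem_univ _
  · intro a _
    ext i
    simp
  · intro a _
    ext i
    simp
  · intro a _
    rfl

theorem AvF_symm (ρ : Perm (Fin (2 * m)) →* (E ≃ₗᵢ[ℝ] E)) : (AvF ρ).IsSymmetric := by
  intro u v
  rw [AvF_apply, AvF_apply, inner_smul_left, inner_smul_right, sum_inner, inner_sum]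
  simp only [conj_trivial]
  congr 1
  refine Finset.sum_congr rfl fun c _ => ?_
  rw [inner_rho_left, flp_inv]

theorem norm_AvF_le (ρ : Perm (Fin (2 * m)) →* (E ≃ₗᵢ[ℝ] E)) (v : E) : ‖AvF ρ v‖ ≤ ‖v‖ := by
  rw [AvF_apply, norm_smul]
  have h1 : ‖∑ c : Fin m → Bool, ρ (flp m c) v‖ ≤ ∑ c : Fin m → Bool, ‖v‖ := by
    refine (norm_sum_le _ _).trans (Finset.sum_le_sum fun c _ => ?_)
    rw [norm_rho]
  have h2 : ∑ c : Fin m → Bool, ‖v‖ = 2 ^ m * ‖v‖ := by
    rw [Finset.sum_const, Finset.card_univ, Fintype.card_fun, Fintype.card_bool, Fintype.card_fin,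
      nsmul_eq_mul]
    push_cast
    rfl
  rw [h2] at h1
  have h3 : ‖((2 : ℝ) ^ m)⁻¹‖ = ((2 : ℝ) ^ m)⁻¹ := by
    rw [Real.norm_of_nonneg (by positivity)]
  rw [h3]
  calc ((2 : ℝ) ^ m)⁻¹ * ‖∑ c : Fin m → Bool, ρ (flp m c) v‖
      ≤ ((2 : ℝ) ^ m)⁻¹ * (2 ^ m * ‖v‖) := mul_le_mul_of_nonneg_left h1 (by positivity)
    _ = ‖v‖ := by field_simp

/-- abstract merging of all blocks -/
theorem merge_all {κ : Type} [Fintype κ] [DecidableEq κ] (X Y : κ → (E →ₗ[ℝ] E)) (v : E)
    (Good : κ → (E →ₗ[ℝ] E) → Prop) (hG0 : ∀ a, Good a 0)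
    (hGadd : ∀ a C D, Good a C → Good a D → Good a (C + D))
    (hX : ∀ a b, b ≠ a → Good a (X b)) (hY : ∀ a b, b ≠ a → Good a (Y b))
    (h : ∀ a C, Good a C → inner ℝ v (ex (X a + C) v) ≤ inner ℝ v (ex (Y a + C) v)) :
    inner ℝ v (ex (∑ a, X a) v) ≤ inner ℝ v (ex (∑ a, Y a) v) := by
  have hGs : ∀ a (S : Finset κ) (Z : κ → (E →ₗ[ℝ] E)), (∀ b ∈ S, Good a (Z b)) →
      Good a (∑ b ∈ S, Z b) := by
    intro a S Z hZ
    induction S using Finset.induction_on with
    | empty => simpa using hG0 a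
    | insert b S hb ih =>
      rw [Finset.sum_insert hb]
      exact hGadd _ _ _ (hZ b (Finset.mem_insert_self _ _))
        (ih fun c hc => hZ c (Finset.mem_insert_of_mem hc))
  have main : ∀ T : Finset κ, inner ℝ v (ex (∑ a, X a) v) ≤
      inner ℝ v (ex (∑ a ∈ T, Y a + ∑ a ∈ Tᶜ, X a) v) := by
    intro T
    induction T using Finset.induction_on with
    | empty =>
      rw [Finset.sum_empty, zero_add, Finset.compl_empty]
    | insert a T ha ih =>
      refine ih.trans ?_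
      have haT : a ∈ Tᶜ := Finset.mem_compl.2 ha
      have e1 : ∑ b ∈ T, Y b + ∑ b ∈ Tᶜ, X b =
          X a + (∑ b ∈ T, Y b + ∑ b ∈ (insert a T)ᶜ, X b) := by
        rw [← Finset.add_sum_erase Tᶜ X haT, Finset.compl_insert]
        abel
      have e2 : ∑ b ∈ insert a T, Y b + ∑ b ∈ (insert a T)ᶜ, X b =
          Y a + (∑ b ∈ T, Y b + ∑ b ∈ (insert a T)ᶜ, X b) := by
        rw [Finset.sum_insert ha]
        abel
      rw [e1, e2]
      refine h a _ (hGadd _ _ _ (hGs _ _ _ fun b hb => hY a b ?_) (hGs _ _ _ fun b hb => hX a b ?_))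
      · rintro rfl
        exact ha hb
      · rintro rfl
        exact (Finset.mem_compl.1 hb) (Finset.mem_insert_self _ _)
  have := main Finset.univ
  rwa [Finset.compl_univ, Finset.sum_empty, add_zero] at this

/-! commutation and symmetry -/

theorem comm_iff {A B : E →ₗ[ℝ] E} :
    (∀ v, A (B v) = B (A v)) ↔ Commute (A : Module.End ℝ E) (B : Module.End ℝ E) := by
  constructor
  · intro h
    exact LinearMap.ext h
  · intro h v
    exact LinearMap.congr_fun h v

theorem symm_neg_smul {A : E →ₗ[ℝ] E} (hA : A.IsSymmetric) (s : ℝ) : (-(s • A)).IsSymmetric := by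
  intro u v
  simp only [LinearMap.neg_apply, LinearMap.smul_apply, inner_neg_left, inner_neg_right,
    inner_smul_left, inner_smul_right, conj_trivial, hA u v]

theorem symm_add {A B : E →ₗ[ℝ] E} (hA : A.IsSymmetric) (hB : B.IsSymmetric) :
    (A + B).IsSymmetric := by
  intro u v
  simp only [LinearMap.add_apply, inner_add_left, inner_add_right, hA u v, hB u v]

theorem symm_sum {κ : Type} (S : Finset κ) (A : κ → (E →ₗ[ℝ] E)) (hA : ∀ i, (A i).IsSymmetric) :
    (∑ i ∈ S, A i).IsSymmetric := by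
  intro u v
  simp only [LinearMap.sum_apply, inner_sum, sum_inner, hA _ u v]

theorem symm_zero : (0 : E →ₗ[ℝ] E).IsSymmetric := by
  intro u v
  simp

theorem LX_commute {α : Type} [Fintype α] [DecidableEq α] (ρ : Perm α →* (E ≃ₗᵢ[ℝ] E))
    (X Y : Finset α) (h : Disjoint X Y ∨ X ⊆ Y ∨ Y ⊆ X) :
    Commute (LX ρ X : Module.End ℝ E) (LX ρ Y : Module.End ℝ E) :=
  comm_iff.1 fun v => LX_comm ρ X Y h v

theorem inner_sum_LX_nonneg {α : Type} [Fintype α] [DecidableEq α] (ρ : Perm α →* (E ≃ₗᵢ[ℝ] E))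
    {κ : Type} (S : Finset κ) (B : κ → Finset α) (v : E) :
    0 ≤ inner ℝ v ((∑ i ∈ S, LX ρ (B i)) v) := by
  rw [LinearMap.sum_apply, inner_sum]
  exact Finset.sum_nonneg fun i _ => LX_nonneg ρ _ v

/-- the main reduction of one network step -/
theorem step_core (ρ : Perm (Fin (2 * m)) →* (E ≃ₗᵢ[ℝ] E)) (k : ℕ) {κ : Type} [Fintype κ] (s : ℝ)
    (B : κ → Finset (Fin (2 * m))) (hD : DomB ρ k s B) (c0 : Fin m → Bool) (Y : E →ₗ[ℝ] E)
    (hYs : Y.IsSymmetric) (hYc : ∀ c v, Y (ρ (flp m c) v) = ρ (flp m c) (Y v))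
    (hmain : ∀ v, (∀ c, ρ (flp m c) v = v) →
      inner ℝ v (ex (-(s • ∑ i, LX ρ ((B i).map ((St m c0)⁻¹).toEmbedding))) v) ≤
        inner ℝ v (ex Y v)) (u : E) :
    ‖((Rev ρ) ^ (k + 1)) u‖ ^ 2 ≤ inner ℝ u (ex Y u) := by
  set v := AvF ρ u with hv
  set σ := St m c0 with hσ
  have hvf : ∀ c, ρ (flp m c) v = v := fun c => rho_flp_AvF ρ c u
  have h1 : ((Rev ρ) ^ (k + 1)) u = ((Rev ρ) ^ k) (ρ σ v) := by
    rw [pow_succ, Module.End.mul_apply, Rev_eq, ← hv, hσ, St_eq c0, rho_mul, hvf c0]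
  have h2 : ∀ w : E, ρ σ ((-(s • ∑ i, LX ρ ((B i).map (σ⁻¹).toEmbedding))) w) =
      (-(s • ∑ i, LX ρ (B i))) (ρ σ w) := by
    intro w
    simp only [LinearMap.neg_apply, LinearMap.smul_apply, LinearMap.sum_apply, map_neg, map_smul,
      map_sum]
    congr 2
    refine Finset.sum_congr rfl fun i _ => ?_
    rw [← LX_conj, Finset.map_map]
    congr 2
    have : (σ⁻¹).toEmbedding.trans σ.toEmbedding = Function.Embedding.refl _ := by
      ext x
      simp
    rw [this, Finset.map_refl]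
  have h3 := ex_conj (-(s • ∑ i, LX ρ (B i))) (-(s • ∑ i, LX ρ ((B i).map (σ⁻¹).toEmbedding)))
    (ρ σ) h2 v
  have h4 := hD (ρ σ v)
  rw [← h3, (ρ σ).inner_map_map] at h4
  rw [h1]
  refine h4.trans ((hmain v hvf).trans ?_)
  rw [ex_form Y hYs, ex_form Y hYs]
  have h5 : ex ((1 / 2 : ℝ) • Y) v = AvF ρ (ex ((1 / 2 : ℝ) • Y) u) := by
    rw [hv]
    refine ex_comm _ _ (fun w => ?_) u
    rw [AvF_apply, AvF_apply]
    simp only [LinearMap.smul_apply, map_smul, map_sum, hYc]
  rw [h5]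
  exact pow_le_pow_left₀ (norm_nonneg _) (norm_AvF_le ρ _) 2

/-- the coins -/
theorem exists_sel {κ : Type} (I : κ → Finset (Fin m)) (hI : Pairwise fun a b => Disjoint (I a) (I b))
    (sel : κ → Fin m → Bool) : ∃ c0 : Fin m → Bool, ∀ a, ∀ i ∈ I a, c0 i = sel a i := by
  classical
  refine ⟨fun i => if h : ∃ a, i ∈ I a then sel h.choose i else false, fun a i hi => ?_⟩
  have h : ∃ a, i ∈ I a := ⟨a, hi⟩
  simp only [h, dif_pos]
  have h2 : h.choose = a := by
    by_contra hne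
    exact Finset.disjoint_left.1 (hI hne) h.choose_spec hi
  rw [h2]

/-- the block of the pairs in `I` -/
def fE (I : Finset (Fin m)) : Bool × {i // i ∈ I} ↪ Fin (2 * m) :=
  ⟨fun p => dn m p.2.1 p.1, by
    rintro ⟨b, i⟩ ⟨b', i'⟩ h
    have h1 := congrArg (pix m) h
    have h2 := congrArg (par m) h
    simp only [pix_dn] at h1
    simp only [par_dn] at h2
    rw [h2]
    congr 1
    exact Subtype.ext h1⟩

theorem map_fE (I : Finset (Fin m)) :
    (Finset.univ : Finset (Bool × {i // i ∈ I})).map (fE I) = prI m I := by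
  ext x
  simp only [Finset.mem_map, Finset.mem_univ, true_and, prI, Finset.mem_filter]
  constructor
  · rintro ⟨⟨b, i⟩, rfl⟩
    change pix m (dn m i.1 b) ∈ I
    rw [pix_dn]
    exact i.2
  · intro h
    exact ⟨(par m x, ⟨pix m x, h⟩), dn_pix x⟩

/-- half block -/
def hb (I : Finset (Fin m)) (b : Bool) : Finset (Fin (2 * m)) :=
  (Finset.univ : Finset {i // i ∈ I}).map (halfEmb b (fE I))

theorem mem_hb (I : Finset (Fin m)) (b : Bool) (x : Fin (2 * m)) :
    x ∈ hb I b ↔ ∃ i ∈ I, x = dn m i b := by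
  unfold hb
  simp only [Finset.mem_map, Finset.mem_univ, true_and]
  constructor
  · rintro ⟨i, rfl⟩
    exact ⟨i.1, i.2, rfl⟩
  · rintro ⟨i, hi, rfl⟩
    exact ⟨⟨i, hi⟩, rfl⟩

theorem card_hb (I : Finset (Fin m)) (b : Bool) : (hb I b).card = I.card := by
  unfold hb
  rw [Finset.card_map, Finset.card_univ, Fintype.card_coe]

theorem hb_sub (I : Finset (Fin m)) (b : Bool) : hb I b ⊆ prI m I := by
  intro x hx
  obtain ⟨i, hi, rfl⟩ := (mem_hb I b x).1 hx
  unfold prI
  rw [Finset.mem_filter]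
  exact ⟨Finset.mem_univ _, by rw [pix_dn]; exact hi⟩

theorem prI_disj {I J : Finset (Fin m)} (h : Disjoint I J) : Disjoint (prI m I) (prI m J) := by
  rw [Finset.disjoint_left] at h ⊢
  intro x hx hy
  unfold prI at hx hy
  exact h (Finset.mem_filter.1 hx).2 (Finset.mem_filter.1 hy).2

/-- invariance under the flips of one block -/
theorem bRep_flip (ρ : Perm (Fin (2 * m)) →* (E ≃ₗᵢ[ℝ] E)) (I : Finset (Fin m)) (v : E)
    (hv : ∀ c, ρ (flp m c) v = v) (c : {i // i ∈ I} → Bool) :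
    bRep ρ (fE I) (hflip c) v = v := by
  have h1 : Perm.viaEmbeddingHom (fE I) (hflip c) =
      flp m (fun i => if h : i ∈ I then c ⟨i, h⟩ else false) := by
    ext1 x
    rw [Perm.viaEmbeddingHom_apply]
    conv_rhs => rw [← dn_pix x, flp_dn]
    by_cases hx : pix m x ∈ I
    · have h2 : x = fE I (par m x, ⟨pix m x, hx⟩) := (dn_pix x).symm
      conv_lhs => rw [h2]
      rw [Perm.viaEmbedding_apply]
      simp only [hx, dif_pos]
      change dn m (pix m x) (xor (par m x) (c ⟨pix m x, hx⟩)) = _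
      rw [Bool.xor_comm]
    · have h2 : x ∉ Set.range (fE I) := by
        rintro ⟨⟨b, i⟩, rfl⟩
        apply hx
        change pix m (dn m i.1 b) ∈ I
        rw [pix_dn]
        exact i.2
      rw [Perm.viaEmbedding_apply_of_notMem _ _ _ h2]
      simp only [hx, dif_neg, not_false_eq_true, Bool.false_xor]
      exact (dn_pix x).symm
  change ρ (Perm.viaEmbeddingHom (fE I) (hflip c)) v = v
  rw [h1]
  exact hv _

/-- blocks disjoint from `prI I` commute with the block representation -/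
theorem LX_comm_bRep (ρ : Perm (Fin (2 * m)) →* (E ≃ₗᵢ[ℝ] E)) (I : Finset (Fin m))
    (X : Finset (Fin (2 * m))) (hX : Disjoint X (prI m I)) (g : Perm (Bool × {i // i ∈ I}))
    (v : E) : LX ρ X (bRep ρ (fE I) g v) = bRep ρ (fE I) g (LX ρ X v) := by
  change LX ρ X (ρ (Perm.viaEmbeddingHom (fE I) g) v) = ρ (Perm.viaEmbeddingHom (fE I) g) (LX ρ X v)
  have hfix : ∀ x, x ∉ prI m I → Perm.viaEmbeddingHom (fE I) g x = x := by
    intro x hx
    rw [Perm.viaEmbeddingHom_apply]
    refine Perm.viaEmbedding_apply_of_notMem _ _ _ ?_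
    rintro ⟨p, rfl⟩
    apply hx
    rw [← map_fE]
    exact Finset.mem_map_of_mem _ (Finset.mem_univ _)
  refine LX_comm_rho ρ X _ (fun x => ?_) v
  constructor
  · intro hx
    rw [hfix x (Finset.disjoint_left.1 hX hx)]
    exact hx
  · intro hx
    have h1 := Finset.disjoint_left.1 hX hx
    have h2 : x ∉ prI m I := fun h => h1 ((mem_iff_of_supp hfix x).1 h)
    rwa [hfix x h2] at hx

/-- blocks stable under flips -/
theorem LX_comm_flp (ρ : Perm (Fin (2 * m)) →* (E ≃ₗᵢ[ℝ] E)) (I : Finset (Fin m))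
    (c : Fin m → Bool) (v : E) :
    LX ρ (prI m I) (ρ (flp m c) v) = ρ (flp m c) (LX ρ (prI m I) v) := by
  refine LX_comm_rho ρ _ _ (fun x => ?_) v
  have h : pix m (flp m c x) = pix m x := by
    conv_lhs => rw [← dn_pix x, flp_dn, pix_dn]
  unfold prI
  simp only [Finset.mem_filter, Finset.mem_univ, true_and, h]

/-- merging all blocks in both-sided form -/
theorem merge_blocks2 (ρ : Perm (Fin (2 * m)) →* (E ≃ₗᵢ[ℝ] E)) {κ : Type} [Fintype κ]
    (I : κ → Finset (Fin m)) (hI : Pairwise fun a b => Disjoint (I a) (I b)) (M : ℕ) (hM : 0 < M)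
    (hIM : ∀ a, M ≤ (I a).card) (s : ℝ) (hs : 0 ≤ s) (hs' : s ≤ 1 / 24) (v : E)
    (hv : ∀ c, ρ (flp m c) v = v) :
    inner ℝ v (ex (∑ a, -(s • (LX ρ (hb (I a) false) + LX ρ (hb (I a) true)))) v) ≤
      inner ℝ v (ex (∑ a, -((s - s ^ 2 / M) • LX ρ (prI m (I a)))) v) := by
  classical
  refine merge_all _ _ v (fun a C => C.IsSymmetric ∧ ∀ (g : Perm (Bool × {i // i ∈ I a})) (w : E),
    C (bRep ρ (fE (I a)) g w) = bRep ρ (fE (I a)) g (C w)) (fun a => ⟨symm_zero, fun g w => by simp⟩)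
    (fun a C D hC hD => ⟨symm_add hC.1 hD.1, fun g w => by
      rw [LinearMap.add_apply, LinearMap.add_apply, map_add, hC.2, hD.2]⟩)
    (fun a b hab => ⟨symm_neg_smul (symm_add (LX_symm ρ _) (LX_symm ρ _)) _, fun g w => ?_⟩)
    (fun a b hab => ⟨symm_neg_smul (LX_symm ρ _) _, fun g w => ?_⟩)
    (fun a C hC => ?_)
  · have hd := prI_disj (hI hab)
    have h1 := LX_comm_bRep ρ (I a) (hb (I b) false) (Finset.disjoint_of_subset_left (hb_sub _ _) hd) g w
    have h2 := LX_comm_bRep ρ (I a) (hb (I b) true) (Finset.disjoint_of_subset_left (hb_sub _ _) hd) g w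
    simp only [LinearMap.neg_apply, LinearMap.smul_apply, LinearMap.add_apply, map_neg, map_smul,
      map_add, h1, h2]
  · have hd := prI_disj (hI hab)
    have h1 := LX_comm_bRep ρ (I a) (prI m (I b)) hd g w
    simp only [LinearMap.neg_apply, LinearMap.smul_apply, map_neg, map_smul, h1]
  · have hcard : (Fintype.card {i // i ∈ I a}) = (I a).card := Fintype.card_coe _
    have hpos : 0 < Fintype.card {i // i ∈ I a} := by
      rw [hcard]
      exact lt_of_lt_of_le hM (hIM a)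
    have h1 := merge2 hpos ρ (fE (I a)) s hs hs' C hC.1 hC.2 v (fun c => bRep_flip ρ (I a) v hv c)
    rw [map_fE] at h1
    refine h1.trans ?_
    have hcomm : ∀ w, LX ρ (prI m (I a)) (C w) = C (LX ρ (prI m (I a)) w) := by
      intro w
      have h2 : ∀ w, LX ρ (prI m (I a)) w =
          (1 / (2 * (Fintype.card (Bool × {i // i ∈ I a}) : ℝ))) • lap (bRep ρ (fE (I a))) w := by
        intro w
        rw [← LX_map, map_fE]
      rw [h2, h2, map_smul, lap_comm_of_comm (bRep ρ (fE (I a))) C hC.2]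
    refine ex_mono _ _ (symm_add (symm_neg_smul (LX_symm ρ _) _) hC.1)
      (symm_add (symm_neg_smul (LX_symm ρ _) _) hC.1) ?_ ?_ v
    · intro w
      simp only [LinearMap.neg_apply, LinearMap.smul_apply, LinearMap.add_apply, map_neg, map_smul,
        map_add, hcomm]
      module
    · intro w
      simp only [LinearMap.neg_apply, LinearMap.smul_apply, LinearMap.add_apply, inner_add_right,
        inner_neg_right, inner_smul_right]
      have h3 := LX_nonneg ρ (prI m (I a)) w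
      have h4 : s ^ 2 / (Fintype.card {i // i ∈ I a} : ℝ) ≤ s ^ 2 / (M : ℝ) := by
        refine div_le_div_of_nonneg_left (by positivity) (by exact_mod_cast hM) ?_
        rw [hcard]
        exact_mod_cast hIM a
      nlinarith

/-- merging all blocks in one-sided form -/
theorem merge_blocks1 (ρ : Perm (Fin (2 * m)) →* (E ≃ₗᵢ[ℝ] E)) {κ : Type} [Fintype κ]
    (I : κ → Finset (Fin m)) (hI : Pairwise fun a b => Disjoint (I a) (I b))
    (hI0 : ∀ a, (I a).Nonempty) (s : ℝ) (hs : 0 ≤ s) (hs' : s ≤ 1 / 192) (v : E)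
    (hv : ∀ c, ρ (flp m c) v = v) :
    inner ℝ v (ex (∑ a, -(s • LX ρ (hb (I a) false))) v) ≤
      inner ℝ v (ex (∑ a, -((s / 4) • LX ρ (prI m (I a)))) v) := by
  classical
  refine merge_all _ _ v (fun a C => C.IsSymmetric ∧ ∀ (g : Perm (Bool × {i // i ∈ I a})) (w : E),
    C (bRep ρ (fE (I a)) g w) = bRep ρ (fE (I a)) g (C w)) (fun a => ⟨symm_zero, fun g w => by simp⟩)
    (fun a C D hC hD => ⟨symm_add hC.1 hD.1, fun g w => by
      rw [LinearMap.add_apply, LinearMap.add_apply, map_add, hC.2, hD.2]⟩)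
    (fun a b hab => ⟨symm_neg_smul (LX_symm ρ _) _, fun g w => ?_⟩)
    (fun a b hab => ⟨symm_neg_smul (LX_symm ρ _) _, fun g w => ?_⟩)
    (fun a C hC => ?_)
  · have hd := prI_disj (hI hab)
    have h1 := LX_comm_bRep ρ (I a) (hb (I b) false) (Finset.disjoint_of_subset_left (hb_sub _ _) hd) g w
    simp only [LinearMap.neg_apply, LinearMap.smul_apply, map_neg, map_smul, h1]
  · have hd := prI_disj (hI hab)
    have h1 := LX_comm_bRep ρ (I a) (prI m (I b)) hd g w
    simp only [LinearMap.neg_apply, LinearMap.smul_apply, map_neg, map_smul, h1]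
  · have hcard : (Fintype.card {i // i ∈ I a}) = (I a).card := Fintype.card_coe _
    have hpos : 0 < Fintype.card {i // i ∈ I a} := by
      rw [hcard]
      exact Finset.card_pos.2 (hI0 a)
    have h1 := merge1 hpos ρ (fE (I a)) s hs hs' C hC.1 hC.2 v (fun c => bRep_flip ρ (I a) v hv c)
    rw [map_fE] at h1
    exact h1

/-- a half block is sent by the reversed step into the chosen children -/
theorem hb_sub_map (c0 : Fin m → Bool) (I : Finset (Fin m)) (b : Bool) (B : Finset (Fin (2 * m)))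
    (h : ∀ i ∈ I, up m i (xor (c0 i) b) ∈ B) :
    hb I b ⊆ B.map ((St m c0)⁻¹).toEmbedding := by
  intro x hx
  obtain ⟨i, hi, rfl⟩ := (mem_hb I b x).1 hx
  rw [Finset.mem_map_equiv]
  change (St m c0) (dn m i b) ∈ B
  rw [St_dn]
  exact h i hi

end aux

/-- singletons: level `0` -/
theorem DomB_zero {m : ℕ} (ρ : Perm (Fin (2 * m)) →* (E ≃ₗᵢ[ℝ] E)) (s : ℝ) {κ : Type} [Fintype κ]
    (B : κ → Finset (Fin (2 * m))) (hB : ∀ i, (B i).card ≤ 1) : DomB ρ 0 s B := by
  intro u
  have h : -(s • ∑ i, LX ρ (B i)) = 0 := by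
    have h0 : ∑ i, LX ρ (B i) = 0 := Finset.sum_eq_zero fun i _ => LinearMap.ext fun v => by
      rw [LX_singleton ρ _ (hB i)]
      rfl
    rw [h0]
    simp
  rw [h, ex_zero, pow_zero, Module.End.one_apply, real_inner_self_eq_norm_sq]

/-- subfamilies (through an injection of the index set) and smaller `s` -/
theorem DomB_sub {m : ℕ} (ρ : Perm (Fin (2 * m)) →* (E ≃ₗᵢ[ℝ] E)) (k : ℕ) (s s' : ℝ) (hs : 0 ≤ s') (hss : s' ≤ s)
    {κ κ' : Type} [Fintype κ] [Fintype κ'] (B : κ → Finset (Fin (2 * m))) (hB : Pairwise fun i j => Disjoint (B i) (B j))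
    (e : κ' → κ) (he : Function.Injective e) (h : DomB ρ k s B) : DomB ρ k s' (fun i => B (e i)) := by
  classical
  intro u
  refine (h u).trans ?_
  refine ex_mono _ _ (symm_neg_smul (symm_sum _ _ fun i => LX_symm ρ _) _)
    (symm_neg_smul (symm_sum _ _ fun i => LX_symm ρ _) _) ?_ (fun v => ?_) u
  · rw [comm_iff]
    refine Commute.neg_left (Commute.neg_right (Commute.smul_left (Commute.smul_right ?_ _) _))
    refine Commute.sum_left _ _ _ fun i _ => Commute.sum_right _ _ _ fun j _ => ?_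
    refine LX_commute ρ _ _ ?_
    by_cases hij : i = e j
    · exact Or.inr (Or.inl (by rw [hij]))
    · exact Or.inl (hB hij)
  · simp only [LinearMap.neg_apply, LinearMap.smul_apply, inner_neg_right, inner_smul_right]
    have h0 := inner_sum_LX_nonneg ρ Finset.univ (fun i => B (e i)) v
    have h1 : inner ℝ v ((∑ i, LX ρ (B (e i))) v) ≤ inner ℝ v ((∑ i, LX ρ (B i)) v) := by
      rw [LinearMap.sum_apply, LinearMap.sum_apply, inner_sum, inner_sum]
      have h2 : ∑ i, inner ℝ v (LX ρ (B (e i)) v) =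
          ∑ j ∈ (Finset.univ : Finset κ').map ⟨e, he⟩, inner ℝ v (LX ρ (B j) v) := by
        rw [Finset.sum_map]
        rfl
      rw [h2]
      exact Finset.sum_le_sum_of_subset_of_nonneg (Finset.subset_univ _)
        fun i _ _ => LX_nonneg ρ _ v
    nlinarith

/-- two-sided step.  `sel a i` tells which of the two children positions of pair `i` lies in `B0 a`. -/
theorem step2 {m : ℕ} (ρ : Perm (Fin (2 * m)) →* (E ≃ₗᵢ[ℝ] E)) (k : ℕ) (s r : ℝ) (M : ℕ) (hM : 0 < M)
    {κ : Type} [Fintype κ] (I : κ → Finset (Fin m)) (hI : Pairwise fun a b => Disjoint (I a) (I b))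
    (hIM : ∀ a, M ≤ (I a).card) (sel : κ → Fin m → Bool) (B0 B1 : κ → Finset (Fin (2 * m)))
    (h0 : ∀ a, ∀ i ∈ I a, up m i (sel a i) ∈ B0 a) (h1 : ∀ a, ∀ i ∈ I a, up m i (!sel a i) ∈ B1 a)
    (hdis : Pairwise fun x y => Disjoint (Sum.elim B0 B1 x) (Sum.elim B0 B1 y))
    (hr0 : 0 ≤ r) (hr1 : ∀ a, r * (B0 a).card ≤ (I a).card) (hr2 : ∀ a, r * (B1 a).card ≤ (I a).card)
    (hs : 0 ≤ s) (hs' : r * s ≤ 1 / 24)
    (hD : DomB ρ k s (Sum.elim B0 B1)) :
    DomB ρ (k + 1) (r * s - (r * s) ^ 2 / M) (fun a => prI m (I a)) := by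
  classical
  obtain ⟨c0, hc0⟩ := exists_sel I hI sel
  intro u
  have hsum : ∑ a, -((r * s - (r * s) ^ 2 / M) • LX ρ (prI m (I a))) =
      -((r * s - (r * s) ^ 2 / M) • ∑ a, LX ρ (prI m (I a))) := by
    rw [Finset.sum_neg_distrib, Finset.smul_sum]
  refine step_core ρ k s (Sum.elim B0 B1) hD c0 _
    (symm_neg_smul (symm_sum _ _ fun i => LX_symm ρ _) _) (fun c v => ?_) (fun v hv => ?_) u
  · simp only [LinearMap.neg_apply, LinearMap.smul_apply, LinearMap.sum_apply, map_neg, map_smul,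
      map_sum, LX_comm_flp]
  rw [← hsum]
  refine le_trans ?_ (merge_blocks2 ρ I hI M hM hIM (r * s) (mul_nonneg hr0 hs) hs' v hv)
  -- the half blocks
  have hE0 : ∀ a, hb (I a) false ⊆ (B0 a).map ((St m c0)⁻¹).toEmbedding := fun a =>
    hb_sub_map c0 _ _ _ fun i hi => by
      rw [hc0 a i hi, Bool.xor_false]
      exact h0 a i hi
  have hE1 : ∀ a, hb (I a) true ⊆ (B1 a).map ((St m c0)⁻¹).toEmbedding := fun a =>
    hb_sub_map c0 _ _ _ fun i hi => by
      rw [hc0 a i hi, Bool.xor_true]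
      exact h1 a i hi
  have hdis' : ∀ x y, x ≠ y → Disjoint ((Sum.elim B0 B1 x).map ((St m c0)⁻¹).toEmbedding)
      ((Sum.elim B0 B1 y).map ((St m c0)⁻¹).toEmbedding) := fun x y hxy =>
    (Finset.disjoint_map _).2 (hdis hxy)
  have hEx : ∀ a b (x : κ ⊕ κ), Disjoint ((Sum.elim B0 B1 x).map ((St m c0)⁻¹).toEmbedding) (hb (I a) b) ∨
      (Sum.elim B0 B1 x).map ((St m c0)⁻¹).toEmbedding ⊆ hb (I a) b ∨
      hb (I a) b ⊆ (Sum.elim B0 B1 x).map ((St m c0)⁻¹).toEmbedding := by
    intro a b x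
    cases b
    · by_cases hx : x = Sum.inl a
      · right; right
        rw [hx]
        exact hE0 a
      · left
        exact Finset.disjoint_of_subset_right (hE0 a) (hdis' x (Sum.inl a) hx)
    · by_cases hx : x = Sum.inr a
      · right; right
        rw [hx]
        exact hE1 a
      · left
        exact Finset.disjoint_of_subset_right (hE1 a) (hdis' x (Sum.inr a) hx)
  have hr : ∀ (a : κ) (b : Bool) (B : Finset (Fin (2 * m))), r * B.card ≤ (I a).card →
      hb (I a) b ⊆ B.map ((St m c0)⁻¹).toEmbedding → ∀ w : E,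
      r * inner ℝ w (LX ρ (hb (I a) b) w) ≤
        inner ℝ w (LX ρ (B.map ((St m c0)⁻¹).toEmbedding) w) := by
    intro a b B hrB hsub w
    have hpos : 0 < (I a).card := lt_of_lt_of_le hM (hIM a)
    have hcB : 0 < (B.card : ℝ) := by
      have h2 := Finset.card_le_card hsub
      rw [card_hb, Finset.card_map] at h2
      exact_mod_cast lt_of_lt_of_le hpos h2
    have h3 := LX_mono ρ _ _ hsub w
    rw [card_hb, Finset.card_map] at h3
    refine le_trans (mul_le_mul_of_nonneg_right ?_ (LX_nonneg ρ _ w)) h3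
    rw [le_div_iff₀ hcB]
    exact hrB
  refine ex_mono _ _ (symm_neg_smul (symm_sum _ _ fun i => LX_symm ρ _) _)
    (symm_sum _ _ fun a => symm_neg_smul (symm_add (LX_symm ρ _) (LX_symm ρ _)) _) ?_ (fun w => ?_) v
  · rw [comm_iff]
    refine Commute.neg_left (Commute.smul_left (Commute.sum_left _ _ _ fun x _ =>
      Commute.sum_right _ _ _ fun a _ => Commute.neg_right (Commute.smul_right
        (Commute.add_right ?_ ?_) _)) _)
    · exact LX_commute ρ _ _ (hEx a false x)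
    · exact LX_commute ρ _ _ (hEx a true x)
  · simp only [LinearMap.neg_apply, LinearMap.smul_apply, LinearMap.add_apply,
      LinearMap.sum_apply, inner_neg_right, inner_smul_right, inner_sum, inner_add_right,
      Finset.sum_neg_distrib, Fintype.sum_sum_type, Sum.elim_inl, Sum.elim_inr]
    rw [neg_le_neg_iff, ← Finset.sum_add_distrib, Finset.mul_sum]
    refine Finset.sum_le_sum fun a _ => ?_
    have e0 := hr a false (B0 a) (hr1 a) (hE0 a) w
    have e1 := hr a true (B1 a) (hr2 a) (hE1 a) w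
    nlinarith

/-- one-sided step -/
theorem step1 {m : ℕ} (ρ : Perm (Fin (2 * m)) →* (E ≃ₗᵢ[ℝ] E)) (k : ℕ) (s : ℝ)
    {κ : Type} [Fintype κ] (I : κ → Finset (Fin m)) (hI : Pairwise fun a b => Disjoint (I a) (I b))
    (hI0 : ∀ a, (I a).Nonempty) (sel : κ → Fin m → Bool) (hs : 0 ≤ s) (hs' : s ≤ 1 / 192)
    (hD : DomB ρ k s (fun a => (I a).image (fun i => up m i (sel a i)))) :
    DomB ρ (k + 1) (s / 4) (fun a => prI m (I a)) := by
  classical
  obtain ⟨c0, hc0⟩ := exists_sel I hI sel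
  intro u
  have hsum : ∑ a, -((s / 4) • LX ρ (prI m (I a))) = -((s / 4) • ∑ a, LX ρ (prI m (I a))) := by
    rw [Finset.sum_neg_distrib, Finset.smul_sum]
  refine step_core ρ k s _ hD c0 _
    (symm_neg_smul (symm_sum _ _ fun i => LX_symm ρ _) _) (fun c v => ?_) (fun v hv => ?_) u
  · simp only [LinearMap.neg_apply, LinearMap.smul_apply, LinearMap.sum_apply, map_neg, map_smul,
      map_sum, LX_comm_flp]
  rw [← hsum]
  refine le_trans (le_of_eq ?_) (merge_blocks1 ρ I hI hI0 s hs hs' v hv)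
  have hE : ∀ a, ((I a).image (fun i => up m i (sel a i))).map ((St m c0)⁻¹).toEmbedding =
      hb (I a) false := by
    intro a
    symm
    refine Finset.eq_of_subset_of_card_le (hb_sub_map c0 _ _ _ fun i hi => ?_) ?_
    · rw [hc0 a i hi, Bool.xor_false]
      exact Finset.mem_image_of_mem _ hi
    · rw [Finset.card_map, card_hb]
      exact Finset.card_image_le
  rw [Finset.sum_neg_distrib, ← Finset.smul_sum]
  simp only [hE]

end Vale.Agent.P162
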