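import Vale.Agent.P162G.K1

/-! P162G module M4: the weights. -/

open Equiv

set_option linter.unusedSectionVars false

namespace Vale.Agent.P162

open Classical in
/-- the weights: single card kernel plus a small constant on the reachable region -/
noncomputable def tau (m ti : ℕ) (ζ : ℝ) (s : ℕ) (x y : Fin (2 * m)) : ℝ :=
  k1 m s x y + ζ * (if s ≤ ti then (if near m s x y then (1 / 2) ^ s else 0) else (1 / 2) ^ ti)

open Classical in
theorem tau_nonneg (m ti : ℕ) (ζ : ℝ) (hζ : 0 ≤ ζ) (s : ℕ) (x y : Fin (2 * m)) : 0 ≤ tau m ti ζ s x y := by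
  unfold tau
  refine add_nonneg (k1_nonneg m s x y) (mul_nonneg hζ ?_)
  split_ifs <;> positivity

open Classical in
theorem tau_zero_self (m ti : ℕ) (ζ : ℝ) (hζ : 0 ≤ ζ) (x : Fin (2 * m)) : 1 ≤ tau m ti ζ 0 x x := by
  unfold tau
  have h1 : k1 m 0 x x = 1 := by simp [k1]
  rw [h1]
  have : 0 ≤ ζ * (if 0 ≤ ti then (if near m 0 x x then (1 / 2 : ℝ) ^ 0 else 0) else (1 / 2) ^ ti) := by
    refine mul_nonneg hζ ?_
    split_ifs <;> positivity
  linarith

open Classical in
theorem tau_zero_imp (m ti : ℕ) (ζ : ℝ) (hζ : 0 < ζ) (s : ℕ) (x y : Fin (2 * m)) (h : tau m ti ζ s x y = 0)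
    (ω ω' : ℕ → Fin m → Bool) : RR m s ω x ≠ RR m s ω' y := by
  refine k1_zero_imp m s x y ?_ ω ω'
  unfold tau at h
  have h1 := k1_nonneg m s x y
  have h2 : 0 ≤ ζ * (if s ≤ ti then (if near m s x y then (1 / 2 : ℝ) ^ s else 0) else (1 / 2) ^ ti) := by
    refine mul_nonneg hζ.le ?_
    split_ifs <;> positivity
  linarith

/-- the error of layer `s` -/
noncomputable def et (a : ℕ) (ζ : ℝ) (s : ℕ) : ℝ := if s + 1 ≤ a then 0 else 2 ^ a / (2 ^ (s + 1) * ζ)

open Classical in
theorem tau_row (m a q ti : ℕ) (ζ : ℝ) (hζ : 0 < ζ) (hm : 2 * m = 2 ^ a * q) (hq : Odd q) (hti : 2 ^ (ti + 1) ≤ 2 * m)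
    (s : ℕ) (hs : s + 1 ≤ ti) (x y : Fin (2 * m)) :
    ∃ δ : Bool, ∀ b b' : Bool, (b' ≠ xor b δ → tau m ti ζ s (ch m x b) (ch m y b') = 0) ∧
      tau m ti ζ s (ch m x b) (ch m y b') ≤ 2 * (1 + et a ζ s) * tau m ti ζ (s + 1) x y := by
  have hs2 : 2 ^ (s + 1) ≤ m := by
    have h1 : 2 ^ (s + 1) ≤ 2 ^ ti := Nat.pow_le_pow_right (by norm_num) hs
    have h2 : 2 ^ (ti + 1) = 2 * 2 ^ ti := by ring
    omega
  have hsti : s ≤ ti := by omega
  have het : 0 ≤ et a ζ s := by
    unfold et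
    split_ifs
    · exact le_rfl
    · positivity
  obtain ⟨δ, hδ⟩ := near_bit m s hs2 x y
  refine ⟨δ, fun b b' => ⟨fun hb => ?_, ?_⟩⟩
  · have hn : ¬ near m s (ch m x b) (ch m y b') := fun h => hb (hδ b b' h)
    unfold tau
    rw [k1_eq_zero m s _ _ hn, if_pos hsti, if_neg hn]
    ring
  · by_cases hn : near m s (ch m x b) (ch m y b')
    · have hn1 : near m (s + 1) x y := near_of_ch m s x y b b' hn
      have h1 := k1_row m a q s hm hq hs2 x y b
      have h2 : k1 m s (ch m x b) (ch m y b') ≤ ∑ b' : Bool, k1 m s (ch m x b) (ch m y b') :=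
        Finset.single_le_sum (f := fun b' => k1 m s (ch m x b) (ch m y b'))
          (fun b' _ => k1_nonneg m s _ _) (Finset.mem_univ b')
      have h3 := (abs_le.1 h1).2
      have h4 : tau m ti ζ (s + 1) x y = k1 m (s + 1) x y + ζ * (1 / 2) ^ (s + 1) := by
        unfold tau
        rw [if_pos hs, if_pos hn1]
      have h5 : tau m ti ζ s (ch m x b) (ch m y b') =
          k1 m s (ch m x b) (ch m y b') + ζ * (1 / 2) ^ s := by
        unfold tau
        rw [if_pos hsti, if_pos hn]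
      have h6 : (if s + 1 ≤ a then 0 else (2 : ℝ) ^ a / 4 ^ (s + 1)) = et a ζ s * (ζ * (1 / 2) ^ (s + 1)) := by
        unfold et
        split_ifs
        · ring
        · have e1 : (4 : ℝ) ^ (s + 1) = 2 ^ (s + 1) * 2 ^ (s + 1) := by
            rw [← mul_pow]; norm_num
          rw [e1, div_pow, one_pow]
          field_simp
      rw [h6] at h3
      have h7 : et a ζ s * (ζ * (1 / 2) ^ (s + 1)) ≤ et a ζ s * tau m ti ζ (s + 1) x y := by
        refine mul_le_mul_of_nonneg_left ?_ het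
        rw [h4]
        have := k1_nonneg m (s + 1) x y
        linarith
      rw [h5]
      have h8 : ζ * (1 / 2 : ℝ) ^ s = 2 * (ζ * (1 / 2) ^ (s + 1)) := by
        rw [pow_succ]; ring
      rw [h8]
      have h9 : 2 * (1 + et a ζ s) * tau m ti ζ (s + 1) x y =
          2 * tau m ti ζ (s + 1) x y + 2 * (et a ζ s * tau m ti ζ (s + 1) x y) := by ring
      rw [h9]
      rw [h4] at h7 ⊢
      linarith
    · have h5 : tau m ti ζ s (ch m x b) (ch m y b') = 0 := by
        unfold tau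
        rw [k1_eq_zero m s _ _ hn, if_pos hsti, if_neg hn]
        ring
      rw [h5]
      have := tau_nonneg m ti ζ hζ.le (s + 1) x y
      positivity

open Classical in
theorem tau_avg (m ti : ℕ) (ζ : ℝ) (hζ : 0 < ζ) (hti : 2 ^ (ti + 1) ≤ 2 * m) (s : ℕ) (x y : Fin (2 * m)) :
    (1 / 4) * ∑ b : Bool, ∑ b' : Bool, tau m ti ζ s (ch m x b) (ch m y b') ≤ tau m ti ζ (s + 1) x y := by
  have key : (1 / 4 : ℝ) * ∑ b : Bool, ∑ b' : Bool,
      (if s ≤ ti then (if near m s (ch m x b) (ch m y b') then (1 / 2 : ℝ) ^ s else 0) else (1 / 2) ^ ti)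
      ≤ (if s + 1 ≤ ti then (if near m (s + 1) x y then (1 / 2) ^ (s + 1) else 0) else (1 / 2) ^ ti) := by
    by_cases h1 : s + 1 ≤ ti
    · have hs2 : 2 ^ (s + 1) ≤ m := by
        have h1 : 2 ^ (s + 1) ≤ 2 ^ ti := Nat.pow_le_pow_right (by norm_num) h1
        have h2 : 2 ^ (ti + 1) = 2 * 2 ^ ti := by ring
        omega
      have hsti : s ≤ ti := by omega
      simp only [if_pos h1, if_pos hsti]
      by_cases hn1 : near m (s + 1) x y
      · rw [if_pos hn1]
        obtain ⟨δ, hδ⟩ := near_bit m s hs2 x y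
        have h2 : ∀ b : Bool, ∑ b' : Bool, (if near m s (ch m x b) (ch m y b') then (1 / 2 : ℝ) ^ s else 0)
            ≤ (1 / 2) ^ s := by
          intro b
          calc ∑ b' : Bool, (if near m s (ch m x b) (ch m y b') then (1 / 2 : ℝ) ^ s else 0)
              ≤ ∑ b' : Bool, (if b' = xor b δ then (1 / 2 : ℝ) ^ s else 0) := by
                refine Finset.sum_le_sum fun b' _ => ?_
                by_cases hn : near m s (ch m x b) (ch m y b')
                · rw [if_pos hn, if_pos (hδ b b' hn)]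
                · rw [if_neg hn]
                  split_ifs <;> positivity
            _ = (1 / 2) ^ s := by
                rw [Finset.sum_ite_eq' Finset.univ]
                simp
        calc (1 / 4 : ℝ) * ∑ b : Bool, ∑ b' : Bool,
              (if near m s (ch m x b) (ch m y b') then (1 / 2 : ℝ) ^ s else 0)
            ≤ (1 / 4) * ∑ _b : Bool, (1 / 2 : ℝ) ^ s :=
              mul_le_mul_of_nonneg_left (Finset.sum_le_sum fun b _ => h2 b) (by norm_num)
          _ = (1 / 2) ^ (s + 1) := by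
              rw [Finset.sum_const, Finset.card_univ, Fintype.card_bool, nsmul_eq_mul, pow_succ]
              push_cast
              ring
      · rw [if_neg hn1]
        have h2 : ∀ b b' : Bool, ¬ near m s (ch m x b) (ch m y b') := fun b b' h =>
          hn1 (near_of_ch m s x y b b' h)
        simp [h2]
    · rw [if_neg h1]
      have h2 : ∀ b b' : Bool, (if s ≤ ti then (if near m s (ch m x b) (ch m y b') then (1 / 2 : ℝ) ^ s else 0)
          else (1 / 2) ^ ti) ≤ (1 / 2) ^ ti := by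
        intro b b'
        by_cases h3 : s ≤ ti
        · have h4 : s = ti := by omega
          subst h4
          rw [if_pos le_rfl]
          split_ifs
          · exact le_rfl
          · positivity
        · rw [if_neg h3]
      calc (1 / 4 : ℝ) * ∑ b : Bool, ∑ b' : Bool,
            (if s ≤ ti then (if near m s (ch m x b) (ch m y b') then (1 / 2 : ℝ) ^ s else 0) else (1 / 2) ^ ti)
          ≤ (1 / 4) * ∑ _b : Bool, ∑ _b' : Bool, (1 / 2 : ℝ) ^ ti :=
            mul_le_mul_of_nonneg_left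
              (Finset.sum_le_sum fun b _ => Finset.sum_le_sum fun b' _ => h2 b b') (by norm_num)
        _ = (1 / 2) ^ ti := by
            simp only [Finset.sum_const, Finset.card_univ, Fintype.card_bool, nsmul_eq_mul]
            push_cast
            ring
  have e : (1 / 4 : ℝ) * ∑ b : Bool, ∑ b' : Bool, tau m ti ζ s (ch m x b) (ch m y b') =
      k1 m (s + 1) x y + ζ * ((1 / 4 : ℝ) * ∑ b : Bool, ∑ b' : Bool,
      (if s ≤ ti then (if near m s (ch m x b) (ch m y b') then (1 / 2 : ℝ) ^ s else 0) else (1 / 2) ^ ti)) := by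
    unfold tau
    simp only [Finset.sum_add_distrib, ← Finset.mul_sum]
    rw [k1]
    ring
  rw [e]
  unfold tau
  have := mul_le_mul_of_nonneg_left key hζ.le
  linarith

open Classical in
theorem tau_outer (m ti : ℕ) (hm : 0 < m) (ζ : ℝ) (hζ : 0 < ζ) (s : ℕ) (hs : 2 * (2 * m) ≤ 2 ^ s) (hsti : ti < s)
    (x y x' y' : Fin (2 * m)) :
    tau m ti ζ s x' y' ≤ (1 + 4 * (2 * m) / 2 ^ s) * tau m ti ζ (s + 1) x y := by
  have hm' : (0 : ℝ) < 2 * m := by positivity
  have hs1 : 2 * m ≤ 2 ^ s := by omega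
  have hs2 : 2 * m ≤ 2 ^ (s + 1) := by
    have : 2 ^ (s + 1) = 2 * 2 ^ s := by ring
    omega
  have h1 := k1_le m s hs1 x' y'
  have h2 := k1_ge m (s + 1) hs2 x y
  have hsr : 2 * (2 * (m : ℝ)) ≤ 2 ^ s := by exact_mod_cast hs
  have h2s : (0 : ℝ) < 2 ^ s := by positivity
  have h3 : tau m ti ζ s x' y' = k1 m s x' y' + ζ * (1 / 2) ^ ti := by
    unfold tau
    rw [if_neg (by omega)]
  have h4 : tau m ti ζ (s + 1) x y = k1 m (s + 1) x y + ζ * (1 / 2) ^ ti := by
    unfold tau
    rw [if_neg (by omega)]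
  rw [h3, h4]
  set e : ℝ := (2 * m) / 2 ^ s with he
  have he0 : 0 < e := by positivity
  have he1 : e ≤ 1 / 2 := by
    rw [he, div_le_iff₀ h2s]
    linarith
  have e2 : (2 * (m : ℝ)) / 2 ^ (s + 1) = e / 2 := by
    rw [he, pow_succ]; field_simp
  have e3 : 4 * (2 * (m : ℝ)) / 2 ^ s = 4 * e := by rw [he]; ring
  rw [e2] at h2
  rw [e3]
  have hz : 0 ≤ ζ * (1 / 2 : ℝ) ^ ti := by positivity
  have h5 : (1 / (2 * (m : ℝ))) * (1 + e) ≤ (1 + 4 * e) * ((1 / (2 * m)) * (1 - e / 2)) := by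
    have : (1 + 4 * e) * ((1 / (2 * (m : ℝ))) * (1 - e / 2)) =
        (1 / (2 * m)) * ((1 + 4 * e) * (1 - e / 2)) := by ring
    rw [this]
    refine mul_le_mul_of_nonneg_left ?_ (by positivity)
    nlinarith
  have h6 : (1 + 4 * e) * ((1 / (2 * (m : ℝ))) * (1 - e / 2)) ≤ (1 + 4 * e) * k1 m (s + 1) x y :=
    mul_le_mul_of_nonneg_left h2 (by positivity)
  nlinarith

open Classical in
theorem tau_final (m ti : ℕ) (hm : 0 < m) (ζ : ℝ) (hζ : 0 < ζ) (t : ℕ) (ht : 2 * m ≤ 2 ^ t) (x y : Fin (2 * m)) :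
    tau m ti ζ t x y ≤ (1 / (2 * m)) * (1 + (2 * m) / 2 ^ t + ζ * (2 * m) / 2 ^ (min t ti)) := by
  have hm' : (0 : ℝ) < 2 * m := by positivity
  have h1 := k1_le m t ht x y
  have h2 : (if t ≤ ti then (if near m t x y then (1 / 2 : ℝ) ^ t else 0) else (1 / 2) ^ ti)
      ≤ 1 / 2 ^ (min t ti) := by
    by_cases h : t ≤ ti
    · rw [if_pos h, min_eq_left h]
      split_ifs
      · rw [div_pow, one_pow]
      · positivity
    · rw [if_neg h, min_eq_right (by omega), div_pow, one_pow]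
  have h3 := mul_le_mul_of_nonneg_left h2 hζ.le
  have e : (1 / (2 * (m : ℝ))) * (1 + (2 * m) / 2 ^ t + ζ * (2 * m) / 2 ^ (min t ti)) =
      (1 / (2 * m)) * (1 + (2 * m) / 2 ^ t) + ζ * (1 / 2 ^ (min t ti)) := by
    field_simp
  rw [e]
  unfold tau
  linarith

end Vale.Agent.P162
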