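import Vale.Agent.P162G.Root

/-! P162G module N10: the contraction theorem for general even `n`. -/

open Equiv

set_option linter.unusedSectionVars false

namespace Vale.Agent.P162

section union

variable {α : Type} [Fintype α] [DecidableEq α]
variable {E : Type} [NormedAddCommGroup E] [InnerProductSpace ℝ E]

theorem ta_union (ρ : Perm α →* (E ≃ₗᵢ[ℝ] E)) (A : ℕ → Finset α) (hpos : 0 < Fintype.card α)
    (hov : ∀ i, Fintype.card α ≤ 8 * (A i ∩ A (i + 1)).card) (v : E) (k : ℕ) :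
    inner ℝ v (lapOn ρ ((Finset.range (k + 1)).biUnion A) v)
      ≤ 88 ^ k * ∑ i ∈ Finset.range (k + 1), inner ℝ v (lapOn ρ (A i) v) := by
  induction k with
  | zero => simp
  | succ k ih =>
    have e1 : (Finset.range (k + 1 + 1)).biUnion A =
        (Finset.range (k + 1)).biUnion A ∪ A (k + 1) := by
      rw [Finset.range_add_one, Finset.biUnion_insert, Finset.union_comm]
    rw [e1, Finset.sum_range_succ _ (k + 1)]
    set X := (Finset.range (k + 1)).biUnion A with hX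
    have hsub : A k ∩ A (k + 1) ⊆ X ∩ A (k + 1) := by
      apply Finset.inter_subset_inter_right
      exact Finset.subset_biUnion_of_mem A (Finset.mem_range.2 (Nat.lt_succ_self k))
    have hc1 : (A k ∩ A (k + 1)).card ≤ (X ∩ A (k + 1)).card := Finset.card_le_card hsub
    have hc2 := hov k
    have hXY : 0 < (X ∩ A (k + 1)).card := by omega
    have h1 := lapOn_union_le ρ X (A (k + 1)) hXY v
    have hr : (((X ∪ A (k + 1)).card : ℝ) / ((X ∩ A (k + 1)).card : ℝ)) ≤ 8 := by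
      rw [div_le_iff₀ (by exact_mod_cast hXY)]
      have h3 : (X ∪ A (k + 1)).card ≤ Fintype.card α := Finset.card_le_univ _
      have h4 : (X ∪ A (k + 1)).card ≤ 8 * (X ∩ A (k + 1)).card := by omega
      exact_mod_cast h4
    have hDX := lapOn_nonneg ρ X v
    have hDY := lapOn_nonneg ρ (A (k + 1)) v
    have h2 : 11 * (((X ∪ A (k + 1)).card : ℝ) / ((X ∩ A (k + 1)).card : ℝ)) *
        (inner ℝ v (lapOn ρ X v) + inner ℝ v (lapOn ρ (A (k + 1)) v)) ≤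
        88 * (inner ℝ v (lapOn ρ X v) + inner ℝ v (lapOn ρ (A (k + 1)) v)) := by
      apply mul_le_mul_of_nonneg_right _ (add_nonneg hDX hDY)
      linarith
    have h88 : (1 : ℝ) ≤ 88 ^ k := one_le_pow₀ (by norm_num)
    calc inner ℝ v (lapOn ρ (X ∪ A (k + 1)) v)
        ≤ 88 * (inner ℝ v (lapOn ρ X v) + inner ℝ v (lapOn ρ (A (k + 1)) v)) := h1.trans h2
      _ ≤ 88 * (88 ^ k * ∑ i ∈ Finset.range (k + 1), inner ℝ v (lapOn ρ (A i) v) +
            88 ^ k * inner ℝ v (lapOn ρ (A (k + 1)) v)) := by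
          apply mul_le_mul_of_nonneg_left _ (by norm_num)
          apply add_le_add ih
          exact le_mul_of_one_le_left hDY h88
      _ = _ := by
          rw [pow_succ]
          ring

end union

/-- eight overlapping root arcs control the whole Laplacian -/
theorem lap_le_arcs : ∃ C : ℝ, 0 < C ∧ ∀ (b q K : ℕ), Odd q → 2 ^ (K + 1) ≤ q → q < 2 ^ (K + 2) →
    ∀ (E : Type) [NormedAddCommGroup E] [InnerProductSpace ℝ E] (ρ : Perm (Fin (2 * (2 ^ b * q))) →* (E ≃ₗᵢ[ℝ] E)) (v : E),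
    inner ℝ v (lap ρ v) ≤ C * ∑ i : Fin 8, inner ℝ v (lapOn ρ (arc (2 ^ b * q)
      (2 ^ (b + 1) * (i.val * (max 1 (2 ^ (K - 1))))) (2 ^ b * (2 + 2 ^ (K + 1)))) v) := by
  refine ⟨88 ^ 7, by positivity, ?_⟩
  intro b q K hq h1 h2 E _ _ ρ v
  obtain ⟨M, hM⟩ : ∃ M : ℕ, M = max 1 (2 ^ (K - 1)) := ⟨_, rfl⟩
  have hMpos : 1 ≤ M := by rw [hM]; exact le_max_left _ _
  have hfacts : q < 8 * M ∧ M ≤ 2 ^ K ∧ q ≤ 8 * (1 + 2 ^ K - M) ∧ 1 + 2 ^ K ≤ q := by
    rcases Nat.eq_zero_or_pos K with hK | hK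
    · subst hK
      simp only [Nat.zero_sub, pow_zero, max_self] at hM
      subst hM
      norm_num at h1 h2 ⊢
      omega
    · obtain ⟨k, rfl⟩ : ∃ k, K = k + 1 := ⟨K - 1, by omega⟩
      have e1 : k + 1 - 1 = k := by omega
      rw [e1] at hM
      have hk : 1 ≤ 2 ^ k := Nat.one_le_two_pow
      rw [max_eq_right hk] at hM
      rw [hM]
      have e2 : 2 ^ (k + 1) = 2 * 2 ^ k := by ring
      have e3 : 2 ^ (k + 1 + 1) = 4 * 2 ^ k := by ring
      have e4 : 2 ^ (k + 1 + 2) = 8 * 2 ^ k := by ring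
      rw [e3] at h1
      rw [e4] at h2
      rw [e2]
      omega
  obtain ⟨hf1, hf2, hf3, hf4⟩ := hfacts
  obtain ⟨L, hL⟩ : ∃ L : ℕ, L = 2 ^ (b + 1) := ⟨_, rfl⟩
  have hLpos : 0 < L := by rw [hL]; positivity
  have hn : 2 * (2 ^ b * q) = L * q := by rw [hL, pow_succ]; ring
  have hlen : 2 ^ b * (2 + 2 ^ (K + 1)) = L * (1 + 2 ^ K) := by
    rw [hL, pow_succ, pow_succ]; ring
  rw [← hM, ← hL, hlen]
  have key := ta_union ρ (fun i : ℕ => arc (2 ^ b * q) (L * (i * M)) (L * (1 + 2 ^ K)))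
    (by rw [Fintype.card_fin, hn]; exact Nat.mul_pos hLpos (by omega)) ?_ v 7
  · have huniv : (Finset.range (7 + 1)).biUnion
        (fun i : ℕ => arc (2 ^ b * q) (L * (i * M)) (L * (1 + 2 ^ K))) = Finset.univ := by
      rw [Finset.eq_univ_iff_forall]
      intro x
      have hx := x.isLt
      have hx' : x.val < L * q := by rw [← hn]; exact hx
      have hLM : 0 < L * M := Nat.mul_pos hLpos (by omega)
      have hj : x.val / (L * M) < 8 := by
        rw [Nat.div_lt_iff_lt_mul hLM]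
        calc x.val < L * q := hx'
          _ ≤ L * (8 * M) := Nat.mul_le_mul_left L hf1.le
          _ = 8 * (L * M) := by ring
      rw [Finset.mem_biUnion]
      refine ⟨x.val / (L * M), Finset.mem_range.2 (by omega), ?_⟩
      unfold arc
      rw [Finset.mem_filter]
      refine ⟨Finset.mem_univ _, x.val % (L * M), ?_, ?_⟩
      · calc x.val % (L * M) < L * M := Nat.mod_lt _ hLM
          _ ≤ L * (1 + 2 ^ K) := Nat.mul_le_mul_left L (by omega)
      · have e : L * (x.val / (L * M) * M) + x.val % (L * M) = x.val := by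
          have := Nat.div_add_mod x.val (L * M)
          calc L * (x.val / (L * M) * M) + x.val % (L * M)
              = L * M * (x.val / (L * M)) + x.val % (L * M) := by ring
            _ = x.val := this
        rw [e, Nat.mod_eq_of_lt hx]
    rw [huniv, Finset.sum_range] at key
    exact key
  · intro i
    have hcard : Fintype.card (Fin (2 * (2 ^ b * q))) = L * q := by rw [Fintype.card_fin, hn]
    rw [hcard]
    have hsub : arc (2 ^ b * q) (L * ((i + 1) * M)) (L * (1 + 2 ^ K - M)) ⊆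
        arc (2 ^ b * q) (L * (i * M)) (L * (1 + 2 ^ K)) ∩
          arc (2 ^ b * q) (L * ((i + 1) * M)) (L * (1 + 2 ^ K)) := by
      apply Finset.subset_inter
      · apply arc_sub
        · exact Nat.mul_le_mul_left L (Nat.mul_le_mul_right M (Nat.le_succ i))
        · rw [← Nat.mul_add, ← Nat.mul_add]
          apply Nat.mul_le_mul_left
          have : (i + 1) * M = i * M + M := by ring
          omega
      · apply arc_sub
        · exact le_rfl
        · apply Nat.add_le_add_left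
          apply Nat.mul_le_mul_left
          omega
    have hc := Finset.card_le_card hsub
    rw [card_arc] at hc
    · calc L * q ≤ L * (8 * (1 + 2 ^ K - M)) := Nat.mul_le_mul_left L hf3
        _ = 8 * (L * (1 + 2 ^ K - M)) := by ring
        _ ≤ _ := Nat.mul_le_mul_left 8 hc
    · rw [hn]
      exact Nat.mul_le_mul_left L (by omega)

section ops

variable {E : Type} [NormedAddCommGroup E] [InnerProductSpace ℝ E]

theorem ta_rev_apply {m : ℕ} (ρ : Perm (Fin (2 * m)) →* (E ≃ₗᵢ[ℝ] E)) (v : E) :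
    Rev ρ v = ((2 : ℝ) ^ m)⁻¹ • ∑ c : Fin m → Bool, ρ (St m c) v := by
  simp [Rev]

theorem ta_rev_mem {m : ℕ} (ρ : Perm (Fin (2 * m)) →* (E ≃ₗᵢ[ℝ] E)) (j : ℕ) {u : E}
    (hu : u ∈ Kj ρ Finset.univ j) : Rev ρ u ∈ Kj ρ Finset.univ j := by
  rw [ta_rev_apply]
  exact Submodule.smul_mem _ _ (Submodule.sum_mem _ fun c _ => rho_mem_Kj ρ _ j hu)

theorem ta_rev_pow_mem {m : ℕ} (ρ : Perm (Fin (2 * m)) →* (E ≃ₗᵢ[ℝ] E)) (j t : ℕ) {u : E}
    (hu : u ∈ Kj ρ Finset.univ j) : ((Rev ρ) ^ t) u ∈ Kj ρ Finset.univ j := by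
  induction t with
  | zero => simpa using hu
  | succ t ih =>
    rw [pow_succ', Module.End.mul_apply]
    exact ta_rev_mem ρ j ih

theorem ta_norm_rev {m : ℕ} (ρ : Perm (Fin (2 * m)) →* (E ≃ₗᵢ[ℝ] E)) (v : E) : ‖Rev ρ v‖ ≤ ‖v‖ := by
  rw [ta_rev_apply, norm_smul]
  have h1 : ‖∑ c : Fin m → Bool, ρ (St m c) v‖ ≤ 2 ^ m * ‖v‖ := by
    refine (norm_sum_le _ _).trans ?_
    have : ∀ c : Fin m → Bool, ‖ρ (St m c) v‖ = ‖v‖ := fun c => norm_rho ρ _ v
    simp only [this]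
    simp
  have h2 : ‖((2 : ℝ) ^ m)⁻¹‖ = ((2 : ℝ) ^ m)⁻¹ := Real.norm_of_nonneg (by positivity)
  rw [h2]
  calc ((2 : ℝ) ^ m)⁻¹ * ‖∑ c : Fin m → Bool, ρ (St m c) v‖
      ≤ ((2 : ℝ) ^ m)⁻¹ * (2 ^ m * ‖v‖) := mul_le_mul_of_nonneg_left h1 (by positivity)
    _ = ‖v‖ := by
      rw [← mul_assoc, inv_mul_cancel₀ (by positivity), one_mul]

theorem ta_norm_rev_pow {m : ℕ} (ρ : Perm (Fin (2 * m)) →* (E ≃ₗᵢ[ℝ] E)) (t : ℕ) (v : E) :
    ‖((Rev ρ) ^ t) v‖ ≤ ‖v‖ := by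
  induction t with
  | zero => simp
  | succ t ih =>
    rw [pow_succ', Module.End.mul_apply]
    exact (ta_norm_rev ρ _).trans ih

theorem ta_opOf_thorp {m : ℕ} (ρ : Perm (Fin (2 * m)) →* (E ≃ₗᵢ[ℝ] E)) (v : E) :
    opOf ρ (thorpLaw m) v = ((2 : ℝ) ^ m)⁻¹ • ∑ c : Fin m → Bool, ρ (thorpPerm m c) v := by
  rw [opOf_apply]
  simp only [thorpLaw_eq, div_eq_inv_mul, mul_smul, ← Finset.smul_sum, Finset.sum_smul]
  rw [Finset.sum_comm]
  congr 1
  refine Finset.sum_congr rfl fun c _ => ?_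
  simp

variable [FiniteDimensional ℝ E]

theorem ta_adj {m : ℕ} (ρ : Perm (Fin (2 * m)) →* (E ≃ₗᵢ[ℝ] E)) :
    LinearMap.adjoint (Rev ρ) = opOf ρ (thorpLaw m) := by
  symm
  rw [LinearMap.eq_adjoint_iff]
  intro x y
  rw [ta_opOf_thorp, ta_rev_apply, inner_smul_left, inner_smul_right, sum_inner, inner_sum]
  simp only [conj_trivial]
  congr 1
  refine Finset.sum_congr rfl fun c _ => ?_
  rw [inner_rho_left]
  rfl

theorem ta_adj_pow {m : ℕ} (ρ : Perm (Fin (2 * m)) →* (E ≃ₗᵢ[ℝ] E)) (t : ℕ) :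
    LinearMap.adjoint ((Rev ρ) ^ t) = (opOf ρ (thorpLaw m)) ^ t := by
  induction t with
  | zero =>
    rw [pow_zero, pow_zero]
    symm
    rw [LinearMap.eq_adjoint_iff]
    intro x y
    rfl
  | succ t ih =>
    have h : (Rev ρ) ^ (t + 1) = (Rev ρ) ∘ₗ ((Rev ρ) ^ t) := by
      rw [pow_succ']
      rfl
    rw [h, LinearMap.adjoint_comp, ih, ta_adj, pow_succ]
    rfl

theorem ta_core {α : Type} [Fintype α] [DecidableEq α] (ρ : Perm α →* (E ≃ₗᵢ[ℝ] E)) (j : ℕ)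
    (T : E →ₗ[ℝ] E) (hT : ∀ u ∈ Kj ρ Finset.univ j, T u ∈ Kj ρ Finset.univ j)
    (hT' : ∀ u ∈ Kj ρ Finset.univ j, LinearMap.adjoint T u ∈ Kj ρ Finset.univ j) (c : ℝ)
    (h : ∀ v ∈ Kj ρ Finset.univ j, v ≠ 0 → ∀ μ : ℝ, LinearMap.adjoint T (T v) = μ • v → μ ≤ c)
    (u : E) (hu : u ∈ Kj ρ Finset.univ j) : ‖T u‖ ^ 2 ≤ c * ‖u‖ ^ 2 := by
  have hL : (-(LinearMap.adjoint T ∘ₗ T)).IsSymmetric := by
    intro x y
    simp only [LinearMap.neg_apply, LinearMap.comp_apply, inner_neg_left, inner_neg_right]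
    rw [LinearMap.adjoint_inner_left, LinearMap.adjoint_inner_right]
  have key := rayleigh_of_eig (-(LinearMap.adjoint T ∘ₗ T)) hL (Kj ρ Finset.univ j) ?_ (-c) ?_ u hu
  · simp only [LinearMap.neg_apply, LinearMap.comp_apply, inner_neg_right] at key
    rw [LinearMap.adjoint_inner_right, real_inner_self_eq_norm_sq] at key
    linarith
  · intro v hv
    simp only [LinearMap.neg_apply, LinearMap.comp_apply]
    exact Submodule.neg_mem _ (hT' _ (hT v hv))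
  · intro μ v hv hv0 hμ
    simp only [LinearMap.neg_apply, LinearMap.comp_apply] at hμ
    have := h v hv hv0 (-μ) (by rw [neg_smul, ← hμ, neg_neg])
    linarith

/-- lower bound for a normalized block Laplacian -/
theorem ta_LX_ge {α : Type} [Fintype α] [DecidableEq α] (ρ : Perm α →* (E ≃ₗᵢ[ℝ] E)) (X : Finset α)
    (v : E) : (1 / (2 * (Fintype.card α : ℝ))) * inner ℝ v (lapOn ρ X v) ≤ inner ℝ v (LX ρ X v) := by
  unfold LX
  rw [LinearMap.smul_apply, inner_smul_right]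
  rcases Nat.eq_zero_or_pos X.card with h | h
  · have hX : X = ∅ := Finset.card_eq_zero.1 h
    subst hX
    rw [lapOn_apply]
    simp
  · apply mul_le_mul_of_nonneg_right _ (lapOn_nonneg ρ X v)
    have h1 : (0 : ℝ) < X.card := by exact_mod_cast h
    have h2 : (X.card : ℝ) ≤ Fintype.card α := by exact_mod_cast Finset.card_le_univ X
    apply one_div_le_one_div_of_le <;> linarith

theorem ta_dom_eig {m : ℕ} (ρ : Perm (Fin (2 * m)) →* (E ≃ₗᵢ[ℝ] E)) (k : ℕ) (s : ℝ)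
    (hs : 0 ≤ s) {κ : Type} [Fintype κ] (B : κ → Finset (Fin (2 * m))) (hD : DomB ρ k s B) (i : κ)
    (v : E) (hv0 : v ≠ 0) (μ : ℝ)
    (hv : LinearMap.adjoint ((Rev ρ) ^ k) (((Rev ρ) ^ k) v) = μ • v) :
    μ ≤ Real.exp (-(s * (inner ℝ v (LX ρ (B i) v))) / ‖v‖ ^ 2) := by
  have hsym : (s • ∑ i, LX ρ (B i)).IsSymmetric := by
    intro x y
    simp only [LinearMap.smul_apply, LinearMap.coe_sum, Finset.sum_apply, inner_smul_left,
      inner_smul_right, sum_inner, inner_sum, conj_trivial]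
    congr 1
    exact Finset.sum_congr rfl fun i _ => LX_symm ρ (B i) x y
  have h1 := log_trick ((Rev ρ) ^ k) (s • ∑ i, LX ρ (B i)) hsym hD v μ hv hv0
  refine h1.trans (Real.exp_le_exp.2 ?_)
  have hv2 : 0 < ‖v‖ ^ 2 := by positivity
  apply div_le_div_of_nonneg_right _ hv2.le
  rw [neg_le_neg_iff]
  simp only [LinearMap.smul_apply, LinearMap.coe_sum, Finset.sum_apply, inner_smul_right, inner_sum]
  apply mul_le_mul_of_nonneg_left _ hs
  exact Finset.single_le_sum (f := fun i => inner ℝ v (LX ρ (B i) v))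
    (fun i _ => LX_nonneg ρ (B i) v) (Finset.mem_univ i)

end ops

/-- **Theorem A for every even deck.** -/
theorem thmA_gen : ∃ c : ℝ, 0 < c ∧ ∀ m : ℕ, 1 ≤ m → ∀ (E : Type) [NormedAddCommGroup E] [InnerProductSpace ℝ E]
    [FiniteDimensional ℝ E] (ρ : Perm (Fin (2 * m)) →* (E ≃ₗᵢ[ℝ] E)) (j : ℕ), j ≤ 2 * m → ∀ u ∈ Kj ρ Finset.univ j,
    ∀ t : ℕ, Nat.log 2 (2 * m) ≤ t → ‖((Rev ρ) ^ t) u‖ ^ 2 ≤ Real.exp (-c * j) * ‖u‖ ^ 2 := by
  obtain ⟨C, hC, hCarcs⟩ := lap_le_arcs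
  obtain ⟨c, hc⟩ : ∃ c : ℝ, c = min (1 / 96) (1 / (49152 * C)) := ⟨_, rfl⟩
  have hc0 : 0 < c := by
    rw [hc]
    exact lt_min (by norm_num) (by positivity)
  refine ⟨c, hc0, ?_⟩
  intro m hm E _ _ _ ρ j hj u hu t ht
  -- reduction to one exponent
  suffices H : ∃ t₀ ≤ Nat.log 2 (2 * m), ∀ u ∈ Kj ρ Finset.univ j,
      ‖((Rev ρ) ^ t₀) u‖ ^ 2 ≤ Real.exp (-c * j) * ‖u‖ ^ 2 by
    obtain ⟨t₀, ht₀, h⟩ := H
    have e : t = (t - t₀) + t₀ := by omega
    rw [e, pow_add, Module.End.mul_apply]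
    have h1 := ta_norm_rev_pow ρ (t - t₀) (((Rev ρ) ^ t₀) u)
    have h2 : ‖((Rev ρ) ^ (t - t₀)) (((Rev ρ) ^ t₀) u)‖ ^ 2 ≤ ‖((Rev ρ) ^ t₀) u‖ ^ 2 :=
      pow_le_pow_left₀ (norm_nonneg _) h1 2
    exact h2.trans (h u hu)
  have hgap : ∀ v ∈ Kj ρ Finset.univ j,
      ((2 * m : ℕ) : ℝ) * j * ‖v‖ ^ 2 ≤ inner ℝ v (lapOn ρ Finset.univ v) := by
    intro v hv
    have := gap ρ Finset.univ j (by rw [Finset.card_univ, Fintype.card_fin]; exact hj) v hv
    rw [Finset.card_univ, Fintype.card_fin] at this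
    exact this
  obtain ⟨b, q, hq, hmq⟩ := Nat.exists_eq_two_pow_mul_odd (n := m) (by omega)
  subst hmq
  have hnpos : (0 : ℝ) < ((2 * (2 ^ b * q) : ℕ) : ℝ) := by
    have : 0 < 2 * (2 ^ b * q) := by omega
    exact_mod_cast this
  have hj0 : (0 : ℝ) ≤ j := Nat.cast_nonneg j
  have hpowmem : ∀ k, ∀ u ∈ Kj ρ Finset.univ j, LinearMap.adjoint ((Rev ρ) ^ k) u ∈ Kj ρ Finset.univ j := by
    intro k u hu
    rw [ta_adj_pow]
    exact pow_opOf_mem_Kj ρ _ j k hu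
  rcases Nat.lt_or_ge q 2 with hq1 | hq2
  · -- `q = 1`
    have hq1' : q = 1 := by
      rcases hq with ⟨k, rfl⟩
      omega
    subst hq1'
    refine ⟨b + 1, ?_, ?_⟩
    · have : 2 * (2 ^ b * 1) = 2 ^ (b + 1) := by rw [pow_succ]; ring
      rw [this, Nat.log_pow (by norm_num)]
    · intro u hu
      refine ta_core ρ j ((Rev ρ) ^ (b + 1)) (fun u hu => ta_rev_pow_mem ρ j _ hu)
        (hpowmem _) _ ?_ u hu
      intro v hv hv0 μ hμ
      have hD := dom_exact b 1 (by norm_num) ρ (b + 1) le_rfl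
      have hidx : 0 < 2 ^ (b + 1 - (b + 1)) * 1 := by simp
      have h1 := ta_dom_eig ρ (b + 1) (sd (b + 1)) (sd_pos _).le _ hD ⟨0, hidx⟩ v hv0 μ hμ
      refine h1.trans (Real.exp_le_exp.2 ?_)
      have harc : arc (2 ^ b * 1) (2 ^ (b + 1) * 0) (2 ^ (b + 1)) = Finset.univ := by
        rw [← Finset.card_eq_iff_eq_univ, card_arc, Fintype.card_fin]
        · rw [pow_succ]; ring
        · rw [pow_succ]; omega
      simp only [harc]
      have hv2 : 0 < ‖v‖ ^ 2 := by positivity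
      rw [div_le_iff₀ hv2]
      have h2 := ta_LX_ge ρ Finset.univ v
      rw [Fintype.card_fin] at h2
      have h3 := hgap v hv
      have h4 : (j : ℝ) / 2 * ‖v‖ ^ 2 ≤ inner ℝ v (LX ρ Finset.univ v) := by
        refine le_trans ?_ h2
        rw [one_div, ← div_eq_inv_mul, le_div_iff₀ (by positivity)]
        calc (j : ℝ) / 2 * ‖v‖ ^ 2 * (2 * ((2 * (2 ^ b * 1) : ℕ) : ℝ))
            = ((2 * (2 ^ b * 1) : ℕ) : ℝ) * j * ‖v‖ ^ 2 := by ring
          _ ≤ _ := h3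
      have h5 : (1 : ℝ) / 48 ≤ sd (b + 1) := by
        unfold sd
        have : (0 : ℝ) < (1 / 2) ^ (b + 1) := by positivity
        linarith
      have h6 : c ≤ 1 / 96 := by rw [hc]; exact min_le_left _ _
      have h7 : (0 : ℝ) ≤ j / 2 * ‖v‖ ^ 2 := by positivity
      have h8 : (1 : ℝ) / 48 * (j / 2 * ‖v‖ ^ 2) ≤ sd (b + 1) * inner ℝ v (LX ρ Finset.univ v) :=
        mul_le_mul h5 h4 h7 (sd_pos _).le
      have h9 : c * (j * ‖v‖ ^ 2) ≤ 1 / 96 * (j * ‖v‖ ^ 2) :=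
        mul_le_mul_of_nonneg_right h6 (by positivity)
      linarith
  · -- `q ≥ 3`
    have hq3 : 3 ≤ q := by
      rcases hq with ⟨k, rfl⟩
      omega
    obtain ⟨K, hK1, hK2⟩ : ∃ K, 2 ^ (K + 1) ≤ q ∧ q < 2 ^ (K + 2) := by
      have hlog : 1 ≤ Nat.log 2 q := by
        exact Nat.le_log_of_pow_le (by norm_num) (by omega)
      refine ⟨Nat.log 2 q - 1, ?_, ?_⟩
      · have : Nat.log 2 q - 1 + 1 = Nat.log 2 q := by omega
        rw [this]
        exact Nat.pow_log_le_self 2 (by omega)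
      · have : Nat.log 2 q - 1 + 2 = Nat.log 2 q + 1 := by omega
        rw [this]
        exact Nat.lt_pow_succ_log_self (by norm_num) q
    refine ⟨b + 2 + K, ?_, ?_⟩
    · apply Nat.le_log_of_pow_le (by norm_num)
      calc 2 ^ (b + 2 + K) = 2 * (2 ^ b * 2 ^ (K + 1)) := by ring
        _ ≤ 2 * (2 ^ b * q) := Nat.mul_le_mul_left 2 (Nat.mul_le_mul_left _ hK1)
    · intro u hu
      refine ta_core ρ j ((Rev ρ) ^ (b + 2 + K)) (fun u hu => ta_rev_pow_mem ρ j _ hu)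
        (hpowmem _) _ ?_ u hu
      intro v hv hv0 μ hμ
      have hv2 : 0 < ‖v‖ ^ 2 := by positivity
      obtain ⟨A, hA⟩ : ∃ A : Fin 8 → Finset (Fin (2 * (2 ^ b * q))), A = fun i : Fin 8 =>
        arc (2 ^ b * q) (2 ^ (b + 1) * (i.val * (max 1 (2 ^ (K - 1))))) (2 ^ b * (2 + 2 ^ (K + 1))) :=
        ⟨_, rfl⟩
      have hμA : ∀ i, μ ≤ Real.exp (-((1 / 3072) * (inner ℝ v (LX ρ (A i) v))) / ‖v‖ ^ 2) := by
        intro i
        have hD := dom_root b q K (i.val * (max 1 (2 ^ (K - 1)))) hq hK1 ρ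
        have := ta_dom_eig ρ (b + 2 + K) (1 / 3072) (by norm_num) _ hD () v hv0 μ hμ
        rw [hA]
        exact this
      have h1 := hCarcs b q K hq hK1 hK2 E ρ v
      have h2 := hgap v hv
      have h3 : inner ℝ v (lap ρ v) = inner ℝ v (lapOn ρ Finset.univ v) := rfl
      rw [h3] at h1
      have h4 : ∑ i : Fin 8, inner ℝ v (lapOn ρ (A i) v) ≤
          ∑ i : Fin 8, (2 * ((2 * (2 ^ b * q) : ℕ) : ℝ)) * inner ℝ v (LX ρ (A i) v) := by
        refine Finset.sum_le_sum fun i _ => ?_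
        have := ta_LX_ge ρ (A i) v
        rw [Fintype.card_fin, one_div, ← div_eq_inv_mul, div_le_iff₀ (by positivity)] at this
        linarith
      rw [← Finset.mul_sum] at h4
      have h5 : C * ∑ i : Fin 8, inner ℝ v (lapOn ρ (A i) v) ≤
          C * ((2 * ((2 * (2 ^ b * q) : ℕ) : ℝ)) * ∑ i : Fin 8, inner ℝ v (LX ρ (A i) v)) :=
        mul_le_mul_of_nonneg_left h4 hC.le
      have h6 : ((2 * (2 ^ b * q) : ℕ) : ℝ) * (j * ‖v‖ ^ 2) ≤ ((2 * (2 ^ b * q) : ℕ) : ℝ) *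
          (2 * C * ∑ i : Fin 8, inner ℝ v (LX ρ (A i) v)) := by
        rw [hA] at h5 ⊢
        calc ((2 * (2 ^ b * q) : ℕ) : ℝ) * (j * ‖v‖ ^ 2)
            = ((2 * (2 ^ b * q) : ℕ) : ℝ) * j * ‖v‖ ^ 2 := by ring
          _ ≤ _ := h2.trans (h1.trans h5)
          _ = _ := by ring
      have h7 : (j : ℝ) * ‖v‖ ^ 2 ≤ 2 * C * ∑ i : Fin 8, inner ℝ v (LX ρ (A i) v) :=
        le_of_mul_le_mul_left h6 hnpos
      -- an index with a large form
      obtain ⟨i, hi⟩ : ∃ i : Fin 8, (j : ℝ) * ‖v‖ ^ 2 ≤ 16 * C * inner ℝ v (LX ρ (A i) v) := by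
        by_contra hcon
        push Not at hcon
        have h8 : ∑ i : Fin 8, 16 * C * inner ℝ v (LX ρ (A i) v) < ∑ _i : Fin 8, (j : ℝ) * ‖v‖ ^ 2 :=
          Finset.sum_lt_sum_of_nonempty Finset.univ_nonempty fun i _ => hcon i
        rw [← Finset.mul_sum] at h8
        simp only [Finset.sum_const, Finset.card_univ, Fintype.card_fin, nsmul_eq_mul] at h8
        push_cast at h8
        linarith
      refine (hμA i).trans (Real.exp_le_exp.2 ?_)
      rw [div_le_iff₀ hv2]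
      have h9 : c ≤ 1 / (49152 * C) := by rw [hc]; exact min_le_right _ _
      have h10 : c * (j * ‖v‖ ^ 2) ≤ 1 / (49152 * C) * (16 * C * inner ℝ v (LX ρ (A i) v)) :=
        mul_le_mul h9 hi (by positivity) (by positivity)
      have h11 : 1 / (49152 * C) * (16 * C * inner ℝ v (LX ρ (A i) v)) =
          1 / 3072 * inner ℝ v (LX ρ (A i) v) := by
        field_simp
        ring
      rw [h11] at h10
      linarith

/-- the same for the shuffle operator itself -/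
theorem thmA_thorp : ∃ c : ℝ, 0 < c ∧ ∀ m : ℕ, 1 ≤ m → ∀ (E : Type) [NormedAddCommGroup E] [InnerProductSpace ℝ E]
    [FiniteDimensional ℝ E] (ρ : Perm (Fin (2 * m)) →* (E ≃ₗᵢ[ℝ] E)) (j : ℕ), j ≤ 2 * m → ∀ u ∈ Kj ρ Finset.univ j,
    ∀ t : ℕ, Nat.log 2 (2 * m) ≤ t → ‖((opOf ρ (thorpLaw m)) ^ t) u‖ ^ 2 ≤ Real.exp (-c * j) * ‖u‖ ^ 2 := by
  obtain ⟨c, hc, h⟩ := thmA_gen
  refine ⟨c, hc, ?_⟩
  intro m hm E _ _ _ ρ j hj u hu t ht
  rw [← ta_adj_pow]
  obtain ⟨w, hw⟩ : ∃ w, w = LinearMap.adjoint ((Rev ρ) ^ t) u := ⟨_, rfl⟩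
  rw [← hw]
  have hwK : w ∈ Kj ρ Finset.univ j := by
    rw [hw, ta_adj_pow]
    exact pow_opOf_mem_Kj ρ _ j t hu
  have h1 := h m hm E ρ j hj w hwK t ht
  have h2 : ‖w‖ ^ 2 ≤ ‖((Rev ρ) ^ t) w‖ * ‖u‖ := by
    have e : ‖w‖ ^ 2 = inner ℝ u (((Rev ρ) ^ t) w) := by
      rw [← real_inner_self_eq_norm_sq]
      conv_lhs => rw [hw]
      rw [LinearMap.adjoint_inner_left, ← hw]
    rw [e, mul_comm]
    exact real_inner_le_norm _ _
  by_cases hw0 : w = 0
  · rw [hw0]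
    have h0 : ‖(0 : E)‖ ^ 2 = 0 := by simp
    rw [h0]
    positivity
  · have hwpos : 0 < ‖w‖ ^ 2 := by positivity
    have h3 : (‖w‖ ^ 2) ^ 2 ≤ (Real.exp (-c * j) * ‖u‖ ^ 2) * ‖w‖ ^ 2 := by
      calc (‖w‖ ^ 2) ^ 2 ≤ (‖((Rev ρ) ^ t) w‖ * ‖u‖) ^ 2 :=
            pow_le_pow_left₀ hwpos.le h2 2
        _ = ‖((Rev ρ) ^ t) w‖ ^ 2 * ‖u‖ ^ 2 := by ring
        _ ≤ (Real.exp (-c * j) * ‖w‖ ^ 2) * ‖u‖ ^ 2 :=
            mul_le_mul_of_nonneg_right h1 (sq_nonneg _)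
        _ = _ := by ring
    have h4 : ‖w‖ ^ 2 * ‖w‖ ^ 2 ≤ (Real.exp (-c * j) * ‖u‖ ^ 2) * ‖w‖ ^ 2 := by
      rw [← sq]; exact h3
    exact le_of_mul_le_mul_right h4 hwpos

end Vale.Agent.P162
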