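import Vale.Agent.P162G.ArcTL
import Vale.Agent.P162.Window

/-! P162G module M10: the window lemma on the circle (analogue of `b3`). -/

open Equiv

set_option linter.unusedSectionVars false

namespace Vale.Agent.P162

variable {ι : Type} [Fintype ι] [DecidableEq ι]

section wg

theorem wg_inv_apply {β : Type} (g : Perm β) (b : β) : g⁻¹ (g b) = b := g.symm_apply_apply b

theorem wg_apply_inv {β : Type} (g : Perm β) (b : β) : g (g⁻¹ b) = b := g.apply_symm_apply b

theorem wg_antip_val (m : ℕ) (q : Fin (2 * m)) : (antip m q).val = (q.val + m) % (2 * m) := rfl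

theorem wg_half_or (m e : ℕ) (q : Fin (2 * m)) : q ∈ half m e ∨ q ∈ half m (e + m) := by
  have hq := q.isLt
  have hm : 0 < 2 * m := by omega
  obtain ⟨j, hj, hj2⟩ : ∃ j, j < 2 * m ∧ q.val = (e + j) % (2 * m) := by
    refine ⟨(q.val + (2 * m - e % (2 * m))) % (2 * m), Nat.mod_lt _ hm, ?_⟩
    have he := Nat.mod_lt e hm
    rw [Nat.add_mod_mod, Nat.add_mod, ← Nat.add_mod_mod]
    have h1 : e % (2 * m) + (q.val + (2 * m - e % (2 * m))) = q.val + 2 * m := by omega
    rw [← Nat.add_mod, Nat.add_mod_mod, Nat.add_mod, Nat.add_mod_mod, h1, Nat.add_mod_right,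
      Nat.mod_eq_of_lt hq]
  by_cases h : j < m
  · left
    unfold half
    rw [Finset.mem_filter]
    exact ⟨Finset.mem_univ _, j, h, hj2⟩
  · right
    unfold half
    rw [Finset.mem_filter]
    refine ⟨Finset.mem_univ _, j - m, by omega, ?_⟩
    rw [hj2]
    congr 1
    omega

theorem wg_half_not_both (m e : ℕ) (q : Fin (2 * m)) (h0 : q ∈ half m e) (h1 : q ∈ half m (e + m)) :
    False := by
  unfold half at h0 h1
  rw [Finset.mem_filter] at h0 h1
  obtain ⟨_, j, hj, hj'⟩ := h0
  obtain ⟨_, i, hi, hi'⟩ := h1
  have h2 : (e + j) % (2 * m) = (e + (m + i)) % (2 * m) := by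
    rw [← hj', hi']
    congr 1
    omega
  have h3 : e + j ≡ e + (m + i) [MOD 2 * m] := h2
  have h4 := Nat.ModEq.add_left_cancel' e h3
  have h5 : j % (2 * m) = (m + i) % (2 * m) := h4
  rw [Nat.mod_eq_of_lt (by omega), Nat.mod_eq_of_lt (by omega)] at h5
  omega

theorem wg_antip_half (m e : ℕ) (q : Fin (2 * m)) (h : q ∈ half m e) : antip m q ∈ half m (e + m) := by
  unfold half at h ⊢
  rw [Finset.mem_filter] at h ⊢
  obtain ⟨_, j, hj, hj'⟩ := h
  refine ⟨Finset.mem_univ _, j, hj, ?_⟩
  rw [wg_antip_val, hj', Nat.mod_add_mod]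
  congr 1
  omega

theorem wg_antip_half' (m e : ℕ) (q : Fin (2 * m)) (h : q ∈ half m (e + m)) : antip m q ∈ half m e := by
  unfold half at h ⊢
  rw [Finset.mem_filter] at h ⊢
  obtain ⟨_, j, hj, hj'⟩ := h
  refine ⟨Finset.mem_univ _, j, hj, ?_⟩
  rw [wg_antip_val, hj', Nat.mod_add_mod]
  have : e + m + j + m = (e + j) + 2 * m := by omega
  rw [this, Nat.add_mod_right]

theorem wg_pim_eq (m : ℕ) (q q' : Fin (2 * m)) :
    pim m q' = pim m q ↔ q' = q ∨ q' = antip m q := by
  have hq := q.isLt
  have hq' := q'.isLt
  have e1 : ∀ a : ℕ, a < 2 * m → a % m = if a < m then a else a - m := by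
    intro a ha
    split_ifs with h
    · exact Nat.mod_eq_of_lt h
    · rw [Nat.mod_eq_sub_mod (by omega), Nat.mod_eq_of_lt (by omega)]
  have e2 : (q.val + m) % (2 * m) = if q.val < m then q.val + m else q.val - m := by
    split_ifs with h
    · exact Nat.mod_eq_of_lt (by omega)
    · rw [Nat.mod_eq_sub_mod (by omega), Nat.mod_eq_of_lt (by omega)]
      omega
  unfold pim
  rw [Fin.ext_iff, Fin.ext_iff, Fin.ext_iff, wg_antip_val, e2]
  simp only
  rw [e1 _ hq, e1 _ hq']
  split_ifs <;> omega

/-- the coloring of the positions coming from one side -/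
noncomputable def wgE {α β K : Type} [DecidableEq β] [AddCommMonoid K] (I : Finset ι) (x : ι → α)
    (z : ι → β) (side : ι → Bool) (r : Bool) (f : α → K) (b : β) : K :=
  ∑ κ ∈ I.filter (fun κ => side κ = r ∧ z κ = b), f (x κ)

theorem wg_cc_le (m e p : ℕ) (I : Finset ι) (x : ι → Fin m) (z : ι → Fin (2 * m)) (side : ι → Bool)
    (h1 : Set.InjOn (fun k => (side k, x k)) (I : Set ι)) (g : Perm (Fin (2 * m)))
    (hg : ∀ k ∈ I, g⁻¹ (z k) ∈ half m (p + (if side k then m else 0))) :
    (cc I x (fun k => pim m (g⁻¹ (z k)))) ^ e ≤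
      ((Finset.univ : Finset (Fin m → Fin e → ZMod 2)).filter (fun f =>
        (∀ c, c ∉ winD I x → f c = 0) ∧
        ∀ q, wgE I x z side false f (g q) = wgE I x z side true f (g (antip m q)))).card := by
  classical
  obtain ⟨S, hS⟩ : ∃ S, S = I.powerset.filter (fun u =>
    (∀ c : Fin m, Even (u.filter (fun k => x k = c)).card) ∧
    (∀ c : Fin m, Even (u.filter (fun κ => pim m (g⁻¹ (z κ)) = c)).card)) := ⟨_, rfl⟩
  have hccS : cc I x (fun k => pim m (g⁻¹ (z k))) = S.card := by
    unfold cc
    apply congrArg
    rw [hS]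
    ext u
    simp only [Finset.mem_filter]
  rw [hccS]
  have hpow : S.card ^ e = (Fintype.piFinset (fun _ : Fin e => S)).card := by
    rw [Fintype.card_piFinset]
    simp
  rw [hpow]
  have hmem : ∀ U ∈ Fintype.piFinset (fun _ : Fin e => S), ∀ j, U j ⊆ I ∧
      (∀ c : Fin m, Even ((U j).filter (fun k => x k = c)).card) ∧
      (∀ c : Fin m, Even ((U j).filter (fun κ => pim m (g⁻¹ (z κ)) = c)).card) := by
    intro U hU j
    have := Fintype.mem_piFinset.1 hU j
    rw [hS, Finset.mem_filter, Finset.mem_powerset] at this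
    exact this
  have hphi : ∀ U ∈ Fintype.piFinset (fun _ : Fin e => S), ∀ j, ∀ κ ∈ I,
      winPhi x e U (x κ) j = if κ ∈ U j then 1 else 0 := by
    intro U hU j κ hκ
    obtain ⟨hUI, hUx, _⟩ := hmem U hU j
    unfold winPhi
    have := win_u_mem I x side h1 (U j) hUI hUx κ hκ
    simp only [this]
  refine Finset.card_le_card_of_injOn (winPhi x e) ?_ ?_
  · intro U hU
    rw [Finset.mem_coe] at hU
    rw [Finset.mem_coe, Finset.mem_filter]
    refine ⟨Finset.mem_univ _, ?_, ?_⟩
    · intro c hc
      funext j
      obtain ⟨hUI, hUx, _⟩ := hmem U hU j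
      unfold winPhi
      rw [if_neg]
      · rfl
      · rintro ⟨κ, hκ, hxz⟩
        apply hc
        rw [winD, Finset.mem_filter]
        refine ⟨Finset.mem_univ _, ?_⟩
        have hpos : 0 < ((U j).filter (fun k => x k = c)).card :=
          Finset.card_pos.2 ⟨κ, Finset.mem_filter.2 ⟨hκ, hxz⟩⟩
        obtain ⟨n, hn⟩ := hUx c
        have hle : ((U j).filter (fun k => x k = c)).card ≤ (I.filter (fun k => x k = c)).card :=
          Finset.card_le_card (Finset.filter_subset_filter _ hUI)
        omega
    · intro q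
      funext j
      obtain ⟨hUI, hUx, hUy⟩ := hmem U hU j
      have hsum : ∀ (r : Bool) (b : Fin (2 * m)), wgE I x z side r (winPhi x e U) b j =
          (((U j).filter (fun κ => side κ = r ∧ z κ = b)).card : ZMod 2) := by
        intro r b
        unfold wgE
        rw [Finset.sum_apply]
        rw [Finset.sum_congr rfl (fun κ hκ => hphi U hU j κ (Finset.mem_filter.1 hκ).1)]
        rw [← Finset.sum_filter, Finset.sum_const, nsmul_eq_mul, mul_one]
        congr 2
        ext κ
        simp only [Finset.mem_filter]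
        constructor
        · rintro ⟨⟨_, h⟩, h'⟩
          exact ⟨h', h⟩
        · rintro ⟨h', h⟩
          exact ⟨⟨hUI h', h⟩, h'⟩
      rw [hsum false, hsum true]
      rcases wg_half_or m p q with hq | hq
      · have hsplit : ((U j).filter (fun κ => pim m (g⁻¹ (z κ)) = pim m q)).card =
            ((U j).filter (fun κ => side κ = false ∧ z κ = g q)).card +
            ((U j).filter (fun κ => side κ = true ∧ z κ = g (antip m q))).card := by
          rw [← Finset.card_union_of_disjoint]
          · congr 1
            ext κ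
            simp only [Finset.mem_filter, Finset.mem_union]
            constructor
            · rintro ⟨hκ, h⟩
              rw [wg_pim_eq] at h
              have hh := hg κ (hUI hκ)
              cases hs : side κ
              · left
                rw [hs] at hh
                simp only [Bool.false_eq_true, if_false, add_zero] at hh
                refine ⟨hκ, rfl, ?_⟩
                rcases h with h | h
                · rw [Perm.inv_eq_iff_eq] at h
                  exact h
                · rw [h] at hh
                  exact absurd (wg_antip_half m p q hq) (fun h' => wg_half_not_both m p _ hh h')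
              · right
                rw [hs] at hh
                simp only [if_true] at hh
                refine ⟨hκ, rfl, ?_⟩
                rcases h with h | h
                · rw [h] at hh
                  exact absurd hh (fun h' => wg_half_not_both m p _ hq h')
                · rw [Perm.inv_eq_iff_eq] at h
                  exact h
            · rintro (⟨hκ, _, h⟩ | ⟨hκ, _, h⟩)
              · refine ⟨hκ, ?_⟩
                rw [h, wg_inv_apply]
              · refine ⟨hκ, ?_⟩
                rw [h, wg_inv_apply, wg_pim_eq]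
                exact Or.inr rfl
          · rw [Finset.disjoint_filter]
            intro κ _ h h'
            rw [h.1] at h'
            exact absurd h'.1 (by simp)
        have heven := hUy (pim m q)
        rw [hsplit] at heven
        have hzero : ((((U j).filter (fun κ => side κ = false ∧ z κ = g q)).card +
            ((U j).filter (fun κ => side κ = true ∧ z κ = g (antip m q))).card : ℕ) : ZMod 2) = 0 :=
          (ZMod.natCast_eq_zero_iff_even).2 heven
        rw [Nat.cast_add] at hzero
        exact CharTwo.add_eq_zero.1 hzero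
      · have z0 : (U j).filter (fun κ => side κ = false ∧ z κ = g q) = ∅ := by
          rw [Finset.filter_eq_empty_iff]
          rintro κ hκ ⟨hs, hz⟩
          have hh := hg κ (hUI hκ)
          rw [hs, hz, wg_inv_apply] at hh
          simp only [Bool.false_eq_true, if_false, add_zero] at hh
          exact wg_half_not_both m p q hh hq
        have z1 : (U j).filter (fun κ => side κ = true ∧ z κ = g (antip m q)) = ∅ := by
          rw [Finset.filter_eq_empty_iff]
          rintro κ hκ ⟨hs, hz⟩
          have hh := hg κ (hUI hκ)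
          rw [hs, hz, wg_inv_apply] at hh
          simp only [if_true] at hh
          exact wg_half_not_both m p _ (wg_antip_half' m p q hq) hh
        rw [z0, z1]
  · intro U hU U' hU' h
    rw [Finset.mem_coe] at hU hU'
    funext j
    ext κ
    have hU1 := (hmem U hU j).1
    have hU2 := (hmem U' hU' j).1
    by_cases hκ : κ ∈ I
    · have e1 := hphi U hU j κ hκ
      have e2 := hphi U' hU' j κ hκ
      rw [h, e2] at e1
      by_cases h3 : κ ∈ U j
      · by_cases h4 : κ ∈ U' j
        · exact iff_of_true h3 h4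
        · rw [if_pos h3, if_neg h4] at e1
          exact absurd e1 (by decide)
      · by_cases h4 : κ ∈ U' j
        · rw [if_neg h3, if_pos h4] at e1
          exact absurd e1 (by decide)
        · exact iff_of_false h3 h4
    · exact iff_of_false (fun h' => hκ (hU1 h')) (fun h' => hκ (hU2 h'))

/-- the coloring of one side determines the coloring of the classes -/
theorem wgE_injOn {α β K : Type} [Fintype α] [DecidableEq α] [DecidableEq β] [AddCommMonoid K]
    (I : Finset ι) (x : ι → α) (z : ι → β) (side : ι → Bool)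
    (h1 : Set.InjOn (fun k => (side k, x k)) (I : Set ι))
    (h2 : Set.InjOn z (I : Set ι)) (r : Bool) (f f' : α → K)
    (hf : ∀ c, c ∉ winD I x → f c = 0) (hf' : ∀ c, c ∉ winD I x → f' c = 0)
    (h : wgE I x z side r f = wgE I x z side r f') : f = f' := by
  have key : ∀ f : α → K, ∀ κ ∈ I, side κ = r → wgE I x z side r f (z κ) = f (x κ) := by
    intro f κ hκ hm
    unfold wgE
    rw [Finset.sum_eq_single κ]
    · intro κ' hκ' hne
      rw [Finset.mem_filter] at hκ'
      exact absurd (h2 (Finset.mem_coe.2 hκ'.1) (Finset.mem_coe.2 hκ) hκ'.2.2) hne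
    · intro hn
      exact absurd (Finset.mem_filter.2 ⟨hκ, hm, rfl⟩) hn
  funext d
  by_cases hd : d ∈ winD I x
  · obtain ⟨κ, hκ, hm, hx⟩ := win_exists I x side h1 d hd r
    rw [← hx, ← key f κ hκ hm, ← key f' κ hκ hm, h]
  · rw [hf d hd, hf' d hd]

/-- the support of the coloring of one side -/
def wgD {α β : Type} [Fintype α] [DecidableEq α] [DecidableEq β] (I : Finset ι) (x : ι → α)
    (z : ι → β) (side : ι → Bool) (r : Bool) : Finset β :=
  (I.filter (fun κ => side κ = r ∧ x κ ∈ winD I x)).image z

theorem wgD_card {α β : Type} [Fintype α] [DecidableEq α] [DecidableEq β] (I : Finset ι)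
    (x : ι → α) (z : ι → β) (side : ι → Bool)
    (h1 : Set.InjOn (fun k => (side k, x k)) (I : Set ι)) (r : Bool) :
    (wgD I x z side r).card ≤ full I x := by
  refine Finset.card_image_le.trans ?_
  rw [← winD_card]
  refine Finset.card_le_card_of_injOn x ?_ ?_
  · intro κ hκ
    rw [Finset.mem_coe, Finset.mem_filter] at hκ
    exact Finset.mem_coe.2 hκ.2.2
  · intro κ hκ κ' hκ' hxx
    rw [Finset.mem_coe, Finset.mem_filter] at hκ hκ'
    exact h1 (Finset.mem_coe.2 hκ.1) (Finset.mem_coe.2 hκ'.1)
      (Prod.ext (hκ.2.1.trans hκ'.2.1.symm) hxx)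

theorem wgE_supp {α β K : Type} [Fintype α] [DecidableEq α] [DecidableEq β] [AddCommMonoid K]
    (I : Finset ι) (x : ι → α) (z : ι → β) (side : ι → Bool)
    (r : Bool) (f : α → K) (hf : ∀ c, c ∉ winD I x → f c = 0) (b : β)
    (hb : b ∉ wgD I x z side r) : wgE I x z side r f b = 0 := by
  unfold wgE
  refine Finset.sum_eq_zero (fun κ hκ => ?_)
  rw [Finset.mem_filter] at hκ
  apply hf
  intro hd
  apply hb
  rw [wgD, Finset.mem_image]
  exact ⟨κ, Finset.mem_filter.2 ⟨hκ.1, hκ.2.1, hd⟩, hκ.2.2⟩

/-- coincidence probability of a coloring -/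
noncomputable def wgA {K : Type} [DecidableEq K] (m w : ℕ) (c : Fin (2 * m) → K) : ℝ :=
  av (fun p : (Fin w → Fin m → Bool) × (Fin w → Fin m → Bool) =>
    if (∀ q, c (Pw m w p.1 q) = c (Pw m w p.2 q)) then (1 : ℝ) else 0)

theorem wgA_nonneg {K : Type} [DecidableEq K] (m w : ℕ) (c : Fin (2 * m) → K) : 0 ≤ wgA m w c := by
  unfold wgA
  apply win_av_nonneg
  intro p
  split_ifs <;> norm_num

theorem wg_cone_half (m w p : ℕ) (I : Finset ι) (z : ι → Fin (2 * m)) (x : ι → Fin m)
    (side : ι → Bool)
    (hc : ∀ k ∈ I, coneS m w {z k} ⊆ half m (p + (if side k then m else 0))) (r : Bool) :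
    coneS m w (wgD I x z side r) ⊆ half m (p + (if r then m else 0)) := by
  intro y hy
  rw [mem_coneS_iff_exists] at hy
  obtain ⟨v, hv, hy⟩ := hy
  rw [wgD, Finset.mem_image] at hv
  obtain ⟨κ, hκ, rfl⟩ := hv
  rw [Finset.mem_filter] at hκ
  have := hc κ hκ.1 hy
  rw [hκ.2.1] at this
  exact this

theorem wg_block (m w e p : ℕ) (I : Finset ι) (z : ι → Fin (2 * m)) (x : ι → Fin m)
    (side : ι → Bool)
    (hx : Set.InjOn (fun k => (side k, x k)) (I : Set ι)) (hz : Set.InjOn z (I : Set ι))
    (hc : ∀ k ∈ I, coneS m w {z k} ⊆ half m (p + (if side k then m else 0))) (r : Bool) :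
    ∑ f ∈ (Finset.univ : Finset (Fin m → Fin e → ZMod 2)).filter
      (fun f => ∀ c, c ∉ winD I x → f c = 0), wgA m w (wgE I x z side r f) ≤
        (1 + ((2 : ℝ) ^ e - 1) * (3 / 4) ^ w) ^ (full I x) := by
  have hTL := tl_of_half m w _ _ (wg_cone_half m w p I z x side hc r)
  have hq := qc (K := Fin e → ZMod 2) m w (wgD I x z side r) hTL 1 zero_le_one le_rfl
  have hcard : (Fintype.card (Fin e → ZMod 2) : ℝ) = 2 ^ e := by
    rw [Fintype.card_fun, ZMod.card, Fintype.card_fin]
    push_cast
    rfl
  rw [hcard, mul_one] at hq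
  have hk : (1 : ℝ) ≤ 2 ^ e := one_le_pow₀ (by norm_num)
  have h0 : (0 : ℝ) ≤ ((2 : ℝ) ^ e - 1) * (3 / 4) ^ w :=
    mul_nonneg (by linarith) (by positivity)
  calc ∑ f ∈ (Finset.univ : Finset (Fin m → Fin e → ZMod 2)).filter
          (fun f => ∀ c, c ∉ winD I x → f c = 0), wgA m w (wgE I x z side r f)
      = ∑ c ∈ ((Finset.univ : Finset (Fin m → Fin e → ZMod 2)).filter
          (fun f => ∀ c, c ∉ winD I x → f c = 0)).image (wgE I x z side r), wgA m w c := by
        rw [Finset.sum_image]
        intro f hf f' hf' h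
        rw [Finset.mem_coe, Finset.mem_filter] at hf hf'
        exact wgE_injOn I x z side hx hz r f f' hf.2 hf'.2 h
    _ ≤ ∑ c ∈ (QS.FS (wgD I x z side r) : Finset (Fin (2 * m) → Fin e → ZMod 2)), wgA m w c := by
        apply Finset.sum_le_sum_of_subset_of_nonneg
        · intro c hc
          obtain ⟨f, hf, rfl⟩ := Finset.mem_image.1 hc
          rw [Finset.mem_filter] at hf
          rw [QS.mem_FS]
          exact fun b hb => wgE_supp I x z side r f hf.2 b hb
        · intro c _ _
          exact wgA_nonneg m w c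
    _ ≤ (1 + ((2 : ℝ) ^ e - 1) * (3 / 4) ^ w) ^ (wgD I x z side r).card := by
        refine le_trans (le_of_eq ?_) hq
        unfold QS.Phi
        refine Finset.sum_congr rfl (fun c _ => ?_)
        rw [QS.wt_eq, one_pow, one_mul]
        unfold wgA
        congr 1
        funext p
        by_cases h : ∀ q, c (Pw m w p.1 q) = c (Pw m w p.2 q)
        · rw [if_pos h, if_pos h]
        · rw [if_neg h, if_neg h]
    _ ≤ (1 + ((2 : ℝ) ^ e - 1) * (3 / 4) ^ w) ^ (full I x) :=
        pow_le_pow_right₀ (by linarith) (wgD_card I x z side hx r)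

end wg

theorem winG (m w e p : ℕ) (I : Finset ι) (z : ι → Fin (2 * m)) (x : ι → Fin m) (side : ι → Bool)
    (hx : Set.InjOn (fun k => (side k, x k)) (I : Set ι)) (hz : Set.InjOn z (I : Set ι))
    (hc : ∀ k ∈ I, coneS m w {z k} ⊆ half m (p + (if side k then m else 0))) :
    EE m w (fun ω => ((cc I x (fun k => pim m ((RR m w ω)⁻¹ (z k))) : ℕ) : ℝ) ^ e)
      ≤ (1 + ((2 : ℝ) ^ e - 1) * (3 / 4) ^ w) ^ (full I x) := by
  set FD := (Finset.univ : Finset (Fin m → Fin e → ZMod 2)).filter
      (fun f => ∀ c, c ∉ winD I x → f c = 0) with hFD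
  have hpt : ∀ ω : ℕ → Fin m → Bool,
      ((cc I x (fun k => pim m ((RR m w ω)⁻¹ (z k))) : ℕ) : ℝ) ^ e ≤
      ∑ f ∈ FD, (if ∀ q, wgE I x z side false f (RR m w ω q) =
          wgE I x z side true f (RR m w ω (antip m q)) then (1 : ℝ) else 0) := by
    intro ω
    have hle := wg_cc_le m e p I x z side hx (RR m w ω) (fun k hk => by
      apply hc k hk
      rw [mem_coneS]
      refine ⟨ω, ?_⟩
      rw [wg_apply_inv]
      exact Finset.mem_singleton_self _)
    rw [← Nat.cast_pow]
    refine le_trans (Nat.cast_le.2 hle) (le_of_eq ?_)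
    rw [← Finset.sum_filter, Finset.sum_const, nsmul_eq_mul, mul_one, hFD, Finset.filter_filter]
  have hdis : Disjoint (coneS m w (wgD I x z side false)) (coneS m w (wgD I x z side true)) := by
    rw [Finset.disjoint_left]
    intro y h0 h1
    have h0' := wg_cone_half m w p I z x side hc false h0
    have h1' := wg_cone_half m w p I z x side hc true h1
    simp only [Bool.false_eq_true, if_false, add_zero, if_true] at h0' h1'
    exact wg_half_not_both m p y h0' h1'
  have hterm : ∀ f ∈ FD, EE m w (fun ω => if ∀ q, wgE I x z side false f (RR m w ω q) =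
      wgE I x z side true f (RR m w ω (antip m q)) then (1 : ℝ) else 0) ≤
      (wgA m w (wgE I x z side false f) + wgA m w (wgE I x z side true f)) / 2 := by
    intro f hf
    rw [hFD, Finset.mem_filter] at hf
    have hd := decouple m w (wgD I x z side false) (wgD I x z side true) hdis
      (wgE I x z side false f) (wgE I x z side true f)
      (wgE_supp I x z side false f hf.2) (wgE_supp I x z side true f hf.2)
      (fun F G => if ∀ q, F q = G (antip m q) then (1 : ℝ) else 0)
    rw [hd]
    have h := win_amgm
      (fun (o : Fin w → Fin m → Bool) (q : Fin (2 * m)) => wgE I x z side false f (Pw m w o q))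
      (fun (o : Fin w → Fin m → Bool) (q : Fin (2 * m)) =>
        wgE I x z side true f (Pw m w o (antip m q)))
    have e1 : EE m w (fun ω0 => EE m w (fun ω1 =>
        if ∀ q, wgE I x z side false f (RR m w ω0 q) =
          wgE I x z side true f (RR m w ω1 (antip m q)) then (1 : ℝ) else 0)) =
        av (fun p : (Fin w → Fin m → Bool) × (Fin w → Fin m → Bool) =>
          if (fun q : Fin (2 * m) => wgE I x z side false f (Pw m w p.1 q)) =
            (fun q : Fin (2 * m) => wgE I x z side true f (Pw m w p.2 (antip m q)))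
          then (1 : ℝ) else 0) := by
      rw [win_av_prod]
      unfold EE
      congr 1
      funext o0
      simp only [funext_iff]
      rfl
    refine (le_of_eq e1).trans (h.trans (le_of_eq ?_))
    unfold wgA
    congr 2
    · congr 1
      funext p
      simp only [funext_iff]
    · congr 1
      funext p
      simp only [funext_iff]
      congr 1
      apply propext
      constructor
      · intro h' q
        have := h' ((antip m).symm q)
        rw [Equiv.apply_symm_apply] at this
        exact this
      · intro h' q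
        exact h' _
  calc EE m w (fun ω => ((cc I x (fun k => pim m ((RR m w ω)⁻¹ (z k))) : ℕ) : ℝ) ^ e)
      ≤ EE m w (fun ω => ∑ f ∈ FD, (if ∀ q, wgE I x z side false f (RR m w ω q) =
          wgE I x z side true f (RR m w ω (antip m q)) then (1 : ℝ) else 0)) := EE_mono hpt
    _ = ∑ f ∈ FD, EE m w (fun ω => (if ∀ q, wgE I x z side false f (RR m w ω q) =
          wgE I x z side true f (RR m w ω (antip m q)) then (1 : ℝ) else 0)) := EE_sum _ _
    _ ≤ ∑ f ∈ FD, (wgA m w (wgE I x z side false f) + wgA m w (wgE I x z side true f)) / 2 :=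
        Finset.sum_le_sum hterm
    _ = (∑ f ∈ FD, wgA m w (wgE I x z side false f) +
        ∑ f ∈ FD, wgA m w (wgE I x z side true f)) / 2 := by
        rw [← Finset.sum_div, Finset.sum_add_distrib]
    _ ≤ (1 + ((2 : ℝ) ^ e - 1) * (3 / 4) ^ w) ^ (full I x) := by
        have e1 := wg_block m w e p I z x side hx hz hc false
        have e2 := wg_block m w e p I z x side hx hz hc true
        linarith

end Vale.Agent.P162
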